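import Crest.Agent.R285.TG

/-!
# Row 285 (S0430): auxiliary lemmas for `Cut1` and `Adm`.
-/

set_option autoImplicit false

open scoped RealInnerProductSpace

noncomputable section

namespace Crest.Agent.R285

variable {ι : Type} [Fintype ι]

/-- Riesz representation as a real continuous linear map -/
def rieszL (ι : Type) [Fintype ι] : (E ι →L[ℝ] ℝ) →L[ℝ] E ι :=
  (InnerProductSpace.toDual ℝ (E ι)).symm.toContinuousLinearEquiv.toContinuousLinearMap

lemma gradient_eq_rieszL (f : E ι → ℝ) : gradient f = fun x => rieszL ι (fderiv ℝ f x) := rfl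

lemma inner_rieszL (l : E ι →L[ℝ] ℝ) (v : E ι) : ⟪rieszL ι l, v⟫ = l v :=
  InnerProductSpace.toDual_symm_apply

lemma contDiff_one_gradient {f : E ι → ℝ} (hf : ContDiff ℝ 2 f) : ContDiff ℝ 1 (gradient f) := by
  rw [gradient_eq_rieszL]
  exact (rieszL ι).contDiff.comp (hf.fderiv_right (m := 1) (by norm_num))

lemma inner_fderiv_gradient {f : E ι → ℝ} (hf : ContDiff ℝ 2 f) (x h k : E ι) :
    ⟪fderiv ℝ (gradient f) x h, k⟫ = fderiv ℝ (fderiv ℝ f) x h k := by
  have hd : DifferentiableAt ℝ (fderiv ℝ f) x :=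
    (hf.fderiv_right (m := 1) (by norm_num)).differentiable one_ne_zero x
  have := ((rieszL ι).hasFDerivAt.comp x hd.hasFDerivAt).fderiv
  rw [gradient_eq_rieszL]
  erw [this]
  exact inner_rieszL _ _

lemma norm_le_of_symm {A : E ι →L[ℝ] E ι} (hA : adj A = A) {c : ℝ} (hc : 0 ≤ c)
    (h : ∀ v, |⟪A v, v⟫| ≤ c * ‖v‖ ^ 2) : ‖A‖ ≤ c := by
  have key : ∀ x y, ⟪A x, y⟫ ≤ c * (‖x‖ ^ 2 + ‖y‖ ^ 2) / 2 := by
    intro x y
    have s : ⟪A y, x⟫ = ⟪A x, y⟫ := by
      rw [← inner_adj_right A y x, hA, real_inner_comm]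
    have h1 := (abs_le.1 (h (x + y))).2
    have h2 := (abs_le.1 (h (x - y))).1
    simp only [map_add, map_sub, inner_add_left, inner_add_right, inner_sub_left, inner_sub_right,
      s] at h1 h2
    have h3 := parallelogram_law_with_norm ℝ x y
    have h4 : c * ‖x + y‖ ^ 2 + c * ‖x - y‖ ^ 2 = 2 * (c * (‖x‖ ^ 2 + ‖y‖ ^ 2)) := by
      rw [← mul_add, h3]; ring
    linarith
  refine ContinuousLinearMap.opNorm_le_of_unit_norm hc fun x hx => ?_
  rcases (norm_nonneg (A x)).eq_or_lt with h0 | h0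
  · rw [← h0]; exact hc
  · have := key x (‖A x‖⁻¹ • A x)
    rw [inner_smul_right, real_inner_self_eq_norm_sq, norm_smul, norm_inv, norm_norm,
      inv_mul_cancel₀ h0.ne', hx, sq, inv_mul_cancel_left₀ h0.ne'] at this
    linarith

lemma Lip.norm_le_of_zero {L : ℝ} {g : E ι → E ι} (h : Lip L g) (h0 : g 0 = 0) (x : E ι) :
    ‖g x‖ ≤ L * ‖x‖ := by
  simpa [h0] using h x 0

lemma abs_le_of_lip_gradient {U : E ι → ℝ} (hU : Differentiable ℝ U) (h0 : U 0 = 0)
    (h0' : gradient U 0 = 0) {L : ℝ} (hL0 : 0 ≤ L) (hL : Lip L (gradient U)) (x : E ι) :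
    |U x| ≤ L * ‖x‖ ^ 2 := by
  have := (convex_closedBall (0 : E ι) ‖x‖).norm_image_sub_le_of_norm_fderiv_le (𝕜 := ℝ) (f := U)
    (C := L * ‖x‖) (x := 0) (y := x) (fun y _ => hU y) (fun y hy => by
      rw [← norm_gradient]
      exact (hL.norm_le_of_zero h0' y).trans
        (mul_le_mul_of_nonneg_left (mem_closedBall_zero_iff.1 hy) hL0))
    (Metric.mem_closedBall_self (norm_nonneg _)) (mem_closedBall_zero_iff.2 le_rfl)
  rw [h0, sub_zero, sub_zero, Real.norm_eq_abs] at this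
  linarith

lemma gradient_ext {f : E ι → ℝ} {x g : E ι} (h : ∀ v, fderiv ℝ f x v = ⟪g, v⟫) :
    gradient f x = g :=
  ext_inner_right ℝ fun v => by rw [inner_gradient, h]

end Crest.Agent.R285
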