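import Crest.Agent.R285.IBP
import Crest.Agent.R285.CutAux

/-!
# Row 285 (S0430): Adm
Admissible potentials.
`iteratedFDeriv_two_apply` turns the hypothesis into `‖h‖² ≤ ⟪H h, h⟫ ≤ 2 ‖h‖²` for the symmetric operator
`H = fderiv (gradient V) x` (`adj_fderiv_gradient`); `H - (3/2) id` has norm `≤ 1/2` (polarisation:
`4 ⟪A x, y⟫ = ⟪A (x+y), x+y⟫ - ⟪A (x-y), x-y⟫`).
`tv_of_eqOn`: both measures are `Z_i⁻¹ exp (-Φ_i)`; on `A = closedBall 0 R` they are proportional, and
`μ_i Aᶜ ≤ ε` by Chebyshev.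
-/

set_option autoImplicit false

open MeasureTheory ProbabilityTheory Filter Topology
open scoped RealInnerProductSpace

noncomputable section

namespace Crest.Agent.R285

open Crest.OracleSampling

variable {d : ℕ} {V : E (Fin d) → ℝ}

theorem adm_contDiff (h : Admissible d V) : ContDiff ℝ 2 fun x => V x - 3 / 4 * ‖x‖ ^ 2 := by
  exact h.1.sub (contDiff_const.mul (contDiff_norm_sq ℝ))

theorem adm_gradient (h : Admissible d V) (x : E (Fin d)) :
    gradient (fun x => V x - 3 / 4 * ‖x‖ ^ 2) x = gradient V x - (3 / 2 : ℝ) • x := by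
  refine gradient_ext fun v => ?_
  have h1 := (h.1.differentiable (by norm_num) x).hasFDerivAt.sub
    ((hasStrictFDerivAt_norm_sq x).hasFDerivAt.const_mul (3 / 4 : ℝ))
  erw [h1.fderiv]
  simp only [inner_sub_left, inner_gradient, inner_smul_left, sub_apply, smul_apply, innerSL_apply_apply,
    conj_trivial, smul_eq_mul, nsmul_eq_mul]
  push_cast
  ring

theorem adm_lip (h : Admissible d V) :
    Lip (1 / 2) (gradient fun x => V x - 3 / 4 * ‖x‖ ^ 2) := by
  rw [show (gradient fun x => V x - 3 / 4 * ‖x‖ ^ 2) = fun x => gradient V x - (3 / 2 : ℝ) • x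
    from funext (adm_gradient h)]
  have hg := contDiff_one_gradient h.1
  have hd : ∀ x, HasFDerivAt (fun x => gradient V x - (3 / 2 : ℝ) • x)
      (fderiv ℝ (gradient V) x - (3 / 2 : ℝ) • ContinuousLinearMap.id ℝ _) x := fun x =>
    (hg.differentiable one_ne_zero x).hasFDerivAt.sub ((hasFDerivAt_id x).const_smul (3 / 2 : ℝ))
  refine Lip.of_fderiv (fun x => (hd x).differentiableAt) fun x => ?_
  rw [(hd x).fderiv]
  refine norm_le_of_symm ?_ (by norm_num) fun v => ?_
  · rw [adj_sub, adj_smul, adj_id, adj_fderiv_gradient (h.1.differentiable (by norm_num)) hg]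
  · obtain ⟨h1, h2⟩ := h.2.2.2 x v
    rw [iteratedFDeriv_two_apply] at h1 h2
    simp only [Matrix.cons_val_zero, Matrix.cons_val_one] at h1 h2
    simp only [sub_apply, smul_apply, ContinuousLinearMap.id_apply, inner_sub_left,
      inner_fderiv_gradient h.1, inner_smul_left, real_inner_self_eq_norm_sq, conj_trivial]
    rw [abs_le]; constructor <;> linarith

theorem adm_wpot (h : Admissible d V) : WPot V := by
  have hg : gradient V = fun x =>
      gradient (fun x => V x - 3 / 4 * ‖x‖ ^ 2) x + (3 / 2 : ℝ) • x :=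
    funext fun x => by rw [adm_gradient h]; abel
  refine ⟨h.1.differentiable (by norm_num), (contDiff_one_gradient h.1).continuous, ?_,
    1 / 4, by norm_num, 0, fun x => ?_⟩
  · rw [hg]; exact ((adm_lip h).add (Lip.id'.smul _)).polyB
  · have := abs_le_of_lip_gradient ((adm_contDiff h).differentiable (by norm_num))
      (by simp [h.2.1]) (by rw [adm_gradient h, h.2.2.1]; simp) (by norm_num) (adm_lip h) x
    linarith [(abs_le.1 this).1]

theorem adm_target (h : Admissible d V) : target d V = gibbs V := by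
  have hw := adm_wpot h
  have hZ := hw.partition_pos
  have h1 : (volume : Measure (E (Fin d))).withDensity
      (fun x => ENNReal.ofReal (Real.exp (-V x))) Set.univ
      = ENNReal.ofReal (∫ x, Real.exp (-V x)) := by
    rw [withDensity_apply _ MeasurableSet.univ, Measure.restrict_univ,
      ofReal_integral_eq_lintegral_ofReal hw.integrable_exp
        (ae_of_all _ fun x => (Real.exp_pos _).le)]
  simp only [target, gibbs, Measure.tilted]
  rw [h1, ← withDensity_smul' _ _ (ENNReal.inv_ne_top.2 (ENNReal.ofReal_pos.2 hZ).ne')]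
  congr 1
  funext x
  rw [Pi.smul_apply, smul_eq_mul, ENNReal.ofReal_div_of_pos hZ, div_eq_mul_inv, mul_comm]

theorem adm_moment (h : Admissible d V) : L2le (gibbs V) (fun x => x) √(d : ℝ) := by
  have := (adm_wpot h).second_moment 0 (a := 1) (B := 0) one_pos le_rfl fun x => by
    have h1 := (adm_lip h).norm_le_of_zero (by rw [adm_gradient h, h.2.2.1]; simp) x
    have h2 := abs_real_inner_le_norm x (gradient (fun x => V x - 3 / 4 * ‖x‖ ^ 2) x)
    have h3 := mul_le_mul_of_nonneg_left h1 (norm_nonneg x)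
    rw [adm_gradient h, inner_sub_right, inner_smul_right, real_inner_self_eq_norm_sq] at h2
    rw [adm_gradient h] at h3
    rw [sub_zero]
    nlinarith [(abs_le.1 h2).1]
  simpa using this

lemma gibbs_real {ι : Type} [Fintype ι] {Φ : E ι → ℝ} (h : WPot Φ) {T : Set (E ι)}
    (hT : MeasurableSet T) :
    (gibbs Φ).real T = (∫ x in T, Real.exp (-Φ x)) / ∫ x, Real.exp (-Φ x) := by
  rw [Measure.real, gibbs, tilted_apply_eq_ofReal_integral' _ hT, integral_div,
    ENNReal.toReal_ofReal (div_nonneg (integral_nonneg fun x => (Real.exp_pos _).le)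
      h.partition_pos.le)]

lemma gibbs_tail {ι : Type} [Fintype ι] {Φ : E ι → ℝ} (h : WPot Φ) {R r : ℝ} (hR : 0 < R)
    (hm : L2le (gibbs Φ) (fun x => x) r) :
    (gibbs Φ).real (Metric.closedBall (0 : E ι) R)ᶜ ≤ r ^ 2 / R ^ 2 := by
  have := h.prob
  have h1 := mul_meas_ge_le_integral_of_nonneg (ae_of_all _ fun x => sq_nonneg _)
    hm.integrable_sq (R ^ 2)
  rw [le_div_iff₀' (by positivity)]
  refine le_trans (mul_le_mul_of_nonneg_left (measureReal_mono fun x hx => ?_) (by positivity))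
    (h1.trans hm.integral_sq_le)
  rw [Set.mem_compl_iff, mem_closedBall_zero_iff, not_le] at hx
  exact pow_le_pow_left₀ hR.le hx.le 2

/-- two Gibbs measures whose potentials agree on a ball carrying most of the mass -/
theorem tv_of_eqOn {ι : Type} [Fintype ι] {Φ₁ Φ₂ : E ι → ℝ} (h₁ : WPot Φ₁) (h₂ : WPot Φ₂) {R r : ℝ}
    (hR : 0 < R) (he : ∀ x, ‖x‖ ≤ R → Φ₁ x = Φ₂ x) (hm₁ : L2le (gibbs Φ₁) (fun x => x) r)
    (hm₂ : L2le (gibbs Φ₂) (fun x => x) r) {S : Set (E ι)} (hS : MeasurableSet S) :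
    |(gibbs Φ₁ S).toReal - (gibbs Φ₂ S).toReal| ≤ 2 * (r ^ 2 / R ^ 2) := by
  have main : ∀ {Φ₁ Φ₂ : E ι → ℝ}, WPot Φ₁ → WPot Φ₂ → (∀ x, ‖x‖ ≤ R → Φ₁ x = Φ₂ x) →
      L2le (gibbs Φ₁) (fun x => x) r → L2le (gibbs Φ₂) (fun x => x) r →
      (∫ x, Real.exp (-Φ₁ x)) ≤ (∫ x, Real.exp (-Φ₂ x)) →
      |(gibbs Φ₁).real S - (gibbs Φ₂).real S| ≤ 2 * (r ^ 2 / R ^ 2) := by
    intro Φ₁ Φ₂ h₁ h₂ he hm₁ hm₂ hZ
    have := h₁.prob
    have := h₂.prob
    have hA : MeasurableSet (Metric.closedBall (0 : E ι) R) := Metric.isClosed_closedBall.measurableSet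
    set A := Metric.closedBall (0 : E ι) R with hAdef
    set ρ := (∫ x, Real.exp (-Φ₁ x)) / (∫ x, Real.exp (-Φ₂ x)) with hρ
    have hρ1 : ρ ≤ 1 := (div_le_one h₂.partition_pos).2 hZ
    have prop : ∀ T, MeasurableSet T → T ⊆ A → (gibbs Φ₂).real T = ρ * (gibbs Φ₁).real T := by
      intro T hT hTA
      rw [gibbs_real h₁ hT, gibbs_real h₂ hT, setIntegral_congr_fun hT
        (g := fun x => Real.exp (-Φ₁ x)) fun x hx => by
          simp only [he x (mem_closedBall_zero_iff.1 (hTA hx))], hρ]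
      have := h₁.partition_pos
      have := h₂.partition_pos
      field_simp
    have c1 := gibbs_tail h₁ hR hm₁
    have c2 := gibbs_tail h₂ hR hm₂
    rw [← hAdef] at c1 c2
    have p1 := prop (S ∩ A) (hS.inter hA) Set.inter_subset_right
    have p2 := prop A hA subset_rfl
    have s1 := measureReal_inter_add_sdiff (μ := gibbs Φ₁) (s := S) hA
    have s2 := measureReal_inter_add_sdiff (μ := gibbs Φ₂) (s := S) hA
    have t1 : (gibbs Φ₁).real (S \ A) ≤ (gibbs Φ₁).real Aᶜ := measureReal_mono fun x hx => hx.2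
    have t2 : (gibbs Φ₂).real (S \ A) ≤ (gibbs Φ₂).real Aᶜ := measureReal_mono fun x hx => hx.2
    have n1 : 0 ≤ (gibbs Φ₁).real (S \ A) := measureReal_nonneg
    have n2 : 0 ≤ (gibbs Φ₂).real (S \ A) := measureReal_nonneg
    have n3 : 0 ≤ (gibbs Φ₁).real (S ∩ A) := measureReal_nonneg
    have n4 : (gibbs Φ₁).real (S ∩ A) ≤ (gibbs Φ₁).real A :=
      measureReal_mono Set.inter_subset_right
    have n5 : (gibbs Φ₁).real A ≤ 1 := measureReal_le_one
    have n6 := probReal_compl_eq_one_sub (μ := gibbs Φ₂) hA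
    have n7 := mul_le_mul_of_nonneg_left n4 (sub_nonneg.2 hρ1)
    have n8 := mul_nonneg (sub_nonneg.2 hρ1) n3
    rw [abs_le]; constructor <;> nlinarith
  rcases le_total (∫ x, Real.exp (-Φ₁ x)) (∫ x, Real.exp (-Φ₂ x)) with h | h
  · exact main h₁ h₂ he hm₁ hm₂ h
  · rw [abs_sub_comm]
    exact main h₂ h₁ (fun x hx => (he x hx).symm) hm₂ hm₁ h


end Crest.Agent.R285
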