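import Crest.Agent.R285.TG

/-!
# Row 285 (S0430): HS
The pointwise jet calculus.  All proofs are inductions on `n` generalising the functions.
`HS_apply_fam`: Leibniz, `pd a (M i · s) = (pd a (M i)) s + M i (pd a s)`; the family
`(r • pd a (M i))_(a,i)` satisfies the hypothesis at order `n`; the constants satisfy `C (n+1) ≤ 1 + 4 C n`.
`HS_comp_le`: reduce to coordinates `s · o` with `HS_eq_sum_coord`; for a scalar `φ` the vector
`(pd a (φ ∘ y))_a` is `adj (fderiv y) (∇φ ∘ y)`; use `HS_apply_le` and the induction hypothesis;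
`C (n+1) ≤ 5^n C n`.
-/

set_option autoImplicit false

open MeasureTheory ProbabilityTheory Filter Topology
open scoped RealInnerProductSpace

noncomputable section

namespace Crest.Agent.R285

variable {ι κ ζ α β : Type} [Fintype ι] [Fintype κ] [Fintype ζ] [Fintype α] [Fintype β]
variable {Y Y' : Type} [NormedAddCommGroup Y] [NormedSpace ℝ Y] [NormedAddCommGroup Y']
  [NormedSpace ℝ Y']

lemma HS_zero (r : ℝ) (f : E ι → Y) (x : E ι) : HS r 0 f x = ‖f x‖ ^ 2 := rfl
lemma HS_succ (r : ℝ) (n : ℕ) (f : E ι → Y) (x : E ι) :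
    HS r (n + 1) f x = ‖f x‖ ^ 2 + r ^ 2 * ∑ a, HS r n (pd a f) x := rfl
lemma HS_nonneg (r : ℝ) (n : ℕ) (f : E ι → Y) (x : E ι) : 0 ≤ HS r n f x := by
  induction n generalizing f with
  | zero => rw [HS_zero]; positivity
  | succ n ih =>
    rw [HS_succ]
    have : 0 ≤ ∑ a, HS r n (pd a f) x := Finset.sum_nonneg fun a _ => ih _
    positivity
lemma norm_sq_le_HS (r : ℝ) (n : ℕ) (f : E ι → Y) (x : E ι) : ‖f x‖ ^ 2 ≤ HS r n f x := by
  cases n with
  | zero => rw [HS_zero]
  | succ n =>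
    rw [HS_succ]
    have : 0 ≤ ∑ a, HS r n (pd a f) x := Finset.sum_nonneg fun a _ => HS_nonneg _ _ _ _
    have : 0 ≤ r ^ 2 * ∑ a, HS r n (pd a f) x := by positivity
    linarith
lemma HS_pd_le (r : ℝ) (n : ℕ) (f : E ι → Y) (x : E ι) :
    r ^ 2 * ∑ a, HS r n (pd a f) x ≤ HS r (n + 1) f x := by
  rw [HS_succ]
  have : 0 ≤ ‖f x‖ ^ 2 := by positivity
  linarith
private lemma HS_le_succ (r : ℝ) (n : ℕ) (f : E ι → Y) (x : E ι) :
    HS r n f x ≤ HS r (n + 1) f x := by
  induction n generalizing f with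
  | zero => exact norm_sq_le_HS r 1 f x
  | succ n ih =>
    rw [HS_succ, HS_succ r (n + 1)]
    have : ∑ a, HS r n (pd a f) x ≤ ∑ a, HS r (n + 1) (pd a f) x :=
      Finset.sum_le_sum fun a _ => ih _
    have := mul_le_mul_of_nonneg_left this (sq_nonneg r)
    linarith
lemma HS_mono (r : ℝ) {n n' : ℕ} (h : n ≤ n') (f : E ι → Y) (x : E ι) :
    HS r n f x ≤ HS r n' f x := by
  induction h with
  | refl => exact le_rfl
  | step _ ih => exact ih.trans (HS_le_succ _ _ _ _)
lemma HS_mono_scale {r r' : ℝ} (hr : 0 ≤ r) (h : r ≤ r') (n : ℕ) (f : E ι → Y) (x : E ι) :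
    HS r n f x ≤ HS r' n f x := by
  induction n generalizing f with
  | zero => exact le_rfl
  | succ n ih =>
    rw [HS_succ, HS_succ]
    have h1 : ∑ a, HS r n (pd a f) x ≤ ∑ a, HS r' n (pd a f) x :=
      Finset.sum_le_sum fun a _ => ih _
    have h2 : 0 ≤ ∑ a, HS r n (pd a f) x := Finset.sum_nonneg fun a _ => HS_nonneg _ _ _ _
    have h3 : r ^ 2 ≤ r' ^ 2 := pow_le_pow_left₀ hr h 2
    have := mul_le_mul h3 h1 h2 (sq_nonneg r')
    linarith
lemma HS_const (r : ℝ) (n : ℕ) (c : Y) (x : E ι) : HS r n (fun _ => c) x = ‖c‖ ^ 2 := by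
  induction n generalizing c with
  | zero => rfl
  | succ n ih =>
    rw [HS_succ]
    simp only [pd_const, ih, norm_zero]
    simp
lemma HS_smul (r : ℝ) (n : ℕ) (c : ℝ) {f : E ι → Y} (hf : TG f) (x : E ι) :
    HS r n (fun z => c • f z) x = c ^ 2 * HS r n f x := by
  induction n generalizing f with
  | zero => rw [HS_zero, HS_zero, norm_smul, mul_pow, Real.norm_eq_abs, sq_abs]
  | succ n ih =>
    rw [HS_succ, HS_succ, norm_smul, mul_pow, Real.norm_eq_abs, sq_abs]
    have : ∀ a, HS r n (pd a fun z => c • f z) x = c ^ 2 * HS r n (pd a f) x := fun a => by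
      rw [pd_const_smul a c hf.differentiable]
      exact ih (hf.pd' a)
    simp only [this, ← Finset.mul_sum]
    ring
lemma HS_neg (r : ℝ) (n : ℕ) (f : E ι → Y) (x : E ι) : HS r n (fun z => -f z) x = HS r n f x := by
  induction n generalizing f with
  | zero => rw [HS_zero, HS_zero, norm_neg]
  | succ n ih =>
    rw [HS_succ, HS_succ, norm_neg]
    simp only [pd_neg, ih]
lemma HS_add_le (r : ℝ) (n : ℕ) {f g : E ι → Y} (hf : TG f) (hg : TG g) (x : E ι) :
    HS r n (fun z => f z + g z) x ≤ 2 * HS r n f x + 2 * HS r n g x := by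
  have h0 : ∀ u v : Y, ‖u + v‖ ^ 2 ≤ 2 * ‖u‖ ^ 2 + 2 * ‖v‖ ^ 2 := fun u v => by
    have h1 : ‖u + v‖ ^ 2 ≤ (‖u‖ + ‖v‖) ^ 2 :=
      pow_le_pow_left₀ (norm_nonneg _) (norm_add_le u v) 2
    nlinarith [sq_nonneg (‖u‖ - ‖v‖)]
  induction n generalizing f g with
  | zero => exact h0 _ _
  | succ n ih =>
    rw [HS_succ, HS_succ, HS_succ]
    have h1 : ∑ a, HS r n (pd a fun z => f z + g z) x ≤
        2 * ∑ a, HS r n (pd a f) x + 2 * ∑ a, HS r n (pd a g) x := by
      rw [Finset.mul_sum, Finset.mul_sum, ← Finset.sum_add_distrib]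
      refine Finset.sum_le_sum fun a _ => ?_
      rw [pd_add a hf.differentiable hg.differentiable]
      exact ih (hf.pd' a) (hg.pd' a)
    have h2 := mul_le_mul_of_nonneg_left h1 (sq_nonneg r)
    have h3 := h0 (f x) (g x)
    nlinarith
lemma HS_sum_le (r : ℝ) (n : ℕ) {I : Type} (s : Finset I) {f : I → E ι → Y}
    (hf : ∀ i ∈ s, TG (f i)) (x : E ι) :
    HS r n (fun z => ∑ i ∈ s, f i z) x ≤ s.card * ∑ i ∈ s, HS r n (f i) x := by
  have h0 : ∀ u : I → Y, ‖∑ i ∈ s, u i‖ ^ 2 ≤ s.card * ∑ i ∈ s, ‖u i‖ ^ 2 := fun u =>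
    (pow_le_pow_left₀ (norm_nonneg _) (norm_sum_le s u) 2).trans sq_sum_le_card_mul_sum_sq
  induction n generalizing f with
  | zero => exact h0 _
  | succ n ih =>
    rw [HS_succ]
    have h1 : ∑ a, HS r n (pd a fun z => ∑ i ∈ s, f i z) x ≤
        s.card * ∑ i ∈ s, ∑ a, HS r n (pd a (f i)) x := by
      rw [Finset.sum_comm, Finset.mul_sum]
      refine Finset.sum_le_sum fun a _ => ?_
      rw [pd_sum a s fun i hi => (hf i hi).differentiable]
      exact ih fun i hi => (hf i hi).pd' a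
    have h2 := mul_le_mul_of_nonneg_left h1 (sq_nonneg r)
    have h3 := h0 fun i => f i x
    simp only [HS_succ, Finset.sum_add_distrib, ← Finset.mul_sum]
    nlinarith
lemma HS_clm_le (r : ℝ) (n : ℕ) (B : Y →L[ℝ] Y') {f : E ι → Y} (hf : TG f) (x : E ι) :
    HS r n (fun z => B (f z)) x ≤ ‖B‖ ^ 2 * HS r n f x := by
  have h0 : ∀ u : Y, ‖B u‖ ^ 2 ≤ ‖B‖ ^ 2 * ‖u‖ ^ 2 := fun u => by
    rw [← mul_pow]
    exact pow_le_pow_left₀ (norm_nonneg _) (B.le_opNorm u) 2
  induction n generalizing f with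
  | zero => exact h0 _
  | succ n ih =>
    rw [HS_succ, HS_succ]
    have h1 : ∑ a, HS r n (pd a fun z => B (f z)) x ≤ ‖B‖ ^ 2 * ∑ a, HS r n (pd a f) x := by
      rw [Finset.mul_sum]
      refine Finset.sum_le_sum fun a _ => ?_
      rw [pd_clm a B hf.differentiable]
      exact ih (hf.pd' a)
    have h2 := mul_le_mul_of_nonneg_left h1 (sq_nonneg r)
    have h3 := h0 (f x)
    nlinarith
lemma HS_eq_sum_coord (r : ℝ) (n : ℕ) {f : E ι → E κ} (hf : TG f) (x : E ι) :
    HS r n f x = ∑ o, HS r n (fun z => f z o) x := by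
  have h0 : ∀ u : E κ, ‖u‖ ^ 2 = ∑ o, ‖u o‖ ^ 2 := fun u => by
    rw [norm_sq_eq_sum]
    simp only [Real.norm_eq_abs, sq_abs]
  induction n generalizing f with
  | zero => exact h0 _
  | succ n ih =>
    have h1 : ∀ o, HS r (n + 1) (fun z => f z o) x =
        ‖f x o‖ ^ 2 + r ^ 2 * ∑ a, HS r n (fun z => pd a f z o) x := fun o => by
      rw [HS_succ]
      simp only [pd_coord _ hf.differentiable]
    have h2 : ∀ a, HS r n (pd a f) x = ∑ o, HS r n (fun z => pd a f z o) x := fun a =>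
      ih (hf.pd' a)
    rw [HS_succ, h0]
    simp only [h1, h2, Finset.sum_add_distrib, ← Finset.mul_sum]
    rw [Finset.sum_comm]
lemma HS_pair (r : ℝ) (n : ℕ) {f : E ι → E α} {g : E ι → E β} (hf : TG f) (hg : TG g) (x : E ι) :
    HS r n (fun z => pair (f z) (g z)) x = HS r n f x + HS r n g x := by
  rw [HS_eq_sum_coord r n (hf.pair' hg), HS_eq_sum_coord r n hf, HS_eq_sum_coord r n hg,
    Fintype.sum_sum_type]
  simp only [pair_inl, pair_inr]
private lemma TG.apply_const {X : Type} [NormedAddCommGroup X] [NormedSpace ℝ X] {M : X → (Y →L[ℝ] Y')}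
    (hM : TG M) (v : Y) : TG fun z => M z v :=
  hM.clm_apply (Function.HasTemperateGrowth.const v)
lemma sum_HS_adj (r : ℝ) (n : ℕ) {M : E ι → (E α →L[ℝ] E β)} (hM : TG M) (x : E ι) :
    ∑ a, HS r n (fun z => M z (bas a)) x = ∑ o, HS r n (fun z => adj (M z) (bas o)) x := by
  have h1 : ∀ a, HS r n (fun z => M z (bas a)) x = ∑ o, HS r n (fun z => M z (bas a) o) x :=
    fun a => HS_eq_sum_coord r n (hM.apply_const _) x
  have h2 : ∀ o, HS r n (fun z => adj (M z) (bas o)) x =
      ∑ a, HS r n (fun z => M z (bas a) o) x := fun o => by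
    rw [HS_eq_sum_coord r n (hM.adj'.apply_const _) x]
    simp only [adj_coord]
  simp only [h1, h2]
  rw [Finset.sum_comm]
private lemma pd_comp_smul (a : ι) (c : ℝ) {f : E ι → Y} (hf : Differentiable ℝ f) :
    pd a (fun z => f (c • z)) = fun z => c • pd a f (c • z) := by
  have h := pd_comp_clm a hf (c • ContinuousLinearMap.id ℝ (E ι)) 0
  simp only [smul_apply, ContinuousLinearMap.id_apply, zero_add,
    map_smul] at h
  exact h
private lemma TG.comp_smul {X : Type} [NormedAddCommGroup X] [NormedSpace ℝ X] {f : X → Y} (hf : TG f)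
    (c : ℝ) : TG fun z => f (c • z) := by
  have h := hf.comp' (TG.affine (c • ContinuousLinearMap.id ℝ X) 0)
  simpa only [smul_apply, ContinuousLinearMap.id_apply, zero_add] using h
/-- change of scale: `HS` of `f (c • ·)` -/
lemma HS_comp_smul (r c : ℝ) (n : ℕ) {f : E ι → Y} (hf : TG f) (x : E ι) :
    HS r n (fun z => f (c • z)) x = HS (r * c) n f (c • x) := by
  induction n generalizing f with
  | zero => rfl
  | succ n ih =>
    rw [HS_succ, HS_succ]
    have h1 : ∀ a, HS r n (pd a fun z => f (c • z)) x =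
        c ^ 2 * HS (r * c) n (pd a f) (c • x) := fun a => by
      rw [pd_comp_smul a c hf.differentiable, HS_smul r n c ((hf.pd' a).comp_smul c),
        ih (hf.pd' a)]
    simp only [h1, ← Finset.mul_sum]
    ring
private lemma pd_apply_const (a : ι) {M : E ι → (Y →L[ℝ] Y')} (hM : Differentiable ℝ M) (v : Y) :
    pd a (fun z => M z v) = fun z => pd a M z v := by
  rw [pd_clm_apply a hM (differentiable_const v), pd_const]
  simp only [map_zero, add_zero]
theorem HS_apply_fam {I : Type} [Fintype I] (r m : ℝ) (n : ℕ) {M : I → E ι → (E α →L[ℝ] E β)}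
    (hM : ∀ i, TG (M i)) (x : E ι)
    (h : ∀ v, ∑ i, HS r n (fun z => M i z v) x ≤ m ^ 2 * ‖v‖ ^ 2) {s : E ι → E α} (hs : TG s) :
    ∑ i, HS r n (fun z => M i z (s z)) x ≤ 5 ^ n * m ^ 2 * HS r n s x := by
  induction n generalizing I s with
  | zero =>
    have := h (s x)
    simp only [HS_zero] at this ⊢
    simpa using this
  | succ n ih =>
    -- the hypothesis at order `n`
    have hn : ∀ v, ∑ i, HS r n (fun z => M i z v) x ≤ m ^ 2 * ‖v‖ ^ 2 := fun v =>
      (Finset.sum_le_sum fun i _ => HS_le_succ _ _ _ _).trans (h v)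
    -- the zeroth order term
    have h0 : ∑ i, ‖M i x (s x)‖ ^ 2 ≤ m ^ 2 * ‖s x‖ ^ 2 :=
      (Finset.sum_le_sum fun i _ => norm_sq_le_HS r n (fun z => M i z (s x)) x).trans (hn (s x))
    -- the derived family
    have hM' : ∀ p : I × ι, TG fun z => r • pd p.2 (M p.1) z := fun p =>
      ((hM p.1).pd' p.2).const_smul r
    have hd : ∀ {t : E ι → E α}, TG t →
        ∑ p : I × ι, HS r n (fun z => (r • pd p.2 (M p.1) z) (t z)) x =
          r ^ 2 * ∑ i, ∑ a, HS r n (fun z => pd a (M i) z (t z)) x := fun {t} ht => by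
      rw [Fintype.sum_prod_type, Finset.mul_sum]
      refine Finset.sum_congr rfl fun i _ => ?_
      rw [Finset.mul_sum]
      refine Finset.sum_congr rfl fun a _ => ?_
      simp only [smul_apply]
      exact HS_smul r n r (((hM i).pd' a).clm_apply ht) x
    have h1 : ∀ v, ∑ p : I × ι, HS r n (fun z => (r • pd p.2 (M p.1) z) v) x ≤
        m ^ 2 * ‖v‖ ^ 2 := fun v => by
      rw [hd (t := fun _ => v) (Function.HasTemperateGrowth.const v), Finset.mul_sum]
      refine le_trans (Finset.sum_le_sum fun i _ => ?_) (h v)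
      have := HS_pd_le r n (fun z => M i z v) x
      simpa only [pd_apply_const _ (hM i).differentiable] using this
    have h2 := ih (I := I × ι) (M := fun p z => r • pd p.2 (M p.1) z) hM' h1 hs
    rw [hd hs] at h2
    have h3 : ∑ i, ∑ a, HS r n (fun z => M i z (pd a s z)) x ≤
        5 ^ n * m ^ 2 * ∑ a, HS r n (pd a s) x := by
      rw [Finset.sum_comm, Finset.mul_sum]
      exact Finset.sum_le_sum fun a _ => ih hM hn (hs.pd' a)
    have h4 : ∑ i, ∑ a, HS r n (pd a fun z => M i z (s z)) x ≤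
        2 * ∑ i, ∑ a, HS r n (fun z => pd a (M i) z (s z)) x +
          2 * ∑ i, ∑ a, HS r n (fun z => M i z (pd a s z)) x := by
      simp only [Finset.mul_sum, ← Finset.sum_add_distrib]
      refine Finset.sum_le_sum fun i _ => Finset.sum_le_sum fun a _ => ?_
      rw [pd_clm_apply a (hM i).differentiable hs.differentiable]
      exact HS_add_le r n (((hM i).pd' a).clm_apply hs) ((hM i).clm_apply (hs.pd' a)) x
    have h5 : ∑ i, HS r (n + 1) (fun z => M i z (s z)) x =
        ∑ i, ‖M i x (s x)‖ ^ 2 + r ^ 2 * ∑ i, ∑ a, HS r n (pd a fun z => M i z (s z)) x := by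
      simp only [HS_succ, Finset.sum_add_distrib, ← Finset.mul_sum]
    have h6 := HS_pd_le r n s x
    have h7 := HS_le_succ r n s x
    have h8 := norm_sq_le_HS r (n + 1) s x
    have h9 : (1 : ℝ) ≤ 5 ^ n := one_le_pow₀ (by norm_num)
    have hm := sq_nonneg m
    have hr := sq_nonneg r
    have hH := HS_nonneg r (n + 1) s x
    set H := HS r (n + 1) s x
    set K : ℝ := 5 ^ n * m ^ 2 with hK
    have hK0 : 0 ≤ K := by positivity
    have e1 : m ^ 2 * ‖s x‖ ^ 2 ≤ K * H :=
      mul_le_mul (by nlinarith) h8 (sq_nonneg _) hK0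
    have e2 : K * HS r n s x ≤ K * H := mul_le_mul_of_nonneg_left h7 hK0
    have e3 : K * (r ^ 2 * ∑ a, HS r n (pd a s) x) ≤ K * H := mul_le_mul_of_nonneg_left h6 hK0
    have e4 := mul_le_mul_of_nonneg_left h3 hr
    have e5 := mul_le_mul_of_nonneg_left h4 hr
    rw [h5, pow_succ (5 : ℝ) n]
    have e6 : (5 : ℝ) ^ n * 5 * m ^ 2 * H = 5 * (K * H) := by rw [hK]; ring
    rw [e6]
    nlinarith
theorem HS_apply_le {r m : ℝ} {n : ℕ} {M : E ι → (E α →L[ℝ] E β)} (hM : TG M) (h : Mult r m n M)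
    {s : E ι → E α} (hs : TG s) (x : E ι) :
    HS r n (fun z => M z (s z)) x ≤ 5 ^ n * m ^ 2 * HS r n s x := by
  have := HS_apply_fam (I := Unit) r m n (M := fun _ => M) (fun _ => hM) x
    (fun v => by simpa using h x v) hs
  simpa using this
/-- chain rule for a scalar function, in gradient form -/
private lemma adj_fderiv_gradient_coord {y : E ι → E ζ} (hy : Differentiable ℝ y) {φ : E ζ → ℝ}
    (hφ : Differentiable ℝ φ) (a : ι) (z : E ι) :
    adj (fderiv ℝ y z) (gradient φ (y z)) a = pd a (fun w => φ (y w)) z := by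
  rw [← inner_bas_right, inner_adj_left, inner_gradient]
  have h : fderiv ℝ (fun w => φ (y w)) z = (fderiv ℝ φ (y z)).comp (fderiv ℝ y z) :=
    fderiv_fun_comp z (hφ _) (hy _)
  rw [pd, h]
  rfl
theorem HS_comp_le {r r' m : ℝ} {n : ℕ} {y : E ι → E ζ} (hy : TG y)
    (h : Mult r m n fun x => adj (fderiv ℝ y x)) (hr : 0 ≤ r) (hm : 0 ≤ m) (hrm : r * m ≤ r')
    {s : E ζ → E κ} (hs : TG s) (x : E ι) :
    HS r n (fun z => s (y z)) x ≤ 5 ^ (n ^ 2) * HS r' n s (y x) := by
  induction n generalizing κ with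
  | zero => simp [HS_zero]
  | succ n ih =>
    have hn : Mult r m n fun x => adj (fderiv ℝ y x) := fun x v =>
      (HS_le_succ _ _ _ _).trans (h x v)
    -- the scalar case
    have h1 : ∀ {φ : E ζ → ℝ}, TG φ → ∑ a, HS r n (pd a fun z => φ (y z)) x ≤
        5 ^ n * m ^ 2 * (5 ^ (n ^ 2) * ∑ o, HS r' n (pd o φ) (y x)) := fun {φ} hφ => by
      have hg : TG fun z => gradient φ (y z) := hφ.gradient'.comp' hy
      have e1 : ∑ a, HS r n (pd a fun z => φ (y z)) x =
          HS r n (fun z => adj (fderiv ℝ y z) (gradient φ (y z))) x := by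
        rw [HS_eq_sum_coord r n (hy.fderiv'.adj'.clm_apply hg)]
        simp only [adj_fderiv_gradient_coord hy.differentiable hφ.differentiable]
      have e2 : HS r' n (gradient φ) (y x) = ∑ o, HS r' n (pd o φ) (y x) := by
        rw [HS_eq_sum_coord r' n hφ.gradient']
        simp only [gradient_coord]
      rw [e1, ← e2]
      refine (HS_apply_le hy.fderiv'.adj' hn hg x).trans ?_
      exact mul_le_mul_of_nonneg_left (ih hn hφ.gradient') (by positivity)
    have hsy : TG fun z => s (y z) := hs.comp' hy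
    have h2 : ∑ a, HS r n (pd a fun z => s (y z)) x =
        ∑ o, ∑ a, HS r n (pd a fun z => s (y z) o) x := by
      rw [Finset.sum_comm]
      refine Finset.sum_congr rfl fun a _ => ?_
      rw [HS_eq_sum_coord r n (hsy.pd' a)]
      simp only [pd_coord a hsy.differentiable]
    have h3 : ∑ o', HS r' n (pd o' s) (y x) =
        ∑ o, ∑ o', HS r' n (pd o' fun w => s w o) (y x) := by
      rw [Finset.sum_comm]
      refine Finset.sum_congr rfl fun o' _ => ?_
      rw [HS_eq_sum_coord r' n (hs.pd' o')]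
      simp only [pd_coord o' hs.differentiable]
    have h4 : ∑ a, HS r n (pd a fun z => s (y z)) x ≤
        5 ^ n * m ^ 2 * (5 ^ (n ^ 2) * ∑ o', HS r' n (pd o' s) (y x)) := by
      rw [h2, h3, Finset.mul_sum, Finset.mul_sum]
      exact Finset.sum_le_sum fun o _ => h1 (hs.coord o)
    rw [HS_succ, HS_succ]
    have hS : 0 ≤ ∑ o', HS r' n (pd o' s) (y x) := Finset.sum_nonneg fun a _ => HS_nonneg _ _ _ _
    set S := ∑ o', HS r' n (pd o' s) (y x)
    have h5 : (r * m) ^ 2 ≤ r' ^ 2 := pow_le_pow_left₀ (mul_nonneg hr hm) hrm 2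
    have h6 : (5 : ℝ) ^ n * 5 ^ (n ^ 2) ≤ 5 ^ ((n + 1) ^ 2) := by
      rw [← pow_add]
      exact pow_le_pow_right₀ (by norm_num) (by nlinarith)
    have h7 : (1 : ℝ) ≤ 5 ^ ((n + 1) ^ 2) := one_le_pow₀ (by norm_num)
    have h8 := mul_le_mul_of_nonneg_left h4 (sq_nonneg r)
    have h9 : r ^ 2 * (5 ^ n * m ^ 2 * (5 ^ (n ^ 2) * S)) ≤ 5 ^ ((n + 1) ^ 2) * (r' ^ 2 * S) := by
      have : r ^ 2 * (5 ^ n * m ^ 2 * (5 ^ (n ^ 2) * S)) =
          (5 ^ n * 5 ^ (n ^ 2)) * ((r * m) ^ 2 * S) := by ring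
      rw [this]
      exact mul_le_mul h6 (mul_le_mul_of_nonneg_right h5 hS) (by positivity) (by positivity)
    have h10 : ‖s (y x)‖ ^ 2 ≤ 5 ^ ((n + 1) ^ 2) * ‖s (y x)‖ ^ 2 :=
      le_mul_of_one_le_left (sq_nonneg _) h7
    rw [mul_add]
    linarith

end Crest.Agent.R285
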