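import Crest.Agent.R285.Tilt2
import Crest.Agent.R285.HS

/-!
# Row 285 (S0430): Appell
Dimension free jet bounds for tilted means.
`tg_integral`: `TG.of_class` with the class of finite sums of products of functions
`u ↦ ∫ φ ∂tg ψ u σ` (`φ` continuous, polynomially bounded), closed under `pd` by
`BP.hasFDerivAt_integral` (do it for real valued `φ`, then `TG.of_coord`).
`exists_appell`: let `m u = ∫ x, x ∂tg ψ u 1` and define polynomials in `x` with smooth coefficients in `u`: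
`Q [] = 1`, `Q (a :: l) u x = ∂_{u_a} (Q l) u x + Q l u x * (x a - m u a)`, i.e. `Q l = ∂^l_u p / p` for the
density `p u x ∝ exp (⟪u,x⟫ - Λ u)`.  Then `∂^l (∫ φ ∂tg ψ u 1) = ∫ φ * Q l`, `∫ Q l = 0` for `l ≠ []`, and
`∂_{x_b} Q l = ∑_{positions i with l i = b} Q (l without i)`.  For a coefficient tensor `c : (Fin i → ι) → ℝ`
and `Q_c = ∑ c l * Q l`, Poincaré (`BP.var_tg`, constant `≤ 2`) and induction on `i` give
`∫ Q_c² ≤ (i!)² 2^i ∑ c l²`.  With `c l = ∂^l (∫ φ)`: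
`∑ c l² = Cov(φ, Q_c) ≤ √(2 L²) √((i!)² 2^i ∑ c l²)`.  Finally `HS 1 n f x = ∑_{i ≤ n} ∑_l ‖∂^l f x‖²`.
-/

set_option autoImplicit false

open MeasureTheory ProbabilityTheory Filter Topology
open scoped RealInnerProductSpace

noncomputable section

namespace Crest.Agent.R285

variable {ι κ ζ α β : Type} [Fintype ι] [Fintype κ] [Fintype ζ] [Fintype α] [Fintype β]
variable {Y : Type} [NormedAddCommGroup Y] [NormedSpace ℝ Y]

namespace Appell

lemma tg_crd (a : ι) : TG fun x : E ι => x a :=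
  TG.coord (f := fun x : E ι => x) (Function.HasTemperateGrowth.id' (E := E ι)) a

lemma integral_coord {ψ : E ι → ℝ} {lam B : ℝ} (h : BP ψ lam B) (u : E ι) (σ : ℝ)
    {f : E ι → E κ} (hf : PolyB f) (hc : Continuous f) (o : κ) :
    (∫ x, f x ∂tg ψ u σ) o = ∫ x, f x o ∂tg ψ u σ :=
  ((EuclideanSpace.proj o : E κ →L[ℝ] ℝ).integral_comp_comm (h.integrable u σ hf hc)).symm

lemma differentiable_integral {ψ : E ι → ℝ} {lam B σ : ℝ} (h : BP ψ lam B) (hσ : 0 < σ)
    {φ : E ι → ℝ} (hφ : PolyB φ) (hc : Continuous φ) :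
    Differentiable ℝ fun u => ∫ x, φ x ∂tg ψ u σ := fun u => by
  obtain ⟨D, hD, -⟩ := h.hasFDerivAt_integral hσ hφ hc u
  exact hD.differentiableAt

lemma pd_integral {ψ : E ι → ℝ} {lam B σ : ℝ} (h : BP ψ lam B) (hσ : 0 < σ)
    {φ : E ι → ℝ} (hφ : PolyB φ) (hc : Continuous φ) (a : ι) :
    pd a (fun u => ∫ x, φ x ∂tg ψ u σ) = fun u => (σ ^ 2)⁻¹ *
      ((∫ x, φ x * x a ∂tg ψ u σ) - (∫ x, φ x ∂tg ψ u σ) * ∫ x, x a ∂tg ψ u σ) := by
  funext u
  obtain ⟨D, hD, hg⟩ := h.hasFDerivAt_integral hσ hφ hc u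
  have hid : TG fun x : E ι => x := Function.HasTemperateGrowth.id' (E := E ι)
  have hm := integral_coord h u σ hid.polyB hid.continuous a
  rw [pd, hD.fderiv, hg, smul_eq_mul]
  congr 1
  have h1 : Integrable (fun x : E ι => φ x * x a) (tg ψ u σ) :=
    h.integrable u σ (hφ.mul (tg_crd a).polyB) (hc.mul (tg_crd a).continuous)
  have h2 : Integrable (fun x : E ι => φ x * ∫ x, x a ∂tg ψ u σ) (tg ψ u σ) :=
    (h.integrable u σ hφ hc).mul_const _
  rw [← integral_mul_const, ← integral_sub h1 h2]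
  refine integral_congr_ae (Eventually.of_forall fun x => ?_)
  simp only [inner_bas_left, PiLp.sub_apply, smul_eq_mul, hm]
  ring

/-- the algebra generated by the tilted means -/
inductive Cl (ψ : E ι → ℝ) (σ : ℝ) : (E ι → ℝ) → Prop
  | int (g : E ι → ℝ) : PolyB g → Continuous g → Cl ψ σ fun u => ∫ x, g x ∂tg ψ u σ
  | add (f g : E ι → ℝ) : Cl ψ σ f → Cl ψ σ g → Cl ψ σ fun u => f u + g u
  | mul (f g : E ι → ℝ) : Cl ψ σ f → Cl ψ σ g → Cl ψ σ fun u => f u * g u
  | smul (c : ℝ) (f : E ι → ℝ) : Cl ψ σ f → Cl ψ σ fun u => c • f u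

lemma Cl.step {ψ : E ι → ℝ} {lam B σ : ℝ} (h : BP ψ lam B) (hσ : 0 < σ) {f : E ι → ℝ}
    (hf : Cl ψ σ f) : Differentiable ℝ f ∧ PolyB f ∧ ∀ a, Cl ψ σ (pd a f) := by
  induction hf with
  | int g hg hc =>
    refine ⟨differentiable_integral h hσ hg hc, h.polyB_integral σ hg hc, fun a => ?_⟩
    rw [pd_integral h hσ hg hc]
    have h1 := Cl.int (ψ := ψ) (σ := σ) (fun x => g x * x a) (hg.mul (tg_crd a).polyB)
      (hc.mul (tg_crd a).continuous)
    have h2 := Cl.int (ψ := ψ) (σ := σ) g hg hc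
    have h3 := Cl.int (ψ := ψ) (σ := σ) (fun x => x a) (tg_crd a).polyB (tg_crd a).continuous
    have h4 := Cl.smul ((σ ^ 2)⁻¹) _ (Cl.add _ _ h1 (Cl.smul (-1) _ (Cl.mul _ _ h2 h3)))
    convert h4 using 2 with u
    simp only [smul_eq_mul]
    ring
  | add f g _ _ ihf ihg =>
    refine ⟨ihf.1.add ihg.1, ihf.2.1.add ihg.2.1, fun a => ?_⟩
    rw [pd_add a ihf.1 ihg.1]
    exact Cl.add _ _ (ihf.2.2 a) (ihg.2.2 a)
  | mul f g hf hg ihf ihg =>
    refine ⟨ihf.1.mul ihg.1, ihf.2.1.mul ihg.2.1, fun a => ?_⟩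
    rw [pd_mul a ihf.1 ihg.1]
    exact Cl.add _ _ (Cl.mul _ _ (ihf.2.2 a) hg) (Cl.mul _ _ hf (ihg.2.2 a))
  | smul c f _ ihf =>
    refine ⟨ihf.1.const_smul c, (PolyB.const c).smul ihf.2.1, fun a => ?_⟩
    rw [pd_const_smul a c ihf.1]
    exact Cl.smul _ _ (ihf.2.2 a)

end Appell

theorem BP.tg_integral {ψ : E ι → ℝ} {lam B σ : ℝ} (h : BP ψ lam B) (hσ : 0 < σ) {φ : E ι → ℝ}
    (hφ : PolyB φ) (hc : Continuous φ) : TG fun u => ∫ x, φ x ∂tg ψ u σ :=
  TG.of_class (Appell.Cl ψ σ) (fun _ hf => hf.step h hσ) (Appell.Cl.int φ hφ hc)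

theorem BP.tg_gm {W : E ι → ℝ} {lam B s : ℝ} (h : BP W lam B) (hs : 0 < s) : TG (gm W s) := by
  refine TG.of_coord fun o => ?_
  have h1 : (fun y => gm W s y o) = fun y => ∫ x, gradient W x o ∂tg W y √s :=
    funext fun y => Appell.integral_coord h y _ h.lip.polyB h.lip.continuous o
  rw [h1]
  exact h.tg_integral (Real.sqrt_pos.2 hs) ((Appell.tg_crd o).polyB.comp h.lip.polyB)
    ((Appell.tg_crd o).continuous.comp h.lip.continuous)

namespace Appell

open scoped TensorProduct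

/-- the space of temperate functions -/
def TS (ι : Type) [Fintype ι] : Submodule ℝ (E ι → ℝ) where
  carrier := {f | TG f}
  add_mem' := fun hf hg => TG.add' hf hg
  zero_mem' := Function.HasTemperateGrowth.const (0 : ℝ)
  smul_mem' := fun c _ hf => TG.const_smul hf c

lemma TS.tg (f : TS ι) : TG (f : E ι → ℝ) := f.2

/-- partial derivative -/
def pdL (a : ι) : TS ι →ₗ[ℝ] TS ι where
  toFun f := ⟨pd a f, (TS.tg f).pd' a⟩
  map_add' f g := Subtype.ext (pd_add a (TS.tg f).differentiable (TS.tg g).differentiable)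
  map_smul' c f := Subtype.ext (pd_const_smul a c (TS.tg f).differentiable)

/-- multiplication -/
def mulL (g : TS ι) : TS ι →ₗ[ℝ] TS ι where
  toFun f := ⟨fun x => f.1 x * g.1 x, (TS.tg f).mul' (TS.tg g)⟩
  map_add' f f' := Subtype.ext (funext fun x => by simp [add_mul])
  map_smul' c f := Subtype.ext (funext fun x => by simp [mul_assoc])

/-- evaluation -/
def evL (u : E ι) : TS ι →ₗ[ℝ] ℝ where
  toFun f := f.1 u
  map_add' _ _ := rfl
  map_smul' _ _ := rfl

/-- coordinate function -/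
def crd (a : ι) : TS ι := ⟨fun x => x a, tg_crd a⟩

/-- the constant one -/
def one : TS ι := ⟨fun _ => 1, Function.HasTemperateGrowth.const (1 : ℝ)⟩

/-- evaluation of the first factor -/
def evT (u : E ι) : TS ι ⊗[ℝ] TS ι →ₗ[ℝ] TS ι :=
  TensorProduct.lift ((LinearMap.lsmul ℝ (TS ι)).comp (evL u))

lemma evT_tmul (u : E ι) (c p : TS ι) : evT u (c ⊗ₜ p) = c.1 u • p := by
  simp [evT, evL]

/-- the creation operator -/
def Dop (m : ι → TS ι) (a : ι) : TS ι ⊗[ℝ] TS ι →ₗ[ℝ] TS ι ⊗[ℝ] TS ι :=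
  (pdL a - mulL (m a)).rTensor (TS ι) + (mulL (crd a)).lTensor (TS ι)

/-- the annihilation operator -/
def Xop (b : ι) : TS ι ⊗[ℝ] TS ι →ₗ[ℝ] TS ι ⊗[ℝ] TS ι := (pdL b).lTensor _

lemma Dop_tmul (m : ι → TS ι) (a : ι) (c p : TS ι) :
    Dop m a (c ⊗ₜ p) = pdL a c ⊗ₜ p + c ⊗ₜ mulL (crd a) p - mulL (m a) c ⊗ₜ p := by
  simp only [Dop, LinearMap.add_apply, LinearMap.rTensor_tmul, LinearMap.lTensor_tmul,
    LinearMap.sub_apply, TensorProduct.sub_tmul]
  abel

lemma Xop_tmul (b : ι) (c p : TS ι) : Xop b (c ⊗ₜ p) = c ⊗ₜ pdL b p := by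
  simp [Xop]

open Classical in
lemma pdL_mul_crd (a b : ι) (p : TS ι) :
    pdL b (mulL (crd a) p) = mulL (crd a) (pdL b p) + (if a = b then (1 : ℝ) else 0) • p := by
  apply Subtype.ext
  have h1 : pd b (fun x : E ι => x a) = fun _ => (bas b : E ι) a := by
    rw [pd_coord b (f := fun x : E ι => x) differentiable_id a, pd_id]
  change pd b (fun x => p.1 x * x a) = fun x => pd b p.1 x * x a + (if a = b then (1 : ℝ) else 0) * p.1 x
  rw [pd_mul b (TS.tg p).differentiable (tg_crd a).differentiable, h1]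
  funext x
  simp only [bas_coord]
  ring

open Classical in
lemma Xop_Dop (m : ι → TS ι) (a b : ι) (G : TS ι ⊗[ℝ] TS ι) :
    Xop b (Dop m a G) = Dop m a (Xop b G) + (if a = b then (1 : ℝ) else 0) • G := by
  induction G using TensorProduct.induction_on with
  | zero => simp
  | tmul c p =>
    simp only [Dop_tmul, Xop_tmul, map_add, map_sub, pdL_mul_crd, TensorProduct.tmul_add,
      TensorProduct.tmul_smul]
    abel
  | add G G' h h' =>
    simp only [map_add, h, h', smul_add]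
    abel

lemma Xop_one (b : ι) : Xop b ((one : TS ι) ⊗ₜ one) = 0 := by
  have : pdL b (one : TS ι) = 0 := Subtype.ext (pd_const b (1 : ℝ))
  rw [Xop_tmul, this, TensorProduct.tmul_zero]

lemma pdL_evT (u : E ι) (b : ι) (G : TS ι ⊗[ℝ] TS ι) : pdL b (evT u G) = evT u (Xop b G) := by
  induction G using TensorProduct.induction_on with
  | zero => simp
  | tmul c p => simp only [Xop_tmul, evT_tmul, map_smul]
  | add G G' h h' => simp only [map_add, h, h']

/-- iterated creation operators -/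
def Dl (m : ι → TS ι) : ∀ n : ℕ, (Fin n → ι) → (TS ι ⊗[ℝ] TS ι →ₗ[ℝ] TS ι ⊗[ℝ] TS ι)
  | 0, _ => LinearMap.id
  | n + 1, l => (Dl m n (Fin.tail l)).comp (Dop m (l 0))

lemma Dl_zero (m : ι → TS ι) (l : Fin 0 → ι) (G : TS ι ⊗[ℝ] TS ι) : Dl m 0 l G = G := rfl

lemma Dl_succ (m : ι → TS ι) (n : ℕ) (l : Fin (n + 1) → ι) (G : TS ι ⊗[ℝ] TS ι) :
    Dl m (n + 1) l G = Dl m n (Fin.tail l) (Dop m (l 0) G) := rfl

open Classical in
lemma Xop_Dl (m : ι → TS ι) (b : ι) (n : ℕ) : ∀ (l : Fin (n + 1) → ι) (G : TS ι ⊗[ℝ] TS ι),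
    Xop b (Dl m (n + 1) l G) = Dl m (n + 1) l (Xop b G) +
      ∑ j, (if l j = b then (1 : ℝ) else 0) • Dl m n (Fin.removeNth j l) G := by
  induction n with
  | zero =>
    intro l G
    simp only [Dl_succ, Dl_zero, Xop_Dop]
    rw [Fin.sum_univ_succ]
    simp
  | succ n ih =>
    intro l G
    rw [Dl_succ, ih, Xop_Dop, map_add, map_smul, Fin.sum_univ_succ (n := n + 1), ← Dl_succ,
      add_assoc]
    congr 2
    refine Finset.sum_congr rfl fun j _ => ?_
    have h1 : Fin.tail (Fin.removeNth j.succ l) = Fin.removeNth j (Fin.tail l) := by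
      funext k
      simp [Fin.tail, Fin.removeNth]
    have h2 : Fin.removeNth j.succ l 0 = l 0 := by simp [Fin.removeNth]
    rw [Dl_succ, h1, h2]
    rfl

section int

variable {ψ φ : E ι → ℝ} {lam B : ℝ}

/-- the tilted mean of the coordinates -/
def mn (h : BP ψ lam B) (a : ι) : TS ι :=
  ⟨fun u => ∫ x, x a ∂tg ψ u 1, h.tg_integral one_pos (tg_crd a).polyB (tg_crd a).continuous⟩

/-- pairing with `φ` -/
def I (ψ φ : E ι → ℝ) (G : TS ι ⊗[ℝ] TS ι) (u : E ι) : ℝ := ∫ x, φ x * (evT u G).1 x ∂tg ψ u 1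

lemma integrable_mul (h : BP ψ lam B) (hφ : PolyB φ) (hc : Continuous φ) (u : E ι) (p : TS ι) :
    Integrable (fun x => φ x * p.1 x) (tg ψ u 1) :=
  h.integrable u 1 (hφ.mul (TS.tg p).polyB) (hc.mul (TS.tg p).continuous)

/-- pairing with `φ` as a linear map -/
def J (h : BP ψ lam B) (hφ : PolyB φ) (hc : Continuous φ) (u : E ι) : TS ι →ₗ[ℝ] ℝ where
  toFun p := ∫ x, φ x * p.1 x ∂tg ψ u 1
  map_add' p q := by
    rw [← integral_add (integrable_mul h hφ hc u p) (integrable_mul h hφ hc u q)]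
    exact integral_congr_ae (Eventually.of_forall fun x => by simp [mul_add])
  map_smul' c p := by
    rw [RingHom.id_apply, smul_eq_mul, ← integral_const_mul]
    exact integral_congr_ae (Eventually.of_forall fun x => by simp [mul_left_comm])

lemma I_eq (h : BP ψ lam B) (hφ : PolyB φ) (hc : Continuous φ) (G : TS ι ⊗[ℝ] TS ι) (u : E ι) :
    I ψ φ G u = J h hφ hc u (evT u G) := rfl

lemma pd_I (h : BP ψ lam B) (hφ : PolyB φ) (hc : Continuous φ) (G : TS ι ⊗[ℝ] TS ι) :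
    Differentiable ℝ (I ψ φ G) ∧ ∀ a, pd a (I ψ φ G) = I ψ φ (Dop (mn h) a G) := by
  induction G using TensorProduct.induction_on with
  | zero =>
    have : I ψ φ 0 = fun _ => 0 := funext fun u => by simp [I_eq h hφ hc]
    simp only [map_zero, this]
    exact ⟨differentiable_const _, fun a => pd_const a 0⟩
  | tmul c p =>
    have h1 : I ψ φ (c ⊗ₜ p) = fun u => c.1 u * ∫ x, φ x * p.1 x ∂tg ψ u 1 := funext fun u => by
      rw [I_eq h hφ hc, evT_tmul, map_smul]
      rfl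
    have hp := hφ.mul (TS.tg p).polyB
    have hpc : Continuous fun x => φ x * p.1 x := hc.mul (TS.tg p).continuous
    have h2 := differentiable_integral h one_pos hp hpc
    rw [h1]
    refine ⟨(TS.tg c).differentiable.mul h2, fun a => ?_⟩
    rw [pd_mul a (TS.tg c).differentiable h2, pd_integral h one_pos hp hpc]
    funext u
    rw [I_eq h hφ hc, Dop_tmul]
    simp only [map_add, map_sub, evT_tmul, map_smul, smul_eq_mul]
    have h3 : J h hφ hc u (mulL (crd a) p) = ∫ x, φ x * p.1 x * x a ∂tg ψ u 1 :=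
      integral_congr_ae (Eventually.of_forall fun x => (mul_assoc _ _ _).symm)
    have h4 : J h hφ hc u p = ∫ x, φ x * p.1 x ∂tg ψ u 1 := rfl
    have h5 : (pdL a c).1 u = pd a c.1 u := rfl
    have h6 : (mulL (mn h a) c).1 u = c.1 u * ∫ x, x a ∂tg ψ u 1 := rfl
    rw [h3, h4, h5, h6]
    ring
  | add G G' ih ih' =>
    have h1 : ∀ G G' : TS ι ⊗[ℝ] TS ι, I ψ φ (G + G') = fun u => I ψ φ G u + I ψ φ G' u :=
      fun G G' => funext fun u => by simp only [I_eq h hφ hc, map_add]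
    rw [h1]
    refine ⟨ih.1.add ih'.1, fun a => ?_⟩
    rw [pd_add a ih.1 ih'.1, map_add, h1, ih.2, ih'.2]

lemma sum_pi_succ {M : Type} [AddCommMonoid M] {n : ℕ} (j : Fin (n + 1))
    (F : (Fin (n + 1) → ι) → M) :
    ∑ l, F l = ∑ a, ∑ l' : Fin n → ι, F (Fin.insertNth j a l') := by
  rw [← Fintype.sum_prod_type', ← (Fin.insertNthEquiv (fun _ => ι) j).sum_comp]
  rfl

lemma sum_Dl_succ (m : ι → TS ι) (n : ℕ) (G : TS ι ⊗[ℝ] TS ι) (F : TS ι ⊗[ℝ] TS ι → ℝ) :
    ∑ l, F (Dl m (n + 1) l G) = ∑ a, ∑ l, F (Dl m n l (Dop m a G)) := by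
  rw [sum_pi_succ 0]
  simp [Dl_succ]

lemma HS_I (h : BP ψ lam B) (hφ : PolyB φ) (hc : Continuous φ) (u : E ι) (n : ℕ) :
    ∀ G : TS ι ⊗[ℝ] TS ι, HS 1 n (I ψ φ G) u =
      ∑ i ∈ Finset.range (n + 1), ∑ l, I ψ φ (Dl (mn h) i l G) u ^ 2 := by
  induction n with
  | zero => intro G; simp [HS_zero, Dl_zero]
  | succ n ih =>
    intro G
    rw [HS_succ, Finset.sum_range_succ', add_comm]
    simp only [(pd_I h hφ hc G).2, ih, one_pow, one_mul]
    congr 1
    · rw [Finset.sum_comm]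
      exact Finset.sum_congr rfl fun i _ =>
        (sum_Dl_succ (mn h) i G fun G => I ψ φ G u ^ 2).symm
    · simp [Dl_zero]

lemma I_Dl_eq_zero (h : BP ψ lam B) (hφ : PolyB φ) (hc : Continuous φ) (n : ℕ) :
    ∀ (l : Fin n → ι) (G : TS ι ⊗[ℝ] TS ι), I ψ φ G = (fun _ => 0) →
      I ψ φ (Dl (mn h) n l G) = fun _ => 0 := by
  induction n with
  | zero => intro l G hG; exact hG
  | succ n ih =>
    intro l G hG
    rw [Dl_succ]
    refine ih _ _ ?_
    rw [← (pd_I h hφ hc G).2, hG, pd_const]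

/-- the Appell polynomials have mean zero -/
lemma mean_zero (h : BP ψ lam B) (n : ℕ) (l : Fin (n + 1) → ι) (u : E ι) :
    I ψ (fun _ => 1) (Dl (mn h) (n + 1) l (one ⊗ₜ one)) u = 0 := by
  have h1 : I ψ (fun _ => 1) (one ⊗ₜ one) = fun _ => 1 := funext fun u => by
    have := h.prob u 1
    simp [I, evT_tmul, one]
  rw [Dl_succ, I_Dl_eq_zero h (PolyB.const 1) continuous_const n]
  rw [← (pd_I h (PolyB.const 1) continuous_const _).2, h1, pd_const]

/-- linear combination of Appell polynomials -/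
def Q (h : BP ψ lam B) (u : E ι) (n : ℕ) (c : (Fin n → ι) → ℝ) : TS ι :=
  evT u (∑ l, c l • Dl (mn h) n l (one ⊗ₜ one))

lemma integral_Q (h : BP ψ lam B) (u : E ι) (n : ℕ) (c : (Fin (n + 1) → ι) → ℝ) :
    ∫ x, (Q h u (n + 1) c).1 x ∂tg ψ u 1 = 0 := by
  have h1 : ∫ x, (Q h u (n + 1) c).1 x ∂tg ψ u 1 =
      J h (PolyB.const 1) continuous_const u (Q h u (n + 1) c) :=
    integral_congr_ae (Eventually.of_forall fun x => (one_mul _).symm)
  rw [h1, Q]
  simp only [map_sum, map_smul, ← I_eq, mean_zero, smul_zero, Finset.sum_const_zero]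

lemma pdL_Q (h : BP ψ lam B) (u : E ι) (n : ℕ) (c : (Fin (n + 1) → ι) → ℝ) (b : ι) :
    pdL b (Q h u (n + 1) c) = ∑ j : Fin (n + 1), Q h u n fun l => c (Fin.insertNth j b l) := by
  classical
  rw [Q, pdL_evT]
  simp only [Q, ← map_sum]
  congr 1
  simp only [map_sum, map_smul, Xop_Dl, Xop_one, map_zero, zero_add, Finset.smul_sum]
  rw [Finset.sum_comm]
  refine Finset.sum_congr rfl fun j _ => ?_
  rw [sum_pi_succ j, Finset.sum_eq_single b]
  · simp
  · intro a _ hab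
    simp [hab]
  · simp

/-- the constants -/
def A : ℕ → ℝ
  | 0 => 1
  | n + 1 => 2 * (n + 1) ^ 2 * A n

lemma A_pos : ∀ n, 0 < A n
  | 0 => one_pos
  | n + 1 => by
    have := A_pos n
    rw [A]
    positivity

lemma integrable_sq (h : BP ψ lam B) (u : E ι) (p : TS ι) :
    Integrable (fun x => p.1 x ^ 2) (tg ψ u 1) :=
  h.integrable u 1 ((TS.tg p).polyB.pow 2) ((TS.tg p).continuous.pow 2)

lemma poincare_const (hl : lam ≤ 1 / 2) : (1 : ℝ) ^ 2 / (1 - lam * 1 ^ 2) ≤ 2 := by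
  rw [div_le_iff₀ (by linarith)]
  linarith

lemma integral_Q_sq (h : BP ψ lam B) (hl : lam ≤ 1 / 2) (u : E ι) (n : ℕ) :
    ∀ c : (Fin n → ι) → ℝ, ∫ x, (Q h u n c).1 x ^ 2 ∂tg ψ u 1 ≤ A n * ∑ l, c l ^ 2 := by
  have := h.prob u 1
  induction n with
  | zero =>
    intro c
    simp [Q, Dl_zero, evT_tmul, one, A]
  | succ n ih =>
    intro c
    have h1 := h.var_tg one_pos (by linarith) u (TS.tg (Q h u (n + 1) c))
    simp only [integral_Q, sub_zero] at h1
    have h2 : ∀ b x, pd b (Q h u (n + 1) c).1 x ^ 2 ≤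
        (n + 1) * ∑ j : Fin (n + 1), (Q h u n fun l => c (Fin.insertNth j b l)).1 x ^ 2 := by
      intro b x
      have h3 : pd b (Q h u (n + 1) c).1 x =
          ∑ j : Fin (n + 1), (Q h u n fun l => c (Fin.insertNth j b l)).1 x := by
        have h4 := congrArg (evL x) (pdL_Q h u n c b)
        rw [map_sum] at h4
        exact h4
      rw [h3]
      simpa using sq_sum_le_card_mul_sum_sq (s := Finset.univ)
        (f := fun j : Fin (n + 1) => (Q h u n fun l => c (Fin.insertNth j b l)).1 x)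
    have h3 : ∫ x, ∑ b, pd b (Q h u (n + 1) c).1 x ^ 2 ∂tg ψ u 1 ≤
        (n + 1) ^ 2 * A n * ∑ l, c l ^ 2 := by
      have hi : ∀ b, Integrable (fun x => ((n : ℝ) + 1) *
          ∑ j : Fin (n + 1), (Q h u n fun l => c (Fin.insertNth j b l)).1 x ^ 2) (tg ψ u 1) :=
        fun b => (integrable_finsetSum _ fun j _ => integrable_sq h u _).const_mul _
      calc ∫ x, ∑ b, pd b (Q h u (n + 1) c).1 x ^ 2 ∂tg ψ u 1
          ≤ ∫ x, ∑ b, ((n : ℝ) + 1) *
            ∑ j : Fin (n + 1), (Q h u n fun l => c (Fin.insertNth j b l)).1 x ^ 2 ∂tg ψ u 1 :=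
            integral_mono (integrable_finsetSum _ fun b _ => integrable_sq h u (pdL b _))
              (integrable_finsetSum _ fun b _ => hi b)
              fun x => Finset.sum_le_sum fun b _ => h2 b x
        _ = ∑ b, ((n : ℝ) + 1) * ∑ j : Fin (n + 1),
            ∫ x, (Q h u n fun l => c (Fin.insertNth j b l)).1 x ^ 2 ∂tg ψ u 1 := by
            rw [integral_finsetSum _ fun b _ => hi b]
            refine Finset.sum_congr rfl fun b _ => ?_
            rw [integral_const_mul, integral_finsetSum _ fun j _ => integrable_sq h u _]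
        _ ≤ ∑ b, ((n : ℝ) + 1) * ∑ j : Fin (n + 1),
            A n * ∑ l : Fin n → ι, c (Fin.insertNth j b l) ^ 2 :=
            Finset.sum_le_sum fun b _ => mul_le_mul_of_nonneg_left
              (Finset.sum_le_sum fun j _ => ih _) (by positivity)
        _ = ((n : ℝ) + 1) * ∑ j : Fin (n + 1),
            A n * ∑ b, ∑ l : Fin n → ι, c (Fin.insertNth j b l) ^ 2 := by
            rw [← Finset.mul_sum, Finset.sum_comm]
            simp only [Finset.mul_sum]
        _ = (n + 1) ^ 2 * A n * ∑ l, c l ^ 2 := by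
            simp only [← sum_pi_succ _ fun l => c l ^ 2]
            simp only [Finset.sum_const, Finset.card_univ, Fintype.card_fin, nsmul_eq_mul]
            push_cast
            ring
    have h4 : 0 ≤ ∫ x, ∑ b, pd b (Q h u (n + 1) c).1 x ^ 2 ∂tg ψ u 1 :=
      integral_nonneg fun x => Finset.sum_nonneg fun b _ => sq_nonneg _
    have h5 := mul_le_mul_of_nonneg_left (poincare_const hl) h4
    rw [A]
    linarith

lemma sum_sq_le {L : ℝ} (h : BP ψ lam B) (hl : lam ≤ 1 / 2) (hφ : Lip L φ) (u : E ι) (n : ℕ) :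
    ∑ l, I ψ φ (Dl (mn h) (n + 1) l (one ⊗ₜ one)) u ^ 2 ≤ 2 * A (n + 1) * L ^ 2 := by
  have := h.prob u 1
  set c : (Fin (n + 1) → ι) → ℝ := fun l => I ψ φ (Dl (mn h) (n + 1) l (one ⊗ₜ one)) u with hc
  set S := ∑ l, c l ^ 2 with hS
  set m := ∫ x, φ x ∂tg ψ u 1 with hm
  set q := Q h u (n + 1) c with hq
  have hA := A_pos (n + 1)
  have h1 : S = ∫ x, φ x * q.1 x ∂tg ψ u 1 := by
    change S = J h hφ.polyB hφ.continuous u q
    simp only [hq, Q, map_sum, map_smul, ← I_eq, smul_eq_mul, hS, sq, hc]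
  have iq : Integrable q.1 (tg ψ u 1) := h.integrable u 1 (TS.tg q).polyB (TS.tg q).continuous
  have iφq := integrable_mul h hφ.polyB hφ.continuous u q
  have h2 : S = ∫ x, (φ x * q.1 x - m * q.1 x) ∂tg ψ u 1 := by
    rw [integral_sub iφq (iq.const_mul m), integral_const_mul, hq, integral_Q, ← hq, ← h1]
    ring
  have iv : Integrable (fun x => (φ x - m) ^ 2) (tg ψ u 1) :=
    h.integrable u 1 ((hφ.sub (Lip.const m)).polyB.pow 2)
      ((hφ.continuous.sub continuous_const).pow 2)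
  have h3 : 2 * A (n + 1) * S ≤
      A (n + 1) ^ 2 * ∫ x, (φ x - m) ^ 2 ∂tg ψ u 1 + ∫ x, q.1 x ^ 2 ∂tg ψ u 1 := by
    rw [h2, ← integral_const_mul, ← integral_const_mul,
      ← integral_add (iv.const_mul _) (integrable_sq h u q)]
    refine integral_mono ((iφq.sub (iq.const_mul m)).const_mul _)
      ((iv.const_mul _).add (integrable_sq h u q)) fun x => ?_
    nlinarith [sq_nonneg (A (n + 1) * (φ x - m) - q.1 x)]
  have h4 := integral_Q_sq h hl u (n + 1) c
  have h5 := h.var_lip one_pos (by linarith) u hφ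
  have h6 := mul_le_mul_of_nonneg_left (poincare_const hl) (sq_nonneg L)
  have h7 : A (n + 1) ^ 2 * ∫ x, (φ x - m) ^ 2 ∂tg ψ u 1 ≤ A (n + 1) ^ 2 * (L ^ 2 * 2) :=
    mul_le_mul_of_nonneg_left (h5.trans h6) (sq_nonneg _)
  refine le_of_mul_le_mul_left ?_ hA
  rw [← hq, ← hS] at h4
  nlinarith

end int

end Appell

theorem exists_appell : ∃ C : ℕ → ℝ, (∀ n, 1 ≤ C n) ∧
    ∀ {ι : Type} [Fintype ι] {ψ φ : E ι → ℝ} {lam B L : ℝ} (n : ℕ), BP ψ lam B → lam ≤ 1 / 2 →
      Lip L φ → ∀ u, ∑ a, HS 1 n (pd a fun u => ∫ x, φ x ∂tg ψ u 1) u ≤ (C n * L) ^ 2 := by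
  have hK : ∀ n, 0 ≤ ∑ i ∈ Finset.range (n + 1), 2 * Appell.A (i + 1) := fun n =>
    Finset.sum_nonneg fun i _ => by have := Appell.A_pos (i + 1); positivity
  refine ⟨fun n => 1 + ∑ i ∈ Finset.range (n + 1), 2 * Appell.A (i + 1),
    fun n => le_add_of_nonneg_right (hK n), ?_⟩
  intro ι _ ψ φ lam B L n h hl hφ u
  have h1 : (fun u => ∫ x, φ x ∂tg ψ u 1) = Appell.I ψ φ (Appell.one ⊗ₜ Appell.one) :=
    funext fun u => by simp [Appell.I, Appell.evT_tmul, Appell.one]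
  rw [h1]
  simp only [(Appell.pd_I h hφ.polyB hφ.continuous _).2,
    Appell.HS_I h hφ.polyB hφ.continuous]
  rw [Finset.sum_comm]
  calc _ ≤ ∑ i ∈ Finset.range (n + 1), 2 * Appell.A (i + 1) * L ^ 2 := by
        refine Finset.sum_le_sum fun i _ => ?_
        rw [← Appell.sum_Dl_succ (Appell.mn h) i _ fun G => Appell.I ψ φ G u ^ 2]
        exact Appell.sum_sq_le h hl hφ u i
    _ ≤ _ := by
        rw [← Finset.sum_mul, mul_pow]
        refine mul_le_mul_of_nonneg_right ?_ (sq_nonneg L)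
        nlinarith [hK n]


end Crest.Agent.R285
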