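import Crest.Agent.R285.Gauss

/-!
# Row 285 (S0430): IBP
Gibbs measures and integration by parts.  Tool:
`integral_bilinear_hasLineDerivAt_right_eq_neg_left_of_integrable` or
`integral_smul_fderiv_eq_neg_fderiv_smul_of_integrable`
(`Mathlib/Analysis/Calculus/LineDeriv/IntegrationByParts.lean`) with the weight `exp (-Φ)`.
Integrability of `(1+‖x‖)^k exp (-c ‖x‖²)` for Lebesgue measure follows from `γ_eq_gibbs`/scaling or from
`integrable_one_add_norm`.
-/

set_option autoImplicit false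

open MeasureTheory ProbabilityTheory Filter Topology
open scoped RealInnerProductSpace

noncomputable section

namespace Crest.Agent.R285

variable {ι κ ζ α β : Type} [Fintype ι] [Fintype κ] [Fintype ζ] [Fintype α] [Fintype β]
variable {Y Y' : Type} [NormedAddCommGroup Y] [NormedSpace ℝ Y] [NormedAddCommGroup Y']
  [NormedSpace ℝ Y']

/-- `C¹` confining potential with polynomially bounded gradient -/
structure WPot (Φ : E ι → ℝ) : Prop where
  diff : Differentiable ℝ Φ
  cont : Continuous (gradient Φ)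
  poly : PolyB (gradient Φ)
  conf : ∃ c : ℝ, 0 < c ∧ ∃ C : ℝ, ∀ x, c * ‖x‖ ^ 2 - C ≤ Φ x

lemma NicePot.wpot {Φ : E ι → ℝ} (h : NicePot Φ) : WPot Φ :=
  ⟨h.1, TG.continuous h.2.1, TG.polyB h.2.1, h.2.2⟩

lemma WPot.integrable_weight {Φ : E ι → ℝ} (h : WPot Φ) {f : E ι → Y} (hf : PolyB f)
    (hm : AEStronglyMeasurable f volume) : Integrable (fun x => Real.exp (-Φ x) • f x) := by
  obtain ⟨c, hc, C, hC⟩ := h.conf
  obtain ⟨k, A, hA⟩ := hf
  obtain ⟨m, hm'⟩ : ∃ m : ℕ, m = Module.finrank ℝ (E ι) + 1 := ⟨_, rfl⟩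
  have hi : Integrable (fun x : E ι => (1 + ‖x‖) ^ (-(m : ℝ))) :=
    integrable_one_add_norm (by rw [hm']; push_cast; linarith)
  refine Integrable.mono'
    (hi.const_mul (|A| * Real.exp (C + ((k + m : ℕ) : ℝ) ^ 2 / (4 * c)))) ?_ (ae_of_all _ fun x => ?_)
  · exact (Real.continuous_exp.comp h.diff.continuous.neg).aestronglyMeasurable.smul hm
  · have ht : 0 ≤ ‖x‖ := norm_nonneg x
    have h1 : (1 + ‖x‖) ^ (k + m) ≤ Real.exp (((k + m : ℕ) : ℝ) * ‖x‖) := by
      rw [Real.exp_nat_mul]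
      exact pow_le_pow_left₀ (by positivity) (by linarith [Real.add_one_le_exp ‖x‖]) _
    have h2 : -Φ x + ((k + m : ℕ) : ℝ) * ‖x‖ ≤ C + ((k + m : ℕ) : ℝ) ^ 2 / (4 * c) := by
      have h3 : ((k + m : ℕ) : ℝ) * ‖x‖ - c * ‖x‖ ^ 2 ≤ ((k + m : ℕ) : ℝ) ^ 2 / (4 * c) := by
        rw [le_div_iff₀ (by positivity)]
        nlinarith [sq_nonneg (((k + m : ℕ) : ℝ) - 2 * c * ‖x‖)]
      linarith [hC x]
    have h4 : Real.exp (-Φ x) * (1 + ‖x‖) ^ (k + m)
        ≤ Real.exp (C + ((k + m : ℕ) : ℝ) ^ 2 / (4 * c)) := by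
      refine (mul_le_mul_of_nonneg_left h1 (Real.exp_pos _).le).trans ?_
      rw [← Real.exp_add]
      exact Real.exp_le_exp.2 h2
    have h5 : ‖f x‖ ≤ |A| * (1 + ‖x‖) ^ k :=
      (hA x).trans (mul_le_mul_of_nonneg_right (le_abs_self A) (by positivity))
    rw [norm_smul, Real.norm_eq_abs, abs_of_pos (Real.exp_pos _), Real.rpow_neg (by positivity),
      Real.rpow_natCast, ← div_eq_mul_inv, le_div_iff₀ (by positivity)]
    calc Real.exp (-Φ x) * ‖f x‖ * (1 + ‖x‖) ^ m
        ≤ Real.exp (-Φ x) * (|A| * (1 + ‖x‖) ^ k) * (1 + ‖x‖) ^ m := by gcongr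
      _ = |A| * (Real.exp (-Φ x) * (1 + ‖x‖) ^ (k + m)) := by ring
      _ ≤ _ := mul_le_mul_of_nonneg_left h4 (abs_nonneg _)

lemma WPot.integrable_exp {Φ : E ι → ℝ} (h : WPot Φ) : Integrable fun x => Real.exp (-Φ x) := by
  simpa using h.integrable_weight (PolyB.const (1 : ℝ)) aestronglyMeasurable_const

lemma WPot.partition_pos {Φ : E ι → ℝ} (h : WPot Φ) : 0 < ∫ x, Real.exp (-Φ x) :=
  integral_exp_pos h.integrable_exp

lemma WPot.prob {Φ : E ι → ℝ} (h : WPot Φ) : IsProbabilityMeasure (gibbs Φ) :=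
  isProbabilityMeasure_tilted h.integrable_exp

lemma integral_gibbs (Φ : E ι → ℝ) (f : E ι → Y) :
    ∫ x, f x ∂gibbs Φ = (∫ x, Real.exp (-Φ x))⁻¹ • ∫ x, Real.exp (-Φ x) • f x := by
  unfold gibbs
  rw [integral_tilted, ← integral_smul]
  refine integral_congr_ae (ae_of_all _ fun x => ?_)
  simp only [smul_smul, div_eq_inv_mul]

lemma WPot.integrable {Φ : E ι → ℝ} (h : WPot Φ) {f : E ι → Y} (hf : PolyB f)
    (hm : AEStronglyMeasurable f volume) : Integrable f (gibbs Φ) :=
  (integrable_tilted_iff h.integrable_exp f).2 (h.integrable_weight hf hm)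

lemma WPot.integrable_TG {Φ : E ι → ℝ} (h : WPot Φ) {f : E ι → Y} (hf : TG f) :
    Integrable f (gibbs Φ) :=
  h.integrable hf.polyB hf.continuous.aestronglyMeasurable

lemma gibbs_add_const (Φ : E ι → ℝ) (c : ℝ) : gibbs (fun x => Φ x + c) = gibbs Φ := by
  unfold gibbs Measure.tilted
  congr 1
  funext x
  congr 1
  simp only [neg_add, Real.exp_add, integral_mul_const]
  exact mul_div_mul_right _ _ (Real.exp_pos _).ne'

/-- tilting a Gibbs measure -/
lemma gibbs_tilted {Φ : E ι → ℝ} (h : WPot Φ) (ψ : E ι → ℝ) :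
    (gibbs Φ).tilted (fun x => -ψ x) = gibbs fun x => Φ x + ψ x := by
  unfold gibbs
  rw [tilted_tilted h.integrable_exp]
  congr 1
  funext x
  simp only [Pi.add_apply, neg_add]

/-- product of Gibbs measures -/
lemma gibbs_pair {Φ : E ι → ℝ} {Φ' : E κ → ℝ} (h : WPot Φ) (h' : WPot Φ') :
    ((gibbs Φ).prod (gibbs Φ')).map (fun p => pair p.1 p.2) =
      gibbs fun z => Φ (fstL z) + Φ' (sndL z) := by
  have hc := h.diff.continuous
  have hc' := h'.diff.continuous
  have he : Measurable fun p : E ι × E κ => pair p.1 p.2 :=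
    Measurable.pair' measurable_fst measurable_snd
  have hZ : ∫ z : E (ι ⊕ κ), Real.exp (-(Φ (fstL z) + Φ' (sndL z)))
      = (∫ x, Real.exp (-Φ x)) * ∫ y, Real.exp (-Φ' y) := by
    rw [← integral_prod_mul, ← (volume_preserving_pair (ι := ι) (κ := κ)).map_eq,
      integral_map he.aemeasurable (Continuous.aestronglyMeasurable (by fun_prop))]
    simp only [fstL_pair, sndL_pair, neg_add, Real.exp_add]
  unfold gibbs Measure.tilted
  rw [prod_withDensity (by fun_prop) (by fun_prop), hZ]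
  ext s hs
  rw [Measure.map_apply he hs, withDensity_apply _ (he hs), withDensity_apply _ hs,
    ← (volume_preserving_pair (ι := ι) (κ := κ)).setLIntegral_comp_preimage hs (by fun_prop)]
  refine lintegral_congr fun p => ?_
  have := h.partition_pos
  rw [← ENNReal.ofReal_mul (by positivity)]
  simp only [fstL_pair, sndL_pair, neg_add, Real.exp_add, div_mul_div_comm]

/-- integration by parts -/
theorem WPot.integral_fderiv [CompleteSpace Y] {Φ : E ι → ℝ} (h : WPot Φ) {f : E ι → Y}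
    (hf : Differentiable ℝ f) (hc : Continuous (fderiv ℝ f)) (hp : PolyB f)
    (hp' : PolyB (fderiv ℝ f)) (v : E ι) :
    ∫ x, fderiv ℝ f x v ∂gibbs Φ = ∫ x, ⟪v, gradient Φ x⟫ • f x ∂gibbs Φ := by
  have hd : ∀ x, fderiv ℝ (fun x => Real.exp (-Φ x)) x v
      = -(Real.exp (-Φ x) * ⟪v, gradient Φ x⟫) := fun x => by
    rw [((h.diff x).hasFDerivAt.fun_neg.exp).fderiv, real_inner_comm, inner_gradient]
    simp
  have hcg := h.cont
  have hcf := hf.continuous
  have hpi : PolyB fun x => ⟪v, gradient Φ x⟫ :=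
    PolyB.of_le (PolyB.smul (PolyB.const ‖v‖) h.poly) fun x => by
      rw [norm_smul, norm_norm]
      exact norm_inner_le_norm _ _
  have h1 : Integrable fun x => Real.exp (-Φ x) • (⟪v, gradient Φ x⟫ • f x) :=
    h.integrable_weight (PolyB.smul hpi hp) (Continuous.aestronglyMeasurable (by fun_prop))
  have h2 : Integrable fun x => Real.exp (-Φ x) • fderiv ℝ f x v := by
    refine h.integrable_weight (PolyB.of_le (PolyB.smul (PolyB.const ‖v‖) hp') fun x => ?_)
      (Continuous.aestronglyMeasurable (by fun_prop))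
    rw [norm_smul, norm_norm, mul_comm]
    exact ContinuousLinearMap.le_opNorm _ _
  have h3 := integral_smul_fderiv_eq_neg_fderiv_smul_of_integrable (μ := volume)
    (f := fun x => Real.exp (-Φ x)) (g := f) (v := v)
    (by simpa only [hd, neg_smul, mul_smul] using h1.fun_neg) h2
    (h.integrable_weight hp hcf.aestronglyMeasurable)
    (fun x _ => (h.diff x).neg.exp) fun x _ => hf x
  rw [integral_gibbs, integral_gibbs, h3]
  simp only [hd, neg_smul, mul_smul, integral_neg, neg_neg]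

theorem WPot.integral_pd [CompleteSpace Y] {Φ : E ι → ℝ} (h : WPot Φ) {f : E ι → Y} (hf : TG f)
    (a : ι) : ∫ x, pd a f x ∂gibbs Φ = ∫ x, gradient Φ x a • f x ∂gibbs Φ := by
  simpa only [inner_bas_left, pd] using h.integral_fderiv hf.differentiable hf.fderiv'.continuous
    hf.polyB hf.fderiv'.polyB (bas a)

/-- `divs` is the adjoint of the gradient -/
theorem NicePot.integral_inner_divs {Φ : E ι → ℝ} (h : NicePot Φ) {u : ι → E ι → E κ}
    (hu : ∀ a, TG (u a)) {φ : E ι → E κ} (hφ : TG φ) :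
    ∫ x, ⟪divs Φ u x, φ x⟫ ∂gibbs Φ = ∫ x, ∑ a, ⟪u a x, pd a φ x⟫ ∂gibbs Φ := by
  have hw := h.wpot
  have i1 : ∀ a, Integrable (fun x => gradient Φ x a • ⟪u a x, φ x⟫) (gibbs Φ) := fun a =>
    hw.integrable_TG ((TG.coord h.2.1 a).smul' ((hu a).inner' hφ))
  have i2 : ∀ a, Integrable (fun x => ⟪pd a (u a) x, φ x⟫) (gibbs Φ) := fun a =>
    hw.integrable_TG (((hu a).pd' a).inner' hφ)
  have i3 : ∀ a, Integrable (fun x => ⟪u a x, pd a φ x⟫) (gibbs Φ) := fun a =>
    hw.integrable_TG ((hu a).inner' (hφ.pd' a))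
  have e : ∀ x, ⟪divs Φ u x, φ x⟫
      = ∑ a, (gradient Φ x a • ⟪u a x, φ x⟫ - ⟪pd a (u a) x, φ x⟫) := fun x => by
    simp only [divs, sum_inner, inner_sub_left, real_inner_smul_left, smul_eq_mul]
  simp only [e]
  rw [integral_finsetSum (f := fun a x => gradient Φ x a • ⟪u a x, φ x⟫ - ⟪pd a (u a) x, φ x⟫) _
    fun a _ => (i1 a).sub (i2 a), integral_finsetSum _ fun a _ => i3 a]
  refine Finset.sum_congr rfl fun a _ => ?_
  have := hw.integral_pd ((hu a).inner' hφ) a
  rw [pd_inner a (hu a).differentiable hφ.differentiable, integral_add (i2 a) (i3 a)] at this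
  rw [integral_sub (i1 a) (i2 a), ← this]
  ring

lemma gradient_hsq : gradient (hsq : E ι → ℝ) = fun x => x := by
  funext x
  refine HasGradientAt.gradient ?_
  rw [hasGradientAt_iff_hasFDerivAt]
  have := (hasStrictFDerivAt_norm_sq x).hasFDerivAt.const_mul (1 / 2 : ℝ)
  have e : (hsq : E ι → ℝ) = fun y => 1 / 2 * ‖y‖ ^ 2 := by
    funext y
    unfold hsq
    ring
  rw [e]
  refine this.congr_fderiv ?_
  ext y
  simp

lemma nicePot_hsq : NicePot (hsq : E ι → ℝ) := by
  refine ⟨?_, ?_, 1 / 2, by norm_num, 0, fun x => le_of_eq (by unfold hsq; ring)⟩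
  · intro x
    exact ((hasStrictFDerivAt_norm_sq x).hasFDerivAt.differentiableAt).mul_const (2 : ℝ)⁻¹
  · rw [gradient_hsq]
    exact Function.HasTemperateGrowth.id'

/-- Stein's identity -/
theorem stein [CompleteSpace Y] {f : E ι → Y} (hf : TG f) (v : E ι) :
    ∫ z, fderiv ℝ f z v ∂γ ι = ∫ z, ⟪v, z⟫ • f z ∂γ ι := by
  have := (nicePot_hsq (ι := ι)).wpot.integral_fderiv hf.differentiable hf.fderiv'.continuous
    hf.polyB hf.fderiv'.polyB v
  rwa [gradient_hsq, ← γ_eq_gibbs] at this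

/-- second moment from `∫ ⟪x - u, ∇Φ x⟫ = card ι` -/
theorem WPot.second_moment {Φ : E ι → ℝ} (h : WPot Φ) (u : E ι) {a B : ℝ} (ha : 0 < a) (hB : 0 ≤ B)
    (hΦ : ∀ x, a * ‖x - u‖ ^ 2 - B * ‖x - u‖ ≤ ⟪x - u, gradient Φ x⟫) :
    L2le (gibbs Φ) (fun x => x - u) (B / a + √(Fintype.card ι / a)) := by
  have := h.prob
  have hcg := h.cont
  have hT : TG fun x : E ι => x - u :=
    TG.sub' Function.HasTemperateGrowth.id' (Function.HasTemperateGrowth.const u)
  have hm : AEStronglyMeasurable (fun x : E ι => x - u) (gibbs Φ) :=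
    hT.continuous.aestronglyMeasurable
  have i2 : Integrable (fun x : E ι => ‖x - u‖ ^ 2) (gibbs Φ) := h.integrable_TG hT.norm_sq
  have i1 : Integrable (fun x : E ι => ‖x - u‖) (gibbs Φ) := (h.integrable_TG hT).norm
  have i3 : ∀ i, Integrable (fun x : E ι => gradient Φ x i • (x - u) i) (gibbs Φ) := fun i =>
    h.integrable (PolyB.smul (PolyB.of_le h.poly fun x => abs_coord_le _ _) (hT.coord i).polyB)
      (Continuous.aestronglyMeasurable (by fun_prop))
  have e : ∀ x : E ι, ⟪x - u, gradient Φ x⟫ = ∑ i, gradient Φ x i • (x - u) i := fun x => by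
    rw [real_inner_comm, inner_eq_sum]
    rfl
  have h1 : ∫ x, ⟪x - u, gradient Φ x⟫ ∂gibbs Φ = Fintype.card ι := by
    simp only [e]
    rw [integral_finsetSum _ fun i _ => i3 i]
    have : ∀ i, ∫ x, gradient Φ x i • (x - u) i ∂gibbs Φ = 1 := fun i => by
      rw [← h.integral_pd (hT.coord i) i, pd_coord i hT.differentiable,
        pd_sub i differentiable_fun_id (differentiable_const u), pd_id, pd_const]
      simp [bas_coord]
    simp only [this]
    simp
  obtain ⟨M, hM⟩ : ∃ M, M = √(∫ x, ‖x - u‖ ^ 2 ∂gibbs Φ) := ⟨_, rfl⟩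
  have hM0 : 0 ≤ M := hM ▸ Real.sqrt_nonneg _
  have hM2 : ∫ x, ‖x - u‖ ^ 2 ∂gibbs Φ = M ^ 2 := by
    rw [hM, Real.sq_sqrt (integral_nonneg fun x => sq_nonneg _)]
  have hL : L2le (gibbs Φ) (fun x => x - u) M := L2le.of_integral_sq_le hm i2 hM0 hM2.le
  have h2 : a * M ^ 2 - B * M ≤ Fintype.card ι := by
    have h3 : ∫ x, (a * ‖x - u‖ ^ 2 - B * ‖x - u‖) ∂gibbs Φ ≤ Fintype.card ι := by
      rw [← h1]
      refine integral_mono ((i2.const_mul a).sub (i1.const_mul B)) ?_ hΦ
      simp only [e]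
      exact integrable_finsetSum _ fun i _ => i3 i
    rw [integral_sub (i2.const_mul a) (i1.const_mul B), integral_const_mul, integral_const_mul,
      hM2] at h3
    have := mul_le_mul_of_nonneg_left (hL.integral_norm_le hM0) hB
    linarith
  refine hL.mono ?_
  by_contra hlt
  rw [not_le] at hlt
  obtain ⟨s, hs⟩ : ∃ s, s = √(Fintype.card ι / a) := ⟨_, rfl⟩
  have hs0 : 0 ≤ s := hs ▸ Real.sqrt_nonneg _
  have hs2 : a * s ^ 2 = Fintype.card ι := by
    rw [hs, Real.sq_sqrt (by positivity)]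
    field_simp
  rw [← hs] at hlt
  have hBa : 0 ≤ B / a := by positivity
  have h4 : a * s < a * M - B := by
    have := mul_lt_mul_of_pos_left hlt ha
    rw [mul_add, mul_div_cancel₀ _ ha.ne'] at this
    linarith
  have h5 : s < M := by linarith
  have h6 : a * s * s < (a * M - B) * M :=
    mul_lt_mul'' h4 h5 (by positivity) hs0
  nlinarith

/-- total variation under a shift: differentiate `t ↦ ∫ f (x + t v) exp (-Φ x) = ∫ f y exp (-Φ (y - t v))` -/
theorem WPot.shift {Φ : E ι → ℝ} (h : WPot Φ) {f : E ι → ℝ} (hf : Measurable f)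
    (hf1 : ∀ x, |f x| ≤ 1) (v : E ι) :
    |∫ x, f (x + v) ∂gibbs Φ - ∫ x, f x ∂gibbs Φ| ≤ ‖v‖ * ∫ x, ‖gradient Φ x‖ ∂gibbs Φ := by
  have hcg := h.cont
  have hc := h.diff.continuous
  obtain ⟨G, hG⟩ : ∃ G : E ι → ℝ, G = fun y => Real.exp (-Φ y) • ‖gradient Φ y‖ := ⟨_, rfl⟩
  have hGc : Continuous G := by rw [hG]; fun_prop
  have hG0 : ∀ y, 0 ≤ G y := fun y => by rw [hG]; exact smul_nonneg (Real.exp_pos _).le (norm_nonneg _)
  have hGi : Integrable G := by
    rw [hG]
    exact h.integrable_weight h.poly.norm' (Continuous.aestronglyMeasurable (by fun_prop))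
  -- pointwise bound
  have hpt : ∀ y, |Real.exp (-Φ (y - v)) - Real.exp (-Φ y)|
      ≤ ‖v‖ * ∫ t in Set.Ioc (0 : ℝ) 1, G (y - t • v) := fun y => by
    have hd : ∀ t : ℝ, HasDerivAt (fun t : ℝ => Real.exp (-Φ (y - t • v)))
        (Real.exp (-Φ (y - t • v)) * ⟪gradient Φ (y - t • v), v⟫) t := fun t => by
      have h1 : HasDerivAt (fun t : ℝ => y - t • v) (-v) t := by
        simpa using ((hasDerivAt_id t).smul_const v).const_sub y
      have h2 := ((h.diff (y - t • v)).hasFDerivAt.comp_hasDerivAt t h1).neg.exp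
      refine HasDerivAt.congr_deriv h2 ?_
      simp
    have h3 := intervalIntegral.integral_eq_sub_of_hasDerivAt (a := 0) (b := 1) (fun t _ => hd t)
      (Continuous.intervalIntegrable (by fun_prop) _ _)
    simp only [one_smul, zero_smul, sub_zero] at h3
    rw [← h3, ← intervalIntegral.integral_of_le zero_le_one, ← intervalIntegral.integral_const_mul,
      ← Real.norm_eq_abs]
    refine intervalIntegral.norm_integral_le_of_norm_le zero_le_one (ae_of_all _ fun t _ => ?_)
      (Continuous.intervalIntegrable (by fun_prop) _ _)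
    rw [hG, norm_mul, Real.norm_eq_abs, abs_of_pos (Real.exp_pos _)]
    simp only [smul_eq_mul]
    rw [mul_left_comm, mul_comm ‖v‖]
    exact mul_le_mul_of_nonneg_left (norm_inner_le_norm _ _) (Real.exp_pos _).le
  have hprod : Integrable (fun p : E ι × ℝ => G (p.1 - p.2 • v))
      (volume.prod (volume.restrict (Set.Ioc (0 : ℝ) 1))) := by
    rw [integrable_prod_iff' (Continuous.aestronglyMeasurable (by fun_prop))]
    refine ⟨ae_of_all _ fun t => hGi.comp_sub_right (t • v), ?_⟩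
    simp only [integral_sub_right_eq_self (fun y => ‖G y‖)]
    exact integrable_const _
  have hfub : ∫ y, ∫ t in Set.Ioc (0 : ℝ) 1, G (y - t • v) = ∫ y, G y := by
    rw [integral_integral_swap (f := fun y (t : ℝ) => G (y - t • v)) hprod]
    simp only [integral_sub_right_eq_self G]
    simp
  have hb : ∀ w : E ι → ℝ, Integrable w → Integrable fun y => w y • f y := fun w hw => by
    refine Integrable.mono' hw.norm (hw.1.smul hf.aestronglyMeasurable) (ae_of_all _ fun y => ?_)
    rw [norm_smul]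
    exact mul_le_of_le_one_right (norm_nonneg _) (hf1 y)
  have e1 : ∫ x, Real.exp (-Φ x) • f (x + v) = ∫ y, Real.exp (-Φ (y - v)) • f y := by
    rw [← integral_sub_right_eq_self _ v]
    simp only [sub_add_cancel]
  have key : |(∫ x, Real.exp (-Φ x) • f (x + v)) - ∫ x, Real.exp (-Φ x) • f x| ≤ ‖v‖ * ∫ y, G y := by
    rw [e1, ← integral_sub (hb _ (h.integrable_exp.comp_sub_right v)) (hb _ h.integrable_exp),
      ← hfub, ← integral_const_mul, ← Real.norm_eq_abs]
    refine norm_integral_le_of_norm_le (hprod.integral_prod_left.const_mul _)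
      (ae_of_all _ fun y => ?_)
    rw [← sub_smul, norm_smul]
    exact (mul_le_of_le_one_right (norm_nonneg _) (hf1 y)).trans (hpt y)
  have hZ := inv_pos.2 h.partition_pos
  rw [integral_gibbs, integral_gibbs, integral_gibbs, ← smul_sub, ← hG, smul_eq_mul, smul_eq_mul,
    abs_mul, abs_of_pos hZ, mul_left_comm]
  exact mul_le_mul_of_nonneg_left key hZ.le



end Crest.Agent.R285
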