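import Crest.Agent.R285.Flow
import Crest.Agent.R285.IBP

/-!
# Row 285 (S0430): Invar
Liouville's theorem: the flow of a divergence free field preserves the Gibbs measure.
For `φ` of class `C¹` with compact support put `ψ t = φ ∘ X t` (Lipschitz with compact support, locally
uniformly in `t`) and `ρ = exp (-Φ)`.  Then `d/dt ∫ ψ t ρ = ∫ Dφ (X t x) (b (X t x)) ρ x` (dominated
differentiation).  At every point of differentiability of `ψ t` (a.e., Rademacher
`LipschitzWith.ae_differentiableAt`) the flow property `X (t+s) x = X t (X s x)` gives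
`Dφ (X t x) (b (X t x)) = D(ψ t) x (b x) = ∑ a, lineDeriv (ψ t) x (bas a) * b x a`, and
`LipschitzWith.integral_lineDeriv_mul_eq` (with `b a * ρ * bump`) turns this into
`- ∫ ψ t * div (b ρ) = ∫ ψ t * divs Φ b * ρ = 0`.  Finally a finite Borel measure is determined by smooth
compactly supported test functions (e.g. `ext_of_forall_integral_eq_of_IsFiniteMeasure` plus approximation,
or `ae_eq_zero_of_integral_contDiff_smul_eq_zero`-type arguments, or closed sets via
`exists_contDiff_tsupport_subset` / bump functions decreasing to the indicator of a compact set).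
-/

set_option autoImplicit false

open MeasureTheory ProbabilityTheory Filter Topology
open scoped RealInnerProductSpace

noncomputable section

namespace Crest.Agent.R285

variable {ι : Type} [Fintype ι] {b : E ι → E ι} {X : ℝ → E ι → E ι}

/-- Lipschitz functions vanishing outside a ball -/
def LipC (ψ : E ι → ℝ) : Prop :=
  (∃ K, LipschitzWith K ψ) ∧ ∃ R : ℝ, ∀ x, R ≤ ‖x‖ → ψ x = 0

lemma LipC.hasCompactSupport {ψ : E ι → ℝ} (h : LipC ψ) : HasCompactSupport ψ := by
  obtain ⟨-, R, hR⟩ := h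
  refine HasCompactSupport.intro (isCompact_closedBall (0 : E ι) R) fun x hx => hR x ?_
  rw [mem_closedBall_zero_iff, not_le] at hx
  exact hx.le

lemma LipC.continuous {ψ : E ι → ℝ} (h : LipC ψ) : Continuous ψ := by
  obtain ⟨⟨K, hK⟩, -⟩ := h
  exact hK.continuous

lemma LipC.bdd {ψ : E ι → ℝ} (h : LipC ψ) : ∃ M, ∀ x, ‖ψ x‖ ≤ M :=
  h.hasCompactSupport.exists_bound_of_continuous h.continuous

/-- integration by parts against a Lipschitz function with compact support -/
lemma LipC.integral_div {ψ : E ι → ℝ} (h : LipC ψ) {g : ι → E ι → ℝ} (hg : ∀ a, ContDiff ℝ 1 (g a))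
    (hdiv : ∀ x, ∑ a, pd a (g a) x = 0) :
    ∫ x, ∑ a, g a x * pd a ψ x = 0 := by
  obtain ⟨K, hK⟩ := h.1
  obtain ⟨R, hR⟩ := h.2
  let χ : ContDiffBump (0 : E ι) := ⟨|R| + 1, |R| + 2, by positivity, by linarith⟩
  have hχ1 : ∀ x : E ι, ‖x‖ ≤ |R| + 1 → χ x = 1 := fun x hx =>
    χ.one_of_mem_closedBall (by rwa [mem_closedBall_zero_iff])
  let g' : ι → E ι → ℝ := fun a x => χ x * g a x
  have hg'c : ∀ a, ContDiff ℝ 1 (g' a) := fun a => χ.contDiff.mul (hg a)
  have hg's : ∀ a, HasCompactSupport (g' a) := fun a => χ.hasCompactSupport.mul_right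
  have hg'd : ∀ a, Differentiable ℝ (g' a) := fun a => (hg'c a).differentiable one_ne_zero
  have h1 : ∀ a, ∫ x, lineDeriv ℝ ψ x (bas a) * g' a x = ∫ x, lineDeriv ℝ (g' a) x (-bas a) * ψ x := by
    intro a
    obtain ⟨K', hK'⟩ := ContDiff.lipschitzWith_of_hasCompactSupport (hg's a) (hg'c a) one_ne_zero
    exact hK.integral_lineDeriv_mul_eq hK' (hg's a) _
  have hi1 : ∀ a, Integrable fun x => lineDeriv ℝ ψ x (bas a) * g' a x := fun a =>
    ((hg'c a).continuous.integrable_of_hasCompactSupport (hg's a)).mul_of_top_right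
      (hK.memLp_lineDeriv _)
  have he2 : ∀ a x, lineDeriv ℝ (g' a) x (-bas a) = -pd a (g' a) x := fun a x => by
    rw [(hg'd a x).lineDeriv_eq_fderiv, map_neg]; rfl
  have hi2 : ∀ a, Integrable fun x => lineDeriv ℝ (g' a) x (-bas a) * ψ x := by
    intro a
    simp only [he2]
    have hc : Continuous fun x => pd a (g' a) x :=
      ((hg'c a).continuous_fderiv one_ne_zero).clm_apply continuous_const
    exact (hc.neg.mul h.continuous).integrable_of_hasCompactSupport h.hasCompactSupport.mul_left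
  have h3 : ∀ x, ∑ a, lineDeriv ℝ (g' a) x (-bas a) * ψ x = 0 := by
    intro x
    by_cases hx : R ≤ ‖x‖
    · simp [hR x hx]
    · have hxR : ‖x‖ < |R| + 1 := by linarith [le_abs_self R, not_le.1 hx]
      have he : ∀ a, pd a (g' a) x = pd a (g a) x := by
        intro a
        have : g' a =ᶠ[𝓝 x] g a := by
          have hb : Metric.ball (0 : E ι) (|R| + 1) ∈ 𝓝 x :=
            Metric.isOpen_ball.mem_nhds (by rwa [mem_ball_zero_iff])
          filter_upwards [hb] with y hy
          rw [mem_ball_zero_iff] at hy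
          simp only [g', hχ1 y hy.le, one_mul]
        unfold pd; rw [this.fderiv_eq]
      simp only [he2, he]
      rw [← Finset.sum_mul, Finset.sum_neg_distrib, hdiv x, neg_zero, zero_mul]
  calc ∫ x, ∑ a, g a x * pd a ψ x = ∫ x, ∑ a, lineDeriv ℝ ψ x (bas a) * g' a x := by
        refine integral_congr_ae ?_
        filter_upwards [hK.ae_differentiableAt (μ := volume)] with x hx
        refine Finset.sum_congr rfl fun a _ => ?_
        rw [hx.lineDeriv_eq_fderiv]
        by_cases hxR : ‖x‖ ≤ |R| + 1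
        · simp only [g', hχ1 x hxR, one_mul, pd]; ring
        · have : ψ =ᶠ[𝓝 x] fun _ => 0 := by
            have hb : {y : E ι | R < ‖y‖} ∈ 𝓝 x :=
              (isOpen_lt continuous_const continuous_norm).mem_nhds
                (by simp only [Set.mem_ofPred_eq]; linarith [le_abs_self R, not_le.1 hxR])
            filter_upwards [hb] with y hy
            exact hR y hy.le
          simp only [pd, this.fderiv_eq, fderiv_fun_const, Pi.zero_apply,
            zero_apply, mul_zero, zero_mul]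
    _ = ∑ a, ∫ x, lineDeriv ℝ ψ x (bas a) * g' a x := integral_finsetSum _ fun a _ => hi1 a
    _ = ∑ a, ∫ x, lineDeriv ℝ (g' a) x (-bas a) * ψ x := Finset.sum_congr rfl fun a _ => h1 a
    _ = ∫ x, ∑ a, lineDeriv ℝ (g' a) x (-bas a) * ψ x :=
        (integral_finsetSum _ fun a _ => hi2 a).symm
    _ = 0 := by simp only [h3, integral_zero]

/-- the generator has mean zero -/
lemma LipC.integral_lie {ψ : E ι → ℝ} (h : LipC ψ) (hb : ContDiff ℝ 1 b) {Φ : E ι → ℝ}
    (hΦ : NicePot Φ) (hdiv : ∀ x, divs Φ (fun a z => b z a) x = 0) :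
    ∫ x, fderiv ℝ ψ x (b x) ∂gibbs Φ = 0 := by
  have hΦ1 : ContDiff ℝ 1 Φ := by
    have := contDiff_of_gradient hΦ.1 (n := 0) (TG.contDiff hΦ.2.1 0)
    simpa using this
  have hba : ∀ a, ContDiff ℝ 1 fun z => b z a := fun a =>
    (EuclideanSpace.proj a : E ι →L[ℝ] ℝ).contDiff.comp hb
  have hρ : ContDiff ℝ 1 fun x => Real.exp (-Φ x) := hΦ1.neg.exp
  have key := h.integral_div (g := fun a x => Real.exp (-Φ x) * b x a)
    (fun a => hρ.mul (hba a)) (fun x => by
      have h0 := hdiv x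
      unfold divs at h0
      have h1 : ∀ a, pd a (fun x => Real.exp (-Φ x) * b x a) x =
          -Real.exp (-Φ x) * (gradient Φ x a • b x a - pd a (fun z => b z a) x) := by
        intro a
        rw [pd_mul a (hρ.differentiable one_ne_zero) ((hba a).differentiable one_ne_zero)]
        have h2 : pd a (fun x => Real.exp (-Φ x)) x = -Real.exp (-Φ x) * gradient Φ x a := by
          rw [gradient_coord]
          unfold pd
          rw [((hΦ.1 x).hasFDerivAt.fun_neg.exp).fderiv]
          simp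
        simp only [h2, smul_eq_mul]; ring
      simp only [h1]
      rw [← Finset.mul_sum, h0, mul_zero])
  rw [integral_gibbs]
  have : ∀ x, Real.exp (-Φ x) • fderiv ℝ ψ x (b x) =
      ∑ a, Real.exp (-Φ x) * b x a * pd a ψ x := by
    intro x
    rw [fderiv_apply_eq_sum_pd, Finset.smul_sum]
    exact Finset.sum_congr rfl fun a _ => by simp only [smul_eq_mul]; ring
  simp only [this, key, smul_zero]

lemma flow_const_nonneg {C : ℝ} (hg : ∀ x, ‖b x‖ ≤ C * (1 + ‖x‖)) : 0 ≤ C := by
  have := hg 0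
  rw [norm_zero, add_zero, mul_one] at this
  exact (norm_nonneg _).trans this

/-- the class is stable under the flow -/
lemma LipC.comp_flow {ψ : E ι → ℝ} (h : LipC ψ) (hX : IsFlow b X) (hb : ContDiff ℝ 1 b)
    (hg : ∃ C, ∀ x, ‖b x‖ ≤ C * (1 + ‖x‖)) (t : ℝ) : LipC fun x => ψ (X t x) := by
  obtain ⟨K, hK⟩ := h.1
  obtain ⟨R, hR⟩ := h.2
  obtain ⟨M, hM⟩ := h.bdd
  obtain ⟨C, hC⟩ := hg
  have hC0 := flow_const_nonneg hC
  set R' := (1 + |R|) * Real.exp (C * |t|) with hR'
  have hz : ∀ x, R' ≤ ‖x‖ → ψ (X t x) = 0 := by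
    intro x hx
    refine hR _ ?_
    by_contra hlt
    have h1 := hX.norm_le hC0 hC (-t) (X t x)
    rw [← hX.add hb, neg_add_cancel, hX.zero, abs_neg] at h1
    have h2 : (1 + ‖X t x‖) * Real.exp (C * |t|) ≤ R' := by
      rw [hR']; gcongr; linarith [le_abs_self R, not_le.1 hlt]
    linarith
  refine ⟨?_, R', hz⟩
  obtain ⟨L, hL⟩ := hX.lipschitzOn hb ⟨C, hC⟩ |t| (R' + 1)
  have hM0 : 0 ≤ M := (norm_nonneg _).trans (hM 0)
  refine ⟨Real.toNNReal (K * |L| + M), LipschitzWith.of_dist_le' fun x y => ?_⟩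
  have hd : 0 ≤ dist x y := dist_nonneg
  have hKL : 0 ≤ (K : ℝ) * |L| := by positivity
  have far : ∀ x y : E ι, ¬ ‖y‖ ≤ R' + 1 →
      dist (ψ (X t x)) (ψ (X t y)) ≤ (K * |L| + M) * dist x y := by
    intro x y hy
    have hy' := not_le.1 hy
    rw [hz y (by linarith), dist_zero_right]
    by_cases hx : R' ≤ ‖x‖
    · rw [hz x hx, norm_zero]; positivity
    · have h1 : 1 ≤ dist x y := by
        rw [dist_comm, dist_eq_norm]
        linarith [norm_sub_norm_le y x, not_le.1 hx]
      calc _ ≤ M := hM _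
        _ ≤ (K * |L| + M) * 1 := by linarith
        _ ≤ _ := by gcongr
  by_cases hy : ‖y‖ ≤ R' + 1
  · by_cases hx : ‖x‖ ≤ R' + 1
    · calc dist (ψ (X t x)) (ψ (X t y)) ≤ K * dist (X t x) (X t y) := hK.dist_le_mul _ _
        _ ≤ K * (|L| * dist x y) := by
            gcongr
            rw [dist_eq_norm, dist_eq_norm]
            exact (hL t le_rfl x y hx hy).trans (by gcongr; exact le_abs_self L)
        _ ≤ _ := by nlinarith
    · rw [dist_comm, dist_comm x]; exact far y x hx
  · exact far x y hy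

lemma LipC.hasDerivAt_zero {ψ : E ι → ℝ} (h : LipC ψ) (hX : IsFlow b X) (hb : ContDiff ℝ 1 b)
    (hg : ∃ C, ∀ x, ‖b x‖ ≤ C * (1 + ‖x‖)) {Φ : E ι → ℝ} (hΦ : NicePot Φ)
    (hdiv : ∀ x, divs Φ (fun a z => b z a) x = 0) :
    HasDerivAt (fun s => ∫ x, ψ (X s x) ∂gibbs Φ) 0 0 := by
  obtain ⟨K, hK⟩ := h.1
  obtain ⟨M, hM⟩ := h.bdd
  obtain ⟨C, hC⟩ := hg
  have hC0 := flow_const_nonneg hC
  have := hΦ.wpot.prob
  have hac : gibbs Φ ≪ volume := tilted_absolutelyContinuous _ _
  have hcont : ∀ s, Continuous fun x => ψ (X s x) := fun s => h.continuous.comp (hX.continuous s)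
  have key := hasDerivAt_integral_of_dominated_loc_of_lip (μ := gibbs Φ)
    (F := fun s x => ψ (X s x)) (x₀ := (0 : ℝ)) (F' := fun x => fderiv ℝ ψ x (b x))
    (bound := fun x => K * (C * Real.exp C * (1 + ‖x‖))) (s := Metric.ball 0 1)
    (Metric.ball_mem_nhds 0 one_pos)
    (Eventually.of_forall fun s => (hcont s).aestronglyMeasurable)
    (Integrable.of_bound (hcont 0).aestronglyMeasurable M (ae_of_all _ fun x => hM _))
    ?_ ?_ ?_ ?_
  · have h2 := key.2
    rwa [h.integral_lie hb hΦ hdiv] at h2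
  · simp only [fderiv_apply_eq_sum_pd]
    refine (Finset.measurable_sum _ fun a _ => ?_).aestronglyMeasurable
    exact (((EuclideanSpace.proj a : E ι →L[ℝ] ℝ).continuous.comp hb.continuous).measurable).smul
      (measurable_fderiv_apply_const ℝ ψ (bas a))
  · refine ae_of_all _ fun x => ?_
    have hb0 : 0 ≤ C * Real.exp C * (1 + ‖x‖) := by positivity
    refine LipschitzOnWith.of_dist_le_mul fun s hs s' hs' => ?_
    have h1 : ‖X s x - X s' x‖ ≤ C * Real.exp C * (1 + ‖x‖) * ‖s - s'‖ := by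
      refine (convex_ball (0 : ℝ) 1).norm_image_sub_le_of_norm_hasDerivWithin_le
        (f := fun s => X s x) (f' := fun s => b (X s x))
        (fun u _ => (hX.deriv u x).hasDerivWithinAt) (fun u hu => ?_) hs' hs
      rw [mem_ball_zero_iff, Real.norm_eq_abs] at hu
      calc ‖b (X u x)‖ ≤ C * (1 + ‖X u x‖) := hC _
        _ ≤ C * ((1 + ‖x‖) * Real.exp (C * |u|)) := by gcongr; exact hX.norm_le hC0 hC u x
        _ ≤ C * ((1 + ‖x‖) * Real.exp (C * 1)) := by gcongr
        _ = _ := by rw [mul_one]; ring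
    rw [Real.coe_nnabs, abs_of_nonneg (by positivity)]
    calc dist (ψ (X s x)) (ψ (X s' x)) ≤ K * dist (X s x) (X s' x) := hK.dist_le_mul _ _
      _ ≤ K * (C * Real.exp C * (1 + ‖x‖) * ‖s - s'‖) := by rw [dist_eq_norm]; gcongr
      _ = _ := by rw [dist_eq_norm]; ring
  · refine hΦ.wpot.integrable ⟨1, K * (C * Real.exp C), fun x => ?_⟩
      (by fun_prop : Continuous fun x : E ι =>
        (K : ℝ) * (C * Real.exp C * (1 + ‖x‖))).aestronglyMeasurable
    rw [Real.norm_eq_abs, abs_of_nonneg (by positivity), pow_one]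
    exact le_of_eq (by ring)
  · filter_upwards [hac (hK.ae_differentiableAt (μ := volume))] with x hx
    have h1 : HasFDerivAt ψ (fderiv ℝ ψ x) (X 0 x) := by rw [hX.zero]; exact hx.hasFDerivAt
    have h2 := h1.comp_hasDerivAt 0 (hX.deriv 0 x)
    rwa [hX.zero] at h2

lemma LipC.integral_flow {ψ : E ι → ℝ} (h : LipC ψ) (hX : IsFlow b X) (hb : ContDiff ℝ 1 b)
    (hg : ∃ C, ∀ x, ‖b x‖ ≤ C * (1 + ‖x‖)) {Φ : E ι → ℝ} (hΦ : NicePot Φ)
    (hdiv : ∀ x, divs Φ (fun a z => b z a) x = 0) (t : ℝ) :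
    ∫ x, ψ (X t x) ∂gibbs Φ = ∫ x, ψ x ∂gibbs Φ := by
  have hd : ∀ t, HasDerivAt (fun s => ∫ x, ψ (X s x) ∂gibbs Φ) 0 t := by
    intro t
    have h1 := (h.comp_flow hX hb hg t).hasDerivAt_zero hX hb hg hΦ hdiv
    have h2 : HasDerivAt (fun s => ∫ x, ψ (X t (X (s - t) x)) ∂gibbs Φ) 0 t := by
      have h3 : HasDerivAt (fun s => ∫ x, ψ (X t (X s x)) ∂gibbs Φ) 0 (t - t) := by
        rwa [sub_self]
      exact h3.comp_sub_const t t
    simpa only [← hX.add hb, add_sub_cancel] using h2
  have := is_const_of_deriv_eq_zero (fun s => (hd s).differentiableAt) (fun s => (hd s).deriv) t 0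
  simpa only [hX.zero] using this

/-- a finite measure is determined by the class `LipC` -/
lemma ext_of_lipC {μ ν : Measure (E ι)} [IsFiniteMeasure μ] [IsFiniteMeasure ν]
    (h : ∀ ψ, LipC ψ → ∫ x, ψ x ∂μ = ∫ x, ψ x ∂ν) : μ = ν := by
  have hK : ∀ K : Set (E ι), IsCompact K → μ K = ν K := by
    intro K hK
    have hpos : ∀ n : ℕ, (0 : ℝ) < 1 / ((n : ℝ) + 1) := fun n => by positivity
    have h1 := tendsto_integral_thickenedIndicator_of_isClosed μ hK.isClosed hpos
      tendsto_one_div_add_atTop_nhds_zero_nat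
    have h2 := tendsto_integral_thickenedIndicator_of_isClosed ν hK.isClosed hpos
      tendsto_one_div_add_atTop_nhds_zero_nat
    have h3 : ∀ n : ℕ, LipC fun x => (thickenedIndicator (hpos n) K x : ℝ) := by
      intro n
      refine ⟨⟨_, isometry_subtype_coe.lipschitz.comp (lipschitzWith_thickenedIndicator (hpos n) K)⟩,
        ?_⟩
      obtain ⟨R, hR⟩ := (hK.isBounded.thickening (δ := 1 / ((n : ℝ) + 1))).subset_ball 0
      refine ⟨R, fun x hx => ?_⟩
      show ((thickenedIndicator (hpos n) K x : NNReal) : ℝ) = 0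
      rw [thickenedIndicator_zero (hpos n) K (fun hx' => ?_), NNReal.coe_zero]
      have := hR hx'
      rw [mem_ball_zero_iff] at this
      linarith
    simp only [h _ (h3 _)] at h1
    have h4 := tendsto_nhds_unique h1 h2
    rwa [measureReal_eq_measureReal_iff (measure_ne_top _ _) (measure_ne_top _ _)] at h4
  ext U hU
  rw [hU.measure_eq_iSup_isCompact μ, hU.measure_eq_iSup_isCompact ν]
  exact iSup_congr fun K => iSup_congr fun _ => iSup_congr fun hK' => hK K hK'

theorem IsFlow.measurePreserving (hX : IsFlow b X) (hb : ContDiff ℝ 1 b)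
    (hg : ∃ C, ∀ x, ‖b x‖ ≤ C * (1 + ‖x‖)) {Φ : E ι → ℝ} (hΦ : NicePot Φ)
    (hdiv : ∀ x, divs Φ (fun a z => b z a) x = 0) (t : ℝ) :
    MeasurePreserving (X t) (gibbs Φ) (gibbs Φ) := by
  have := hΦ.wpot.prob
  have hm : Measurable (X t) := (hX.continuous t).measurable
  refine ⟨hm, ext_of_lipC fun ψ hψ => ?_⟩
  rw [integral_map hm.aemeasurable hψ.continuous.aestronglyMeasurable]
  exact hψ.integral_flow hX hb hg hΦ hdiv t


end Crest.Agent.R285
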