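import Crest.Agent.R285.Gauss

/-!
# Row 285 (S0430): Param
Differentiation under a Gaussian integral (`hasFDerivAt_integral_of_dominated_of_fderiv_le`, with the
polynomial bound of `fderiv F` on a unit ball).  `TG.integral_right`: `TG.of_class` with the class
`{x ↦ ∫ z, F (pair x z) | TG F}`.
-/

set_option autoImplicit false

open MeasureTheory ProbabilityTheory Filter Topology
open scoped RealInnerProductSpace

noncomputable section

namespace Crest.Agent.R285

variable {ι κ ζ α β : Type} [Fintype ι] [Fintype κ] [Fintype ζ] [Fintype α] [Fintype β]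
variable {Y Y' : Type} [NormedAddCommGroup Y] [NormedSpace ℝ Y] [NormedAddCommGroup Y']
  [NormedSpace ℝ Y']

omit [NormedSpace ℝ Y] in
/-- polynomial bounds split along `pair` -/
lemma param_polyB_pair {F : E (ι ⊕ ζ) → Y} (hF : PolyB F) :
    ∃ (k : ℕ) (C : ℝ), 0 ≤ C ∧ ∀ x z, ‖F (pair x z)‖ ≤ C * (1 + ‖x‖) ^ k * (1 + ‖z‖) ^ k := by
  obtain ⟨k, C, hC⟩ := hF
  refine ⟨k, max C 0, le_max_right _ _, fun x z => (hC _).trans ?_⟩
  have h1 : 1 + ‖pair x z‖ ≤ (1 + ‖x‖) * (1 + ‖z‖) := by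
    have := norm_pair_le x z
    nlinarith [mul_nonneg (norm_nonneg x) (norm_nonneg z)]
  rw [mul_assoc, ← mul_pow]
  exact mul_le_mul (le_max_left _ _) (pow_le_pow_left₀ (by positivity) h1 k) (by positivity)
    (le_max_right _ _)

lemma param_integrable_pow (k : ℕ) : Integrable (fun z : E ζ => (1 + ‖z‖) ^ k) (γ ζ) := by
  simpa using integrable_exp_γ (ι := ζ) 0 k

lemma param_hasFDerivAt_pair_left {F : E (ι ⊕ ζ) → Y} (hF : TG F) (x : E ι) (z : E ζ) :
    HasFDerivAt (fun x => F (pair x z)) ((fderiv ℝ F (pair x z)).comp inlL) x := by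
  have h1 : HasFDerivAt (fun x : E ι => pair x z) inlL x := by
    simp only [pair_eq]
    exact (inlL : E ι →L[ℝ] E (ι ⊕ ζ)).hasFDerivAt.add_const _
  exact (hF.differentiable (pair x z)).hasFDerivAt.comp x h1

lemma param_hasFDerivAt_pair_right {F : E (ι ⊕ ζ) → Y} (hF : TG F) (x : E ι) (z : E ζ) :
    HasFDerivAt (fun z => F (pair x z)) ((fderiv ℝ F (pair x z)).comp inrL) z := by
  have h1 : HasFDerivAt (fun z : E ζ => pair x z) inrL z := by
    simp only [pair_eq]
    exact (inrL : E ζ →L[ℝ] E (ι ⊕ ζ)).hasFDerivAt.const_add _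
  exact (hF.differentiable (pair x z)).hasFDerivAt.comp z h1

theorem TG.pair_right {F : E (ι ⊕ ζ) → Y} (hF : TG F) (x : E ι) : TG fun z => F (pair x z) := by
  have h1 : TG fun z : E ζ => pair x z := by
    simp only [pair_eq]
    exact TG.affine (inrL : E ζ →L[ℝ] E (ι ⊕ ζ)) (inlL x)
  exact hF.comp' h1

theorem TG.fderiv_pair_right {F : E (ι ⊕ ζ) → Y} (hF : TG F) (x : E ι) (z : E ζ) :
    fderiv ℝ (fun z => F (pair x z)) z = (fderiv ℝ F (pair x z)).comp inrL :=
  (param_hasFDerivAt_pair_right hF x z).fderiv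

/-- partial derivatives with the first block frozen -/
lemma TG.pd_pair_right {F : E (ι ⊕ ζ) → Y} (hF : TG F) (x : E ι) (a : ζ) :
    pd a (fun z => F (pair x z)) = fun z => pd (Sum.inr a) F (pair x z) := by
  funext z
  simp only [pd, hF.fderiv_pair_right, ContinuousLinearMap.comp_apply, inrL_apply, bas_inr]

lemma param_TG_fderiv_inl {F : E (ι ⊕ ζ) → Y} (hF : TG F) :
    TG fun w => (fderiv ℝ F w).comp (inlL : E ι →L[ℝ] E (ι ⊕ ζ)) :=
  TG.clm_comp hF.fderiv' (Function.HasTemperateGrowth.const _)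

/-- Jensen for the squared norm -/
lemma param_norm_integral_sq_le {Ω : Type} [MeasurableSpace Ω] {μ : Measure Ω}
    [IsProbabilityMeasure μ] {f : Ω → Y} (hf : AEStronglyMeasurable f μ)
    (h2 : Integrable (fun z => ‖f z‖ ^ 2) μ) : ‖∫ z, f z ∂μ‖ ^ 2 ≤ ∫ z, ‖f z‖ ^ 2 ∂μ := by
  have hm : MemLp (fun z => ‖f z‖) 2 μ := (memLp_two_iff_integrable_sq hf.norm).2 h2
  have hv := variance_nonneg (fun z => ‖f z‖) μ
  rw [variance_eq_sub hm] at hv
  have h1 : ‖∫ z, f z ∂μ‖ ^ 2 ≤ (∫ z, ‖f z‖ ∂μ) ^ 2 :=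
    pow_le_pow_left₀ (norm_nonneg _) (norm_integral_le_integral_norm _) 2
  have h3 : (∫ z, ((fun z => ‖f z‖) ^ 2) z ∂μ) = ∫ z, ‖f z‖ ^ 2 ∂μ := rfl
  rw [h3] at hv
  linarith

lemma param_HS_nonneg (r : ℝ) (n : ℕ) (f : E ι → Y) (x : E ι) : 0 ≤ HS r n f x := by
  induction n generalizing f with
  | zero => exact sq_nonneg _
  | succ n ih =>
    exact add_nonneg (sq_nonneg _) (mul_nonneg (sq_nonneg _) (Finset.sum_nonneg fun a _ => ih _))

variable [CompleteSpace Y]

omit [CompleteSpace Y] in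
lemma param_integrable_pair {F : E (ι ⊕ ζ) → Y} (hF : TG F) (x : E ι) :
    Integrable (fun z => F (pair x z)) (γ ζ) := (hF.pair_right x).integrable_γ

theorem TG.integrable_pair {F : E (ι ⊕ ζ) → Y} (hF : TG F) (x : E ι) :
    Integrable (fun z => F (pair x z)) (γ ζ) := by
  have _ : CompleteSpace Y := inferInstance
  exact param_integrable_pair hF x
theorem TG.hasFDerivAt_integral {F : E (ι ⊕ ζ) → Y} (hF : TG F) (x : E ι) :
    HasFDerivAt (fun x => ∫ z, F (pair x z) ∂γ ζ)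
      (∫ z, (fderiv ℝ F (pair x z)).comp inlL ∂γ ζ) x := by
  obtain ⟨k, C, hC0, hC⟩ := param_polyB_pair (param_TG_fderiv_inl hF).polyB
  refine hasFDerivAt_integral_of_dominated_of_fderiv_le (μ := γ ζ)
    (F := fun x z => F (pair x z)) (F' := fun x z => (fderiv ℝ F (pair x z)).comp inlL)
    (bound := fun z => C * (2 + ‖x‖) ^ k * (1 + ‖z‖) ^ k) (Metric.ball_mem_nhds x one_pos)
    (Eventually.of_forall fun y => (hF.integrable_pair y).aestronglyMeasurable)
    (hF.integrable_pair x)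
    (param_integrable_pair (param_TG_fderiv_inl hF) x).aestronglyMeasurable
    (Eventually.of_forall fun z y hy => (hC y z).trans ?_)
    ((param_integrable_pow k).const_mul _)
    (Eventually.of_forall fun z y _ => param_hasFDerivAt_pair_left hF y z)
  have h1 : ‖y‖ ≤ 1 + ‖x‖ := by
    have h2 : ‖y - x‖ < 1 := mem_ball_iff_norm.1 hy
    have h3 := norm_le_norm_add_norm_sub' y x
    linarith
  have h2 : 1 + ‖y‖ ≤ 2 + ‖x‖ := by linarith
  gcongr
theorem TG.fderiv_integral {F : E (ι ⊕ ζ) → Y} (hF : TG F) (x : E ι) :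
    fderiv ℝ (fun x => ∫ z, F (pair x z) ∂γ ζ) x =
      ∫ z, (fderiv ℝ F (pair x z)).comp inlL ∂γ ζ := (hF.hasFDerivAt_integral x).fderiv
theorem TG.pd_integral {F : E (ι ⊕ ζ) → Y} (hF : TG F) (a : ι) :
    pd a (fun x => ∫ z, F (pair x z) ∂γ ζ) =
      fun x => ∫ z, pd (Sum.inl a) F (pair x z) ∂γ ζ := by
  funext x
  rw [pd, hF.fderiv_integral,
    ContinuousLinearMap.integral_apply (param_integrable_pair (param_TG_fderiv_inl hF) x)]
  simp only [pd, ContinuousLinearMap.comp_apply, inlL_apply, bas_inl]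
theorem TG.integral_right {F : E (ι ⊕ ζ) → Y} (hF : TG F) :
    TG fun x => ∫ z, F (pair x z) ∂γ ζ := by
  refine TG.of_class (fun f => ∃ G : E (ι ⊕ ζ) → Y, TG G ∧ f = fun x => ∫ z, G (pair x z) ∂γ ζ)
    ?_ ⟨F, hF, rfl⟩
  rintro f ⟨G, hG, rfl⟩
  refine ⟨fun x => (hG.hasFDerivAt_integral x).differentiableAt, ?_,
    fun a => ⟨_, hG.pd' (Sum.inl a), hG.pd_integral a⟩⟩
  obtain ⟨k, C, -, hC⟩ := param_polyB_pair hG.polyB
  refine ⟨k, C * ∫ z : E ζ, (1 + ‖z‖) ^ k ∂γ ζ, fun x => ?_⟩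
  refine (norm_integral_le_of_norm_le
    ((param_integrable_pow (ζ := ζ) k).const_mul (C * (1 + ‖x‖) ^ k))
    (Eventually.of_forall fun z => hC x z)).trans (le_of_eq ?_)
  rw [integral_const_mul]
  ring
theorem integral_clm_apply {M : E (ι ⊕ ζ) → (E α →L[ℝ] E β)} (hM : TG M) (x : E ι) (v : E α) :
    (∫ z, M (pair x z) ∂γ ζ) v = ∫ z, M (pair x z) v ∂γ ζ :=
  ContinuousLinearMap.integral_apply (param_integrable_pair hM x) v
theorem adj_integral {M : E (ι ⊕ ζ) → (E α →L[ℝ] E β)} (hM : TG M) (x : E ι) :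
    adj (∫ z, M (pair x z) ∂γ ζ) = ∫ z, adj (M (pair x z)) ∂γ ζ := by
  obtain ⟨A, hA⟩ := exists_adjL (α := α) (β := β)
  simp only [← hA]
  exact (A.integral_comp_comm (param_integrable_pair hM x)).symm
/-- Jensen for jets: induction on `n` (for all `F`) -/
theorem HS_integral_le {F : E (ι ⊕ ζ) → E κ} (hF : TG F) (r : ℝ) (n : ℕ) (x : E ι) :
    HS r n (fun x => ∫ z, F (pair x z) ∂γ ζ) x ≤ ∫ z, HS r n F (pair x z) ∂γ ζ := by
  have h0 : ∀ {F : E (ι ⊕ ζ) → E κ}, TG F →
      ‖∫ z, F (pair x z) ∂γ ζ‖ ^ 2 ≤ ∫ z, ‖F (pair x z)‖ ^ 2 ∂γ ζ := fun hF =>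
    param_norm_integral_sq_le (hF.integrable_pair x).aestronglyMeasurable
      (hF.norm_sq.integrable_pair x)
  induction n generalizing F with
  | zero => exact h0 hF
  | succ n ih =>
    have i0 : Integrable (fun z => ‖F (pair x z)‖ ^ 2) (γ ζ) := hF.norm_sq.integrable_pair x
    have i1 : ∀ a : ι, Integrable (fun z => HS r n (pd (Sum.inl a) F) (pair x z)) (γ ζ) :=
      fun a => ((hF.pd' _).hs r n).integrable_pair x
    have i2 : Integrable (fun z => r ^ 2 * ∑ a : ι, HS r n (pd (Sum.inl a) F) (pair x z)) (γ ζ) :=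
      (integrable_finsetSum _ fun a _ => i1 a).const_mul _
    calc HS r (n + 1) (fun x => ∫ z, F (pair x z) ∂γ ζ) x
        = ‖∫ z, F (pair x z) ∂γ ζ‖ ^ 2 +
          r ^ 2 * ∑ a : ι, HS r n (fun x => ∫ z, pd (Sum.inl a) F (pair x z) ∂γ ζ) x := by
          simp only [HS, hF.pd_integral]
      _ ≤ ∫ z, ‖F (pair x z)‖ ^ 2 ∂γ ζ +
          r ^ 2 * ∑ a : ι, ∫ z, HS r n (pd (Sum.inl a) F) (pair x z) ∂γ ζ :=
          add_le_add (h0 hF) (mul_le_mul_of_nonneg_left
            (Finset.sum_le_sum fun a _ => ih (hF.pd' _)) (sq_nonneg _))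
      _ = ∫ z, (‖F (pair x z)‖ ^ 2 +
          r ^ 2 * ∑ a : ι, HS r n (pd (Sum.inl a) F) (pair x z)) ∂γ ζ := by
          rw [integral_add i0 i2, integral_const_mul, integral_finsetSum _ fun a _ => i1 a]
      _ ≤ ∫ z, HS r (n + 1) F (pair x z) ∂γ ζ := by
          refine integral_mono (i0.add i2) ((hF.hs r (n + 1)).integrable_pair x) fun z => ?_
          simp only [HS, Fintype.sum_sum_type]
          refine add_le_add le_rfl (mul_le_mul_of_nonneg_left ?_ (sq_nonneg _))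
          exact le_add_of_nonneg_right (Finset.sum_nonneg fun a _ => param_HS_nonneg _ _ _ _)
/-- Lipschitz functions: averaging keeps the constant -/
theorem Lip.integral_right {L : ℝ} {F : E (ι ⊕ ζ) → Y} (hF : Lip L F) :
    Lip L fun x => ∫ z, F (pair x z) ∂γ ζ := by
  have _ : CompleteSpace Y := inferInstance
  have hi : ∀ x : E ι, Integrable (fun z => F (pair x z)) (γ ζ) := fun x =>
    ((hF.mono (le_max_left L 0)).comp (le_max_right _ _) (Lip.pair_right x)).integrable_γ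
  intro x y
  rw [← integral_sub (hi x) (hi y)]
  have := norm_integral_le_of_norm_le_const (μ := γ ζ)
    (f := fun z => F (pair x z) - F (pair y z)) (C := L * ‖x - y‖)
    (Eventually.of_forall fun z => by
      have h1 := hF (pair x z) (pair y z)
      rwa [pair_sub, sub_self, norm_pair_zero_right] at h1)
  simpa using this


end Crest.Agent.R285
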