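import Crest.Agent.R285.HS
import Crest.Agent.R285.Param

/-!
# Row 285 (S0430): Mult
Closure properties of multiplier bounds.
-/

set_option autoImplicit false

open MeasureTheory ProbabilityTheory Filter Topology
open scoped RealInnerProductSpace

noncomputable section

namespace Crest.Agent.R285

variable {ι κ ζ α β : Type} [Fintype ι] [Fintype κ] [Fintype ζ] [Fintype α] [Fintype β]
variable {Y Y' : Type} [NormedAddCommGroup Y] [NormedSpace ℝ Y] [NormedAddCommGroup Y']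
  [NormedSpace ℝ Y']

variable {r m m' : ℝ} {n : ℕ}

lemma mult_TG_apply {X : Type} [NormedAddCommGroup X] [NormedSpace ℝ X] {M : X → (Y →L[ℝ] Y')}
    (hM : TG M) (v : Y) : TG fun x => M x v :=
  hM.clm_apply (Function.HasTemperateGrowth.const v)
lemma mult_norm_sq_apply_le (B : Y →L[ℝ] Y') (v : Y) : ‖B v‖ ^ 2 ≤ ‖B‖ ^ 2 * ‖v‖ ^ 2 := by
  rw [← mul_pow]
  exact pow_le_pow_left₀ (norm_nonneg _) (B.le_opNorm v) 2
lemma mult_pow_le {c : ℝ} (hc : 1 ≤ c) (a : ℝ) (v : E α) :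
    c * (a ^ 2 * ‖v‖ ^ 2) ≤ (c * a) ^ 2 * ‖v‖ ^ 2 := by
  have h0 : 0 ≤ a ^ 2 * ‖v‖ ^ 2 := by positivity
  have h1 : c ≤ c ^ 2 := by nlinarith
  calc c * (a ^ 2 * ‖v‖ ^ 2) ≤ c ^ 2 * (a ^ 2 * ‖v‖ ^ 2) := mul_le_mul_of_nonneg_right h1 h0
    _ = _ := by ring
/-- freezing the first block does not increase the jet norm -/
lemma HS_pair_right_le (r : ℝ) (n : ℕ) {F : E (ι ⊕ ζ) → Y} (hF : TG F) (x : E ι) (z : E ζ) :
    HS r n (fun z => F (pair x z)) z ≤ HS r n F (pair x z) := by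
  induction n generalizing F with
  | zero => exact le_rfl
  | succ n ih =>
    rw [HS_succ, HS_succ, Fintype.sum_sum_type]
    refine add_le_add le_rfl (mul_le_mul_of_nonneg_left ?_ (sq_nonneg _))
    refine le_trans ?_ (le_add_of_nonneg_left (Finset.sum_nonneg fun a _ => HS_nonneg _ _ _ _))
    refine Finset.sum_le_sum fun a _ => ?_
    rw [hF.pd_pair_right]
    exact ih (hF.pd' _)

lemma Mult.mono {r' : ℝ} {n' : ℕ} {M : E ι → (E α →L[ℝ] E β)} (h : Mult r m n M) (hr0 : 0 ≤ r')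
    (hr : r' ≤ r) (hm0 : 0 ≤ m) (hm : m ≤ m') (hn : n' ≤ n) : Mult r' m' n' M := by
  intro x v
  calc HS r' n' (fun z => M z v) x ≤ HS r' n (fun z => M z v) x := HS_mono r' hn _ x
    _ ≤ HS r n (fun z => M z v) x := HS_mono_scale hr0 hr n _ x
    _ ≤ m ^ 2 * ‖v‖ ^ 2 := h x v
    _ ≤ m' ^ 2 * ‖v‖ ^ 2 := by gcongr
lemma Mult.norm_le {M : E ι → (E α →L[ℝ] E β)} (h : Mult r m n M) (hm : 0 ≤ m) (x : E ι) :
    ‖M x‖ ≤ m := by
  refine ContinuousLinearMap.opNorm_le_bound _ hm fun v => ?_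
  have h1 := (norm_sq_le_HS r n (fun z => M z v) x).trans (h x v)
  rw [← mul_pow] at h1
  exact (pow_le_pow_iff_left₀ (norm_nonneg _) (by positivity) two_ne_zero).1 h1
lemma Mult.const (B : E α →L[ℝ] E β) (hB : ‖B‖ ≤ m) : Mult r m n fun _ : E ι => B := by
  intro x v
  rw [HS_const]
  refine (mult_norm_sq_apply_le B v).trans ?_
  gcongr
lemma Mult.zero : Mult r m n fun _ : E ι => (0 : E α →L[ℝ] E β) := by
  intro x v
  rw [HS_const]
  rw [zero_apply, norm_zero, zero_pow two_ne_zero]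
  positivity
lemma Mult.neg {M : E ι → (E α →L[ℝ] E β)} (h : Mult r m n M) : Mult r m n fun x => -M x := by
  intro x v
  simp only [neg_apply]
  rw [HS_neg]
  exact h x v
lemma Mult.smul {M : E ι → (E α →L[ℝ] E β)} (hM : TG M) (h : Mult r m n M) (c : ℝ) :
    Mult r (|c| * m) n fun x => c • M x := by
  intro x v
  simp only [smul_apply]
  rw [HS_smul r n c (mult_TG_apply hM v), mul_pow, sq_abs, mul_assoc]
  exact mul_le_mul_of_nonneg_left (h x v) (sq_nonneg _)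
lemma Mult.add {M N : E ι → (E α →L[ℝ] E β)} (hM : TG M) (hN : TG N) (h : Mult r m n M)
    (h' : Mult r m' n N) (hm : 0 ≤ m) (hm' : 0 ≤ m') :
    Mult r (2 * (m + m')) n fun x => M x + N x := by
  intro x v
  simp only [add_apply]
  refine (HS_add_le r n (mult_TG_apply hM v) (mult_TG_apply hN v) x).trans ?_
  have h1 := h x v
  have h2 := h' x v
  have h3 : 2 * m ^ 2 + 2 * m' ^ 2 ≤ (2 * (m + m')) ^ 2 := by nlinarith [mul_nonneg hm hm']
  have h4 := mul_le_mul_of_nonneg_right h3 (sq_nonneg ‖v‖)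
  linarith
lemma Mult.sum {I : Type} (s : Finset I) {M : I → E ι → (E α →L[ℝ] E β)} (hM : ∀ i ∈ s, TG (M i))
    (h : ∀ i ∈ s, Mult r m n (M i)) : Mult r (s.card * m) n fun x => ∑ i ∈ s, M i x := by
  intro x v
  simp only [_root_.sum_apply]
  refine (HS_sum_le r n s (fun i hi => mult_TG_apply (hM i hi) v) x).trans ?_
  have h1 : ∑ i ∈ s, HS r n (fun z => M i z v) x ≤ s.card * (m ^ 2 * ‖v‖ ^ 2) := by
    rw [← nsmul_eq_mul]
    exact Finset.sum_le_card_nsmul _ _ _ fun i hi => h i hi x v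
  refine (mul_le_mul_of_nonneg_left h1 (Nat.cast_nonneg _)).trans (le_of_eq ?_)
  ring
lemma Mult.left {M : E ι → (E α →L[ℝ] E β)} (hM : TG M) (h : Mult r m n M) (B : E β →L[ℝ] E κ) :
    Mult r (‖B‖ * m) n fun x => B.comp (M x) := by
  intro x v
  simp only [ContinuousLinearMap.comp_apply]
  refine (HS_clm_le r n B (mult_TG_apply hM v) x).trans ?_
  rw [mul_pow, mul_assoc]
  exact mul_le_mul_of_nonneg_left (h x v) (sq_nonneg _)
lemma Mult.right {M : E ι → (E α →L[ℝ] E β)} (h : Mult r m n M) (B : E κ →L[ℝ] E α) :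
    Mult r (m * ‖B‖) n fun x => (M x).comp B := by
  intro x v
  simp only [ContinuousLinearMap.comp_apply]
  refine (h x (B v)).trans ?_
  rw [mul_pow, mul_assoc]
  exact mul_le_mul_of_nonneg_left (mult_norm_sq_apply_le B v) (sq_nonneg _)
lemma Mult.mul {M : E ι → (E κ →L[ℝ] E β)} {N : E ι → (E α →L[ℝ] E κ)} (hM : TG M) (hN : TG N)
    (h : Mult r m n M) (h' : Mult r m' n N) :
    Mult r (5 ^ n * m * m') n fun x => (M x).comp (N x) := by
  intro x v
  simp only [ContinuousLinearMap.comp_apply]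
  refine (HS_apply_le hM h (mult_TG_apply hN v) x).trans ?_
  refine (mul_le_mul_of_nonneg_left (h' x v) (by positivity)).trans ?_
  have h1 := mult_pow_le (c := 5 ^ n) (one_le_pow₀ (by norm_num)) (m * m') v
  calc 5 ^ n * m ^ 2 * (m' ^ 2 * ‖v‖ ^ 2) = 5 ^ n * ((m * m') ^ 2 * ‖v‖ ^ 2) := by ring
    _ ≤ (5 ^ n * (m * m')) ^ 2 * ‖v‖ ^ 2 := h1
    _ = _ := by ring
lemma Mult.comp {r' m₁ : ℝ} {M : E ζ → (E α →L[ℝ] E β)} (hM : TG M) (h : Mult r' m n M)
    {y : E ι → E ζ} (hy : TG y) (h' : Mult r m₁ n fun x => adj (fderiv ℝ y x)) (hr : 0 ≤ r)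
    (hm₁ : 0 ≤ m₁) (hrm : r * m₁ ≤ r') : Mult r (5 ^ (n ^ 2) * m) n fun x => M (y x) := by
  intro x v
  refine (HS_comp_le hy h' hr hm₁ hrm (mult_TG_apply hM v) x).trans ?_
  refine (mul_le_mul_of_nonneg_left (h (y x) v) (by positivity)).trans ?_
  exact mult_pow_le (one_le_pow₀ (by norm_num)) m v
/-- composition with an affine map -/
lemma Mult.comp_affine {r' : ℝ} {M : E ζ → (E α →L[ℝ] E β)} (hM : TG M) (h : Mult r' m n M)
    (B : E ι →L[ℝ] E ζ) (c : E ζ) (hr : 0 ≤ r) (hrm : r * ‖B‖ ≤ r') :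
    Mult r (5 ^ (n ^ 2) * m) n fun x => M (c + B x) := by
  refine Mult.comp (m₁ := ‖B‖) hM h (TG.affine B c) ?_ hr (norm_nonneg _) hrm
  have h1 : (fun x => adj (fderiv ℝ (fun x => c + B x) x)) = fun _ => adj B := by
    funext x
    rw [(B.hasFDerivAt.const_add c).fderiv]
  rw [h1]
  exact Mult.const _ (norm_adj B).le
lemma Mult.integral_right {M : E (ι ⊕ ζ) → (E α →L[ℝ] E β)} (hM : TG M) (h : Mult r m n M) :
    Mult r m n fun x => ∫ z, M (pair x z) ∂γ ζ := by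
  intro x v
  simp only [integral_clm_apply hM]
  refine (HS_integral_le (mult_TG_apply hM v) r n x).trans ?_
  have h1 := integral_mono (((mult_TG_apply hM v).hs r n).integrable_pair x)
    (integrable_const (μ := γ ζ) (m ^ 2 * ‖v‖ ^ 2)) fun z => h (pair x z) v
  simpa using h1
/-- freezing the first block (no loss: the partial derivatives are a subfamily) -/
lemma Mult.pair_right {M : E (ι ⊕ ζ) → (E α →L[ℝ] E β)} (hM : TG M) (h : Mult r m n M) (x : E ι) :
    Mult r m n fun z => M (pair x z) := by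
  intro z v
  exact (HS_pair_right_le r n (mult_TG_apply hM v) x z).trans (h _ v)
lemma Mult.sum_HS_le {M : E ι → (E α →L[ℝ] E β)} (hM : TG M)
    (h : Mult r m n fun x => adj (M x)) (x : E ι) :
    ∑ a, HS r n (fun z => M z (bas a)) x ≤ Fintype.card β * m ^ 2 := by
  rw [sum_HS_adj r n hM, ← Finset.card_univ, ← nsmul_eq_mul]
  refine Finset.sum_le_card_nsmul _ _ _ fun o _ => ?_
  simpa using h x (bas o)
lemma Mult.sum_HS_pd_le {f : E ι → E κ} (hf : TG f) (h : Mult r m n fun x => adj (fderiv ℝ f x))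
    (x : E ι) : ∑ a, HS r n (pd a f) x ≤ Fintype.card κ * m ^ 2 := by
  exact Mult.sum_HS_le hf.fderiv' h x


end Crest.Agent.R285
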