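import Crest.Agent.R285.IBP
import Crest.Agent.R285.Mult

/-!
# Row 285 (S0430): Sob
Sobolev estimates for `divs` and for powers of `Lie (vf Φ J)`.
`exists_divs_bound`, `n = 0`: `∫ ‖divs u‖² = ∫ ∑ a, ⟪u a, pd a (divs u)⟫` and `pd_divs`, then integrate by
parts once more: `= ∫ ∑_{a,b} H_{ab} ⟪u a, u b⟫ + ∑_{a,b} ⟪pd b (u a), pd a (u b)⟫`.  For the Hessian term
work coordinatewise in `κ`: the vector `(∑ a, H_{ea} u a o)_e` is `H` applied to `(u a o)_a`.
Step: `pd_divs`, `HS_add_le`, `HS_apply_le`.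
`exists_Lie_bound`: `Lie (vf Φ J) φ = divs Φ (fun a x => fderiv φ x (J x (bas a)))` (`lie_vf`), and for each
coordinate `o` the vector `(fderiv φ x (J x (bas a)) o)_a` is `adj (J x) (∇φ_o) = - J x (∇φ_o)`.  Prove by
induction on `K` (for all `n`): `∫ HS r n (Lie^[K+1] φ) ≤ … ∫ ∑ a, HS r (n+2K+1) (pd a φ)`.
-/

set_option autoImplicit false

open MeasureTheory ProbabilityTheory Filter Topology
open scoped RealInnerProductSpace

noncomputable section

namespace Crest.Agent.R285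

variable {ι κ ζ α β : Type} [Fintype ι] [Fintype κ] [Fintype ζ] [Fintype α] [Fintype β]
variable {Y Y' : Type} [NormedAddCommGroup Y] [NormedSpace ℝ Y] [NormedAddCommGroup Y']
  [NormedSpace ℝ Y']

lemma pd_divs {Φ : E ι → ℝ} (h : NicePot Φ) {u : ι → E ι → Y} (hu : ∀ a, TG (u a)) (e : ι) :
    pd e (divs Φ u) = fun x => divs Φ (fun a => pd e (u a)) x +
      ∑ a, fderiv ℝ (gradient Φ) x (bas e) a • u a x := by
  have hg : TG (gradient Φ) := h.2.1
  have h1 : divs Φ u = fun x => ∑ a, (gradient Φ x a • u a x - pd a (u a) x) := rfl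
  rw [h1, pd_sum e Finset.univ fun a _ =>
    (((hg.coord a).smul' (hu a)).sub' ((hu a).pd' a)).differentiable]
  funext x
  simp only [divs, ← Finset.sum_add_distrib]
  refine Finset.sum_congr rfl fun a _ => ?_
  rw [pd_sub e ((hg.coord a).smul' (hu a)).differentiable ((hu a).pd' a).differentiable,
    pd_smul e (hg.coord a).differentiable (hu a).differentiable, pd_coord e hg.differentiable a,
    pd_comm ((hu a).contDiff 2) e a]
  simp only [pd]
  abel

lemma sob_sum_antisymm (F : ι → ι → Y) (h : ∀ a c, F a c = -F c a) : ∑ a, ∑ c, F a c = 0 := by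
  have h1 : ∑ a, ∑ c, F a c = -∑ a, ∑ c, F a c := by
    conv_lhs => rw [Finset.sum_comm]
    simp only [← Finset.sum_neg_distrib]
    exact Finset.sum_congr rfl fun a _ => Finset.sum_congr rfl fun c _ => h c a
  have h2 : (2 : ℝ) • ∑ a, ∑ c, F a c = 0 := by
    rw [two_smul]
    exact add_eq_zero_iff_eq_neg.2 h1
  exact (smul_eq_zero.1 h2).resolve_left two_ne_zero

lemma sob_tg_col {M : E ι → (E α →L[ℝ] E β)} (hM : TG M) (e : α) : TG fun x => M x (bas e) :=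
  hM.clm_apply (Function.HasTemperateGrowth.const _)

lemma sob_tg_mat {M : E ι → (E α →L[ℝ] E β)} (hM : TG M) {u : β → E ι → Y} (hu : ∀ a, TG (u a))
    (e : α) : TG fun x => ∑ a, M x (bas e) a • u a x :=
  TG.sum' _ fun a _ => ((sob_tg_col hM e).coord a).smul' (hu a)

/-- a matrix field acting on a family of vector valued functions -/
lemma sob_mat_fam {r m : ℝ} {n : ℕ} {M : E ι → (E α →L[ℝ] E β)} (hM : TG M)
    (h : Mult r m n fun x => adj (M x)) {u : β → E ι → E κ} (hu : ∀ a, TG (u a)) (x : E ι) :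
    ∑ e, HS r n (fun z => ∑ a, M z (bas e) a • u a z) x ≤ 5 ^ n * m ^ 2 * ∑ a, HS r n (u a) x := by
  set U : κ → E ι → E β := fun o z => WithLp.toLp 2 fun a => u a z o with hU
  have hUt : ∀ o, TG (U o) := fun o => TG.of_coord fun a => (hu a).coord o
  have h1 : ∀ e o z, (∑ a, M z (bas e) a • u a z) o = adj (M z) (U o z) e := by
    intro e o z
    rw [← inner_bas_left e (adj (M z) (U o z)), inner_adj_right, inner_eq_sum]
    simp [hU]
  calc ∑ e, HS r n (fun z => ∑ a, M z (bas e) a • u a z) x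
      = ∑ e, ∑ o, HS r n (fun z => adj (M z) (U o z) e) x := by
        refine Finset.sum_congr rfl fun e _ => ?_
        rw [HS_eq_sum_coord r n (sob_tg_mat hM hu e)]
        simp only [h1]
    _ = ∑ o, HS r n (fun z => adj (M z) (U o z)) x := by
        rw [Finset.sum_comm]
        refine Finset.sum_congr rfl fun o _ => ?_
        rw [HS_eq_sum_coord r n (hM.adj'.clm_apply (hUt o))]
    _ ≤ ∑ o, 5 ^ n * m ^ 2 * HS r n (U o) x :=
        Finset.sum_le_sum fun o _ => HS_apply_le hM.adj' h (hUt o) x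
    _ = 5 ^ n * m ^ 2 * ∑ o, ∑ a, HS r n (fun z => u a z o) x := by
        rw [← Finset.mul_sum]
        congr 1
        exact Finset.sum_congr rfl fun o _ => HS_eq_sum_coord r n (hUt o) x
    _ = _ := by
        rw [Finset.sum_comm]
        congr 1
        exact Finset.sum_congr rfl fun a _ => (HS_eq_sum_coord r n (hu a) x).symm

lemma sob_mult_adj_hess {Φ : E ι → ℝ} (h : NicePot Φ) {r m : ℝ} {n : ℕ}
    (hH : Mult r m n (fderiv ℝ (gradient Φ))) :
    Mult r m n fun x => adj (fderiv ℝ (gradient Φ) x) := by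
  have : (fun x => adj (fderiv ℝ (gradient Φ) x)) = fderiv ℝ (gradient Φ) :=
    funext fun x => adj_fderiv_gradient h.1 (TG.contDiff h.2.1 1) x
  rw [this]
  exact hH

lemma sob_tg_sum_hs {u : α → E ι → E κ} (hu : ∀ a, TG (u a)) (r : ℝ) (n : ℕ) :
    TG fun x => ∑ a, HS r n (u a) x := TG.sum' _ fun a _ => (hu a).hs r n

lemma sob_inner_le (v w : E κ) : ⟪v, w⟫ ≤ (‖v‖ ^ 2 + ‖w‖ ^ 2) / 2 := by
  nlinarith [real_inner_le_norm v w, sq_nonneg (‖v‖ - ‖w‖)]

lemma sob_divs_zero {Φ : E ι → ℝ} {u : ι → E ι → E κ} {r m : ℝ} (h : NicePot Φ) (hr : 0 < r)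
    (hr1 : r ≤ 1) (hm : 0 ≤ m) (hH : Mult r m 0 (fderiv ℝ (gradient Φ))) (hu : ∀ a, TG (u a)) :
    ∫ x, ‖divs Φ u x‖ ^ 2 ∂gibbs Φ ≤ (1 + m) ^ 2 / r ^ 2 * ∫ x, ∑ a, HS r 1 (u a) x ∂gibbs Φ := by
  have hg : TG (gradient Φ) := h.2.1
  have hw := h.wpot
  have hd : TG (divs Φ u) := TG.divs' hg hu
  set T : ι → E ι → E κ := fun e x => ∑ a, fderiv ℝ (gradient Φ) x (bas e) a • u a x with hT
  have hTt : ∀ e, TG (T e) := fun e => sob_tg_mat hg.fderiv' hu e
  have hpd : ∀ e, TG (divs Φ fun a => pd e (u a)) := fun e => TG.divs' hg fun a => (hu a).pd' e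
  have h1 : ∫ x, ‖divs Φ u x‖ ^ 2 ∂gibbs Φ =
      ∫ x, (∑ e, ⟪divs Φ (fun a => pd e (u a)) x, u e x⟫ + ∑ e, ⟪u e x, T e x⟫) ∂gibbs Φ := by
    simp only [← real_inner_self_eq_norm_sq]
    rw [h.integral_inner_divs hu hd]
    refine integral_congr_ae (.of_forall fun x => ?_)
    simp only [pd_divs h hu, inner_add_right, Finset.sum_add_distrib, hT]
    congr 1
    exact Finset.sum_congr rfl fun e _ => real_inner_comm _ _
  have i1 : ∀ e, Integrable (fun x => ⟪divs Φ (fun a => pd e (u a)) x, u e x⟫) (gibbs Φ) :=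
    fun e => hw.integrable_TG ((hpd e).inner' (hu e))
  have t2 : TG fun x => ∑ e, ⟪u e x, T e x⟫ := TG.sum' _ fun e _ => (hu e).inner' (hTt e)
  have t3 : ∀ e, TG fun x => ∑ a, ⟪pd e (u a) x, pd a (u e) x⟫ :=
    fun e => TG.sum' _ fun a _ => ((hu a).pd' e).inner' ((hu e).pd' a)
  have h2 : ∫ x, ∑ e, ⟪divs Φ (fun a => pd e (u a)) x, u e x⟫ ∂gibbs Φ =
      ∫ x, ∑ e, ∑ a, ⟪pd e (u a) x, pd a (u e) x⟫ ∂gibbs Φ := by
    rw [integral_finsetSum _ fun e _ => i1 e,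
      integral_finsetSum _ fun e _ => hw.integrable_TG (t3 e)]
    exact Finset.sum_congr rfl fun e _ => h.integral_inner_divs (fun a => (hu a).pd' e) (hu e)
  rw [h1, integral_add (integrable_finsetSum _ fun e _ => i1 e) (hw.integrable_TG t2), h2,
    ← integral_add (integrable_finsetSum _ fun e _ => hw.integrable_TG (t3 e))
      (hw.integrable_TG t2), ← integral_const_mul]
  refine integral_mono ((integrable_finsetSum _ fun e _ => hw.integrable_TG (t3 e)).add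
    (hw.integrable_TG t2)) ((hw.integrable_TG (sob_tg_sum_hs hu r 1)).const_mul _) fun x => ?_
  have a1 : ∑ e, ∑ a, ⟪pd e (u a) x, pd a (u e) x⟫ ≤ ∑ a, ∑ e, ‖pd e (u a) x‖ ^ 2 := by
    calc ∑ e, ∑ a, ⟪pd e (u a) x, pd a (u e) x⟫
        ≤ ∑ e, ∑ a, (‖pd e (u a) x‖ ^ 2 + ‖pd a (u e) x‖ ^ 2) / 2 :=
          Finset.sum_le_sum fun e _ => Finset.sum_le_sum fun a _ => sob_inner_le _ _
      _ = (∑ e, ∑ a, ‖pd e (u a) x‖ ^ 2 + ∑ e, ∑ a, ‖pd a (u e) x‖ ^ 2) / 2 := by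
          simp only [← Finset.sum_div, Finset.sum_add_distrib]
      _ = _ := by
          rw [Finset.sum_comm, add_self_div_two]
  have a2 : ∑ e, ⟪u e x, T e x⟫ ≤ (∑ e, ‖u e x‖ ^ 2 + ∑ e, ‖T e x‖ ^ 2) / 2 := by
    rw [← Finset.sum_add_distrib, Finset.sum_div]
    exact Finset.sum_le_sum fun e _ => sob_inner_le _ _
  have a3 : ∑ e, ‖T e x‖ ^ 2 ≤ 5 ^ 0 * m ^ 2 * ∑ e, ‖u e x‖ ^ 2 :=
    sob_mat_fam hg.fderiv' (sob_mult_adj_hess h hH) hu x
  simp only [HS_succ, HS_zero, Finset.sum_add_distrib, ← Finset.mul_sum]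
  have hA : 0 ≤ ∑ e, ‖u e x‖ ^ 2 := Finset.sum_nonneg fun _ _ => sq_nonneg _
  have hB : 0 ≤ ∑ a, ∑ e, ‖pd e (u a) x‖ ^ 2 :=
    Finset.sum_nonneg fun _ _ => Finset.sum_nonneg fun _ _ => sq_nonneg _
  generalize ∑ e, ‖u e x‖ ^ 2 = A at *
  generalize ∑ a, ∑ e, ‖pd e (u a) x‖ ^ 2 = B at *
  generalize ∑ e, ‖T e x‖ ^ 2 = D at *
  generalize ∑ e, ⟪u e x, T e x⟫ = F at *
  generalize ∑ e, ∑ a, ⟪pd e (u a) x, pd a (u e) x⟫ = G at *
  have hr2 : 0 < r ^ 2 := by positivity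
  have hr3 : r ^ 2 ≤ 1 := pow_le_one₀ hr.le hr1
  have b1 : (1 + m) ^ 2 ≤ (1 + m) ^ 2 / r ^ 2 := le_div_self (by positivity) hr2 hr3
  have b2 : (1 + m) ^ 2 / r ^ 2 * (A + r ^ 2 * B) = (1 + m) ^ 2 / r ^ 2 * A + (1 + m) ^ 2 * B := by
    field_simp
  have b3 := mul_le_mul_of_nonneg_right b1 hA
  rw [b2]
  nlinarith [mul_nonneg hm hA, mul_nonneg hm hB, mul_nonneg (sq_nonneg m) hA,
    mul_nonneg (sq_nonneg m) hB]

lemma sob_divs_bound (n : ℕ) {Φ : E ι → ℝ} {r m : ℝ} (h : NicePot Φ) (hr : 0 < r)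
    (hr1 : r ≤ 1) (hm : 0 ≤ m) (hH : Mult r m n (fderiv ℝ (gradient Φ))) :
    ∀ {u : ι → E ι → E κ}, (∀ a, TG (u a)) → ∫ x, HS r n (divs Φ u) x ∂gibbs Φ ≤
      5 ^ n * (1 + m) ^ 2 / r ^ 2 * ∫ x, ∑ a, HS r (n + 1) (u a) x ∂gibbs Φ := by
  have hg : TG (gradient Φ) := h.2.1
  have hw := h.wpot
  induction n with
  | zero =>
    intro u hu
    simpa [HS_zero] using sob_divs_zero h hr hr1 hm hH hu
  | succ n ih =>
    intro u hu
    have hHn : Mult r m n (fderiv ℝ (gradient Φ)) := hH.mono hr.le le_rfl hm le_rfl (Nat.le_succ n)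
    have hH0 : Mult r m 0 (fderiv ℝ (gradient Φ)) := hH.mono hr.le le_rfl hm le_rfl (Nat.zero_le _)
    have hd : TG (divs Φ u) := TG.divs' hg hu
    set T : ι → E ι → E κ := fun e x => ∑ a, fderiv ℝ (gradient Φ) x (bas e) a • u a x with hT
    have hTt : ∀ e, TG (T e) := fun e => sob_tg_mat hg.fderiv' hu e
    have hpd : ∀ e, TG (divs Φ fun a => pd e (u a)) := fun e => TG.divs' hg fun a => (hu a).pd' e
    set q := (1 + m) ^ 2 / r ^ 2 with hq
    set S := ∫ x, ∑ a, HS r (n + 1 + 1) (u a) x ∂gibbs Φ with hS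
    have hr2 : 0 < r ^ 2 := by positivity
    have hr3 : r ^ 2 ≤ 1 := pow_le_one₀ hr.le hr1
    have hq0 : 0 ≤ q := by positivity
    have iS := hw.integrable_TG (sob_tg_sum_hs hu r (n + 1 + 1))
    have hS0 : 0 ≤ S := integral_nonneg fun x => Finset.sum_nonneg fun a _ => HS_nonneg _ _ _ _
    have c1 : ∫ x, ‖divs Φ u x‖ ^ 2 ∂gibbs Φ ≤ q * S := by
      refine (sob_divs_zero h hr hr1 hm hH0 hu).trans (mul_le_mul_of_nonneg_left ?_ hq0)
      exact integral_mono (hw.integrable_TG (sob_tg_sum_hs hu r 1)) iS fun x =>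
        Finset.sum_le_sum fun a _ => HS_mono r (by omega) _ _
    have c2 : r ^ 2 * ∫ x, ∑ e, HS r n (divs Φ fun a => pd e (u a)) x ∂gibbs Φ ≤ 5 ^ n * q * S := by
      have i2 : ∀ e, Integrable (fun x => ∑ a, HS r (n + 1) (pd e (u a)) x) (gibbs Φ) :=
        fun e => hw.integrable_TG (sob_tg_sum_hs (fun a => (hu a).pd' e) r _)
      rw [integral_finsetSum _ fun e _ => hw.integrable_TG ((hpd e).hs r n)]
      calc r ^ 2 * ∑ e, ∫ x, HS r n (divs Φ fun a => pd e (u a)) x ∂gibbs Φ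
          ≤ r ^ 2 * ∑ e, 5 ^ n * (1 + m) ^ 2 / r ^ 2 *
              ∫ x, ∑ a, HS r (n + 1) (pd e (u a)) x ∂gibbs Φ :=
            mul_le_mul_of_nonneg_left
              (Finset.sum_le_sum fun e _ => ih hHn fun a => (hu a).pd' e) hr2.le
        _ = 5 ^ n * q * ∫ x, r ^ 2 * ∑ e, ∑ a, HS r (n + 1) (pd e (u a)) x ∂gibbs Φ := by
            rw [← Finset.mul_sum, integral_const_mul, integral_finsetSum _ fun e _ => i2 e, hq]
            ring
        _ ≤ 5 ^ n * q * S := by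
            refine mul_le_mul_of_nonneg_left (integral_mono
              ((integrable_finsetSum _ fun e _ => i2 e).const_mul _) iS fun x => ?_) (by positivity)
            simp only
            rw [Finset.sum_comm, Finset.mul_sum]
            exact Finset.sum_le_sum fun a _ => HS_pd_le r (n + 1) (u a) x
    have c3 : r ^ 2 * ∫ x, ∑ e, HS r n (T e) x ∂gibbs Φ ≤ 5 ^ n * q * S := by
      have b1 : r ^ 2 * m ^ 2 ≤ q := by
        have : (1 + m) ^ 2 ≤ q := le_div_self (by positivity) hr2 hr3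
        nlinarith [sq_nonneg m]
      calc r ^ 2 * ∫ x, ∑ e, HS r n (T e) x ∂gibbs Φ
          ≤ r ^ 2 * ∫ x, 5 ^ n * m ^ 2 * ∑ a, HS r (n + 1 + 1) (u a) x ∂gibbs Φ := by
            refine mul_le_mul_of_nonneg_left (integral_mono
              (hw.integrable_TG (sob_tg_sum_hs hTt r n)) (iS.const_mul _) fun x => ?_) hr2.le
            refine (sob_mat_fam hg.fderiv' (sob_mult_adj_hess h hHn) hu x).trans ?_
            exact mul_le_mul_of_nonneg_left
              (Finset.sum_le_sum fun a _ => HS_mono r (by omega) _ _) (by positivity)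
        _ = 5 ^ n * (r ^ 2 * m ^ 2) * S := by rw [integral_const_mul]; ring
        _ ≤ 5 ^ n * q * S := by gcongr
    have i3 := hw.integrable_TG (sob_tg_sum_hs hpd r n)
    have i4 := hw.integrable_TG (sob_tg_sum_hs hTt r n)
    have c4 : ∫ x, HS r (n + 1) (divs Φ u) x ∂gibbs Φ ≤
        ∫ x, (‖divs Φ u x‖ ^ 2 + (2 * r ^ 2 * ∑ e, HS r n (divs Φ fun a => pd e (u a)) x +
          2 * r ^ 2 * ∑ e, HS r n (T e) x)) ∂gibbs Φ := by
      refine integral_mono (hw.integrable_TG (hd.hs r _))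
        ((hw.integrable_TG hd.norm_sq).add ((i3.const_mul _).add (i4.const_mul _))) fun x => ?_
      simp only [HS_succ, pd_divs h hu]
      have : ∑ e, HS r n (fun x => divs Φ (fun a => pd e (u a)) x + T e x) x ≤
          ∑ e, (2 * HS r n (divs Φ fun a => pd e (u a)) x + 2 * HS r n (T e) x) :=
        Finset.sum_le_sum fun e _ => HS_add_le r n (hpd e) (hTt e) x
      rw [Finset.sum_add_distrib, ← Finset.mul_sum, ← Finset.mul_sum] at this
      have := mul_le_mul_of_nonneg_left this hr2.le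
      simp only [hT] at this ⊢
      linarith
    have i5 : Integrable (fun x => 2 * r ^ 2 * ∑ e, HS r n (divs Φ fun a => pd e (u a)) x +
        2 * r ^ 2 * ∑ e, HS r n (T e) x) (gibbs Φ) := (i3.const_mul _).add (i4.const_mul _)
    rw [integral_add (hw.integrable_TG hd.norm_sq) i5,
      integral_add (i3.const_mul _) (i4.const_mul _), integral_const_mul, integral_const_mul] at c4
    have c5 : q * S ≤ 5 ^ n * q * S := by
      rw [mul_assoc]
      exact le_mul_of_one_le_left (by positivity) (one_le_pow₀ (by norm_num))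
    have c6 : 5 ^ (n + 1) * (1 + m) ^ 2 / r ^ 2 * S = 5 * (5 ^ n * q * S) := by
      rw [hq]; ring
    rw [c6]
    linarith

theorem exists_divs_bound : ∃ C : ℕ → ℝ, (∀ n, 1 ≤ C n) ∧
    ∀ {ι κ : Type} [Fintype ι] [Fintype κ] (n : ℕ) {Φ : E ι → ℝ} {u : ι → E ι → E κ} {r m : ℝ},
      NicePot Φ → 0 < r → r ≤ 1 → 0 ≤ m → Mult r m n (fderiv ℝ (gradient Φ)) → (∀ a, TG (u a)) →
      ∫ x, HS r n (divs Φ u) x ∂gibbs Φ ≤
        C n * (1 + m) ^ 2 / r ^ 2 * ∫ x, ∑ a, HS r (n + 1) (u a) x ∂gibbs Φ :=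
  ⟨fun n => 5 ^ n, fun _ => one_le_pow₀ (by norm_num),
    fun n _ _ _ _ h hr hr1 hm hH hu => sob_divs_bound n h hr hr1 hm hH hu⟩

lemma TG.vf' {Φ : E ι → ℝ} (h : NicePot Φ) {J : E ι → (E ι →L[ℝ] E ι)} (hJ : TG J) :
    TG (vf Φ J) := TG.divs' h.2.1 fun a => sob_tg_col hJ a

lemma sob_anti {J : E ι → (E ι →L[ℝ] E ι)} (hA : ∀ x, adj (J x) = -J x) (x : E ι) (a c : ι) :
    J x (bas a) c = -J x (bas c) a := by
  rw [← adj_coord, hA]
  simp

lemma lie_vf {Φ : E ι → ℝ} (h : NicePot Φ) {J : E ι → (E ι →L[ℝ] E ι)} (hJ : TG J)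
    (hA : ∀ x, adj (J x) = -J x) {φ : E ι → Y} (hφ : TG φ) :
    Lie (vf Φ J) φ = divs Φ fun a x => fderiv ℝ φ x (J x (bas a)) := by
  funext x
  have h1 : ∑ a, pd a (fderiv ℝ φ) x (J x (bas a)) = 0 := by
    have h2 : ∀ a c, pd a (fderiv ℝ φ) x (bas c) = pd a (pd c φ) x := by
      intro a c
      have := pd_clm_apply a hφ.fderiv'.differentiable (differentiable_const (bas c : E ι))
      rw [pd_const] at this
      have h3 := congrFun this x
      simp only [map_zero, add_zero] at h3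
      exact h3.symm
    simp only [clm_apply_eq_sum (pd _ (fderiv ℝ φ) x) (J x _), h2]
    refine sob_sum_antisymm _ fun a c => ?_
    rw [sob_anti hA x a c, pd_comm (hφ.contDiff 2) a c, neg_smul]
  simp only [Lie, vf, divs, map_sum, map_sub, map_smul,
    pd_clm_apply _ hφ.fderiv'.differentiable (sob_tg_col hJ _).differentiable,
    Finset.sum_sub_distrib, Finset.sum_add_distrib, h1, zero_add]

/-- the vector field of an antisymmetric operator field is divergence free -/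
lemma divs_vf {Φ : E ι → ℝ} (h : NicePot Φ) {J : E ι → (E ι →L[ℝ] E ι)} (hJ : TG J)
    (hA : ∀ x, adj (J x) = -J x) (x : E ι) : divs Φ (fun a z => vf Φ J z a) x = 0 := by
  set j : ι → ι → E ι → ℝ := fun a c z => J z (bas c) a with hj
  have hjt : ∀ a c, TG (j a c) := fun a c => (sob_tg_col hJ c).coord a
  have hja : ∀ a c, j a c = fun z => -j c a z := fun a c => funext fun z => sob_anti hA z c a
  have h1 : ∀ a, (fun z => vf Φ J z a) = divs Φ (j a) := by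
    intro a
    funext z
    simp only [vf, divs, hj, pd_coord _ (sob_tg_col hJ _).differentiable]
    simp
  have hs : ∀ a c, fderiv ℝ (gradient Φ) x (bas a) c = fderiv ℝ (gradient Φ) x (bas c) a := by
    intro a c
    rw [← adj_coord, adj_fderiv_gradient h.1 (TG.contDiff h.2.1 1)]
  have h2 : divs Φ (fun a z => vf Φ J z a) x = ∑ a, ∑ c,
      (gradient Φ x a * (gradient Φ x c * j a c x - pd c (j a c) x) -
        ((gradient Φ x c * pd a (j a c) x - pd c (pd a (j a c)) x) +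
          fderiv ℝ (gradient Φ) x (bas a) c * j a c x)) := by
    have h3 : divs Φ (fun a z => vf Φ J z a) x =
      ∑ a, (gradient Φ x a • divs Φ (j a) x - pd a (divs Φ (j a)) x) := by
      simp only [← h1]
      rfl
    rw [h3]
    refine Finset.sum_congr rfl fun a _ => ?_
    rw [pd_divs h (hjt a) a]
    simp only [divs, smul_eq_mul, ← Finset.mul_sum, Finset.sum_sub_distrib, Finset.sum_add_distrib]
  rw [h2]
  refine sob_sum_antisymm _ fun a c => ?_
  rw [hja a c, pd_neg, pd_neg, pd_neg, pd_comm ((hjt c a).contDiff 2) c a, hs a c]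
  beta_reduce
  ring

lemma vf_const (Φ : E ι → ℝ) (J : E ι →L[ℝ] E ι) (x : E ι) :
    vf Φ (fun _ => J) x = J (gradient Φ x) := by
  simp only [vf, divs, pd_const, sub_zero]
  exact (clm_apply_eq_sum J _).symm

section lie
variable {Φ : E ι → ℝ} {J : E ι → (E ι →L[ℝ] E ι)} {r m μ : ℝ} {N : ℕ}

lemma sob_lie_step (h : NicePot Φ) (hr : 0 < r) (hr1 : r ≤ 1) (hm : 0 ≤ m) (hμ : 0 ≤ μ)
    (hH : Mult r m N (fderiv ℝ (gradient Φ))) (hJ : TG J) (hA : ∀ x, adj (J x) = -J x)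
    (hM : Mult r μ N J) {n : ℕ} (hn : n + 1 ≤ N) {φ : E ι → E κ} (hφ : TG φ) :
    ∫ x, HS r n (Lie (vf Φ J) φ) x ∂gibbs Φ ≤ r ^ 2 * (5 ^ N * ((1 + m) * μ / r ^ 2)) ^ 2 *
      ∫ x, ∑ a, HS r (n + 1) (pd a φ) x ∂gibbs Φ := by
  have hw := h.wpot
  have hp : ∀ a, TG (pd a φ) := fun a => hφ.pd' a
  have h1 : (fun a x => fderiv ℝ φ x (J x (bas a))) = fun a x => ∑ c, J x (bas a) c • pd c φ x := by
    funext a x
    exact fderiv_apply_eq_sum_pd φ x _
  have hM' : Mult r μ (n + 1) fun x => adj (J x) := by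
    simp only [hA]
    exact (hM.mono hr.le le_rfl hμ le_rfl hn).neg
  rw [lie_vf h hJ hA hφ, h1]
  refine (sob_divs_bound n h hr hr1 hm (hH.mono hr.le le_rfl hm le_rfl (by omega))
    fun a => sob_tg_mat hJ hp a).trans ?_
  have h2 : ∫ x, ∑ a, HS r (n + 1) (fun x => ∑ c, J x (bas a) c • pd c φ x) x ∂gibbs Φ ≤
      5 ^ (n + 1) * μ ^ 2 * ∫ x, ∑ a, HS r (n + 1) (pd a φ) x ∂gibbs Φ := by
    rw [← integral_const_mul]
    exact integral_mono (hw.integrable_TG (sob_tg_sum_hs (fun a => sob_tg_mat hJ hp a) r _))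
      ((hw.integrable_TG (sob_tg_sum_hs hp r _)).const_mul _) fun x => sob_mat_fam hJ hM' hp x
  refine (mul_le_mul_of_nonneg_left h2 (by positivity)).trans ?_
  rw [← mul_assoc]
  refine mul_le_mul_of_nonneg_right ?_
    (integral_nonneg fun x => Finset.sum_nonneg fun a _ => HS_nonneg _ _ _ _)
  have h3 : (5 : ℝ) ^ n * 5 ^ (n + 1) ≤ 5 ^ N * 5 ^ N :=
    mul_le_mul (pow_le_pow_right₀ (by norm_num) (by omega)) (pow_le_pow_right₀ (by norm_num) hn)
      (by positivity) (by positivity)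
  calc 5 ^ n * (1 + m) ^ 2 / r ^ 2 * (5 ^ (n + 1) * μ ^ 2)
      = (5 ^ n * 5 ^ (n + 1)) * ((1 + m) ^ 2 * μ ^ 2 / r ^ 2) := by ring
    _ ≤ (5 ^ N * 5 ^ N) * ((1 + m) ^ 2 * μ ^ 2 / r ^ 2) := by gcongr
    _ = _ := by field_simp

lemma sob_lie_iter (h : NicePot Φ) (hr : 0 < r) (hr1 : r ≤ 1) (hm : 0 ≤ m) (hμ : 0 ≤ μ)
    (hH : Mult r m N (fderiv ℝ (gradient Φ))) (hJ : TG J) (hA : ∀ x, adj (J x) = -J x)
    (hM : Mult r μ N J) (n K : ℕ) (hn : n + 2 * K ≤ N) : ∀ {φ : E ι → E κ}, TG φ →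
    ∫ x, ∑ a, HS r n (pd a ((Lie (vf Φ J))^[K] φ)) x ∂gibbs Φ ≤
      ((5 ^ N * ((1 + m) * μ / r ^ 2)) ^ 2) ^ K *
        ∫ x, ∑ a, HS r (n + 2 * K) (pd a φ) x ∂gibbs Φ := by
  have hw := h.wpot
  induction K with
  | zero => intro φ _; simp
  | succ K ih =>
    intro φ hφ
    have hL : TG (Lie (vf Φ J) φ) := (TG.vf' h hJ).lie hφ
    rw [Function.iterate_succ_apply, pow_succ _ K, mul_assoc]
    refine (ih (by omega) hL).trans (mul_le_mul_of_nonneg_left ?_ (by positivity))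
    have h1 := sob_lie_step h hr hr1 hm hμ hH hJ hA hM (n := n + 2 * K + 1) (by omega) hφ
    have h2 : r ^ 2 * ∫ x, ∑ a, HS r (n + 2 * K) (pd a (Lie (vf Φ J) φ)) x ∂gibbs Φ ≤
        ∫ x, HS r (n + 2 * K + 1) (Lie (vf Φ J) φ) x ∂gibbs Φ := by
      rw [← integral_const_mul]
      exact integral_mono ((hw.integrable_TG (sob_tg_sum_hs (fun a => hL.pd' a) r _)).const_mul _)
        (hw.integrable_TG (hL.hs r _)) fun x => HS_pd_le r _ _ x
    have h3 := h2.trans h1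
    rw [mul_assoc] at h3
    exact le_of_mul_le_mul_left h3 (by positivity)

end lie

theorem exists_Lie_bound : ∃ C : ℕ → ℝ, (∀ K, 1 ≤ C K) ∧
    ∀ {ι κ : Type} [Fintype ι] [Fintype κ] (K : ℕ) {Φ : E ι → ℝ} {J : E ι → (E ι →L[ℝ] E ι)}
      {φ : E ι → E κ} {r m μ R : ℝ}, 1 ≤ K → NicePot Φ → 0 < r → r ≤ 1 → 0 ≤ m → 0 ≤ μ → 0 ≤ R →
      Mult r m (2 * K) (fderiv ℝ (gradient Φ)) → TG J → (∀ x, adj (J x) = -J x) →
      Mult r μ (2 * K) J → TG φ → ∫ x, ∑ a, HS r (2 * K) (pd a φ) x ∂gibbs Φ ≤ R ^ 2 →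
      L2le (gibbs Φ) ((Lie (vf Φ J))^[K] φ) (C K * ((1 + m) * μ / r ^ 2) ^ K * R) := by
  refine ⟨fun K => (5 ^ (2 * K)) ^ K, fun K => one_le_pow₀ (one_le_pow₀ (by norm_num)), ?_⟩
  intro ι κ _ _ K Φ J φ r m μ R hK h hr hr1 hm hμ hR hH hJ hA hM hφ hφR
  have hw := h.wpot
  have hL : ∀ k, TG ((Lie (vf Φ J))^[k] φ) := fun k => (TG.vf' h hJ).lie_iterate hφ k
  refine L2le.of_integral_sq_le (hL K).continuous.aestronglyMeasurable
    (hw.integrable_TG (hL K).norm_sq) (by positivity) ?_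
  obtain ⟨k, rfl⟩ : ∃ k, K = k + 1 := ⟨K - 1, by omega⟩
  have h1 := sob_lie_step h hr hr1 hm hμ hH hJ hA hM (n := 0) (by omega) (hL k)
  have h2 := sob_lie_iter h hr hr1 hm hμ hH hJ hA hM 1 k (by omega) hφ
  have h3 : ∫ x, ∑ a, HS r (1 + 2 * k) (pd a φ) x ∂gibbs Φ ≤ R ^ 2 := by
    refine le_trans (integral_mono (hw.integrable_TG (sob_tg_sum_hs (fun a => hφ.pd' a) r _))
      (hw.integrable_TG (sob_tg_sum_hs (fun a => hφ.pd' a) r _)) fun x => ?_) hφR
    exact Finset.sum_le_sum fun a _ => HS_mono r (by omega) _ _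
  set Q : ℝ := 5 ^ (2 * (k + 1)) * ((1 + m) * μ / r ^ 2) with hQ
  have hr3 : r ^ 2 ≤ 1 := pow_le_one₀ hr.le hr1
  rw [Function.iterate_succ_apply']
  simp only [HS_zero, zero_add] at h1
  calc _ ≤ _ := h1
    _ ≤ r ^ 2 * Q ^ 2 * ((Q ^ 2) ^ k * R ^ 2) :=
        mul_le_mul_of_nonneg_left (h2.trans (mul_le_mul_of_nonneg_left h3 (by positivity)))
          (by positivity)
    _ ≤ 1 * Q ^ 2 * ((Q ^ 2) ^ k * R ^ 2) := by gcongr
    _ = (Q ^ (k + 1) * R) ^ 2 := by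
        generalize Q = Q'
        ring
    _ = _ := by rw [hQ, mul_pow (5 ^ (2 * (k + 1)) : ℝ)]

lemma mult_hess_hsq (r : ℝ) (n : ℕ) : Mult r 1 n (fderiv ℝ (gradient (hsq : E ι → ℝ))) := by
  have : fderiv ℝ (gradient (hsq : E ι → ℝ)) = fun _ => ContinuousLinearMap.id ℝ (E ι) := by
    rw [gradient_hsq]
    funext x
    exact fderiv_fun_id
  rw [this]
  exact Mult.const _ ContinuousLinearMap.norm_id_le


end Crest.Agent.R285
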