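import Crest.Agent.R285.Gs
import Crest.Agent.R285.IBP

/-!
# Row 285 (S0430): Tilt1
Tilted Gaussians `tg ψ u σ` for `BP ψ lam B` (so `ψ` is `B`-Lipschitz).
`hasFDerivAt_integral_tg`: `∫ φ ∂tg ψ u σ = N u / Z u` with
`N u = ∫ exp (-‖x-u‖²/(2σ²) - ψ x) • φ x` (Lebesgue measure); differentiate under the integral.
`tg_semigroup`: `exp (-lz W s' x) = ∫ exp (-W) ∂gs x √s'`, `gs_conv`, Fubini.
-/

set_option autoImplicit false

open MeasureTheory ProbabilityTheory Filter Topology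
open scoped RealInnerProductSpace

noncomputable section

namespace Crest.Agent.R285

variable {ι κ ζ α β : Type} [Fintype ι] [Fintype κ] [Fintype ζ] [Fintype α] [Fintype β]
variable {Y : Type} [NormedAddCommGroup Y] [NormedSpace ℝ Y]

variable {ψ : E ι → ℝ} {lam B σ : ℝ}

lemma BP.nonneg (h : BP ψ lam B) : 0 ≤ B := (norm_nonneg _).trans (h.bdd 0)
lemma BP.lip_self (h : BP ψ lam B) : Lip B ψ :=
  Lip.of_fderiv h.diff fun x => by rw [← norm_gradient]; exact h.bdd x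
lemma BP.continuous (h : BP ψ lam B) : Continuous ψ := h.diff.continuous
lemma BP.mono (h : BP ψ lam B) {lam' B' : ℝ} (h1 : lam ≤ lam') (h2 : B ≤ B') : BP ψ lam' B' :=
  ⟨h.diff, h.lam_nonneg.trans h1, h.lip.mono h1, fun x => (h.bdd x).trans h2⟩
lemma BP.zero : BP (fun _ : E ι => (0 : ℝ)) 0 0 := by
  have hg : gradient (fun _ : E ι => (0 : ℝ)) = fun _ => 0 := by
    funext x
    exact gradient_fun_const x 0
  refine ⟨differentiable_const _, le_rfl, ?_, fun x => ?_⟩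
  · rw [hg]; exact Lip.const _
  · rw [hg]; simp
/-- descent lemma -/
lemma BP.taylor (h : BP ψ lam B) (x y : E ι) :
    |ψ y - ψ x - ⟪gradient ψ x, y - x⟫| ≤ lam / 2 * ‖y - x‖ ^ 2 := by
  set v := y - x with hv
  have hd : ∀ t : ℝ, HasDerivAt (fun t : ℝ => ψ (x + t • v) - ψ x - t * ⟪gradient ψ x, v⟫)
      (⟪gradient ψ (x + t • v) - gradient ψ x, v⟫) t := by
    intro t
    have h1 : HasDerivAt (fun t : ℝ => x + t • v) v t := by
      simpa using ((hasDerivAt_id t).smul_const v).const_add x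
    have h2 := (h.diff (x + t • v)).hasFDerivAt.comp_hasDerivAt t h1
    have h3 := (h2.sub_const (ψ x)).sub ((hasDerivAt_id t).mul_const ⟪gradient ψ x, v⟫)
    refine h3.congr_deriv ?_
    rw [inner_sub_left, inner_gradient ψ (x + t • v), one_mul]
  have hB : ∀ t : ℝ, HasDerivAt (fun t : ℝ => lam / 2 * ‖v‖ ^ 2 * t ^ 2) (lam * ‖v‖ ^ 2 * t) t := by
    intro t
    have := (hasDerivAt_pow 2 t).const_mul (lam / 2 * ‖v‖ ^ 2)
    refine this.congr_deriv ?_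
    simp
    ring
  have key := image_norm_le_of_norm_deriv_right_le_deriv_boundary
    (f := fun t : ℝ => ψ (x + t • v) - ψ x - t * ⟪gradient ψ x, v⟫)
    (f' := fun t => ⟪gradient ψ (x + t • v) - gradient ψ x, v⟫) (a := 0) (b := 1)
    (fun t _ => (hd t).continuousAt.continuousWithinAt) (fun t _ => (hd t).hasDerivWithinAt)
    (B := fun t : ℝ => lam / 2 * ‖v‖ ^ 2 * t ^ 2) (B' := fun t => lam * ‖v‖ ^ 2 * t) (by simp) hB
    (fun t ht => by
      have h1 := h.lip (x + t • v) x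
      have h2 : ‖x + t • v - x‖ = t * ‖v‖ := by
        rw [add_sub_cancel_left, norm_smul, Real.norm_of_nonneg ht.1]
      rw [h2] at h1
      calc ‖⟪gradient ψ (x + t • v) - gradient ψ x, v⟫‖
          ≤ ‖gradient ψ (x + t • v) - gradient ψ x‖ * ‖v‖ := norm_inner_le_norm _ _
        _ ≤ lam * (t * ‖v‖) * ‖v‖ := mul_le_mul_of_nonneg_right h1 (norm_nonneg _)
        _ = lam * ‖v‖ ^ 2 * t := by ring)
    (x := 1) ⟨zero_le_one, le_rfl⟩
  have e : x + (1 : ℝ) • v = y := by rw [one_smul, hv]; abel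
  simp only [e, one_mul, one_pow, mul_one, Real.norm_eq_abs] at key
  exact key
lemma gradient_comp_smul (h : Differentiable ℝ ψ) (c : ℝ) (z : E ι) :
    gradient (fun z => ψ (c • z)) z = c • gradient ψ (c • z) := by
  apply ext_inner_right ℝ
  intro v
  have h1 : HasFDerivAt (fun z : E ι => c • z) (c • ContinuousLinearMap.id ℝ (E ι)) z :=
    (hasFDerivAt_id z).const_smul c
  have h2 := (h (c • z)).hasFDerivAt.comp z h1
  have h3 : fderiv ℝ (fun z => ψ (c • z)) z =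
      (fderiv ℝ ψ (c • z)).comp (c • ContinuousLinearMap.id ℝ (E ι)) := h2.fderiv
  rw [inner_gradient, real_inner_smul_left, inner_gradient, h3]
  simp
lemma BP.comp_smul (h : BP ψ lam B) {c : ℝ} (hc : 0 ≤ c) :
    BP (fun z => ψ (c • z)) (c ^ 2 * lam) (c * B) := by
  refine ⟨h.diff.comp (differentiable_id.const_smul c), mul_nonneg (sq_nonneg c) h.lam_nonneg,
    fun x y => ?_, fun x => ?_⟩
  · rw [gradient_comp_smul h.diff, gradient_comp_smul h.diff, ← smul_sub, norm_smul,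
      Real.norm_of_nonneg hc]
    have h1 := h.lip (c • x) (c • y)
    rw [← smul_sub, norm_smul, Real.norm_of_nonneg hc] at h1
    calc c * ‖gradient ψ (c • x) - gradient ψ (c • y)‖ ≤ c * (lam * (c * ‖x - y‖)) :=
          mul_le_mul_of_nonneg_left h1 hc
      _ = c ^ 2 * lam * ‖x - y‖ := by ring
  · rw [gradient_comp_smul h.diff, norm_smul, Real.norm_of_nonneg hc]
    exact mul_le_mul_of_nonneg_left (h.bdd _) hc
lemma t1_hasFDerivAt_sq (u : E ι) (σ : ℝ) (x : E ι) :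
    HasFDerivAt (fun x : E ι => ‖x - u‖ ^ 2 / (2 * σ ^ 2)) ((σ ^ 2)⁻¹ • innerSL ℝ (x - u)) x := by
  have h1 : HasFDerivAt (fun x : E ι => x - u) (ContinuousLinearMap.id ℝ (E ι)) x :=
    (hasFDerivAt_id x).sub_const u
  have h2 := (h1.norm_sq).const_mul (2 * σ ^ 2)⁻¹
  have e : (fun x : E ι => ‖x - u‖ ^ 2 / (2 * σ ^ 2)) = fun x => (2 * σ ^ 2)⁻¹ * ‖x - u‖ ^ 2 := by
    funext x; rw [div_eq_inv_mul]
  rw [e]
  refine h2.congr_fderiv ?_
  ext v
  simp only [smul_apply, innerSL_apply_apply, smul_eq_mul,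
    ContinuousLinearMap.comp_id, nsmul_eq_mul, Nat.cast_ofNat, mul_inv]
  ring
lemma BP.gradient_full (h : BP ψ lam B) (u : E ι) (σ : ℝ) (x : E ι) :
    gradient (fun x => ‖x - u‖ ^ 2 / (2 * σ ^ 2) + ψ x) x = (σ ^ 2)⁻¹ • (x - u) + gradient ψ x := by
  apply ext_inner_right ℝ
  intro v
  have h2 := (t1_hasFDerivAt_sq u σ x).add (h.diff x).hasFDerivAt
  have h3 : fderiv ℝ (fun x => ‖x - u‖ ^ 2 / (2 * σ ^ 2) + ψ x) x =
      (σ ^ 2)⁻¹ • innerSL ℝ (x - u) + fderiv ℝ ψ x := h2.fderiv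
  rw [inner_gradient, inner_add_left, real_inner_smul_left, inner_gradient, h3]
  simp [inner_sub_left]
lemma BP.wpot (h : BP ψ lam B) (u : E ι) (hσ : 0 < σ) :
    WPot fun x => ‖x - u‖ ^ 2 / (2 * σ ^ 2) + ψ x := by
  have hg : gradient (fun x => ‖x - u‖ ^ 2 / (2 * σ ^ 2) + ψ x) =
      fun x => (σ ^ 2)⁻¹ • (x - u) + gradient ψ x := funext (h.gradient_full u σ)
  have hl : Lip (|(σ ^ 2)⁻¹| * (1 + 0) + lam) fun x => (σ ^ 2)⁻¹ • (x - u) + gradient ψ x :=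
    ((Lip.id'.sub (Lip.const u)).smul _).add h.lip
  refine ⟨fun x => ((t1_hasFDerivAt_sq u σ x).add (h.diff x).hasFDerivAt).differentiableAt,
    by rw [hg]; exact hl.continuous, by rw [hg]; exact hl.polyB, 1 / (8 * σ ^ 2), by positivity,
    ‖u‖ ^ 2 / (2 * σ ^ 2) + 2 * σ ^ 2 * B ^ 2 - ψ 0, fun x => ?_⟩
  have h1 : |ψ x - ψ 0| ≤ B * ‖x‖ := by simpa using h.lip_self x 0
  have h2 : ‖x‖ ≤ ‖x - u‖ + ‖u‖ := by simpa using norm_add_le (x - u) u
  have h3 : ‖x‖ ^ 2 ≤ 2 * ‖x - u‖ ^ 2 + 2 * ‖u‖ ^ 2 := by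
    nlinarith [norm_nonneg x, norm_nonneg (x - u), norm_nonneg u, sq_nonneg (‖x - u‖ - ‖u‖)]
  have hs : 0 < σ ^ 2 := by positivity
  have h4 : B * ‖x‖ ≤ 1 / (8 * σ ^ 2) * ‖x‖ ^ 2 + 2 * σ ^ 2 * B ^ 2 := by
    have : 1 / (8 * σ ^ 2) * ‖x‖ ^ 2 + 2 * σ ^ 2 * B ^ 2 - B * ‖x‖ =
        (‖x‖ - 4 * σ ^ 2 * B) ^ 2 / (8 * σ ^ 2) := by field_simp; ring
    have h0 : 0 ≤ (‖x‖ - 4 * σ ^ 2 * B) ^ 2 / (8 * σ ^ 2) := by positivity
    linarith
  have h5 : 2 * (1 / (8 * σ ^ 2) * ‖x‖ ^ 2) ≤ ‖x - u‖ ^ 2 / (2 * σ ^ 2) + ‖u‖ ^ 2 / (2 * σ ^ 2) := by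
    have : ‖x - u‖ ^ 2 / (2 * σ ^ 2) + ‖u‖ ^ 2 / (2 * σ ^ 2) - 2 * (1 / (8 * σ ^ 2) * ‖x‖ ^ 2) =
        (2 * ‖x - u‖ ^ 2 + 2 * ‖u‖ ^ 2 - ‖x‖ ^ 2) / (4 * σ ^ 2) := by field_simp; ring
    have h0 : 0 ≤ (2 * ‖x - u‖ ^ 2 + 2 * ‖u‖ ^ 2 - ‖x‖ ^ 2) / (4 * σ ^ 2) :=
      div_nonneg (by linarith) (by positivity)
    linarith
  have h6 := (abs_le.1 h1).1
  linarith
lemma tg_eq_gibbs (ψ : E ι → ℝ) (u : E ι) (hσ : 0 < σ) :
    tg ψ u σ = gibbs fun x => ‖x - u‖ ^ 2 / (2 * σ ^ 2) + ψ x := by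
  have hw : WPot fun x : E ι => ‖x - u‖ ^ 2 / (2 * σ ^ 2) := by
    simpa using BP.zero.wpot u hσ
  rw [tg, gs_eq_gibbs u hσ, gibbs_tilted hw]
lemma tg_zero (u : E ι) (σ : ℝ) : tg (fun _ => 0) u σ = gs u σ := by
  unfold tg
  exact tilted_const _ _
lemma t1_exp_le (h : BP ψ lam B) (u : E ι) (σ : ℝ) (z : E ι) :
    Real.exp (-ψ (u + σ • z)) ≤ Real.exp (-ψ u) * Real.exp (B * |σ| * ‖z‖) := by
  rw [← Real.exp_add]
  apply Real.exp_le_exp.2
  have h1 := h.lip_self (u + σ • z) u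
  rw [add_sub_cancel_left, norm_smul, Real.norm_eq_abs, Real.norm_eq_abs] at h1
  have := (abs_le.1 h1).1
  linarith
lemma t1_le_exp (h : BP ψ lam B) (u : E ι) (σ : ℝ) (z : E ι) :
    Real.exp (-ψ u) * Real.exp (-(B * |σ|) * ‖z‖) ≤ Real.exp (-ψ (u + σ • z)) := by
  rw [← Real.exp_add]
  apply Real.exp_le_exp.2
  have h1 := h.lip_self (u + σ • z) u
  rw [add_sub_cancel_left, norm_smul, Real.norm_eq_abs, Real.norm_eq_abs] at h1
  have := (abs_le.1 h1).2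
  linarith
omit [NormedSpace ℝ Y] in
lemma t1_poly_le {f : E ι → Y} {k : ℕ} {C : ℝ} (hf : ∀ x, ‖f x‖ ≤ C * (1 + ‖x‖) ^ k) (u : E ι)
    (σ : ℝ) (z : E ι) : ‖f (u + σ • z)‖ ≤ C * (1 + |σ|) ^ k * (1 + ‖u‖) ^ k * (1 + ‖z‖) ^ k := by
  have hC : 0 ≤ C := by
    have := (norm_nonneg _).trans (hf 0)
    simpa using this
  have h1 : 1 + ‖u + σ • z‖ ≤ (1 + |σ|) * (1 + ‖u‖) * (1 + ‖z‖) := by
    have h2 : ‖u + σ • z‖ ≤ ‖u‖ + |σ| * ‖z‖ := by
      simpa [norm_smul] using norm_add_le u (σ • z)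
    have a := norm_nonneg u
    have b := norm_nonneg z
    have c := abs_nonneg σ
    have ab := mul_nonneg a b
    have ac := mul_nonneg a c
    have abc := mul_nonneg ab c
    nlinarith
  calc ‖f (u + σ • z)‖ ≤ C * (1 + ‖u + σ • z‖) ^ k := hf _
    _ ≤ C * ((1 + |σ|) * (1 + ‖u‖) * (1 + ‖z‖)) ^ k :=
        mul_le_mul_of_nonneg_left (pow_le_pow_left₀ (by positivity) h1 k) hC
    _ = _ := by rw [mul_pow, mul_pow]; ring
lemma t1_weight_le (h : BP ψ lam B) {f : E ι → Y} {k : ℕ} {C : ℝ}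
    (hf : ∀ x, ‖f x‖ ≤ C * (1 + ‖x‖) ^ k) (u : E ι) (σ : ℝ) (z : E ι) :
    ‖Real.exp (-ψ (u + σ • z)) • f (u + σ • z)‖ ≤
      Real.exp (-ψ u) * (C * (1 + |σ|) ^ k * (1 + ‖u‖) ^ k) *
        (Real.exp (B * |σ| * ‖z‖) * (1 + ‖z‖) ^ k) := by
  rw [norm_smul, Real.norm_of_nonneg (Real.exp_pos _).le]
  calc _ ≤ (Real.exp (-ψ u) * Real.exp (B * |σ| * ‖z‖)) *
        (C * (1 + |σ|) ^ k * (1 + ‖u‖) ^ k * (1 + ‖z‖) ^ k) :=
        mul_le_mul (t1_exp_le h u σ z) (t1_poly_le hf u σ z) (norm_nonneg _) (by positivity)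
    _ = _ := by ring
lemma t1_integrable_weight (h : BP ψ lam B) (u : E ι) (σ : ℝ) {f : E ι → Y} (hf : PolyB f)
    (hc : Continuous f) : Integrable (fun x => Real.exp (-ψ x) • f x) (gs u σ) := by
  obtain ⟨k, C, hf⟩ := hf
  have hψ := h.continuous
  have hm : Continuous fun x => Real.exp (-ψ x) • f x := by fun_prop
  rw [← (measurePreserving_gs u σ).integrable_comp hm.aestronglyMeasurable]
  refine ((integrable_exp_γ (B * |σ|) k).const_mul
    (Real.exp (-ψ u) * (C * (1 + |σ|) ^ k * (1 + ‖u‖) ^ k))).mono' ?_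
    (Eventually.of_forall fun z => t1_weight_le h hf u σ z)
  exact (hm.comp (by fun_prop)).aestronglyMeasurable
lemma BP.integrable_exp (h : BP ψ lam B) (u : E ι) (σ : ℝ) :
    Integrable (fun x => Real.exp (-ψ x)) (gs u σ) := by
  simpa using t1_integrable_weight h u σ (PolyB.const (1 : ℝ)) continuous_const
lemma BP.prob (h : BP ψ lam B) (u : E ι) (σ : ℝ) : IsProbabilityMeasure (tg ψ u σ) :=
  isProbabilityMeasure_tilted (h.integrable_exp u σ)
lemma BP.integrable (h : BP ψ lam B) (u : E ι) (σ : ℝ) {f : E ι → Y} (hf : PolyB f)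
    (hc : Continuous f) : Integrable f (tg ψ u σ) :=
  (integrable_tilted_iff (h.integrable_exp u σ) f).2 (t1_integrable_weight h u σ hf hc)
lemma BP.L2le_sub (h : BP ψ lam B) (u : E ι) (hσ : 0 < σ) :
    L2le (tg ψ u σ) (fun x => x - u) (σ ^ 2 * B + σ * √(Fintype.card ι)) := by
  have hs : 0 < σ ^ 2 := by positivity
  have key := (h.wpot u hσ).second_moment u (a := (σ ^ 2)⁻¹) (B := B) (inv_pos.2 hs) h.nonneg
    (fun x => by
      rw [h.gradient_full, inner_add_right, real_inner_smul_right, real_inner_self_eq_norm_sq]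
      have h1 : |⟪x - u, gradient ψ x⟫| ≤ ‖x - u‖ * ‖gradient ψ x‖ := abs_real_inner_le_norm _ _
      have h2 : ‖x - u‖ * ‖gradient ψ x‖ ≤ ‖x - u‖ * B :=
        mul_le_mul_of_nonneg_left (h.bdd x) (norm_nonneg _)
      have := (abs_le.1 h1).1
      linarith)
  rw [tg_eq_gibbs ψ u hσ]
  convert key using 2
  · rw [div_inv_eq_mul, mul_comm]
  · rw [div_inv_eq_mul, Real.sqrt_mul (Nat.cast_nonneg _), Real.sqrt_sq hσ.le, mul_comm]
lemma t1_integral_tg (ψ : E ι → ℝ) (u : E ι) (σ : ℝ) (f : E ι → Y) :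
    ∫ x, f x ∂tg ψ u σ =
      (∫ x, Real.exp (-ψ x) ∂gs u σ)⁻¹ • ∫ x, Real.exp (-ψ x) • f x ∂gs u σ := by
  rw [tg, integral_tilted, ← integral_smul]
  congr 1
  funext x
  rw [smul_smul, div_eq_inv_mul]
lemma t1_Z_pos (h : BP ψ lam B) (u : E ι) (σ : ℝ) : 0 < ∫ x, Real.exp (-ψ x) ∂gs u σ :=
  integral_exp_pos (h.integrable_exp u σ)
/-- tilted means of polynomially bounded functions are polynomially bounded: compare the density
with its value at the centre using `lip_self` -/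
lemma BP.polyB_integral (h : BP ψ lam B) (σ : ℝ) {f : E ι → Y} (hf : PolyB f) (hc : Continuous f) :
    PolyB fun u => ∫ x, f x ∂tg ψ u σ := by
  obtain ⟨k, C, hf⟩ := hf
  have hψ := h.continuous
  have hC : 0 ≤ C := by
    have := (norm_nonneg _).trans (hf 0)
    simpa using this
  have i0 : Integrable (fun z : E ι => Real.exp (-(B * |σ|) * ‖z‖)) (γ ι) := by
    simpa using integrable_exp_γ (ι := ι) (-(B * |σ|)) 0
  set c0 := ∫ z : E ι, Real.exp (-(B * |σ|) * ‖z‖) ∂γ ι with hc0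
  have c0pos : 0 < c0 := integral_exp_pos i0
  set c1 := ∫ z : E ι, Real.exp (B * |σ| * ‖z‖) * (1 + ‖z‖) ^ k ∂γ ι with hc1
  have c1nn : 0 ≤ c1 := integral_nonneg fun z => by positivity
  refine ⟨k, c0⁻¹ * (C * (1 + |σ|) ^ k) * c1, fun u => ?_⟩
  have hm : Continuous fun x => Real.exp (-ψ x) • f x := by fun_prop
  have hm' : Continuous fun x => Real.exp (-ψ x) := by fun_prop
  have hZ : Real.exp (-ψ u) * c0 ≤ ∫ x, Real.exp (-ψ x) ∂gs u σ := by
    rw [integral_gs u σ hm'.aestronglyMeasurable, hc0, ← integral_const_mul]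
    refine integral_mono (i0.const_mul _) ?_ fun z => t1_le_exp h u σ z
    exact ((measurePreserving_gs u σ).integrable_comp hm'.aestronglyMeasurable).2
      (h.integrable_exp u σ)
  have hN : ‖∫ x, Real.exp (-ψ x) • f x ∂gs u σ‖ ≤
      Real.exp (-ψ u) * (C * (1 + |σ|) ^ k * (1 + ‖u‖) ^ k) * c1 := by
    rw [integral_gs u σ hm.aestronglyMeasurable, hc1, ← integral_const_mul]
    exact norm_integral_le_of_norm_le ((integrable_exp_γ (B * |σ|) k).const_mul _)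
      (Eventually.of_forall fun z => t1_weight_le h hf u σ z)
  have hZpos := t1_Z_pos h u σ
  have he := Real.exp_pos (-ψ u)
  beta_reduce
  rw [t1_integral_tg, norm_smul, Real.norm_of_nonneg (inv_nonneg.2 hZpos.le)]
  calc _ ≤ (Real.exp (-ψ u) * c0)⁻¹ * (Real.exp (-ψ u) * (C * (1 + |σ|) ^ k * (1 + ‖u‖) ^ k) * c1) :=
        mul_le_mul (inv_anti₀ (by positivity) hZ) hN (norm_nonneg _) (by positivity)
    _ = _ := by field_simp
lemma t1_hasFDerivAt_num [CompleteSpace Y] (h : BP ψ lam B) (hσ : 0 < σ) {φ : E ι → Y}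
    (hφ : PolyB φ) (hc : Continuous φ) (u : E ι) :
    ∃ D : E ι →L[ℝ] Y,
      HasFDerivAt (fun u => ∫ x, Real.exp (-(‖x - u‖ ^ 2 / (2 * σ ^ 2) + ψ x)) • φ x) D u ∧
      ∀ g, D g = (σ ^ 2)⁻¹ •
        ∫ x, Real.exp (-(‖x - u‖ ^ 2 / (2 * σ ^ 2) + ψ x)) • (⟪g, x - u⟫ • φ x) := by
  have hψ := h.continuous
  have hs : 0 < σ ^ 2 := by positivity
  set F' : E ι → E ι → (E ι →L[ℝ] Y) := fun u x =>
    (Real.exp (-(‖x - u‖ ^ 2 / (2 * σ ^ 2) + ψ x)) * (σ ^ 2)⁻¹) •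
      (innerSL ℝ (x - u)).smulRight (φ x) with hF'
  have hcont : ∀ u', Continuous (F' u') := by
    intro u'
    have h1 : Continuous fun x : E ι => (innerSL ℝ (x - u')).smulRight (φ x) := by
      have := ((ContinuousLinearMap.smulRightL ℝ (E ι) Y).continuous₂).comp
        (((innerSL ℝ (E := E ι)).continuous.comp (continuous_id.sub continuous_const (g := fun _ => u'))).prodMk hc)
      exact this
    simp only [hF']
    fun_prop
  have hnorm : ∀ u' x, ‖F' u' x‖ =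
      Real.exp (-(‖x - u'‖ ^ 2 / (2 * σ ^ 2) + ψ x)) * (σ ^ 2)⁻¹ * (‖x - u'‖ * ‖φ x‖) := by
    intro u' x
    simp only [hF']
    rw [norm_smul, ContinuousLinearMap.norm_smulRight_apply, innerSL_apply_norm,
      Real.norm_of_nonneg (by positivity)]
  have hpb : PolyB fun x : E ι => (‖x - u‖ + 1) * ‖φ x‖ :=
    (((Lip.id'.sub (Lip.const u)).norm'.polyB).add (PolyB.const 1)).mul hφ.norm'
  have hbi : Integrable fun x : E ι => (Real.exp (1 / (2 * σ ^ 2)) * (σ ^ 2)⁻¹) *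
      (Real.exp (-(‖x - u‖ ^ 2 / (2 * (2 * σ) ^ 2) + ψ x)) • ((‖x - u‖ + 1) * ‖φ x‖)) :=
    ((h.wpot u (σ := 2 * σ) (by positivity)).integrable_weight hpb
      (by fun_prop : Continuous fun x : E ι =>
        (‖x - u‖ + 1) * ‖φ x‖).aestronglyMeasurable).const_mul _
  have hbound : ∀ x, ∀ u' ∈ Metric.ball u 1, ‖F' u' x‖ ≤ (Real.exp (1 / (2 * σ ^ 2)) * (σ ^ 2)⁻¹) *
      (Real.exp (-(‖x - u‖ ^ 2 / (2 * (2 * σ) ^ 2) + ψ x)) • ((‖x - u‖ + 1) * ‖φ x‖)) := by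
    intro x u' hu'
    rw [Metric.mem_ball, dist_eq_norm] at hu'
    have a1 : ‖x - u'‖ ≤ ‖x - u‖ + 1 := by
      have : x - u' = (x - u) - (u' - u) := by abel
      rw [this]
      exact (norm_sub_le _ _).trans (by linarith)
    have a2 : ‖x - u‖ ≤ ‖x - u'‖ + 1 := by
      have : x - u = (x - u') + (u' - u) := by abel
      rw [this]
      exact (norm_add_le _ _).trans (by linarith)
    have a3 : ‖x - u‖ ^ 2 ≤ 4 * ‖x - u'‖ ^ 2 + 4 := by
      nlinarith [norm_nonneg (x - u), norm_nonneg (x - u'), sq_nonneg (‖x - u'‖ - 1)]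
    have a4 : Real.exp (-(‖x - u'‖ ^ 2 / (2 * σ ^ 2) + ψ x)) ≤
        Real.exp (1 / (2 * σ ^ 2)) * Real.exp (-(‖x - u‖ ^ 2 / (2 * (2 * σ) ^ 2) + ψ x)) := by
      rw [← Real.exp_add]
      apply Real.exp_le_exp.2
      have : 1 / (2 * σ ^ 2) + ‖x - u'‖ ^ 2 / (2 * σ ^ 2) - ‖x - u‖ ^ 2 / (2 * (2 * σ) ^ 2) =
          (4 * ‖x - u'‖ ^ 2 + 4 - ‖x - u‖ ^ 2) / (8 * σ ^ 2) := by field_simp; ring
      have h0 : 0 ≤ (4 * ‖x - u'‖ ^ 2 + 4 - ‖x - u‖ ^ 2) / (8 * σ ^ 2) :=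
        div_nonneg (by linarith) (by positivity)
      linarith
    rw [hnorm, smul_eq_mul]
    calc _ ≤ (Real.exp (1 / (2 * σ ^ 2)) * Real.exp (-(‖x - u‖ ^ 2 / (2 * (2 * σ) ^ 2) + ψ x))) *
          (σ ^ 2)⁻¹ * ((‖x - u‖ + 1) * ‖φ x‖) := by gcongr
      _ = _ := by ring
  have hder : ∀ x u', HasFDerivAt
      (fun u => Real.exp (-(‖x - u‖ ^ 2 / (2 * σ ^ 2) + ψ x)) • φ x) (F' u' x) u' := by
    intro x u'
    have h1 := ((((t1_hasFDerivAt_sq x σ u').add_const (ψ x)).neg).exp).smul_const (φ x)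
    have e : (fun u => Real.exp (-(‖x - u‖ ^ 2 / (2 * σ ^ 2) + ψ x)) • φ x) =
        fun u => Real.exp (-(‖u - x‖ ^ 2 / (2 * σ ^ 2) + ψ x)) • φ x := by
      funext u; rw [norm_sub_rev]
    rw [e]
    refine h1.congr_fderiv ?_
    ext v
    simp only [hF', smul_apply, ContinuousLinearMap.smulRight_apply,
      innerSL_apply_apply, smul_eq_mul, neg_apply, Pi.neg_apply, smul_smul]
    rw [norm_sub_rev u' x, ← neg_sub x u', inner_neg_left]
    congr 1
    ring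
  have hint : Integrable (F' u) :=
    hbi.mono' (hcont u).aestronglyMeasurable
      (Eventually.of_forall fun x => hbound x u (Metric.mem_ball_self one_pos))
  refine ⟨∫ x, F' u x, ?_, fun g => ?_⟩
  · refine hasFDerivAt_integral_of_dominated_of_fderiv_le (Metric.ball_mem_nhds u one_pos)
      (Eventually.of_forall fun u' => ?_) ?_ (hcont u).aestronglyMeasurable
      (Eventually.of_forall hbound) hbi (Eventually.of_forall fun x u' _ => hder x u')
    · exact (by fun_prop : Continuous fun x =>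
        Real.exp (-(‖x - u'‖ ^ 2 / (2 * σ ^ 2) + ψ x)) • φ x).aestronglyMeasurable
    · exact (h.wpot u hσ).integrable_weight hφ hc.aestronglyMeasurable
  · rw [ContinuousLinearMap.integral_apply hint, ← integral_smul]
    congr 1
    funext x
    simp only [hF', smul_apply, ContinuousLinearMap.smulRight_apply,
      innerSL_apply_apply, smul_smul]
    rw [real_inner_comm]
    congr 1
    ring
theorem BP.hasFDerivAt_integral [CompleteSpace Y] (h : BP ψ lam B) (hσ : 0 < σ) {φ : E ι → Y}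
    (hφ : PolyB φ) (hc : Continuous φ) (u : E ι) :
    ∃ D : E ι →L[ℝ] Y, HasFDerivAt (fun u => ∫ x, φ x ∂tg ψ u σ) D u ∧
      ∀ g, D g = (σ ^ 2)⁻¹ • ∫ x, ⟪g, x - ∫ y, y ∂tg ψ u σ⟫ • φ x ∂tg ψ u σ := by
  obtain ⟨DN, hN, hN'⟩ := t1_hasFDerivAt_num h hσ hφ hc u
  obtain ⟨DZ, hZ, hZ'⟩ := t1_hasFDerivAt_num h hσ (PolyB.const (1 : ℝ)) continuous_const u
  simp only [smul_eq_mul, mul_one] at hZ hZ'
  have hZpos := (h.wpot u hσ).partition_pos
  have e : (fun u => ∫ x, φ x ∂tg ψ u σ) = fun u =>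
      (∫ x, Real.exp (-(‖x - u‖ ^ 2 / (2 * σ ^ 2) + ψ x)))⁻¹ •
        ∫ x, Real.exp (-(‖x - u‖ ^ 2 / (2 * σ ^ 2) + ψ x)) • φ x := by
    funext u
    rw [tg_eq_gibbs ψ u hσ, integral_gibbs]
  have hinv := (hasDerivAt_inv hZpos.ne').comp_hasFDerivAt u hZ
  have hD := hinv.smul hN
  refine ⟨_, by rw [e]; exact hD, fun g => ?_⟩
  have := h.prob u σ
  have hid : Integrable (fun y : E ι => y) (tg ψ u σ) := h.integrable u σ Lip.id'.polyB continuous_id
  have hl : Lip ‖innerSL ℝ g‖ fun x : E ι => ⟪g, x - u⟫ := by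
    have := (Lip.clm (innerSL ℝ g)).comp (norm_nonneg _) (Lip.id'.sub (Lip.const u))
    simpa using this
  have i1 : Integrable (fun x => ⟪g, x - u⟫ • φ x) (tg ψ u σ) :=
    h.integrable u σ (hl.polyB.smul hφ) (hl.continuous.smul hc)
  have i2 : Integrable φ (tg ψ u σ) := h.integrable u σ hφ hc
  have e1 : ⟪g, (∫ y, y ∂tg ψ u σ) - u⟫ = ∫ x, ⟪g, x - u⟫ ∂tg ψ u σ := by
    have hid' : Integrable (fun y : E ι => y - u) (tg ψ u σ) := hid.sub (integrable_const u)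
    rw [integral_inner hid', integral_sub hid (integrable_const u)]
    simp
  have e2 : ∫ x, ⟪g, x - ∫ y, y ∂tg ψ u σ⟫ • φ x ∂tg ψ u σ =
      ∫ x, ⟪g, x - u⟫ • φ x ∂tg ψ u σ - (∫ x, ⟪g, x - u⟫ ∂tg ψ u σ) • ∫ x, φ x ∂tg ψ u σ := by
    have i3 : Integrable (fun x => ⟪g, (∫ y, y ∂tg ψ u σ) - u⟫ • φ x) (tg ψ u σ) := i2.smul _
    rw [← e1, ← integral_smul, ← integral_sub i1 i3]
    congr 1
    funext x
    rw [← sub_smul, ← inner_sub_right]
    congr 2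
    abel
  rw [e2, tg_eq_gibbs ψ u hσ, integral_gibbs, integral_gibbs, integral_gibbs]
  simp only [add_apply, smul_apply,
    ContinuousLinearMap.smulRight_apply, Function.comp_apply, hN', hZ', smul_eq_mul, smul_smul,
    smul_sub]
  rw [sub_eq_add_neg, ← neg_smul]
  congr 2
  · ring
  · field_simp
lemma t1_tilted_map {X X' : Type} [MeasurableSpace X] [MeasurableSpace X'] (μ : Measure X)
    {T : X → X'} (hT : Measurable T) {f : X' → ℝ} (hf : Measurable f) :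
    (μ.tilted fun x => f (T x)).map T = (μ.map T).tilted f := by
  ext s hs
  have hZ : ∫ x, Real.exp (f x) ∂μ.map T = ∫ x, Real.exp (f (T x)) ∂μ :=
    integral_map hT.aemeasurable hf.exp.aestronglyMeasurable
  rw [Measure.map_apply hT hs, tilted_apply' _ _ (hT hs), tilted_apply' _ _ hs, hZ,
    setLIntegral_map hs (by fun_prop) hT]
theorem tg_map_smul (h : BP ψ lam B) {c : ℝ} (hc : 0 < c) (u : E ι) (σ : ℝ) :
    (tg (fun z => ψ (c • z)) u σ).map (fun z => c • z) = tg ψ (c • u) (c * σ) := by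
  have hψ := h.continuous
  unfold tg
  rw [← gs_map_smul]
  exact t1_tilted_map (gs u σ) (T := fun z => c • z) (by fun_prop) (f := fun x => -ψ x)
    (by fun_prop)
lemma t1_integral_conv [CompleteSpace Y] {s s' : ℝ} (hs' : 0 < s') (hs : s' ≤ s) (y : E ι)
    {G : E ι → Y} (hc : Continuous G) (hG : Integrable G (gs y √s)) :
    ∫ x, G x ∂gs y √s = ∫ x, ∫ x', G x' ∂gs x √s' ∂gs y √(s - s') := by
  have e : ((gs y √(s - s')).prod (gs (0 : E ι) √s')).map (fun p => p.1 + p.2) = gs y √s := by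
    rw [gs_conv, add_zero, Real.sq_sqrt (by linarith), Real.sq_sqrt hs'.le, sub_add_cancel]
  have hm : Measurable fun p : E ι × E ι => p.1 + p.2 := by fun_prop
  rw [← e] at hG ⊢
  have hG' : Integrable (fun p : E ι × E ι => G (p.1 + p.2))
      ((gs y √(s - s')).prod (gs (0 : E ι) √s')) :=
    (integrable_map_measure hc.aestronglyMeasurable hm.aemeasurable).1 hG
  rw [integral_map hm.aemeasurable hc.aestronglyMeasurable, integral_prod _ hG']
  congr 1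
  funext x
  have e' : (gs (0 : E ι) √s').map (fun w => x + w) = gs x √s' := by rw [gs_map_add, add_zero]
  rw [← e', integral_map (by fun_prop) hc.aestronglyMeasurable]
theorem tg_semigroup [CompleteSpace Y] (h : BP ψ lam B) {s s' : ℝ} (hs' : 0 < s') (hs : s' ≤ s)
    (y : E ι) {f : E ι → Y} (hf : PolyB f) (hc : Continuous f) :
    ∫ x, f x ∂tg ψ y √s = ∫ x, ∫ x', f x' ∂tg ψ x √s' ∂tg (lz ψ s') y √(s - s') := by
  have hψ := h.continuous
  have hexp : ∀ x, Real.exp (-lz ψ s' x) = ∫ x', Real.exp (-ψ x') ∂gs x √s' := by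
    intro x
    rw [lz, neg_neg, Real.exp_log (t1_Z_pos h x _)]
  rw [t1_integral_tg ψ y, t1_integral_tg (lz ψ s') y,
    t1_integral_conv hs' hs y (G := fun x => Real.exp (-ψ x)) (by fun_prop) (h.integrable_exp _ _),
    t1_integral_conv hs' hs y (G := fun x => Real.exp (-ψ x) • f x) (by fun_prop)
      (t1_integrable_weight h _ _ hf hc)]
  simp only [hexp]
  congr 2
  funext x
  rw [t1_integral_tg, smul_smul, mul_inv_cancel₀ (t1_Z_pos h x _).ne', one_smul]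


end Crest.Agent.R285
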