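import Crest.Agent.R285.Taylor
import Crest.Agent.R285.Sob
import Crest.Agent.R285.Invar
import Crest.Agent.R285.Tilt1

/-!
# Row 285 (S0430): Arc1Aux
Auxiliary material for one Hamiltonian arc: the potential, the antisymmetric operator and the vector field.
-/

set_option autoImplicit false

open MeasureTheory ProbabilityTheory Filter Topology
open scoped RealInnerProductSpace

noncomputable section

namespace Crest.Agent.R285

variable {ι κ : Type} [Fintype ι] [Fintype κ]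

lemma arc_gradient_pair {Φ : E ι → ℝ} {Φ' : E κ → ℝ} (h : Differentiable ℝ Φ)
    (h' : Differentiable ℝ Φ') (z : E (ι ⊕ κ)) :
    gradient (fun z : E (ι ⊕ κ) => Φ (fstL z) + Φ' (sndL z)) z =
      pair (gradient Φ (fstL z)) (gradient Φ' (sndL z)) := by
  refine ext_inner_right ℝ fun v => ?_
  have h1 : HasFDerivAt (fun z : E (ι ⊕ κ) => Φ (fstL z) + Φ' (sndL z))
      ((fderiv ℝ Φ (fstL z)).comp fstL + (fderiv ℝ Φ' (sndL z)).comp sndL) z :=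
    ((h (fstL z)).hasFDerivAt.comp z (fstL : E (ι ⊕ κ) →L[ℝ] E ι).hasFDerivAt).add
      ((h' (sndL z)).hasFDerivAt.comp z (sndL : E (ι ⊕ κ) →L[ℝ] E κ).hasFDerivAt)
  rw [inner_gradient, h1.fderiv]
  conv_rhs => rw [← pair_fst_snd v]
  rw [inner_pair, inner_gradient, inner_gradient]
  rfl

lemma arc_differentiable_pair {Φ : E ι → ℝ} {Φ' : E κ → ℝ} (h : Differentiable ℝ Φ)
    (h' : Differentiable ℝ Φ') :
    Differentiable ℝ fun z : E (ι ⊕ κ) => Φ (fstL z) + Φ' (sndL z) :=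
  (h.comp (fstL : E (ι ⊕ κ) →L[ℝ] E ι).differentiable).add
    (h'.comp (sndL : E (ι ⊕ κ) →L[ℝ] E κ).differentiable)

lemma WPot.arc_pair {Φ : E ι → ℝ} {Φ' : E κ → ℝ} (h : WPot Φ) (h' : WPot Φ') :
    WPot fun z : E (ι ⊕ κ) => Φ (fstL z) + Φ' (sndL z) := by
  have hg : gradient (fun z : E (ι ⊕ κ) => Φ (fstL z) + Φ' (sndL z)) =
      fun z => pair (gradient Φ (fstL z)) (gradient Φ' (sndL z)) :=
    funext (arc_gradient_pair h.diff h'.diff)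
  refine ⟨arc_differentiable_pair h.diff h'.diff, ?_, ?_, ?_⟩
  · rw [hg]
    exact Continuous.pair' (h.cont.comp (fstL : E (ι ⊕ κ) →L[ℝ] E ι).continuous)
      (h'.cont.comp (sndL : E (ι ⊕ κ) →L[ℝ] E κ).continuous)
  · rw [hg]
    simp only [pair_eq]
    exact ((Lip.clm (inlL : E ι →L[ℝ] E (ι ⊕ κ))).polyB.comp
      (h.poly.comp (Lip.clm (fstL : E (ι ⊕ κ) →L[ℝ] E ι)).polyB)).add
      ((Lip.clm (inrL : E κ →L[ℝ] E (ι ⊕ κ))).polyB.comp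
      (h'.poly.comp (Lip.clm (sndL : E (ι ⊕ κ) →L[ℝ] E κ)).polyB))
  · obtain ⟨c, hc, C, hC⟩ := h.conf
    obtain ⟨c', hc', C', hC'⟩ := h'.conf
    refine ⟨min c c', lt_min hc hc', C + C', fun z => ?_⟩
    have h1 := hC (fstL z)
    have h2 := hC' (sndL z)
    have h3 : ‖z‖ ^ 2 = ‖fstL z‖ ^ 2 + ‖sndL z‖ ^ 2 := by
      rw [← norm_sq_pair, pair_fst_snd]
    have h4 : min c c' * ‖fstL z‖ ^ 2 ≤ c * ‖fstL z‖ ^ 2 :=
      mul_le_mul_of_nonneg_right (min_le_left _ _) (sq_nonneg _)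
    have h5 : min c c' * ‖sndL z‖ ^ 2 ≤ c' * ‖sndL z‖ ^ 2 :=
      mul_le_mul_of_nonneg_right (min_le_right _ _) (sq_nonneg _)
    rw [h3]
    linarith

/-- the Gaussian potential -/
def arcQ (ψ : E ι → ℝ) (u : E ι) (σ : ℝ) (x : E ι) : ℝ := ‖x - u‖ ^ 2 / (2 * σ ^ 2) + ψ x

/-- the potential of the arc measure -/
def arcPot (ψ : E ι → ℝ) (u : E ι) (σ : ℝ) (X : E (ι ⊕ (ι ⊕ ι))) : ℝ :=
  arcQ ψ u σ (fstL X) + (arcQ (fun _ => 0) u σ (fstL (sndL X)) +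
    arcQ (fun _ => 0) 0 σ (sndL (sndL X)))

variable {ψ : E ι → ℝ} {lam B σ : ℝ}

lemma arcQ_wpot (h : BP ψ lam B) (u : E ι) (hσ : 0 < σ) : WPot (arcQ ψ u σ) := h.wpot u hσ

lemma arcPot_wpot (h : BP ψ lam B) (u : E ι) (hσ : 0 < σ) : WPot (arcPot ψ u σ) :=
  (arcQ_wpot h u hσ).arc_pair ((arcQ_wpot BP.zero u hσ).arc_pair (arcQ_wpot BP.zero 0 hσ))

lemma arcM_eq_gibbs (h : BP ψ lam B) (u : E ι) (hσ : 0 < σ) :
    arcM (tg ψ u σ) u σ = gibbs (arcPot ψ u σ) := by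
  have h1 := arcQ_wpot h u hσ
  have h2 := arcQ_wpot (BP.zero (ι := ι)) u hσ
  have h3 := arcQ_wpot (BP.zero (ι := ι)) 0 hσ
  have e1 : tg ψ u σ = gibbs (arcQ ψ u σ) := tg_eq_gibbs ψ u hσ
  have e2 : ∀ v : E ι, gs v σ = gibbs (arcQ (fun _ => 0) v σ) := fun v => by
    rw [← tg_zero]; exact tg_eq_gibbs _ v hσ
  have := h1.prob
  have := h2.prob
  have := h3.prob
  have e3 := gibbs_pair h2 h3
  have e4 := gibbs_pair h1 (h2.arc_pair h3)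
  have hm : Measurable fun p : E ι × E ι => pair p.1 p.2 := by fun_prop
  have hm' : Measurable fun p : E ι × E (ι ⊕ ι) => pair p.1 p.2 := by fun_prop
  rw [← e3] at e4
  have e5 : (gibbs (arcQ ψ u σ)).prod (((gibbs (arcQ (fun _ => 0) u σ)).prod
      (gibbs (arcQ (fun _ => 0) 0 σ))).map fun p : E ι × E ι => pair p.1 p.2) =
      ((gibbs (arcQ ψ u σ)).prod ((gibbs (arcQ (fun _ => 0) u σ)).prod
      (gibbs (arcQ (fun _ => 0) 0 σ)))).map (Prod.map id fun p : E ι × E ι => pair p.1 p.2) := by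
    rw [← Measure.map_prod_map _ _ measurable_id hm, Measure.map_id]
  rw [e5, Measure.map_map hm' (measurable_id.prodMap hm)] at e4
  unfold arcM
  rw [e1, e2 u, e2 0]
  exact e4

lemma arcPot_gradient (h : BP ψ lam B) (u : E ι) (hσ : 0 < σ) (X : E (ι ⊕ (ι ⊕ ι))) :
    gradient (arcPot ψ u σ) X =
      (σ ^ 2)⁻¹ • (X - pair u (pair u 0)) + inlL (gradient ψ (fstL X)) := by
  have h1 := arcQ_wpot h u hσ
  have h2 := arcQ_wpot (BP.zero (ι := ι)) u hσ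
  have h3 := arcQ_wpot (BP.zero (ι := ι)) 0 hσ
  have e1 := arc_gradient_pair h1.diff (h2.arc_pair h3).diff X
  have e2 := arc_gradient_pair h2.diff h3.diff (sndL X)
  have g1 : gradient (arcQ ψ u σ) (fstL X) = _ := h.gradient_full u σ (fstL X)
  have g2 : ∀ v x : E ι, gradient (arcQ (fun _ => 0) v σ) x = (σ ^ 2)⁻¹ • (x - v) := fun v x => by
    have := (BP.zero (ι := ι)).gradient_full v σ x
    rw [gradient_fun_const, add_zero] at this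
    exact this
  have e3 : gradient (arcPot ψ u σ) X = _ := e1
  rw [e3, e2, g1, g2, g2]
  conv_rhs => rw [← pair_fst_snd X, ← pair_fst_snd (sndL X)]
  simp only [pair_sub, pair_smul, inlL_apply, pair_add, fstL_pair, add_zero]

lemma arcPot_nice (h : BP ψ lam B) (hg : TG (gradient ψ)) (u : E ι) (hσ : 0 < σ) :
    NicePot (arcPot ψ u σ) := by
  have h1 := arcPot_wpot h u hσ
  refine ⟨h1.diff, ?_, h1.conf⟩
  rw [funext (arcPot_gradient h u hσ)]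
  refine TG.add' (TG.const_smul (TG.sub' Function.HasTemperateGrowth.id'
    (Function.HasTemperateGrowth.const _)) _) ?_
  exact TG.clm (TG.comp' hg (fstL : E (ι ⊕ (ι ⊕ ι)) →L[ℝ] E ι).hasTemperateGrowth) _

lemma arcPot_hess (h : BP ψ lam B) (hg : TG (gradient ψ)) (u : E ι) (hσ : 0 < σ) :
    fderiv ℝ (gradient (arcPot ψ u σ)) = fun X =>
      (σ ^ 2)⁻¹ • ContinuousLinearMap.id ℝ (E (ι ⊕ (ι ⊕ ι))) +
        inlL.comp ((fderiv ℝ (gradient ψ) (0 + fstL X)).comp fstL) := by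
  funext X
  rw [funext (arcPot_gradient h u hσ), zero_add]
  refine HasFDerivAt.fderiv ?_
  refine (((hasFDerivAt_id X).sub_const _).const_smul (σ ^ 2)⁻¹).add ?_
  exact (inlL : E ι →L[ℝ] E (ι ⊕ (ι ⊕ ι))).hasFDerivAt.comp X
    ((hg.differentiable (fstL X)).hasFDerivAt.comp X
      (fstL : E (ι ⊕ (ι ⊕ ι)) →L[ℝ] E ι).hasFDerivAt)

lemma arcPot_mult (h : BP ψ lam B) (hg : TG (gradient ψ)) (u : E ι) (hσ : 1 / 2 ≤ σ) {r μ : ℝ}
    {n : ℕ} (hr : 0 < r) (hμ : 0 ≤ μ) (hμ1 : μ ≤ 1) (hM : Mult r μ n (fderiv ℝ (gradient ψ))) :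
    Mult r (2 * (4 + 5 ^ (n ^ 2))) n (fderiv ℝ (gradient (arcPot ψ u σ))) := by
  have hσ0 : 0 < σ := by linarith
  rw [arcPot_hess h hg u hσ0]
  have hf := norm_fstL_le (ι := ι) (κ := ι ⊕ ι)
  have hi := norm_inlL_le (ι := ι) (κ := ι ⊕ ι)
  have t1 : TG fun X : E (ι ⊕ (ι ⊕ ι)) => fderiv ℝ (gradient ψ) (0 + fstL X) :=
    TG.comp' hg.fderiv' (TG.affine _ _)
  have t2 : TG fun X : E (ι ⊕ (ι ⊕ ι)) => (fderiv ℝ (gradient ψ) (0 + fstL X)).comp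
      (fstL : E (ι ⊕ (ι ⊕ ι)) →L[ℝ] E ι) := TG.clm_comp t1 (Function.HasTemperateGrowth.const _)
  have t3 := TG.clm_comp (Function.HasTemperateGrowth.const (inlL : E ι →L[ℝ] E (ι ⊕ (ι ⊕ ι)))) t2
  have m1 := Mult.comp_affine hg.fderiv' hM (fstL : E (ι ⊕ (ι ⊕ ι)) →L[ℝ] E ι) 0 hr.le
    (mul_le_of_le_one_right hr.le hf)
  have m2 := Mult.left t2 (m1.right (fstL : E (ι ⊕ (ι ⊕ ι)) →L[ℝ] E ι))
    (inlL : E ι →L[ℝ] E (ι ⊕ (ι ⊕ ι)))
  have m3 : Mult r (5 ^ (n ^ 2)) n _ := m2.mono hr.le le_rfl (by positivity) (by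
    have h5 : (0 : ℝ) ≤ 5 ^ (n ^ 2) := by positivity
    calc _ ≤ (1 : ℝ) * (5 ^ (n ^ 2) * 1 * 1) := by gcongr
      _ = 5 ^ (n ^ 2) := by ring) le_rfl
  have m0 : Mult r 4 n fun _ : E (ι ⊕ (ι ⊕ ι)) =>
      (σ ^ 2)⁻¹ • ContinuousLinearMap.id ℝ (E (ι ⊕ (ι ⊕ ι))) := by
    refine Mult.const _ ?_
    rw [norm_smul, Real.norm_eq_abs, abs_of_nonneg (by positivity)]
    have h1 : (σ ^ 2)⁻¹ ≤ 4 := by
      rw [inv_le_comm₀ (by positivity) (by norm_num)]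
      nlinarith
    calc _ ≤ 4 * 1 := mul_le_mul h1 ContinuousLinearMap.norm_id_le (norm_nonneg _) (by norm_num)
      _ = 4 := by norm_num
  exact Mult.add (Function.HasTemperateGrowth.const _) t3 m0 m3 (by norm_num) (by positivity)

lemma arc_phi_bound (hg : TG (gradient ψ)) {r μ : ℝ} {n : ℕ} (hr : 0 < r) (hμ : 0 ≤ μ)
    (hM : Mult r μ n fun x => adj (fderiv ℝ (gradient ψ) x)) (X : E (ι ⊕ (ι ⊕ ι))) :
    ∑ a, HS r n (pd a fun X : E (ι ⊕ (ι ⊕ ι)) => gradient ψ (fstL X)) X ≤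
      (5 ^ (n ^ 2) * μ * √(Fintype.card ι)) ^ 2 := by
  have hf := norm_fstL_le (ι := ι) (κ := ι ⊕ ι)
  have hi := norm_inlL_le (ι := ι) (κ := ι ⊕ ι)
  have t0 : TG fun X : E (ι ⊕ (ι ⊕ ι)) => gradient ψ (fstL X) :=
    TG.comp' hg (fstL : E (ι ⊕ (ι ⊕ ι)) →L[ℝ] E ι).hasTemperateGrowth
  have t1 : TG fun X : E (ι ⊕ (ι ⊕ ι)) => adj (fderiv ℝ (gradient ψ) (0 + fstL X)) :=
    TG.adj' (TG.comp' hg.fderiv' (TG.affine _ _))
  have m1 := Mult.comp_affine hg.fderiv'.adj' hM (fstL : E (ι ⊕ (ι ⊕ ι)) →L[ℝ] E ι) 0 hr.le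
    (mul_le_of_le_one_right hr.le hf)
  have m2 := Mult.left t1 m1 (inlL : E ι →L[ℝ] E (ι ⊕ (ι ⊕ ι)))
  have m3 : Mult r (5 ^ (n ^ 2) * μ) n _ := m2.mono hr.le le_rfl (by positivity)
    (mul_le_of_le_one_left (by positivity) hi) le_rfl
  have e : (fun X : E (ι ⊕ (ι ⊕ ι)) =>
      adj (fderiv ℝ (fun X : E (ι ⊕ (ι ⊕ ι)) => gradient ψ (fstL X)) X)) =
      fun X => (inlL : E ι →L[ℝ] E (ι ⊕ (ι ⊕ ι))).comp
        (adj (fderiv ℝ (gradient ψ) (0 + fstL X))) := by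
    funext X
    have h1 : HasFDerivAt (fun X : E (ι ⊕ (ι ⊕ ι)) => gradient ψ (fstL X))
        ((fderiv ℝ (gradient ψ) (fstL X)).comp fstL) X :=
      (hg.differentiable (fstL X)).hasFDerivAt.comp X
        (fstL : E (ι ⊕ (ι ⊕ ι)) →L[ℝ] E ι).hasFDerivAt
    rw [h1.fderiv, adj_comp, adj_fstL, zero_add]
  have h2 := Mult.sum_HS_pd_le t0 (e ▸ m3) X
  rw [mul_pow, Real.sq_sqrt (Nat.cast_nonneg _), mul_comm]
  exact h2

/-- the antisymmetric operator -/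
def arcJ (σ : ℝ) : E (ι ⊕ (ι ⊕ ι)) →L[ℝ] E (ι ⊕ (ι ⊕ ι)) :=
  (σ ^ 2 * (√2)⁻¹) • (inlL.comp (sndL.comp sndL) - (inrL.comp inlL).comp (sndL.comp sndL) +
    (inrL.comp inrL).comp (fstL.comp sndL - fstL))

lemma arcJ_apply (σ : ℝ) (X : E (ι ⊕ (ι ⊕ ι))) :
    arcJ σ X = (σ ^ 2 * (√2)⁻¹) •
      pair (sndL (sndL X)) (pair (-sndL (sndL X)) (fstL (sndL X) - fstL X)) := by
  simp [arcJ]

lemma arcJ_adj (σ : ℝ) : adj (arcJ σ : E (ι ⊕ (ι ⊕ ι)) →L[ℝ] E (ι ⊕ (ι ⊕ ι))) = -arcJ σ := by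
  refine ContinuousLinearMap.ext fun y => ext_inner_right ℝ fun x => ?_
  rw [inner_adj_left, neg_apply, inner_neg_left, arcJ_apply, arcJ_apply,
    inner_smul_left, inner_smul_right]
  conv_lhs => rw [← pair_fst_snd y, ← pair_fst_snd (sndL y)]
  conv_rhs => rw [← pair_fst_snd x, ← pair_fst_snd (sndL x)]
  simp only [inner_pair, inner_neg_left, inner_neg_right, inner_sub_left, inner_sub_right,
    conj_trivial]
  ring

lemma norm_arcJ_le (hσ : 0 ≤ σ) (hσ1 : σ ≤ 1) :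
    ‖(arcJ σ : E (ι ⊕ (ι ⊕ ι)) →L[ℝ] E (ι ⊕ (ι ⊕ ι)))‖ ≤ 4 := by
  refine ContinuousLinearMap.opNorm_le_bound _ (by norm_num) fun X => ?_
  rw [arcJ_apply, norm_smul, Real.norm_eq_abs, abs_of_nonneg (by positivity)]
  have h1 : σ ^ 2 * (√2)⁻¹ ≤ 1 := by
    have h2 : (√2)⁻¹ ≤ 1 := inv_le_one_of_one_le₀ (Real.one_le_sqrt.2 (by norm_num))
    have h3 : σ ^ 2 ≤ 1 := pow_le_one₀ hσ hσ1
    exact mul_le_one₀ h3 (by positivity) h2
  have h2 := norm_pair_le (sndL (sndL X)) (pair (-sndL (sndL X)) (fstL (sndL X) - fstL X))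
  have h3 := norm_pair_le (-sndL (sndL X)) (fstL (sndL X) - fstL X)
  have h4 := norm_sub_le (fstL (sndL X)) (fstL X)
  have h5 := norm_sndL_apply_le (sndL X)
  have h6 := norm_fstL_apply_le (sndL X)
  have h7 := norm_sndL_apply_le X
  have h8 := norm_fstL_apply_le X
  rw [norm_neg] at h3
  refine (mul_le_of_le_one_left (norm_nonneg _) h1).trans ?_
  linarith

/-- the Hamiltonian vector field -/
def arcB (ψ : E ι → ℝ) (σ : ℝ) (X : E (ι ⊕ (ι ⊕ ι))) : E (ι ⊕ (ι ⊕ ι)) :=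
  arcJ σ ((σ ^ 2)⁻¹ • X + inlL (gradient ψ (fstL X)))

lemma arcB_eq_vf (h : BP ψ lam B) (u : E ι) (hσ : 0 < σ) :
    vf (arcPot ψ u σ) (fun _ => arcJ σ) = arcB ψ σ := by
  funext X
  rw [vf_const, arcPot_gradient h u hσ, arcB, smul_sub, map_add, map_add, map_sub, map_smul,
    map_smul (arcJ σ) _ (pair u _), arcJ_apply σ (pair u _)]
  simp

lemma arcB_apply (hσ : 0 < σ) (X : E (ι ⊕ (ι ⊕ ι))) :
    arcB ψ σ X = (√2)⁻¹ • pair (sndL (sndL X)) (pair (-sndL (sndL X))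
      (fstL (sndL X) - fstL X - σ ^ 2 • gradient ψ (fstL X))) := by
  have h2 : σ ^ 2 ≠ 0 := by positivity
  rw [arcB, arcJ_apply, mul_comm, mul_smul]
  congr 1
  simp only [map_add, map_smul, inlL_apply, fstL_pair, sndL_pair, add_zero, pair_smul,
    smul_neg, smul_sub, smul_add, smul_smul, mul_inv_cancel₀ h2, one_smul]
  rw [sub_sub]

lemma arcB_tg (hg : TG (gradient ψ)) (σ : ℝ) : TG (arcB ψ σ) :=
  TG.clm (TG.add' (TG.const_smul Function.HasTemperateGrowth.id' _)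
    (TG.clm (TG.comp' hg (fstL : E (ι ⊕ (ι ⊕ ι)) →L[ℝ] E ι).hasTemperateGrowth) _)) _

lemma arcB_growth (h : BP ψ lam B) (σ : ℝ) : ∃ C, ∀ X, ‖arcB ψ σ X‖ ≤ C * (1 + ‖X‖) := by
  have hB := h.nonneg
  refine ⟨‖(arcJ σ : E (ι ⊕ (ι ⊕ ι)) →L[ℝ] E (ι ⊕ (ι ⊕ ι)))‖ * ((σ ^ 2)⁻¹ + B), fun X => ?_⟩
  refine ((arcJ σ : E (ι ⊕ (ι ⊕ ι)) →L[ℝ] E (ι ⊕ (ι ⊕ ι))).le_opNorm _).trans ?_
  rw [mul_assoc]
  refine mul_le_mul_of_nonneg_left ((norm_add_le _ _).trans ?_) (norm_nonneg _)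
  rw [norm_smul, Real.norm_eq_abs, abs_of_nonneg (by positivity), inlL_apply, norm_pair_zero_right]
  have h1 := h.bdd (fstL X)
  have h2 : (0 : ℝ) ≤ (σ ^ 2)⁻¹ := by positivity
  have h3 := norm_nonneg X
  nlinarith [mul_nonneg hB h3]

end Crest.Agent.R285
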