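import Crest.Agent.R285.Taylor
import Crest.Agent.R285.Sob
import Crest.Agent.R285.Invar
import Crest.Agent.R285.Tilt1
import Crest.Agent.R285.Arc1Aux

/-!
# Row 285 (S0430): Arc1
One Hamiltonian arc (single instance).
State `X = pair x₁ (pair x₂ x₃)`, potential
`Φ_u X = (‖x₁-u‖²/(2σ²) + ψ x₁) + (‖x₂-u‖²/(2σ²) + ‖x₃‖²/(2σ²))`, so `arcM (tg ψ u σ) u σ = gibbs Φ_u`
(`tg_eq_gibbs`, `gs_eq_gibbs`, `gibbs_pair` twice).  With `c = 1/√2` and the constant antisymmetric operator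
`J = σ² • Ω`, `Ω (y₁,y₂,y₃) = (c y₃, -c y₃, c (y₂ - y₁))`, the field `vf Φ_u J = J ∇Φ_u` (`vf_const`) is
`b X = (c x₃, -c x₃, c (x₂ - x₁) - c σ² ∇ψ x₁)`, independent of `u`, `C¹` with linear growth.
Let `Fl` be its flow (`exists_flow`); it preserves `gibbs Φ_u` for every `u` (`IsFlow.measurePreserving`,
`divs_vf`).  `x₁ + x₂` is conserved, and variation of constants (differentiate
`s ↦ arcLin (t - s) (Fl s X)`, whose derivative is `-(σ²/2) sin (t-s) • ∇ψ (x₁ s)`) gives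
`x₁ t = arcLin t X - (σ²/2) ∫ s in 0..t, sin (t-s) • ∇ψ (x₁ s)`.  Put `τ = x₁ π`, `x i = x₁ (Q.t i)`.
`ArcLaw`: `(τ X, x₁ + x₂) = (fun X => (x₁, x₁ + x₂)) (Fl π X)`.
The `L²` bounds: `Quad.integral_L2` for `φ = ∇ψ ∘ fstL` with the kernel `sin (t - ·)` and `exists_Lie_bound`
(`m = 100 * 5^((2K)^2)` say, from `Mult.const/add/left/right/comp_affine`; `R = 5^((2K)^2) μ √card` from
`Mult.sum_HS_pd_le`).
-/

set_option autoImplicit false

open MeasureTheory ProbabilityTheory Filter Topology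
open scoped RealInnerProductSpace

noncomputable section

namespace Crest.Agent.R285

variable {ι : Type} [Fintype ι]

/-- the free motion of the first particle -/
def arcLin (t : ℝ) : E (ι ⊕ (ι ⊕ ι)) →L[ℝ] E ι :=
  ((1 + Real.cos t) / 2) • fstL + ((1 - Real.cos t) / 2) • fstL.comp sndL +
    (Real.sin t / √2) • sndL.comp sndL

/-- quadrature weights of the Duhamel term -/
def arcW {K : ℕ} {ρ C : ℝ} (Q : Quad K Real.pi ρ C) (σ t : ℝ) (l : Fin Q.N) : ℝ :=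
  -(σ ^ 2 / 2) * ∫ s in (0 : ℝ)..t, Real.sin (t - s) * Q.ℓ l s

lemma arcLin_apply (t : ℝ) (X : E (ι ⊕ (ι ⊕ ι))) :
    arcLin t X = ((1 + Real.cos t) / 2) • fstL X + ((1 - Real.cos t) / 2) • fstL (sndL X) +
      (Real.sin t / √2) • sndL (sndL X) := rfl

lemma norm_arcLin_le (t : ℝ) : ‖(arcLin t : E (ι ⊕ (ι ⊕ ι)) →L[ℝ] E ι)‖ ≤ 3 := by
  refine ContinuousLinearMap.opNorm_le_bound _ (by norm_num) fun X => ?_
  rw [arcLin_apply]
  have h5 := norm_sndL_apply_le (sndL X)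
  have h6 := norm_fstL_apply_le (sndL X)
  have h7 := norm_sndL_apply_le X
  have h8 := norm_fstL_apply_le X
  have c1 := Real.cos_le_one t
  have c2 := Real.neg_one_le_cos t
  have a1 : |(1 + Real.cos t) / 2| ≤ 1 := abs_le.2 ⟨by linarith, by linarith⟩
  have a2 : |(1 - Real.cos t) / 2| ≤ 1 := abs_le.2 ⟨by linarith, by linarith⟩
  have a3 : |Real.sin t / √2| ≤ 1 := by
    rw [abs_div, abs_of_nonneg (Real.sqrt_nonneg 2)]
    exact div_le_one_of_le₀ ((Real.abs_sin_le_one t).trans (Real.one_le_sqrt.2 (by norm_num)))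
      (Real.sqrt_nonneg 2)
  refine (norm_add₃_le).trans ?_
  simp only [norm_smul, Real.norm_eq_abs]
  have b1 := mul_le_of_le_one_left (norm_nonneg (fstL X)) a1
  have b2 := mul_le_of_le_one_left (norm_nonneg (fstL (sndL X))) a2
  have b3 := mul_le_of_le_one_left (norm_nonneg (sndL (sndL X))) a3
  linarith

lemma arcLin_pi (X : E (ι ⊕ (ι ⊕ ι))) : arcLin Real.pi X = fstL (sndL X) := by
  rw [arcLin_apply]; simp

lemma arcLin_zero (X : E (ι ⊕ (ι ⊕ ι))) : arcLin 0 X = fstL X := by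
  rw [arcLin_apply]; simp

lemma sum_abs_arcW_le {K : ℕ} {ρ C : ℝ} (Q : Quad K Real.pi ρ C) {σ t : ℝ} (hσ : 0 ≤ σ)
    (hσ1 : σ ≤ 1) (ht : t ∈ Set.Icc 0 Real.pi) : ∑ l, |arcW Q σ t l| ≤ 2 * C := by
  have h1 := Q.sum_abs_weight_le (k := fun s => Real.sin (t - s)) (by fun_prop)
    (fun s => Real.abs_sin_le_one _) ht
  have hC := Q.nonneg
  have h2 : σ ^ 2 ≤ 1 := pow_le_one₀ hσ hσ1
  simp only [arcW, abs_mul, abs_neg, ← Finset.mul_sum]
  rw [abs_of_nonneg (by positivity : 0 ≤ σ ^ 2 / 2)]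
  have h3 : Real.pi * C ≤ 4 * C := mul_le_mul_of_nonneg_right Real.pi_le_four hC
  calc _ ≤ (1 / 2) * (4 * C) :=
        mul_le_mul (by linarith) (h1.trans h3) (Finset.sum_nonneg fun _ _ => abs_nonneg _)
          (by norm_num)
    _ = 2 * C := by ring

instance (ν : Measure (E ι)) [IsProbabilityMeasure ν] (u : E ι) (σ : ℝ) :
    IsProbabilityMeasure (arcM ν u σ) :=
  Measure.isProbabilityMeasure_map (Measurable.aemeasurable (by fun_prop))

section flow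
variable {ψ : E ι → ℝ} {σ : ℝ} {Fl : ℝ → E (ι ⊕ (ι ⊕ ι)) → E (ι ⊕ (ι ⊕ ι))}

lemma arc_conserved (hσ : 0 < σ) (hF : IsFlow (arcB ψ σ) Fl) (t : ℝ) (X : E (ι ⊕ (ι ⊕ ι))) :
    fstL (Fl t X) + fstL (sndL (Fl t X)) = fstL X + fstL (sndL X) := by
  let L : E (ι ⊕ (ι ⊕ ι)) →L[ℝ] E ι := fstL + fstL.comp sndL
  have hd : ∀ s, HasDerivAt (fun s => L (Fl s X)) 0 s := fun s => by
    have h1 := L.hasFDerivAt.comp_hasDerivAt s (hF.deriv s X)
    have h2 : L (arcB ψ σ (Fl s X)) = 0 := by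
      rw [arcB_apply hσ]; simp [L]
    rwa [h2] at h1
  have := is_const_of_deriv_eq_zero (fun s => (hd s).differentiableAt) (fun s => (hd s).deriv) t 0
  simp only [hF.zero] at this
  exact this

lemma arc_hasDerivAt (hσ : 0 < σ) (hF : IsFlow (arcB ψ σ) Fl) (t : ℝ) (X : E (ι ⊕ (ι ⊕ ι)))
    (s : ℝ) : HasDerivAt (fun s => arcLin (t - s) (Fl s X))
      (-(σ ^ 2 / 2) • Real.sin (t - s) • gradient ψ (fstL (Fl s X))) s := by
  have hX := hF.deriv s X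
  have h1 := (fstL : E (ι ⊕ (ι ⊕ ι)) →L[ℝ] E ι).hasFDerivAt.comp_hasDerivAt s hX
  have h0 := (sndL : E (ι ⊕ (ι ⊕ ι)) →L[ℝ] E (ι ⊕ ι)).hasFDerivAt.comp_hasDerivAt s hX
  have h2 := (fstL : E (ι ⊕ ι) →L[ℝ] E ι).hasFDerivAt.comp_hasDerivAt s h0
  have h3 := (sndL : E (ι ⊕ ι) →L[ℝ] E ι).hasFDerivAt.comp_hasDerivAt s h0
  have hs : HasDerivAt (fun s => t - s) (-1) s := by simpa using (hasDerivAt_id s).const_sub t
  have c1 := (hs.cos.const_add 1).div_const 2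
  have c2 := (hs.cos.const_sub 1).div_const 2
  have c3 := hs.sin.div_const (√2)
  have h := ((c1.smul h1).add (c2.smul h2)).add (c3.smul h3)
  have e : (√2)⁻¹ * (√2)⁻¹ = (1 / 2 : ℝ) := by
    rw [← mul_inv, Real.mul_self_sqrt (by norm_num)]; norm_num
  refine h.congr_deriv ?_
  rw [arcB_apply hσ]
  simp only [Function.comp, map_smul, fstL_pair, sndL_pair, div_eq_mul_inv]
  generalize (√2)⁻¹ = c at e ⊢
  have e' : c * c = 2⁻¹ := by rw [e]; norm_num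
  match_scalars
  · ring
  · linear_combination (-Real.sin (t - s)) * e'
  · linear_combination (Real.sin (t - s)) * e'
  · linear_combination (-Real.sin (t - s) * σ ^ 2) * e'

lemma arc_duhamel (hσ : 0 < σ) (hg : Continuous (gradient ψ)) (hF : IsFlow (arcB ψ σ) Fl) (t : ℝ)
    (X : E (ι ⊕ (ι ⊕ ι))) : fstL (Fl t X) - arcLin t X =
      -(σ ^ 2 / 2) • ∫ s in (0 : ℝ)..t, Real.sin (t - s) • gradient ψ (fstL (Fl s X)) := by
  have hc : Continuous fun s => Fl s X := hF.cont.comp (continuous_id.prodMk continuous_const)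
  have h := intervalIntegral.integral_eq_sub_of_hasDerivAt (a := 0) (b := t)
    (fun s _ => arc_hasDerivAt hσ hF t X s) (Continuous.intervalIntegrable (by fun_prop) _ _)
  rw [intervalIntegral.integral_smul] at h
  rw [h, sub_self, sub_zero, arcLin_zero, hF.zero]

lemma arc_law {ν : Measure (E ι)} [IsProbabilityMeasure ν] {u : E ι} (hσ : 0 < σ)
    (hF : IsFlow (arcB ψ σ) Fl) (t : ℝ) (hm : MeasurePreserving (Fl t) (arcM ν u σ) (arcM ν u σ)) :
    ArcLaw ν u σ fun X => fstL (Fl t X) := by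
  unfold ArcLaw
  have hG : Measurable fun X : E (ι ⊕ (ι ⊕ ι)) => (fstL X, fstL X + fstL (sndL X)) := by fun_prop
  have e1 : (fun X : E (ι ⊕ (ι ⊕ ι)) => (fstL (Fl t X), fstL X + fstL (sndL X))) =
      (fun X : E (ι ⊕ (ι ⊕ ι)) => (fstL X, fstL X + fstL (sndL X))) ∘ Fl t := by
    funext X
    simp only [Function.comp, arc_conserved hσ hF]
  rw [e1, ← Measure.map_map hG hm.measurable, hm.map_eq, arcM,
    Measure.map_map hG (by fun_prop)]
  have e2 : ν.prod (gs u σ) =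
      (ν.prod ((gs u σ).prod (gs (0 : E ι) σ))).map (Prod.map id Prod.fst) := by
    rw [← Measure.map_prod_map _ _ measurable_id measurable_fst, Measure.map_id,
      Measure.map_fst_prod]
    simp
  rw [e2, Measure.map_map (by fun_prop) (by fun_prop)]
  congr 1

end flow

theorem arc_flow : ∃ C : ℕ → ℝ, (∀ K, 1 ≤ C K) ∧
    ∀ (K : ℕ) {ρ CQ : ℝ} (Q : Quad K Real.pi ρ CQ) {ι : Type} [Fintype ι] {ψ : E ι → ℝ}
      {σ lam B r μ : ℝ}, 1 ≤ K → 0 ≤ ρ → 1 / 2 ≤ σ → σ ≤ 1 → BP ψ lam B → TG (gradient ψ) →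
      0 < r → r ≤ 1 → 0 ≤ μ → μ ≤ 1 → Mult r μ (2 * K) (fderiv ℝ (gradient ψ)) →
      Mult r μ (2 * K) (fun x => adj (fderiv ℝ (gradient ψ) x)) →
      ∃ x : ℝ → E (ι ⊕ (ι ⊕ ι)) → E ι, (∀ t, Continuous (x t)) ∧
        (∀ t ∈ Set.Icc 0 Real.pi, ∀ X, ‖x t X - arcLin t X‖ ≤ 2 * B) ∧
        ∀ u, ArcLaw (tg ψ u σ) u σ (x Real.pi) ∧ ∀ t ∈ Set.Icc 0 Real.pi,
          L2le (arcM (tg ψ u σ) u σ)
            (fun X => x t X - arcLin t X - ∑ l, arcW Q σ t l • gradient ψ (x (Q.t l) X))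
            (C K * (1 + CQ) * (ρ / r ^ 2) ^ K * μ * √(Fintype.card ι)) := by
  obtain ⟨CL, hCL, hL⟩ := exists_Lie_bound
  refine ⟨fun K => 2 * (CL K * ((1 + 2 * (4 + 5 ^ ((2 * K) ^ 2))) * 4) ^ K * 5 ^ ((2 * K) ^ 2)),
    fun K => ?_, ?_⟩
  · have h5 : (1 : ℝ) ≤ 5 ^ ((2 * K) ^ 2) := one_le_pow₀ (by norm_num)
    have h1 : (1 : ℝ) ≤ ((1 + 2 * (4 + 5 ^ ((2 * K) ^ 2))) * 4) ^ K := one_le_pow₀ (by linarith)
    have := one_le_mul_of_one_le_of_one_le (one_le_mul_of_one_le_of_one_le (hCL K) h1) h5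
    show (1 : ℝ) ≤ 2 * _
    linarith
  intro K ρ CQ Q ι _ ψ σ lam B r μ hK hρ hσ hσ1 h hg hr hr1 hμ hμ1 hM hM'
  have hσ0 : 0 < σ := by linarith
  have hbt := arcB_tg hg σ
  have hb1 : ContDiff ℝ 1 (arcB ψ σ) := hbt.contDiff 1
  obtain ⟨Fl, hF⟩ := exists_flow hb1 (arcB_growth h σ)
  have hB := h.nonneg
  have hs2 : σ ^ 2 ≤ 1 := pow_le_one₀ hσ0.le hσ1
  have hJ : TG fun _ : E (ι ⊕ (ι ⊕ ι)) => (arcJ σ : E (ι ⊕ (ι ⊕ ι)) →L[ℝ] E (ι ⊕ (ι ⊕ ι))) :=
    Function.HasTemperateGrowth.const _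
  refine ⟨fun t X => fstL (Fl t X), fun t => ?_, fun t ht X => ?_, fun u => ?_⟩
  · exact (fstL : E (ι ⊕ (ι ⊕ ι)) →L[ℝ] E ι).continuous.comp (hF.continuous t)
  · rw [arc_duhamel hσ0 hg.continuous hF, norm_smul, norm_neg, Real.norm_eq_abs,
      abs_of_nonneg (by positivity)]
    have h1 : ‖∫ s in (0 : ℝ)..t, Real.sin (t - s) • gradient ψ (fstL (Fl s X))‖ ≤ B * |t - 0| := by
      refine intervalIntegral.norm_integral_le_of_norm_le_const fun s _ => ?_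
      rw [norm_smul, Real.norm_eq_abs]
      exact (mul_le_of_le_one_left (norm_nonneg _) (Real.abs_sin_le_one _)).trans (h.bdd _)
    rw [sub_zero, abs_of_nonneg ht.1] at h1
    have h2 : B * t ≤ B * 4 := mul_le_mul_of_nonneg_left (ht.2.trans Real.pi_le_four) hB
    calc _ ≤ (1 / 2) * (B * 4) :=
          mul_le_mul (by linarith) (h1.trans h2) (norm_nonneg _) (by norm_num)
      _ = 2 * B := by ring
  have hN := arcPot_nice h hg u hσ0
  have hvf := arcB_eq_vf h u hσ0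
  have hP := hN.wpot.prob
  have hν := h.prob u σ
  have hmp : ∀ t, MeasurePreserving (Fl t) (gibbs (arcPot ψ u σ)) (gibbs (arcPot ψ u σ)) := by
    intro t
    refine hF.measurePreserving hb1 (arcB_growth h σ) hN (fun x => ?_) t
    rw [← hvf]
    exact divs_vf hN hJ (fun _ => arcJ_adj σ) x
  refine ⟨arc_law hσ0 hF _ (by rw [arcM_eq_gibbs h u hσ0]; exact hmp _), fun t ht => ?_⟩
  rw [arcM_eq_gibbs h u hσ0]
  have t0 : TG fun X : E (ι ⊕ (ι ⊕ ι)) => gradient ψ (fstL X) :=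
    TG.comp' hg (fstL : E (ι ⊕ (ι ⊕ ι)) →L[ℝ] E ι).hasTemperateGrowth
  have hR : ∫ X, ∑ a, HS r (2 * K) (pd a fun X : E (ι ⊕ (ι ⊕ ι)) => gradient ψ (fstL X)) X
      ∂gibbs (arcPot ψ u σ) ≤ (5 ^ ((2 * K) ^ 2) * μ * √(Fintype.card ι)) ^ 2 := by
    refine (integral_mono_of_nonneg (Eventually.of_forall fun X =>
      Finset.sum_nonneg fun a _ => HS_nonneg _ _ _ _) (integrable_const _)
      (Eventually.of_forall (arc_phi_bound hg hr hμ hM'))).trans ?_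
    simp
  have hLie := hL K hK hN hr hr1 (by positivity) (by norm_num : (0 : ℝ) ≤ 4) (by positivity)
    (arcPot_mult h hg u hσ hr hμ hμ1 hM) hJ (fun _ => arcJ_adj σ)
    (Mult.const _ (norm_arcJ_le hσ0.le hσ1)) t0 hR
  rw [hvf] at hLie
  have hC1 := hCL K
  have hCQ := Q.nonneg
  have hq := Q.integral_L2 hF hbt hmp t0 (by positivity) hLie (k := fun s => Real.sin (t - s))
    (by fun_prop) (fun s => Real.abs_sin_le_one _) ht
  refine ((hq.smul (-(σ ^ 2 / 2))).congr' fun X => ?_).mono ?_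
  · rw [arc_duhamel hσ0 hg.continuous hF, smul_sub, Finset.smul_sum]
    simp only [arcW, mul_smul]
  · rw [abs_neg, abs_of_nonneg (by positivity)]
    set A : ℝ := (1 + 2 * (4 + 5 ^ ((2 * K) ^ 2))) * 4 with hA
    have hA0 : 0 ≤ A := by positivity
    have e : (1 + CQ) * ρ ^ K * (CL K * (A / r ^ 2) ^ K *
        (5 ^ ((2 * K) ^ 2) * μ * √(Fintype.card ι))) =
        CL K * A ^ K * 5 ^ ((2 * K) ^ 2) * (1 + CQ) * (ρ / r ^ 2) ^ K * μ * √(Fintype.card ι) := by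
      rw [div_pow, div_pow]; ring
    rw [e]
    have h0 : 0 ≤ CL K * A ^ K * 5 ^ ((2 * K) ^ 2) * (1 + CQ) * (ρ / r ^ 2) ^ K * μ *
        √(Fintype.card ι) := by positivity
    have h2 : σ ^ 2 / 2 * Real.pi ≤ 2 := by
      have := Real.pi_le_four
      have := Real.pi_pos
      nlinarith
    calc _ = σ ^ 2 / 2 * Real.pi * (CL K * A ^ K * 5 ^ ((2 * K) ^ 2) * (1 + CQ) *
          (ρ / r ^ 2) ^ K * μ * √(Fintype.card ι)) := by ring
      _ ≤ 2 * (CL K * A ^ K * 5 ^ ((2 * K) ^ 2) * (1 + CQ) *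
          (ρ / r ^ 2) ^ K * μ * √(Fintype.card ι)) := mul_le_mul_of_nonneg_right h2 h0
      _ = _ := by ring


end Crest.Agent.R285
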