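import Crest.Agent.R285.L2

/-!
# Row 285 (S0430): Picard
Picard iteration in `L²`: with `e r = sup_i ‖x i - lin i X - pic r i X‖₂` one has
`e (r+1) ≤ η + c L e r`.
-/

set_option autoImplicit false

open MeasureTheory ProbabilityTheory Filter Topology
open scoped RealInnerProductSpace

noncomputable section

namespace Crest.Agent.R285

variable {ι κ ζ I : Type} [Fintype ι] [Fintype κ] [Fintype ζ] [Fintype I]

lemma continuous_pic {g : E ζ → E κ} (hg : Continuous g) (A : E ι →L[ℝ] E ζ) (C : E κ →L[ℝ] E ζ)
    (lin : I → (E ι →L[ℝ] E κ)) (w : I → I → ℝ) (r : ℕ) (i : I) :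
    Continuous (pic g A C lin w r i) := by
  induction r generalizing i with
  | zero => exact continuous_const
  | succ r ih =>
    change Continuous fun X => ∑ l, w i l • g (A X + C (lin l X + pic g A C lin w r l X))
    refine continuous_finsetSum _ fun l _ => ?_
    have := ih l
    fun_prop


theorem picard_L2 {Ω : Type} [MeasurableSpace Ω] {μ : Measure Ω} {g : E ζ → E κ}
    {A : E ι →L[ℝ] E ζ} {C : E κ →L[ℝ] E ζ} {lin : I → (E ι →L[ℝ] E κ)} {w : I → I → ℝ}
    {X : Ω → E ι} {x : I → Ω → E κ} {L c η R : ℝ} (hL : 0 ≤ L) (hc : 0 ≤ c) (hη : 0 ≤ η)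
    (hR : 0 ≤ R) (hg : Lip L g) (hC : ‖C‖ ≤ 1) (hw : ∀ i, ∑ l, |w i l| ≤ c) (hcL : c * L ≤ 1 / 2)
    (hX : AEStronglyMeasurable X μ) (hx : ∀ i, AEStronglyMeasurable (x i) μ)
    (h1 : ∀ i, L2le μ (fun o => x i o - lin i (X o) - ∑ l, w i l • g (A (X o) + C (x l o))) η)
    (h2 : ∀ i, L2le μ (fun o => x i o - lin i (X o)) R) (r : ℕ) (i : I) :
    L2le μ (fun o => x i o - lin i (X o) - pic g A C lin w r i (X o)) (2 * η + (c * L) ^ r * R) := by
  induction r generalizing i with
  | zero =>
    refine ((h2 i).congr' fun o => by simp [pic]).mono ?_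
    simp only [pow_zero, one_mul]
    linarith
  | succ r ih =>
    have hgc := hg.continuous
    have hb : 0 ≤ 2 * η + (c * L) ^ r * R := by positivity
    have h3 : ∀ l, L2le μ (fun o => g (A (X o) + C (x l o)) -
        g (A (X o) + C (lin l (X o) + pic g A C lin w r l (X o))))
        (L * (2 * η + (c * L) ^ r * R)) := by
      intro l
      refine (ih l).of_norm_le ?_ hL fun o => ?_
      · have hp := continuous_pic hgc A C lin w r l
        refine (hgc.comp_aestronglyMeasurable ((A.continuous.comp_aestronglyMeasurable hX).add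
          (C.continuous.comp_aestronglyMeasurable (hx l)))).sub ?_
        have : Continuous fun X => g (A X + C (lin l X + pic g A C lin w r l X)) := by fun_prop
        exact this.comp_aestronglyMeasurable hX
      · refine (hg _ _).trans (mul_le_mul_of_nonneg_left ?_ hL)
        rw [add_sub_add_left_eq_sub, ← map_sub, ← sub_sub]
        exact (C.le_opNorm _).trans (mul_le_of_le_one_left (norm_nonneg _) hC)
    have h4 := L2le.sum_smul h3 (mul_nonneg hL hb) (hw i)
    refine (((h1 i).add h4 hη (by positivity)).congr' fun o => ?_).mono ?_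
    · simp only [pic, smul_sub, Finset.sum_sub_distrib]
      abel
    · have : c * L * (2 * η) ≤ η := by nlinarith
      rw [pow_succ]
      nlinarith


end Crest.Agent.R285
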