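import Crest.Agent.R285.TameR

/-!
# Row 285 (S0430): ClosedR
Derived rules valid for every closed class.
-/

set_option autoImplicit false

open MeasureTheory ProbabilityTheory Filter Topology
open scoped RealInnerProductSpace

noncomputable section

namespace Crest.Agent.R285

variable {P P' : Type} {b : P → Base} {ι κ κ' ζ α β α' β' I : P → Type} [∀ p, Fintype (ι p)]
  [∀ p, Fintype (κ p)] [∀ p, Fintype (κ' p)] [∀ p, Fintype (ζ p)] [∀ p, Fintype (α p)]
  [∀ p, Fintype (β p)] [∀ p, Fintype (α' p)] [∀ p, Fintype (β' p)] [∀ p, Fintype (I p)]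

variable {Q : FamProp} (hQ : Closed Q)
include hQ

lemma Closed.smul {F : Fam b ι κ} {c : P → ℝ} (hc : Poly b c) (h : Q b F) :
    Q b fun p W x => c p • F p W x :=
  hQ.lin (B := fun p => c p • ContinuousLinearMap.id ℝ (E (κ p))) (Poly.norm_smul hc Poly.norm_id)
    (hQ.tame h).dimO h
lemma Closed.neg {F : Fam b ι κ} (h : Q b F) : Q b fun p W x => -F p W x := by
  simpa only [neg_smul, one_smul] using hQ.smul (Poly.const (-1)) h
lemma Closed.sub {F F' : Fam b ι κ} (h : Q b F) (h' : Q b F') :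
    Q b fun p W x => F p W x - F' p W x := by
  simpa only [sub_eq_add_neg] using hQ.add h (hQ.neg h')
lemma Closed.comp_lin {F : Fam b ζ κ} {B : ∀ p, E (ι p) →L[ℝ] E (ζ p)} (hB : Poly b fun p => ‖B p‖)
    (hd : Dim b ι) (h : Q b F) : Q b (ι := ι) fun p W x => F p W (B p x) := by
  simpa only [add_zero] using hQ.comp hB (hQ.zero hd (hQ.tame h).dimI) h
lemma Closed.pair' {F : Fam b ι κ} {F' : Fam b ι κ'} (h : Q b F) (h' : Q b F') :
    Q b (κ := fun p => κ p ⊕ κ' p) fun p W x => pair (F p W x) (F' p W x) := by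
  have hd := (hQ.tame h).dimO.sum (hQ.tame h').dimO
  simpa only [pair_eq] using hQ.add (hQ.lin Poly.norm_inlL hd h) (hQ.lin Poly.norm_inrL hd h')
/-- Picard iterates: induction on `r`; reindex the family for `r` along
`(Σ p' : (Σ p, I p), I p'.1) → Σ p, I p` and use `comp`, `smul`, `sum`. -/
theorem Closed.pic' {g : Fam b ζ κ} {A : ∀ p, E (ι p) →L[ℝ] E (ζ p)}
    {C : ∀ p, E (κ p) →L[ℝ] E (ζ p)} {lin : ∀ p, I p → (E (ι p) →L[ℝ] E (κ p))}
    {w : ∀ p, I p → I p → ℝ} (hI : Poly b fun p => (Fintype.card (I p) : ℝ)) (hd : Dim b ι)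
    (hA : Poly b fun p => ‖A p‖) (hC : Poly b fun p => ‖C p‖)
    (hlin : ∃ c : ℕ, ∀ᶠ p in ev b, ∀ i, ‖lin p i‖ ≤ (b p).Λ ^ c)
    (hw : ∃ c : ℕ, ∀ᶠ p in ev b, ∀ i l, |w p i l| ≤ (b p).Λ ^ c) (hg : Q b g) (r : ℕ) :
    Q (fun p : Σ p, I p => b p.1) (ι := fun p => ι p.1) (κ := fun p => κ p.1)
      fun p W x => pic (g p.1 W) (A p.1) (C p.1) (lin p.1) (w p.1) r p.2 x := by
  have hκ : Dim b κ := (hQ.tame hg).dimO
  have hζ : Dim b ζ := (hQ.tame hg).dimI
  induction r with
  | zero => exact hQ.zero (hd.reindex Sigma.fst) (hκ.reindex Sigma.fst)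
  | succ r ih =>
    have hlin' : Poly (fun p : Σ p, I p => b p.1) fun p => ‖lin p.1 p.2‖ := by
      obtain ⟨c, hc⟩ := hlin
      exact ⟨c, ev_sigma.2 (hc.mono fun p h i => by simpa only [abs_norm] using h i)⟩
    have hw' : Poly (fun p : Σ p' : (Σ p, I p), I p'.1 => b p.1.1)
        fun p => w p.1.1 p.1.2 p.2 := by
      obtain ⟨c, hc⟩ := hw
      exact ⟨c, (ev_sigma (b := fun p : Σ p, I p => b p.1)).2 (ev_sigma.2 hc)⟩
    have h1 := hQ.comp (B := fun p : Σ p, I p => A p.1 + (C p.1).comp (lin p.1 p.2))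
      (Poly.norm_add (hA.reindex Sigma.fst) (Poly.norm_comp (hC.reindex Sigma.fst) hlin'))
      (hQ.lin (hC.reindex Sigma.fst) (hζ.reindex Sigma.fst) ih) (hQ.reindex Sigma.fst hg)
    have h2 := hQ.smul hw'
      (hQ.reindex (fun p : Σ p' : (Σ p, I p), I p'.1 => (⟨p.1.1, p.2⟩ : Σ p, I p)) h1)
    have h3 := hQ.sum (b := fun p : Σ p, I p => b p.1) (I := fun p => I p.1)
      (hI.reindex Sigma.fst) (hd.reindex Sigma.fst) (hκ.reindex Sigma.fst) h2
    refine hQ.congr (Eventually.of_forall fun p W => ?_) h3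
    funext x
    simp only [pic, add_apply, ContinuousLinearMap.comp_apply, map_add,
      add_assoc]
/-- chains of arcs: induction on `n` (`chT τs 0 X - chL 0 X = 0`,
`chT τs (n+1) X - chL (n+1) X = τs (pair (chL n (fstL X) + (chT τs n - chL n) (fstL X)) (sndL X))`) -/
theorem Closed.chT' {τs : Fam b (fun p => ι p ⊕ (ι p ⊕ ι p)) ι} (h : Q b τs) (n : ℕ) :
    Q b (ι := fun p => chI (ι p) n) (κ := ι) fun p W X => chT (τs p W) n X - chL n X := by
  have hι : Dim b ι := (hQ.tame h).dimO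
  induction n with
  | zero =>
    refine hQ.congr (Eventually.of_forall fun p W => ?_) (hQ.zero (hι.chI 0) hι)
    funext X
    exact (sub_self X).symm
  | succ n ih =>
    have hL : Poly b fun p => ‖(chL n : E (chI (ι p) n) →L[ℝ] E (ι p))‖ :=
      Poly.norm_of_le fun _ => norm_chL_le n
    have h1 := hQ.comp (ι := fun p => chI (ι p) n ⊕ (ι p ⊕ ι p))
      (B := fun p => inlL.comp ((chL n).comp fstL) + inrL.comp sndL)
      (Poly.norm_add (Poly.norm_comp Poly.norm_inlL (Poly.norm_comp hL Poly.norm_fstL))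
        (Poly.norm_comp Poly.norm_inrL Poly.norm_sndL))
      (hQ.lin Poly.norm_inlL (hQ.tame h).dimI
        (hQ.comp_lin Poly.norm_fstL ((hι.chI n).sum (hι.sum hι)) ih)) h
    refine hQ.congr (Eventually.of_forall fun p W => ?_) h1
    funext X
    have h2 : ∀ X : E (chI (ι p) n ⊕ (ι p ⊕ ι p)),
        chT (τs p W) (n + 1) X - chL (n + 1) X =
          τs p W (pair (chT (τs p W) n (fstL X)) (sndL X)) := fun X => add_sub_cancel_left _ _
    refine Eq.trans ?_ (h2 X).symm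
    simp


end Crest.Agent.R285
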