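import Crest.Agent.R285.Gs

/-!
# Row 285 (S0430): Near
The dual Wasserstein distance.  `Near.lip'`: truncate `f` at level `R` (`max (-R) (min R f)` is still
Lipschitz) and let `R → ∞` (monotone / dominated convergence; first get integrability of `‖x‖`).
-/

set_option autoImplicit false

open MeasureTheory ProbabilityTheory Filter Topology
open scoped RealInnerProductSpace

noncomputable section

namespace Crest.Agent.R285

variable {ι κ ζ α β : Type} [Fintype ι] [Fintype κ] [Fintype ζ] [Fintype α] [Fintype β]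
variable {Y : Type} [NormedAddCommGroup Y] [NormedSpace ℝ Y]

variable {m m₁ m₂ m₃ : Measure (E ι)} {η η' : ℝ}

lemma Near.refl (hη : 0 ≤ η) : Near m m η := fun f _ _ => by simpa using hη
lemma Near.nonneg (h : Near m₁ m₂ η) : 0 ≤ η := by
  simpa using h (fun _ => 0) (fun _ _ => by simp) ⟨0, fun _ => by simp⟩
lemma Near.symm (h : Near m₁ m₂ η) : Near m₂ m₁ η := fun f hf hb => by
  rw [abs_sub_comm]; exact h f hf hb
lemma Near.mono (h : Near m₁ m₂ η) (hη : η ≤ η') : Near m₁ m₂ η' := fun f hf hb =>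
  (h f hf hb).trans hη
lemma Near.trans (h : Near m₁ m₂ η) (h' : Near m₂ m₃ η') : Near m₁ m₃ (η + η') := fun f hf hb =>
  (abs_sub_le _ _ _).trans (add_le_add (h f hf hb) (h' f hf hb))
lemma Near.lip (h : Near m₁ m₂ η) {f : E ι → ℝ} {L : ℝ} (hL : 0 ≤ L) (hf : Lip L f)
    (hb : ∃ C, ∀ x, |f x| ≤ C) : |∫ x, f x ∂m₁ - ∫ x, f x ∂m₂| ≤ L * η := by
  have hη := h.nonneg
  obtain ⟨C, hC⟩ := hb
  have key : ∀ L', L < L' → |∫ x, f x ∂m₁ - ∫ x, f x ∂m₂| ≤ L' * η := by
    intro L' hL'
    have h0 : 0 < L' := lt_of_le_of_lt hL hL'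
    have h1 := h (fun x => L'⁻¹ * f x) (fun x y => by
      rw [← mul_sub, norm_mul, Real.norm_of_nonneg (inv_pos.2 h0).le, inv_mul_le_iff₀ h0,
        one_mul]
      exact (hf x y).trans (mul_le_mul_of_nonneg_right hL'.le (norm_nonneg _)))
      ⟨L'⁻¹ * C, fun x => by
        rw [abs_mul, abs_of_pos (inv_pos.2 h0)]
        exact mul_le_mul_of_nonneg_left (hC x) (inv_pos.2 h0).le⟩
    rwa [integral_const_mul, integral_const_mul, ← mul_sub, abs_mul, abs_of_pos (inv_pos.2 h0),
      inv_mul_le_iff₀ h0] at h1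
  refine le_of_forall_pos_le_add fun ε hε => ?_
  refine (key (L + ε / (η + 1)) (lt_add_of_pos_right _ (by positivity))).trans ?_
  have : ε / (η + 1) * η ≤ ε := by
    rw [div_mul_eq_mul_div, div_le_iff₀ (by positivity)]
    nlinarith
  linarith [add_mul L (ε / (η + 1)) η]

lemma near_trunc_lip {X : Type} [NormedAddCommGroup X] {f : X → ℝ} {L : ℝ} (hf : Lip L f) (R : ℝ) :
    Lip L fun x => max (-R) (min R (f x)) := by
  intro x y
  refine le_trans ?_ (hf x y)
  rw [Real.norm_eq_abs, Real.norm_eq_abs]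
  refine (abs_max_sub_max_le_max _ _ _ _).trans (max_le (by simp) ?_)
  exact (abs_min_sub_min_le_max _ _ _ _).trans (max_le (by simp) le_rfl)

lemma near_trunc_abs_le (R t : ℝ) (hR : 0 ≤ R) :
    |max (-R) (min R t)| ≤ R ∧ |max (-R) (min R t)| ≤ |t| := by
  constructor
  · exact abs_le.2 ⟨le_max_left _ _, max_le (by linarith) (min_le_left _ _)⟩
  · refine abs_le.2 ⟨le_max_of_le_right (le_min ?_ (neg_abs_le t)),
      max_le ?_ ((min_le_right _ _).trans (le_abs_self t))⟩ <;> linarith [abs_nonneg t]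

lemma near_bdd_integrable {m : Measure (E ι)} [IsFiniteMeasure m] {f : E ι → ℝ} {L C : ℝ}
    (hf : Lip L f) (hC : ∀ x, |f x| ≤ C) : Integrable f m :=
  Integrable.of_bound hf.continuous.aestronglyMeasurable C (Eventually.of_forall hC)

lemma near_lip_integrable {m : Measure (E ι)} [IsFiniteMeasure m] {f : E ι → Y} {L : ℝ}
    (hf : Lip L f) (hi : Integrable (fun x => x) m) : Integrable f m :=
  Integrable.mono' ((integrable_const ‖f 0‖).add (hi.norm.const_mul L))
    hf.continuous.aestronglyMeasurable (Eventually.of_forall hf.norm_le)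

lemma Near.integrable_id [IsProbabilityMeasure m₁] [IsProbabilityMeasure m₂] (h : Near m₁ m₂ η)
    (hi : Integrable (fun x => x) m₂) : Integrable (fun x => x) m₁ := by
  refine ⟨aestronglyMeasurable_id, ?_⟩
  have hlip : ∀ n : ℕ, Lip 1 fun x : E ι => min (n : ℝ) ‖x‖ := fun n x y => by
    rw [Real.norm_eq_abs, one_mul]
    exact (abs_min_sub_min_le_max _ _ _ _).trans (max_le (by simp) (abs_norm_sub_norm_le _ _))
  have hnn : ∀ (n : ℕ) (x : E ι), 0 ≤ min (n : ℝ) ‖x‖ := fun n x =>
    le_min (Nat.cast_nonneg _) (norm_nonneg _)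
  have hb : ∀ (n : ℕ) (x : E ι), |min (n : ℝ) ‖x‖| ≤ n := fun n x => by
    rw [abs_of_nonneg (hnn n x)]; exact min_le_left _ _
  have h1 : ∀ n : ℕ, ∫⁻ x, ENNReal.ofReal (min (n : ℝ) ‖x‖) ∂m₁ ≤
      ENNReal.ofReal (∫ x, ‖x‖ ∂m₂ + η) := by
    intro n
    rw [← ofReal_integral_eq_lintegral_ofReal (near_bdd_integrable (hlip n) (hb n))
      (Eventually.of_forall (hnn n))]
    refine ENNReal.ofReal_le_ofReal ?_
    have h2 := (abs_le.1 (h _ (hlip n) ⟨n, hb n⟩)).2
    have h3 : ∫ x, min (n : ℝ) ‖x‖ ∂m₂ ≤ ∫ x, ‖x‖ ∂m₂ :=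
      integral_mono (near_bdd_integrable (hlip n) (hb n)) hi.norm fun x => min_le_right _ _
    linarith
  have h4 : ∫⁻ x, ‖x‖ₑ ∂m₁ = ⨆ n : ℕ, ∫⁻ x, ENNReal.ofReal (min (n : ℝ) ‖x‖) ∂m₁ := by
    rw [← lintegral_iSup (fun n => (hlip n).continuous.measurable.ennreal_ofReal)
      (fun n k hnk x => ENNReal.ofReal_le_ofReal (min_le_min_right _ (Nat.cast_le.2 hnk)))]
    refine lintegral_congr fun x => ?_
    rw [← ofReal_norm]
    refine le_antisymm ?_ (iSup_le fun n => ENNReal.ofReal_le_ofReal (min_le_right _ _))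
    obtain ⟨n, hn⟩ := exists_nat_ge ‖x‖
    exact le_iSup_of_le n (by rw [min_eq_right hn])
  rw [hasFiniteIntegral_iff_enorm, h4]
  exact lt_of_le_of_lt (iSup_le h1) ENNReal.ofReal_lt_top

lemma near_tendsto_trunc {m : Measure (E ι)} {f : E ι → ℝ} {L : ℝ} (hf : Lip L f)
    (hi : Integrable f m) :
    Tendsto (fun n : ℕ => ∫ x, max (-(n : ℝ)) (min n (f x)) ∂m) atTop (𝓝 (∫ x, f x ∂m)) := by
  refine tendsto_integral_of_dominated_convergence (fun x => ‖f x‖)
    (fun n => (near_trunc_lip hf n).continuous.aestronglyMeasurable) hi.norm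
    (fun n => Eventually.of_forall fun x => (near_trunc_abs_le _ _ (Nat.cast_nonneg n)).2)
    (Eventually.of_forall fun x => tendsto_const_nhds.congr' ?_)
  filter_upwards [tendsto_natCast_atTop_atTop.eventually_ge_atTop |f x|] with n hn
  rw [min_eq_right ((le_abs_self _).trans hn), max_eq_right (by linarith [neg_abs_le (f x)])]

lemma Near.lip' [IsProbabilityMeasure m₁] [IsProbabilityMeasure m₂] (h : Near m₁ m₂ η)
    (hi : Integrable (fun x => x) m₂) {f : E ι → ℝ} {L : ℝ} (hL : 0 ≤ L) (hf : Lip L f) :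
    |∫ x, f x ∂m₁ - ∫ x, f x ∂m₂| ≤ L * η :=
  le_of_tendsto' (((near_tendsto_trunc hf (near_lip_integrable hf (h.integrable_id hi))).sub
    (near_tendsto_trunc hf (near_lip_integrable hf hi))).abs) fun n =>
      h.lip hL (near_trunc_lip hf n) ⟨n, fun _ => (near_trunc_abs_le _ _ (Nat.cast_nonneg n)).1⟩
lemma Near.lip_vec [IsProbabilityMeasure m₁] [IsProbabilityMeasure m₂] (h : Near m₁ m₂ η)
    (hi : Integrable (fun x => x) m₂) {f : E ι → E κ} {L : ℝ} (hL : 0 ≤ L) (hf : Lip L f) :
    ‖∫ x, f x ∂m₁ - ∫ x, f x ∂m₂‖ ≤ L * η := by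
  set v := ∫ x, f x ∂m₁ - ∫ x, f x ∂m₂ with hv
  have h1 := h.lip' hi (f := fun x => ⟪v, f x⟫) (L := ‖v‖ * L) (by positivity) fun x y => by
    rw [← inner_sub_right, mul_assoc]
    exact (norm_inner_le_norm _ _).trans (mul_le_mul_of_nonneg_left (hf x y) (norm_nonneg _))
  rw [integral_inner (near_lip_integrable hf (h.integrable_id hi)),
    integral_inner (near_lip_integrable hf hi), ← inner_sub_right, ← hv,
    real_inner_self_eq_norm_mul_norm, abs_of_nonneg (by positivity), mul_assoc] at h1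
  rcases (norm_nonneg v).eq_or_lt with h0 | h0
  · rw [← h0]; exact mul_nonneg hL h.nonneg
  · exact le_of_mul_le_mul_left h1 h0
lemma Near.map (h : Near m₁ m₂ η) {T : E ι → E κ} {L : ℝ} (hL : 0 ≤ L) (hT : Lip L T) :
    Near (m₁.map T) (m₂.map T) (L * η) := by
  intro f hf hb
  obtain ⟨C, hC⟩ := hb
  rw [integral_map hT.continuous.measurable.aemeasurable hf.continuous.aestronglyMeasurable,
    integral_map hT.continuous.measurable.aemeasurable hf.continuous.aestronglyMeasurable]
  exact h.lip hL (by simpa using hf.comp zero_le_one hT) ⟨C, fun x => hC _⟩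
lemma Near.of_integral {Ω : Type} [MeasurableSpace Ω] {μ : Measure Ω} [IsProbabilityMeasure μ]
    {f g : Ω → E ι} (hf : AEMeasurable f μ) (hg : AEMeasurable g μ)
    (hi : Integrable (fun x => f x - g x) μ) (h : ∫ x, ‖f x - g x‖ ∂μ ≤ η) :
    Near (μ.map f) (μ.map g) η := by
  intro φ hφ hb
  obtain ⟨C, hC⟩ := hb
  have i1 : Integrable (fun x => φ (f x)) μ := Integrable.of_bound
    (hφ.continuous.measurable.comp_aemeasurable hf).aestronglyMeasurable C
    (Eventually.of_forall fun x => hC _)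
  have i2 : Integrable (fun x => φ (g x)) μ := Integrable.of_bound
    (hφ.continuous.measurable.comp_aemeasurable hg).aestronglyMeasurable C
    (Eventually.of_forall fun x => hC _)
  rw [integral_map hf hφ.continuous.aestronglyMeasurable,
    integral_map hg hφ.continuous.aestronglyMeasurable, ← integral_sub i1 i2,
    ← Real.norm_eq_abs]
  refine le_trans (norm_integral_le_of_norm_le hi.norm (Eventually.of_forall fun x => ?_)) h
  simpa using hφ (f x) (g x)
lemma Near.of_L2le {Ω : Type} [MeasurableSpace Ω] {μ : Measure Ω} [IsProbabilityMeasure μ]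
    {f g : Ω → E ι} (hf : AEMeasurable f μ) (hg : AEMeasurable g μ) (hη : 0 ≤ η)
    (h : L2le μ (fun x => f x - g x) η) : Near (μ.map f) (μ.map g) η :=
  Near.of_integral hf hg h.integrable (h.integral_norm_le hη)

lemma Near.conv_left {n : Measure (E ι)} [IsProbabilityMeasure m₁] [IsProbabilityMeasure m₂]
    [IsProbabilityMeasure n] (h : Near m₁ m₂ η) :
    Near ((m₁.prod n).map fun p => p.1 + p.2) ((m₂.prod n).map fun p => p.1 + p.2) η := by
  intro f hf hb
  obtain ⟨C, hC⟩ := hb
  have hc : Continuous fun p : E ι × E ι => f (p.1 + p.2) :=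
    hf.continuous.comp (continuous_fst.add continuous_snd)
  have hsh : ∀ x, Lip 1 fun y => f (x + y) := fun x y y' => by simpa using hf (x + y) (x + y')
  have e : ∀ (m : Measure (E ι)) [IsProbabilityMeasure m],
      ∫ x, f x ∂((m.prod n).map fun p => p.1 + p.2) = ∫ x, ∫ y, f (x + y) ∂n ∂m := by
    intro m _
    rw [integral_map (by fun_prop) hf.continuous.aestronglyMeasurable, integral_prod]
    exact Integrable.of_bound hc.aestronglyMeasurable C (Eventually.of_forall fun x => hC _)
  rw [e, e]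
  refine h _ (fun x x' => ?_) ⟨C, fun x => ?_⟩
  · rw [← integral_sub (near_bdd_integrable (hsh x) fun _ => hC _)
      (near_bdd_integrable (hsh x') fun _ => hC _)]
    have := norm_integral_le_of_norm_le_const (μ := n) (f := fun y => f (x + y) - f (x' + y))
      (C := 1 * ‖x - x'‖) (Eventually.of_forall fun y => by simpa using hf (x + y) (x' + y))
    simpa using this
  · have := norm_integral_le_of_norm_le_const (μ := n) (f := fun y => f (x + y))
      (C := C) (Eventually.of_forall fun y => hC _)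
    simpa using this

lemma near_conv_comm (m n : Measure (E ι)) [SFinite m] [SFinite n] :
    ((m.prod n).map fun p => p.1 + p.2) = (n.prod m).map fun p => p.1 + p.2 := by
  rw [← Measure.prod_swap, Measure.map_map (by fun_prop) measurable_swap]
  congr 1
  funext p
  exact add_comm _ _

lemma Near.conv {n₁ n₂ : Measure (E ι)} [IsProbabilityMeasure m₁] [IsProbabilityMeasure m₂]
    [IsProbabilityMeasure n₁] [IsProbabilityMeasure n₂] (h : Near m₁ m₂ η) (h' : Near n₁ n₂ η') :
    Near ((m₁.prod n₁).map fun p => p.1 + p.2) ((m₂.prod n₂).map fun p => p.1 + p.2) (η + η') := by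
  refine h.conv_left.trans ?_
  rw [near_conv_comm m₂ n₁, near_conv_comm m₂ n₂]
  exact h'.conv_left
lemma near_gs_shift (u u' : E ι) (σ : ℝ) : Near (gs u σ) (gs u' σ) ‖u - u'‖ := by
  refine Near.of_integral (by fun_prop) (by fun_prop) ?_ ?_ <;> simp
lemma near_dirac [IsProbabilityMeasure m] (u : E ι) (hη : 0 ≤ η) (h : L2le m (fun x => x - u) η) :
    Near (Measure.dirac u) m η := by
  have := (Near.of_L2le (f := fun x => x) (g := fun _ => u) aemeasurable_id aemeasurable_const
    hη h).symm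
  simpa using this
lemma near_gs_of_L2le [IsProbabilityMeasure m] (u : E ι) {σ : ℝ} (hσ : 0 ≤ σ) (hη : 0 ≤ η)
    (h : L2le m (fun x => x - u) η) : Near (gs u σ) m (σ * √(Fintype.card ι) + η) :=
  (near_dirac u (by positivity) (L2le_gs_sub u hσ)).symm.trans (near_dirac u hη h)
/-- smoothing a bounded Lipschitz function by a Gaussian -/
lemma Lip.integral_gs {f : E ι → ℝ} {L : ℝ} (hf : Lip L f) (σ : ℝ) :
    Lip L fun u => ∫ x, f x ∂gs u σ := by
  intro u u'
  have hi : ∀ v : E ι, Integrable (fun z => f (v + σ • z)) (γ ι) := fun v =>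
    Lip.integrable_γ (L := L * |σ|) fun z z' => by
      have := hf (v + σ • z) (v + σ • z')
      rwa [add_sub_add_left_eq_sub, ← smul_sub, norm_smul, Real.norm_eq_abs σ, ← mul_assoc] at this
  show ‖∫ x, f x ∂gs u σ - ∫ x, f x ∂gs u' σ‖ ≤ _
  rw [R285.integral_gs u σ hf.continuous.aestronglyMeasurable,
    R285.integral_gs u' σ hf.continuous.aestronglyMeasurable, ← integral_sub (hi u) (hi u')]
  have := norm_integral_le_of_norm_le_const (μ := γ ι)
    (f := fun z => f (u + σ • z) - f (u' + σ • z)) (C := L * ‖u - u'‖)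
    (Eventually.of_forall fun z => by simpa using hf (u + σ • z) (u' + σ • z))
  simpa using this


end Crest.Agent.R285
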