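import Crest.Agent.R285.GmMult
import Crest.Agent.R285.ClosedR
import Crest.Agent.R285.Near

/-!
# Row 285 (S0430): Step
Elementary facts about the gates and one level step.  Throughout `s = p.2.1`, `s' = θ² s`.
`gate_eq_integral`, `normM_step`: `tg_semigroup` (with `√(s - s') = √s * σ`) and `tg_map_smul` (for
`lz W s'`, see `BP.bp_lz`, and for `W`).  `Closed.gateN'`: `hQ.reindex GI.next`, `Closed.comp_lin` with
`Λ • id`, `Closed.smul` with `θ` (note `gb (GI.next p) = gb p` by `rfl`).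
-/

set_option autoImplicit false

open MeasureTheory ProbabilityTheory Filter Topology
open scoped RealInnerProductSpace

noncomputable section

namespace Crest.Agent.R285

variable (p : GI) (W : Pot p.1)

lemma GI.s_pos : 0 < p.2.1 := p.2.2.1
lemma GI.s_le : p.2.1 ≤ p.1.δ := p.2.2.2

/-- the gate of the next level, as a family over the present level -/
def gateX : Fam gb gd gd := fun p W z => gate p.next W z

lemma gateN_eq_gateX (z : E (Fin p.1.d)) : gateN p W z = p.1.θ • gateX p W (p.1.Λ • z) := rfl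

lemma step_sqrt : √(p.1.θ ^ 2 * p.2.1) = p.1.θ * √p.2.1 := by
  rw [Real.sqrt_mul (sq_nonneg _), Real.sqrt_sq p.1.hθ.le]

lemma step_smul_Λ (z : E (Fin p.1.d)) : √(p.1.θ ^ 2 * p.2.1) • p.1.Λ • z = √p.2.1 • z := by
  rw [smul_smul, step_sqrt, mul_right_comm, p.1.θ_mul_Λ, one_mul]

lemma step_bp_lz (hδ : p.1.δ ≤ 1 / 2) :
    BP (lz W.W (p.1.θ ^ 2 * p.2.1)) 2 (p.1.Λ * √(p.1.d : ℝ)) :=
  W.bp.bp_lz p.next.s_pos (p.next.s_le.trans hδ)

lemma step_semigroup {Y : Type} [NormedAddCommGroup Y] [NormedSpace ℝ Y] [CompleteSpace Y]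
    (hδ : p.1.δ ≤ 1 / 2) (u : E (Fin p.1.d)) {f : E (Fin p.1.d) → Y} (hf : PolyB f)
    (hc : Continuous f) : ∫ x, f x ∂tg W.W (√p.2.1 • u) √p.2.1 =
      ∫ z, ∫ x, f x ∂tg W.W (√p.2.1 • z) √(p.1.θ ^ 2 * p.2.1) ∂stepM p W u := by
  have hs := Real.sqrt_pos.2 p.s_pos
  have hs' : 0 < p.1.θ ^ 2 * p.2.1 := p.next.s_pos
  have hle : p.1.θ ^ 2 * p.2.1 ≤ p.2.1 :=
    mul_le_of_le_one_left p.s_pos.le (pow_le_one₀ p.1.hθ.le p.1.hθ1)
  have e : √(p.2.1 - p.1.θ ^ 2 * p.2.1) = √p.2.1 * p.1.σ := by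
    rw [Base.σ, ← Real.sqrt_mul p.s_pos.le]
    congr 1
    ring
  have hcont : Continuous fun x => ∫ x', f x' ∂tg W.W x √(p.1.θ ^ 2 * p.2.1) := by
    refine continuous_iff_continuousAt.2 fun x => ?_
    obtain ⟨D, hD, -⟩ := W.bp.hasFDerivAt_integral (Real.sqrt_pos.2 hs') hf hc x
    exact hD.continuousAt
  rw [tg_semigroup W.bp hs' hle _ hf hc, e, ← tg_map_smul (step_bp_lz p W hδ) hs,
    integral_map (by fun_prop) hcont.aestronglyMeasurable]
  rfl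

lemma gateN_eq (z : E (Fin p.1.d)) :
    gateN p W z = (p.1.δ / √p.2.1) • gm W.W (p.1.θ ^ 2 * p.2.1) (√p.2.1 • z) := by
  have hθ := p.1.hθ
  have hs := Real.sqrt_pos.2 p.s_pos
  show p.1.θ • ((p.1.δ / √(p.1.θ ^ 2 * p.2.1)) • gm W.W (p.1.θ ^ 2 * p.2.1)
    (√(p.1.θ ^ 2 * p.2.1) • p.1.Λ • z)) = _
  rw [step_smul_Λ, smul_smul, step_sqrt]
  congr 1
  field_simp

lemma gradient_stepPot : gradient (stepPot p W) = fun z => (p.2.1 / p.1.δ) • gateN p W z := by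
  funext z
  have hs := Real.sqrt_pos.2 p.s_pos
  have hδ := p.1.δ_pos
  have hd : Differentiable ℝ (lz W.W (p.1.θ ^ 2 * p.2.1)) := fun y =>
    (W.bp.hasGradientAt_lz _ y).differentiableAt
  have := gradient_comp_smul hd (√p.2.1) z
  rw [W.bp.gradient_lz] at this
  rw [gateN_eq, smul_smul]
  refine this.trans ?_
  congr 1
  field_simp
  exact Real.sq_sqrt p.s_pos.le

lemma bp_stepPot (hδ : p.1.δ ≤ 1 / 2) :
    BP (stepPot p W) (2 * p.1.δ) (p.1.Λ * √(p.1.d : ℝ)) := by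
  have h := (step_bp_lz p W hδ).comp_smul (Real.sqrt_nonneg p.2.1)
  refine h.mono ?_ ?_
  · rw [Real.sq_sqrt p.s_pos.le]; linarith [p.s_le]
  · refine mul_le_of_le_one_left W.bp.nonneg ?_
    exact Real.sqrt_le_one.2 (by linarith [p.s_le])

lemma prob_stepM (hδ : p.1.δ ≤ 1 / 2) (u : E (Fin p.1.d)) : IsProbabilityMeasure (stepM p W u) := by
  exact (bp_stepPot p W hδ).prob u _

lemma L2le_stepM (hδ : p.1.δ ≤ 1 / 2) (hθ : p.1.θ ≤ 1 / 2) (u : E (Fin p.1.d)) :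
    L2le (stepM p W u) (fun x => x - u) (2 * p.1.Λ * √(p.1.d : ℝ)) := by
  have hσ : 0 < p.1.σ := lt_of_lt_of_le (by norm_num) (p.1.half_le_σ hθ)
  refine ((bp_stepPot p W hδ).L2le_sub u hσ).mono ?_
  rw [Fintype.card_fin]
  have h1 := p.1.σ_le_one
  have h2 := p.1.one_le_Λ
  have h3 : 0 ≤ √(p.1.d : ℝ) := Real.sqrt_nonneg _
  have h4 : p.1.σ ^ 2 ≤ 1 := pow_le_one₀ hσ.le h1
  have h5 := mul_le_mul_of_nonneg_right h4 W.bp.nonneg
  have h6 := mul_le_mul_of_nonneg_right (h1.trans h2) h3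
  linarith

lemma L2le_inner_stepM (hδ : p.1.δ ≤ 1 / 4) (hθ : p.1.θ ≤ 1 / 2) (u v : E (Fin p.1.d)) :
    L2le (stepM p W u) (fun x => ⟪v, x - ∫ y, y ∂stepM p W u⟫) (2 * ‖v‖) := by
  have hσ : 0 < p.1.σ := lt_of_lt_of_le (by norm_num) (p.1.half_le_σ hθ)
  exact (bp_stepPot p W (by linarith)).L2le_inner hσ p.1.σ_le_one (by linarith) u v

lemma lip_gateN (hδ : p.1.δ ≤ 1 / 2) : Lip (2 * p.1.δ) (gateN p W) := by
  have hs := Real.sqrt_pos.2 p.s_pos
  have hδ0 := p.1.δ_pos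
  have h1 := W.bp.lip_gm p.next.s_pos (p.next.s_le.trans hδ)
  have h2 := (h1.comp (by norm_num) (Lip.id'.smul √p.2.1)).smul (p.1.δ / √p.2.1)
  rw [abs_of_pos hs, abs_of_pos (div_pos hδ0 hs),
    show p.1.δ / √p.2.1 * (2 * (√p.2.1 * 1)) = 2 * p.1.δ by field_simp] at h2
  intro x y
  rw [gateN_eq, gateN_eq]
  exact h2 x y

theorem gate_eq_integral (hδ : p.1.δ ≤ 1 / 2) (u : E (Fin p.1.d)) :
    gate p W u = ∫ z, gateN p W z ∂stepM p W u := by
  have h := step_semigroup p W hδ u W.bp.lip.polyB W.bp.lip.continuous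
  simp only [gateN_eq]
  rw [integral_smul]
  exact congrArg (fun v => (p.1.δ / √p.2.1) • v) h

theorem fderiv_gate (hδ : p.1.δ ≤ 1 / 2) (hθ : p.1.θ ≤ 1 / 2) (u g : E (Fin p.1.d)) :
    fderiv ℝ (gate p W) u g =
      (p.1.σ ^ 2)⁻¹ • ∫ x, ⟪g, x - ∫ y, y ∂stepM p W u⟫ • gateN p W x ∂stepM p W u := by
  have hσ : 0 < p.1.σ := lt_of_lt_of_le (by norm_num) (p.1.half_le_σ hθ)
  obtain ⟨D, hD, hg⟩ := (bp_stepPot p W hδ).hasFDerivAt_integral hσ (lip_gateN p W hδ).polyB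
    (lip_gateN p W hδ).continuous u
  have e : gate p W = fun u => ∫ z, gateN p W z ∂tg (stepPot p W) u p.1.σ :=
    funext fun u => gate_eq_integral p W hδ u
  rw [e, hD.fderiv]
  exact hg g

theorem adj_fderiv_gate (u : E (Fin p.1.d)) :
    adj (fderiv ℝ (gate p W) u) = fderiv ℝ (gate p W) u := by
  have hd := (W.bp.tg_gm_smul p.s_pos √p.2.1).differentiable
  have e : fderiv ℝ (gate p W) u =
      (p.1.δ / √p.2.1) • fderiv ℝ (fun u => gm W.W p.2.1 (√p.2.1 • u)) u :=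
    fderiv_fun_const_smul (hd u) _
  rw [e, adj_smul, W.bp.adj_fderiv_gm p.s_pos]

theorem Closed.gateX' {Q : FamProp} (hQ : Closed Q) (h : Q gb gate) : Q gb gateX := by
  exact hQ.reindex GI.next h

theorem Closed.gateN' {Q : FamProp} (hQ : Closed Q) (h : Q gb gate) : Q gb gateN := by
  have h1 := hQ.comp_lin (ι := gd) (B := fun p : GI => p.1.Λ • ContinuousLinearMap.id ℝ (E (gd p)))
    (Poly.norm_smul (by simpa using Poly.Λ_pow (b := gb) 1) Poly.norm_id) Dim.fin (hQ.gateX' h)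
  exact hQ.smul (c := fun p : GI => p.1.θ) (Poly.bound (c := 1) (Eventually.of_forall fun p => by
    rw [abs_of_pos p.1.hθ]; exact p.1.hθ1)) h1

/-- the restricted Gaussian oracle at variance `s`, in normalised units -/
def normM (u : E (Fin p.1.d)) : Measure (E (Fin p.1.d)) := tg (fun z => W.W (√p.2.1 • z)) u 1

lemma bp_normM : BP (fun z => W.W (√p.2.1 • z)) p.2.1 (√p.2.1 * (p.1.Λ * √(p.1.d : ℝ))) := by
  have h := W.bp.comp_smul (Real.sqrt_nonneg p.2.1)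
  rwa [Real.sq_sqrt p.s_pos.le, mul_one] at h

lemma prob_normM (u : E (Fin p.1.d)) : IsProbabilityMeasure (normM p W u) := by
  exact (bp_normM p W).prob u 1

lemma normM_map (u : E (Fin p.1.d)) :
    (normM p W u).map (fun z => √p.2.1 • z) = tg W.W (√p.2.1 • u) √p.2.1 := by
  have h := tg_map_smul W.bp (Real.sqrt_pos.2 p.s_pos) u 1
  rwa [mul_one] at h

theorem normM_step (hδ : p.1.δ ≤ 1 / 2) (u : E (Fin p.1.d)) {f : E (Fin p.1.d) → ℝ}
    (hf : Continuous f) (hb : ∃ C, ∀ x, |f x| ≤ C) :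
    ∫ x, f x ∂normM p W u =
      ∫ z, ∫ x, f (p.1.θ • x) ∂normM p.next W (p.1.Λ • z) ∂stepM p W u := by
  have hs := Real.sqrt_pos.2 p.s_pos
  obtain ⟨C, hC⟩ := hb
  have hg : Continuous fun x : E (Fin p.1.d) => f ((√p.2.1)⁻¹ • x) := by fun_prop
  have key : ∀ (q : GI) (W : Pot q.1) (u : E (Fin q.1.d)) (g : E (Fin q.1.d) → ℝ), Continuous g →
      ∫ x, g x ∂tg W.W (√q.2.1 • u) √q.2.1 = ∫ x, g (√q.2.1 • x) ∂normM q W u := by
    intro q W u g hg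
    rw [← normM_map, integral_map (by fun_prop) hg.aestronglyMeasurable]
  have h := step_semigroup p W hδ u (f := fun x => f ((√p.2.1)⁻¹ • x))
    ⟨0, C, fun x => by simpa using hC _⟩ hg
  rw [key p W u _ hg] at h
  simp only [inv_smul_smul₀ hs.ne'] at h
  rw [h]
  refine integral_congr_ae (Eventually.of_forall fun z => ?_)
  have h2 := key p.next W (p.1.Λ • z) _ hg
  change ∫ x, f ((√p.2.1)⁻¹ • x) ∂tg W.W (√(p.1.θ ^ 2 * p.2.1) • p.1.Λ • z) √(p.1.θ ^ 2 * p.2.1) =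
    ∫ x, f ((√p.2.1)⁻¹ • √(p.1.θ ^ 2 * p.2.1) • x) ∂normM p.next W (p.1.Λ • z) at h2
  rw [step_smul_Λ] at h2
  refine h2.trans ?_
  simp only [smul_smul, step_sqrt,
    show (√p.2.1)⁻¹ * (p.1.θ * √p.2.1) = p.1.θ by field_simp]

lemma lip_normM (hδ : p.1.δ ≤ 1 / 2) {f : E (Fin p.1.d) → ℝ} {L : ℝ} (hL : 0 ≤ L) (hf : Lip L f) :
    Lip (2 * L) fun u => ∫ x, f x ∂normM p W u := by
  have hs := p.s_le.trans hδ
  refine ((bp_normM p W).lip_integral one_pos (by linarith) hL hf).mono ?_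
  rw [div_le_iff₀ (by linarith)]
  nlinarith

lemma near_gs_normM (hδ : p.1.δ * p.1.Λ ^ 2 ≤ 1) (u : E (Fin p.1.d)) {σ : ℝ} (hσ : 0 ≤ σ)
    (hσ1 : σ ≤ 1) : Near (gs u σ) (normM p W u) (3 * √(p.1.d : ℝ)) := by
  have := prob_normM p W u
  have h := (bp_normM p W).L2le_sub u one_pos
  have h3 : 0 ≤ √(p.1.d : ℝ) := Real.sqrt_nonneg _
  have h1 : √p.2.1 * p.1.Λ ≤ 1 := by
    have h0 : 0 ≤ √p.2.1 * p.1.Λ := mul_nonneg (Real.sqrt_nonneg _) p.1.Λ_pos.le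
    have : (√p.2.1 * p.1.Λ) ^ 2 ≤ 1 := by
      rw [mul_pow, Real.sq_sqrt p.s_pos.le]
      exact (mul_le_mul_of_nonneg_right p.s_le (sq_nonneg _)).trans hδ
    nlinarith
  have h2 : L2le (normM p W u) (fun x => x - u) (2 * √(p.1.d : ℝ)) := by
    refine h.mono ?_
    rw [Fintype.card_fin]
    have := mul_le_mul_of_nonneg_right h1 h3
    nlinarith
  refine (near_gs_of_L2le u hσ (by positivity) h2).mono ?_
  rw [Fintype.card_fin]
  have := mul_le_mul_of_nonneg_right hσ1 h3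
  linarith


end Crest.Agent.R285
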