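import Crest.Agent.R285.Arc1
import Crest.Agent.R285.Step
import Crest.Agent.R285.Picard

/-!
# Row 285 (S0430): Arc2
The approximate arc map as a family.
Let `g p W z = (s/δ) • gateN p W z = gradient (stepPot p W) z`; `Q gb g` (`Closed.gateN'`, `Closed.smul`).
From `Tame gb g` get `c` with `Mult (θ^c) (δ Λ^c) (2 (ν a + 1))`.  Take `K p = ν a + 1`, `ρ p = θ^(2c+1)`,
a scheme `Qd p : Quad (K p) π (ρ p) (C (K p))` (`exists_quad`, `Classical.choice`), `I p = Fin (Qd p).N`,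
`lin p i = arcLin (t i)`, `w p i l = arcW (Qd p) σ (t i) l`, and
`τs X = ∑ l, arcW (Qd p) σ π l • g (lin l X + pic g 0 id lin w a l X)`
(`Closed.pic'` with `A = 0`, `C = id`; then `comp`, `smul`, `sum`).
Error: `arc_flow`, `picard_L2` (`R = 2 Λ √d` by `L2le.of_bound`), `(ρ/r²)^K = θ^(ν a + 1) ≤ δ^a`.
-/

set_option autoImplicit false

open MeasureTheory ProbabilityTheory Filter Topology
open scoped RealInnerProductSpace

noncomputable section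

namespace Crest.Agent.R285

/-- error of the approximate arc map (single instance) -/
lemma arc_err {ι : Type} [Fintype ι] {K : ℕ} {ρ CQ : ℝ} (Qd : Quad K Real.pi ρ CQ) {g : E ι → E ι}
    {σ L η R : ℝ} (hσ : 0 ≤ σ) (hσ1 : σ ≤ 1) (hL : 0 ≤ L) (hη : 0 ≤ η) (hR : 0 ≤ R) (hg : Lip L g)
    (hcL : 2 * CQ * L ≤ 1 / 2) {μ : Measure (E (ι ⊕ (ι ⊕ ι)))} [IsProbabilityMeasure μ]
    {x : ℝ → E (ι ⊕ (ι ⊕ ι)) → E ι} (hx : ∀ t, Continuous (x t))
    (h2 : ∀ t ∈ Set.Icc 0 Real.pi, ∀ X, ‖x t X - arcLin t X‖ ≤ R)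
    (h1 : ∀ t ∈ Set.Icc 0 Real.pi,
      L2le μ (fun X => x t X - arcLin t X - ∑ l, arcW Qd σ t l • g (x (Qd.t l) X)) η) (a : ℕ) :
    L2le μ (fun X => x Real.pi X - fstL (sndL X) -
      ∑ l, arcW Qd σ Real.pi l • g (arcLin (Qd.t l) X +
        pic g 0 (ContinuousLinearMap.id ℝ (E ι)) (fun i => arcLin (Qd.t i))
          (fun i l => arcW Qd σ (Qd.t i) l) a l X)) (2 * η + (2 * CQ * L) ^ a * R) := by
  have hCQ := Qd.nonneg
  have hpi : Real.pi ∈ Set.Icc 0 Real.pi := ⟨Real.pi_pos.le, le_rfl⟩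
  have hp := fun l => picard_L2 (μ := μ) (g := g) (A := 0) (C := ContinuousLinearMap.id ℝ (E ι))
    (lin := fun i => arcLin (Qd.t i)) (w := fun i l => arcW Qd σ (Qd.t i) l) (X := fun X => X)
    (x := fun i => x (Qd.t i)) hL (by positivity : 0 ≤ 2 * CQ) hη hR hg
    ContinuousLinearMap.norm_id_le (fun i => sum_abs_arcW_le Qd hσ hσ1 (Qd.t_mem i)) hcL
    aestronglyMeasurable_id (fun i => (hx _).aestronglyMeasurable)
    (fun i => (h1 _ (Qd.t_mem i)).congr' fun X => by simp)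
    (fun i => L2le.of_bound ((hx _).sub (arcLin _).continuous).aestronglyMeasurable
      (h2 _ (Qd.t_mem i))) a l
  have cg := hg.continuous
  have hq : ∀ l, L2le μ (fun X => g (x (Qd.t l) X) - g (arcLin (Qd.t l) X +
      pic g 0 (ContinuousLinearMap.id ℝ (E ι)) (fun i => arcLin (Qd.t i))
        (fun i l => arcW Qd σ (Qd.t i) l) a l X)) (L * (2 * η + (2 * CQ * L) ^ a * R)) := fun l =>
    (hp l).of_norm_le ((cg.comp (hx _)).sub (cg.comp ((arcLin _).continuous.add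
      (continuous_pic cg _ _ _ _ _ _)))).aestronglyMeasurable hL fun X =>
        (hg _ _).trans (by rw [sub_sub])
  have h3 := L2le.sum_smul hq (by positivity) (sum_abs_arcW_le Qd hσ hσ1 hpi)
  refine (((h1 _ hpi).add h3 hη (by positivity)).congr' fun X => ?_).mono ?_
  · rw [arcLin_pi]
    simp only [smul_sub, Finset.sum_sub_distrib]
    abel
  · have h4 : 0 ≤ (2 * CQ * L) ^ a * R := by positivity
    have h5 := mul_le_mul_of_nonneg_right hcL (by positivity : 0 ≤ 2 * η + (2 * CQ * L) ^ a * R)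
    nlinarith

theorem arc_fam {Q : FamProp} (hQ : Closed Q) (hg : Q gb gate) (a : ℕ) :
    ∃ τs : Fam gb (fun p => gd p ⊕ (gd p ⊕ gd p)) gd, Q gb τs ∧ ∃ c : ℕ, ∀ᶠ p in ev gb, ∀ W,
      ∃ τ : E (gd p ⊕ (gd p ⊕ gd p)) → E (gd p), Continuous τ ∧ ∀ u,
        ArcLaw (stepM p W u) u p.1.σ τ ∧
        L2le (arcM (stepM p W u) u p.1.σ) (fun X => τ X - fstL (sndL X) - τs p W X)
          (p.1.Λ ^ c * p.1.e a) := by
  have hs : Poly gb fun p : GI => p.2.1 / p.1.δ :=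
    Poly.bound (c := 1) (Eventually.of_forall fun p => by
      rw [abs_of_nonneg (div_nonneg p.s_pos.le p.1.δ_pos.le)]
      exact div_le_one_of_le₀ p.s_le p.1.δ_pos.le)
  have hQg : Q gb (fun p W => gradient (stepPot p W) : Fam gb gd gd) :=
    hQ.congr (Eventually.of_forall fun p W => (gradient_stepPot p W).symm)
      (hQ.smul hs (hQ.gateN' hg))
  have hT := hQ.tame hQg
  obtain ⟨c, hc⟩ := hT.op.mult
  obtain ⟨CQ, hCQ1, hQd⟩ := exists_quad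
  obtain ⟨CA, hCA1, hA⟩ := arc_flow
  let Qd : ∀ p : GI, Quad (p.1.ν * a + 1) Real.pi (p.1.θ ^ (2 * c + 1)) (CQ (p.1.ν * a + 1)) :=
    fun p => Classical.choice (hQd _ _ _ (Nat.le_add_left _ _) Real.pi_pos (pow_pos p.1.hθ _))
  have hd : Dim gb gd := Dim.fin
  have hd3 : Dim gb fun p => gd p ⊕ (gd p ⊕ gd p) := hd.sum (hd.sum hd)
  have hI : Poly gb fun p => (Fintype.card (Fin (Qd p).N) : ℝ) := by
    refine ((Poly.nu fun n => ((n * a + 1 : ℕ) : ℝ)).mul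
      (((Poly.const Real.pi).mul (Poly.Λ_pow (2 * c + 1))).add (Poly.const 1))).of_le'
      (fun p => Nat.cast_nonneg _) fun p => ?_
    rw [Fintype.card_fin]
    refine (Qd p).card_le.trans (le_of_eq ?_)
    simp only [Base.Λ, div_eq_mul_inv, inv_pow]
  have hlin : ∀ᶠ p in ev gb, ∀ t, ‖(arcLin t : E (gd p ⊕ (gd p ⊕ gd p)) →L[ℝ] E (gd p))‖ ≤
      (gb p).Λ ^ 1 := (ev_const' gb 3).mono fun p h t => by
    rw [pow_one]; exact (norm_arcLin_le t).trans h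
  have hw : ∀ᶠ p in ev gb, ∀ t ∈ Set.Icc 0 Real.pi, ∀ l,
      |arcW (Qd p) p.1.σ t l| ≤ (gb p).Λ ^ 1 :=
    (ev_const gb fun n => 2 * CQ (n * a + 1)).mono fun p h t ht l => by
      rw [pow_one]
      exact ((Finset.single_le_sum (f := fun l => |arcW (Qd p) p.1.σ t l|)
        (fun _ _ => abs_nonneg _) (Finset.mem_univ l)).trans
          (sum_abs_arcW_le (Qd p) p.1.σ_nonneg p.1.σ_le_one ht)).trans h
  have h0 := hQ.pic' (I := fun p => Fin (Qd p).N) (A := fun _ => 0)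
    (C := fun p => ContinuousLinearMap.id ℝ (E (gd p)))
    (lin := fun p i => arcLin ((Qd p).t i)) (w := fun p i l => arcW (Qd p) p.1.σ ((Qd p).t i) l)
    hI hd3 Poly.norm_zero Poly.norm_id ⟨1, hlin.mono fun p h i => h _⟩
    ⟨1, hw.mono fun p h i l => h _ ((Qd p).t_mem i) l⟩ hQg a
  have h1 := hQ.comp (B := fun p : Σ p, Fin (Qd p).N => arcLin ((Qd p.1).t p.2))
    (Poly.norm_of_le fun _ => norm_arcLin_le _) h0 (hQ.reindex Sigma.fst hQg)
  have hw' : Poly (fun p : Σ p, Fin (Qd p).N => gb p.1)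
      fun p => arcW (Qd p.1) p.1.1.σ Real.pi p.2 :=
    ⟨1, ev_sigma.2 (hw.mono fun p h l => h _ ⟨Real.pi_pos.le, le_rfl⟩ l)⟩
  have h3 := hQ.sum (I := fun p => Fin (Qd p).N) hI hd3 hd (hQ.smul hw' h1)
  refine ⟨_, h3, a + 2, ?_⟩
  filter_upwards [hc fun n => 2 * (n * a + 1), hT.tg, ev_δ_mul_le gb c one_pos,
    ev_δ_mul_le gb 1 one_half_pos, ev_δ_le gb one_half_pos, ev_θ_le gb one_half_pos,
    ev_const gb fun n => 4 * CQ (n * a + 1),
    ev_const gb fun n => CA (n * a + 1) * (1 + CQ (n * a + 1)), ev_const' gb 4]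
    with p hM htg e1 e2 e3 e4 e5 e6 e7 W
  have hbp := bp_stepPot p W e3
  have hδ := p.1.δ_pos
  have hΛ := p.1.Λ_pos
  have hθ := p.1.hθ
  have hCQ := (Qd p).nonneg
  have hCA := hCA1 (p.1.ν * a + 1)
  obtain ⟨x, hx, hx2, hx3⟩ := hA _ (Qd p) (Nat.le_add_left _ _) (pow_pos hθ _).le
    (p.1.half_le_σ e4) p.1.σ_le_one hbp (htg W) (pow_pos hθ c) (p.1.θ_pow_le_one c)
    (by positivity) e1 (hM W).1 (hM W).2
  refine ⟨x Real.pi, hx _, fun u => ⟨(hx3 u).1, ?_⟩⟩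
  have := hbp.prob u p.1.σ
  simp only [pow_one] at e2
  have hcL : 2 * CQ (p.1.ν * a + 1) * (2 * p.1.δ) ≤ p.1.δ * p.1.Λ := by
    have := mul_le_mul_of_nonneg_left e5 hδ.le
    linarith
  refine (arc_err (Qd p) p.1.σ_nonneg p.1.σ_le_one (by positivity) (by positivity) (by positivity)
    hbp.lip (hcL.trans e2) hx hx2 (hx3 u).2 a).mono ?_
  have hsd := p.1.one_le_sqrt_d
  have b1 : (p.1.θ ^ (2 * c + 1) / (p.1.θ ^ c) ^ 2) ^ (p.1.ν * a + 1) ≤ p.1.δ ^ a := by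
    have : p.1.θ ^ (2 * c + 1) / (p.1.θ ^ c) ^ 2 = p.1.θ := by
      rw [← pow_mul, mul_comm c 2, pow_succ]
      field_simp
    rw [this]
    exact (p.1.θ_pow_anti (Nat.le_succ _)).trans (p.1.θ_pow_le_δ_pow a)
  have b2 : CA (p.1.ν * a + 1) * (1 + CQ (p.1.ν * a + 1)) *
      (p.1.θ ^ (2 * c + 1) / (p.1.θ ^ c) ^ 2) ^ (p.1.ν * a + 1) * (p.1.δ * p.1.Λ ^ c) *
        √(Fintype.card (gd p)) ≤ p.1.Λ * p.1.e a := by
    rw [Fintype.card_fin, Base.e]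
    calc _ ≤ p.1.Λ * p.1.δ ^ a * 1 * √(p.1.d : ℝ) := by gcongr
      _ = _ := by ring
  have b3 : (2 * CQ (p.1.ν * a + 1) * (2 * p.1.δ)) ^ a * (2 * (p.1.Λ * √(p.1.d : ℝ))) ≤
      2 * p.1.Λ ^ (a + 1) * p.1.e a := by
    rw [Base.e]
    calc _ ≤ (p.1.δ * p.1.Λ) ^ a * (2 * (p.1.Λ * √(p.1.d : ℝ))) := by gcongr
      _ = _ := by ring
  have b4 : p.1.Λ ≤ p.1.Λ ^ (a + 1) := by
    simpa using p.1.Λ_pow_mono (Nat.le_add_left 1 a)
  have he := p.1.e_pos a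
  calc _ ≤ 2 * (p.1.Λ * p.1.e a) + 2 * p.1.Λ ^ (a + 1) * p.1.e a := by linarith
    _ ≤ 2 * (p.1.Λ ^ (a + 1) * p.1.e a) + 2 * p.1.Λ ^ (a + 1) * p.1.e a := by gcongr
    _ = 4 * (p.1.Λ ^ (a + 1) * p.1.e a) := by ring
    _ ≤ p.1.Λ * (p.1.Λ ^ (a + 1) * p.1.e a) := by gcongr
    _ = _ := by ring


end Crest.Agent.R285
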