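import Crest.Agent.R285.Sim

/-!
# Row 285 (S0430): Bl
Blurring calculus.
-/

set_option autoImplicit false

open MeasureTheory ProbabilityTheory Filter Topology
open scoped RealInnerProductSpace

noncomputable section

namespace Crest.Agent.R285

variable {b : Base} {In In' κ κ' : Type} [MeasurableSpace In] [MeasurableSpace In'] [Fintype κ]
  [Fintype κ'] {y y' : Pot b → In → E κ} {η η' : Pot b → In → ℝ} {q q' s s' : ℝ}

lemma Bl.cost_nonneg (h : Bl b y s η q) : 0 ≤ q := Sim.cost_nonneg h
lemma Bl.err_nonneg (h : Bl b y s η q) (W : Pot b) (w : In) : 0 ≤ η W w := Sim.err_nonneg h W w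
lemma Bl.mono (h : Bl b y s η q) (hη : ∀ W w, η W w ≤ η' W w) (hq : q ≤ q') : Bl b y s η' q' :=
  Sim.mono h hη hq
lemma Bl.congr (h : Bl b y s η q) (hy : ∀ W w, y W w = y' W w) : Bl b y' s η q :=
  Sim.congr h fun W w => by rw [hy]
lemma Bl.known {g : In → E κ} (hg : Measurable g) (s : ℝ) :
    Bl b (fun _ w => g w) s (fun _ _ => 0) 0 :=
  Sim.exact (γ κ) (g := fun p : In × E κ => g p.1 + s • p.2) (by fun_prop)
lemma Bl.shift (h : Bl b y s η q) (hy : ∀ W w, ‖y W w - y' W w‖ ≤ η' W w) :
    Bl b y' s (fun W w => η W w + η' W w) q :=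
  Sim.near h fun W w => (near_gs_shift _ _ _).mono (hy W w)
lemma Bl.comap (h : Bl b y s η q) {g : In' → In} (hg : Measurable g) :
    Bl b (fun W w => y W (g w)) s (fun W w => η W (g w)) q :=
  Sim.comap h hg
lemma Bl.add (h : Bl b y s η q) (h' : Bl b y' s' η' q') :
    Bl b (fun W w => y W w + y' W w) √(s ^ 2 + s' ^ 2) (fun W w => η W w + η' W w) (q + q') :=
  (Sim.conv h h' (fun _ _ => inferInstance) fun _ _ => inferInstance).congr fun _ _ =>
    gs_conv _ _ _ _
lemma Bl.scale (h : Bl b y s η q) (hs : 0 ≤ s) (hs' : s ≤ s') : Bl b y s' η q := by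
  have h1 := h.add (Bl.known (g := fun _ : In => (0 : E κ)) measurable_const √(s' ^ 2 - s ^ 2))
  rw [Real.sq_sqrt (by nlinarith), add_sub_cancel, Real.sqrt_sq (hs.trans hs')] at h1
  simpa using h1
lemma Bl.add_known (h : Bl b y s η q) {g : In → E κ} (hg : Measurable g) :
    Bl b (fun W w => g w + y W w) s η q := by
  have h1 := Sim.map h (T := fun p : In × E κ => g p.1 + p.2) (by fun_prop) zero_le_one
    fun w x x' => by simp
  simp only [one_mul] at h1
  exact h1.congr fun _ _ => gs_map_add _ _ _
lemma Bl.smul (h : Bl b y s η q) (c : ℝ) :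
    Bl b (fun W w => c • y W w) (|c| * s) (fun W w => |c| * η W w) q := by
  have h1 := Sim.map h (T := fun p : In × E κ => c • p.2) (by fun_prop) (abs_nonneg c)
    fun w x x' => by rw [← smul_sub, norm_smul, Real.norm_eq_abs]
  refine h1.congr fun _ _ => (gs_map_smul _ _ _).trans ?_
  rw [← gs_abs, ← gs_abs _ (|c| * s), abs_mul, abs_mul, abs_abs]
lemma Bl.lin (h : Bl b y s η q) (B : E κ →L[ℝ] E κ') (hs : 0 ≤ s) (hB : ‖B‖ * s ≤ s') :
    Bl b (fun W w => B (y W w)) s' (fun W w => ‖B‖ * η W w) q := by
  obtain ⟨C, hC⟩ := exists_gs_lin B hs hB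
  have h1 := Sim.map h (T := fun p : In × E κ => B p.2) (by fun_prop) (norm_nonneg B)
    fun w => Lip.clm B
  have h2 := Sim.exact (b := b) (γ κ') (g := fun p : In × E κ' => C p.2) (by fun_prop)
  have h3 := Sim.conv h1 h2 (fun _ _ => Measure.isProbabilityMeasure_map (by fun_prop))
    fun _ _ => Measure.isProbabilityMeasure_map (by fun_prop)
  simp only [add_zero] at h3
  refine h3.congr fun W w => ?_
  rw [Measure.map_prod_map _ _ (by fun_prop) (by fun_prop),
    Measure.map_map (by fun_prop) (by fun_prop), ← hC]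
  rfl
lemma Bl.pair' {y' : Pot b → In → E κ'} (h : Bl b y s η q) (h' : Bl b y' s η' q') :
    Bl b (fun W w => pair (y W w) (y' W w)) s (fun W w => η W w + η' W w) (q + q') := by
  have m1 : Measurable fun x : E κ => pair x (0 : E κ') := (Lip.pair_left 0).continuous.measurable
  have m2 : Measurable fun x : E κ' => pair (0 : E κ) x := (Lip.pair_right 0).continuous.measurable
  have h1 := Sim.map h (T := fun p : In × E κ => pair p.2 (0 : E κ')) (m1.comp measurable_snd)
    zero_le_one fun w => Lip.pair_left 0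
  have h2 := Sim.map h' (T := fun p : In × E κ' => pair (0 : E κ) p.2) (m2.comp measurable_snd)
    zero_le_one fun w => Lip.pair_right 0
  have h3 := Sim.conv h1 h2 (fun _ _ => Measure.isProbabilityMeasure_map m1.aemeasurable)
    fun _ _ => Measure.isProbabilityMeasure_map m2.aemeasurable
  simp only [one_mul] at h3
  refine h3.congr fun W w => ?_
  rw [Measure.map_prod_map _ _ m1 m2, Measure.map_map (by fun_prop) (m1.prodMap m2), ← gs_pair]
  congr 1
  funext p
  simp
lemma Bl.pair_known (h : Bl b y s η q) {g : In → E κ'} (hg : Measurable g) :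
    Bl b (fun W w => pair (y W w) (g w)) s η q := by
  simpa using h.pair' (Bl.known hg s)
lemma Bl.sum {I : Type} (t : Finset I) {y : I → Pot b → In → E κ} {η : I → Pot b → In → ℝ}
    {q : I → ℝ} (hs : 0 ≤ s) (h : ∀ i ∈ t, Bl b (y i) s (η i) (q i)) :
    Bl b (fun W w => ∑ i ∈ t, y i W w) (√(t.card : ℝ) * s) (fun W w => ∑ i ∈ t, η i W w)
      (∑ i ∈ t, q i) := by
  classical
  induction t using Finset.induction_on with
  | empty =>
    simp only [Finset.sum_empty]
    exact Bl.known (g := fun _ : In => (0 : E κ)) measurable_const _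
  | insert i t hi ih =>
    have h1 := (h i (Finset.mem_insert_self _ _)).add
      (ih fun j hj => h j (Finset.mem_insert_of_mem hj))
    have e : √(s ^ 2 + (√(t.card : ℝ) * s) ^ 2) = √((insert i t).card : ℝ) * s := by
      rw [mul_pow, Real.sq_sqrt (Nat.cast_nonneg _), Finset.card_insert_of_notMem hi,
        show s ^ 2 + (t.card : ℝ) * s ^ 2 = ((t.card + 1 : ℕ) : ℝ) * s ^ 2 by push_cast; ring,
        Real.sqrt_mul (Nat.cast_nonneg _), Real.sqrt_sq hs]
    rw [e] at h1
    simpa only [Finset.sum_insert hi] using h1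
/-- one gradient query at a blurred location, then fresh noise -/
lemma Bl.query {u : Pot b → In → E (Fin b.d)} {y : Pot b → In → E (Fin b.d)} (h : Bl b u s η q)
    (hs : 0 ≤ s) {a c : ℝ} (ha : 0 ≤ a) {ε : ℝ}
    (hy : ∀ W w x, ‖y W w - c • gradient W.W (a • x)‖ ≤ |c| * a * ‖u W w - x‖ + ε) (s' : ℝ) :
    Bl b y s' (fun W w => |c| * a * (η W w + s * √(b.d : ℝ)) + ε) (q + 1) := by
  have h1 := Sim.map h (T := fun p : In × E (Fin b.d) => a • p.2) (by fun_prop) ha
    fun w x x' => by rw [← smul_sub, norm_smul, Real.norm_of_nonneg ha]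
  have h2 := Sim.map h1.query (T := fun p : In × E (Fin b.d) => c • p.2) (by fun_prop)
    (abs_nonneg c) fun w x x' => by rw [← smul_sub, norm_smul, Real.norm_eq_abs]
  have hm : ∀ W : Pot b, Measurable fun x : E (Fin b.d) => c • gradient W.W (a • x) := fun W =>
    (W.measurable_grad.comp (measurable_const_smul a)).const_smul c
  have h3 : Sim b (fun W w => (gs (u W w) s).map fun x => c • gradient W.W (a • x))
      (fun W w => |c| * (a * η W w)) (q + 1) := h2.congr fun W w => by
    rw [Measure.map_map W.measurable_grad (by fun_prop),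
      Measure.map_map (by fun_prop) (W.measurable_grad.comp (by fun_prop))]
    rfl
  have h4 : Bl b y 0 (fun W w => |c| * (a * η W w) + (|c| * a * (s * √(b.d : ℝ)) + ε)) (q + 1) := by
    refine h3.near fun W w => ?_
    have hd : gs (y W w) 0 = (gs (u W w) s).map fun _ => y W w := by
      rw [gs_zero_right, Measure.map_const, measure_univ, one_smul]
    have hi : Integrable (fun x => |c| * a * ‖x - u W w‖ + ε) (gs (u W w) s) :=
      (((L2le_gs_sub (u W w) hs).integrable.norm).const_mul _).add (integrable_const _)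
    have hb : ∀ x, ‖c • gradient W.W (a • x) - y W w‖ ≤ |c| * a * ‖x - u W w‖ + ε := fun x => by
      rw [norm_sub_rev, norm_sub_rev x]
      exact hy W w x
    have hi' : Integrable (fun x => c • gradient W.W (a • x) - y W w) (gs (u W w) s) :=
      hi.mono' ((hm W).sub_const _).aestronglyMeasurable (ae_of_all _ hb)
    rw [hd]
    refine Near.of_integral (hm W).aemeasurable aemeasurable_const hi' ?_
    refine (integral_mono hi'.norm hi hb).trans ?_
    rw [integral_add (((L2le_gs_sub (u W w) hs).integrable.norm).const_mul _) (integrable_const _),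
      integral_const_mul, integral_const, probReal_univ, one_smul]
    have := integral_norm_sub_gs_le (u W w) hs
    rw [Fintype.card_fin] at this
    gcongr
  have h5 : Bl b y |s'| _ (q + 1) := h4.scale le_rfl (abs_nonneg s')
  exact Sim.mono (Sim.congr h5 fun W w => gs_abs _ _) (fun W w => le_of_eq (by ring)) le_rfl


end Crest.Agent.R285
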