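import Crest.Agent.R285.TameOp

/-!
# Row 285 (S0430): TameR
Formulas for the derivative families and closure rules for `Tame`.
-/

set_option autoImplicit false

open MeasureTheory ProbabilityTheory Filter Topology
open scoped RealInnerProductSpace

noncomputable section

namespace Crest.Agent.R285

variable {P P' : Type} {b : P → Base} {ι κ κ' ζ α β α' β' I : P → Type} [∀ p, Fintype (ι p)]
  [∀ p, Fintype (κ p)] [∀ p, Fintype (κ' p)] [∀ p, Fintype (ζ p)] [∀ p, Fintype (α p)]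
  [∀ p, Fintype (β p)] [∀ p, Fintype (α' p)] [∀ p, Fintype (β' p)] [∀ p, Fintype (I p)]

lemma Tame.dimI {F : Fam b ι κ} (h : Tame b F) : Dim b ι := h.op.dimI
lemma Tame.dimO {F : Fam b ι κ} (h : Tame b F) : Dim b κ := h.op.dimB
lemma Tame.lip {F : Fam b ι κ} (h : Tame b F) :
    ∃ c : ℕ, ∀ᶠ p in ev b, ∀ W, Lip ((b p).δ * (b p).Λ ^ c) (F p W) := by
  obtain ⟨c, hc⟩ := h.op.norm_le
  refine ⟨c, ?_⟩
  filter_upwards [hc, h.tg] with p h1 h2 W
  exact Lip.of_fderiv (h2 W).differentiable (h1 W)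

lemma D_congr {F F' : Fam b ι κ} (he : ∀ᶠ p in ev b, ∀ W, F p W = F' p W) :
    ∀ᶠ p in ev b, ∀ W, Fam.D b F p W = Fam.D b F' p W := by
  filter_upwards [he] with p h W
  funext x
  simp only [Fam.D, h W]
lemma D_zero (p : P) (W : Pot (b p)) :
    Fam.D b (ι := ι) (κ := κ) (fun _ _ _ => 0) p W = fun _ => 0 := by
  funext x
  simp [Fam.D]
lemma D_lin {F : Fam b ι κ} (h : Tame b F) (B : ∀ p, E (κ p) →L[ℝ] E (κ' p)) :
    ∀ᶠ p in ev b, ∀ W, (fun x => (B p).comp (Fam.D b F p W x)) =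
      Fam.D b (κ := κ') (fun p W x => B p (F p W x)) p W := by
  filter_upwards [h.tg] with p h1 W
  funext x
  exact ((B p).hasFDerivAt.comp x ((h1 W).differentiable x).hasFDerivAt).fderiv.symm
lemma D_add {F F' : Fam b ι κ} (h : Tame b F) (h' : Tame b F') :
    ∀ᶠ p in ev b, ∀ W, (fun x => Fam.D b F p W x + Fam.D b F' p W x) =
      Fam.D b (fun p W x => F p W x + F' p W x) p W := by
  filter_upwards [h.tg, h'.tg] with p h1 h2 W
  funext x
  exact (fderiv_fun_add ((h1 W).differentiable x) ((h2 W).differentiable x)).symm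
lemma D_sum {F : Fam (fun p : Σ p, I p => b p.1) (fun p => ι p.1) (fun p => κ p.1)}
    (h : Tame (fun p : Σ p, I p => b p.1) F) :
    ∀ᶠ p in ev b, ∀ W, (fun x => ∑ i, Fam.D (fun p : Σ p, I p => b p.1) F ⟨p, i⟩ W x) =
      Fam.D b (ι := ι) (κ := κ) (fun p W x => ∑ i, F ⟨p, i⟩ W x) p W := by
  filter_upwards [ev_sigma.1 h.tg] with p h1 W
  funext x
  exact (fderiv_fun_sum fun i _ => (h1 i W).differentiable x).symm
lemma D_comp {F : Fam b ζ κ} {y : Fam b ι ζ} (B : ∀ p, E (ι p) →L[ℝ] E (ζ p)) (hy : Tame b y)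
    (h : Tame b F) :
    ∀ᶠ p in ev b, ∀ W, (fun x => (Fam.D b F p W (B p x + y p W x)).comp (B p) +
        (Fam.D b F p W (B p x + y p W x)).comp (Fam.D b y p W x)) =
      Fam.D b (ι := ι) (fun p W x => F p W (B p x + y p W x)) p W := by
  filter_upwards [hy.tg, h.tg] with p h1 h2 W
  funext x
  have h3 := (((h2 W).differentiable (B p x + y p W x)).hasFDerivAt.comp x
    ((B p).hasFDerivAt.add ((h1 W).differentiable x).hasFDerivAt)).fderiv
  rw [← ContinuousLinearMap.comp_add]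
  exact h3.symm
lemma D_exp {F : Fam b (fun p => ι p ⊕ ζ p) κ} (h : Tame b F) :
    ∀ᶠ p in ev b, ∀ W, (fun x => ∫ z, (Fam.D b F p W (pair x z)).comp inlL ∂γ (ζ p)) =
      Fam.D b (ι := ι) (fun p W x => ∫ z, F p W (pair x z) ∂γ (ζ p)) p W := by
  filter_upwards [h.tg] with p h1 W
  funext x
  exact ((h1 W).fderiv_integral x).symm

theorem closed_tame : Closed (@Tame) where
  tame h := h
  reindex r h := ⟨ev_reindex r h.tg, h.op.reindex r⟩
  congr he h := ⟨by filter_upwards [he, h.tg] with p h1 h2 W using h1 W ▸ h2 W,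
    h.op.congr (D_congr he)⟩
  zero h₁ h₂ := ⟨Eventually.of_forall fun _ _ => Function.HasTemperateGrowth.const _,
    (TameOp.zero h₁ h₁ h₂).congr (Eventually.of_forall fun p W => (D_zero p W).symm)⟩
  lin hB hd h := ⟨h.tg.mono fun _ h1 W => (h1 W).clm _, (h.op.left hB hd).congr (D_lin h _)⟩
  add h h' := ⟨by filter_upwards [h.tg, h'.tg] with p h1 h2 W using (h1 W).add' (h2 W),
    (h.op.add h'.op).congr (D_add h h')⟩
  sum hI h₁ h₂ h := ⟨(ev_sigma.1 h.tg).mono fun _ h1 W => TG.sum' _ fun i _ => h1 i W,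
    (h.op.sum hI h₁ h₁ h₂).congr (D_sum h)⟩
  comp hB hy h := ⟨by
      filter_upwards [hy.tg, h.tg] with p h1 h2 W
      exact (h2 W).comp' (TG.add' (ContinuousLinearMap.hasTemperateGrowth _) (h1 W)),
    (((h.op.subst hB hy).right hB hy.dimI).add ((h.op.subst hB hy).mul hy.op)).congr
      (D_comp _ hy h)⟩
theorem expClosed_tame : ExpClosed (@Tame) := fun h =>
  ⟨h.tg.mono fun _ h1 W => (h1 W).integral_right,
    (h.op.right Poly.norm_inlL h.dimI.left).exp.congr (D_exp h)⟩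


end Crest.Agent.R285
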