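import Crest.Agent.R285.Bl
import Crest.Agent.R285.TameR

/-!
# Row 285 (S0430): BlurR
Closure rules for `Blur k`.  `comp`: blur `B x` and `y x` at scale `θ^(c_F+1)` (`Bl.lin`, hypothesis on
`y`), add (`Bl.add`, `√2 θ ≤ 1`), `Bl.scale`, then use the hypothesis on `F`.  `sum`: each term at the
scale `θ^(c₁+c)` with `√card ≤ Λ^c`.  `exp_one`: `Sim.mix` with seed `z`, blur `F (pair y z)`
(`Bl.pair_known`, `Bl.comap`), compare with the mean by `Lip.L2le_sub_integral`.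
-/

set_option autoImplicit false

open MeasureTheory ProbabilityTheory Filter Topology
open scoped RealInnerProductSpace

noncomputable section

namespace Crest.Agent.R285

variable {P P' : Type} {b : P → Base} {ι κ κ' ζ α β α' β' I : P → Type} [∀ p, Fintype (ι p)]
  [∀ p, Fintype (κ p)] [∀ p, Fintype (κ' p)] [∀ p, Fintype (ζ p)] [∀ p, Fintype (α p)]
  [∀ p, Fintype (β p)] [∀ p, Fintype (α' p)] [∀ p, Fintype (β' p)] [∀ p, Fintype (I p)]

variable {k : ℕ}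

/-- the blurring statement for one map, with input scale `θ^c`, loss `x`, output scale `θ^c₁` -/
def BA (b : Base) (k c : ℕ) (x : ℝ) (c₁ : ℕ) {ι κ : Type} [Fintype ι] [Fintype κ]
    (F : Pot b → E ι → E κ) : Prop :=
  ∀ (In : Type) [MeasurableSpace In] (y : Pot b → In → E ι) (η : Pot b → In → ℝ) (q : ℝ),
    Bl b y (b.θ ^ c) η q →
      Bl b (fun W w => F W (y W w)) (b.θ ^ c₁) (fun W w => x * (b.e k + b.δ * η W w)) (x * (1 + q))

lemma Bl.err_pos {b : Base} {In κ : Type} [MeasurableSpace In] [Fintype κ] {y : Pot b → In → E κ}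
    {η : Pot b → In → ℝ} {s q : ℝ} (h : Bl b y s η q) (k : ℕ) (W : Pot b) (w : In) :
    0 ≤ b.e k + b.δ * η W w :=
  add_nonneg (b.e_pos k).le (mul_nonneg b.δ_pos.le (h.err_nonneg W w))

lemma BA.mono {b : Base} {k c c' c₁ : ℕ} {x x' : ℝ} {ι κ : Type} [Fintype ι] [Fintype κ]
    {F : Pot b → E ι → E κ} (h : BA b k c x c₁ F) (hc : c ≤ c') (hx : x ≤ x') :
    BA b k c' x' c₁ F := by
  intro In _ y η q hy
  refine (h In y η q (hy.scale (pow_pos b.hθ _).le (b.θ_pow_anti hc))).mono (fun W w => ?_) ?_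
  · exact mul_le_mul_of_nonneg_right hx (hy.err_pos k W w)
  · exact mul_le_mul_of_nonneg_right hx (by linarith [hy.cost_nonneg])

lemma Blur.ba {F : Fam b ι κ} (h : Blur b k F) (c₁ : ℕ) :
    ∃ c : ℕ, ∀ᶠ p in ev b, BA (b p) k c ((b p).Λ ^ c) c₁ (F p) := h c₁

lemma Blur.of_ba {F : Fam b ι κ} (h : ∀ c₁ : ℕ, ∃ (c : ℕ) (x : P → ℝ), Poly b x ∧
    ∀ᶠ p in ev b, BA (b p) k c (x p) c₁ (F p)) : Blur b k F := by
  intro c₁
  obtain ⟨c, x, hx, h⟩ := h c₁
  obtain ⟨c', hc'⟩ := hx.exists_le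
  refine ⟨c + c', ?_⟩
  filter_upwards [h, hc'] with p h1 h2
  exact h1.mono (Nat.le_add_right _ _) (h2.trans ((b p).Λ_pow_mono (Nat.le_add_left _ _)))

lemma Base.mul_θ_pow_le (b : Base) {x : ℝ} {c : ℕ} (h : x ≤ b.Λ ^ c) (c₁ : ℕ) :
    x * b.θ ^ (c₁ + c) ≤ b.θ ^ c₁ := by
  calc x * b.θ ^ (c₁ + c) ≤ b.Λ ^ c * b.θ ^ (c₁ + c) :=
        mul_le_mul_of_nonneg_right h (pow_pos b.hθ _).le
    _ = b.θ ^ c₁ * (b.θ ^ c * b.Λ ^ c) := by ring
    _ = _ := by rw [b.θ_pow_mul_Λ_pow, mul_one]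

lemma Base.sqrt_two_le (b : Base) (h : b.θ ≤ 1 / 2) (c : ℕ) :
    √((b.θ ^ (c + 1)) ^ 2 + (b.θ ^ (c + 1)) ^ 2) ≤ b.θ ^ c := by
  have h0 := pow_pos b.hθ c
  have h1 := b.hθ
  refine Real.sqrt_le_iff.2 ⟨h0.le, ?_⟩
  rw [pow_succ b.θ c, mul_pow]
  have : b.θ ^ 2 ≤ 1 / 2 := by nlinarith
  nlinarith [sq_nonneg (b.θ ^ c)]

lemma Blur.mono {F : Fam b ι κ} {k' : ℕ} (h : Blur b k F) (hk : k' ≤ k) : Blur b k' F := by
  intro c₁
  obtain ⟨c, hc⟩ := h c₁
  refine ⟨c, ?_⟩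
  filter_upwards [hc, ev_δ_le b one_pos] with p h1 h2 In _ y η q hy
  refine (h1 In y η q hy).mono (fun W w => ?_) le_rfl
  have := (b p).e_anti h2 hk
  exact mul_le_mul_of_nonneg_left (by linarith) (pow_pos (b p).Λ_pos _).le
lemma Blur.reindex {F : Fam b ι κ} (r : P' → P) (h : Blur b k F) :
    Blur (fun p => b (r p)) k (ι := fun p => ι (r p)) (κ := fun p => κ (r p)) fun p => F (r p) := by
  intro c₁
  obtain ⟨c, hc⟩ := h.ba c₁
  exact ⟨c, ev_reindex r hc⟩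
lemma Blur.congr {F F' : Fam b ι κ} (he : ∀ᶠ p in ev b, ∀ W, F p W = F' p W) (h : Blur b k F) :
    Blur b k F' := by
  intro c₁
  obtain ⟨c, hc⟩ := h c₁
  refine ⟨c, ?_⟩
  filter_upwards [hc, he] with p h1 h2 In _ y η q hy
  exact (h1 In y η q hy).congr fun W w => by rw [h2]
lemma Blur.zero : Blur b k (ι := ι) (κ := κ) fun _ _ _ => 0 := by
  intro c₁
  refine ⟨0, Eventually.of_forall fun p In _ y η q hy => ?_⟩
  refine (Bl.known (g := fun _ => 0) measurable_const _).mono (fun W w => ?_) ?_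
  · rw [pow_zero, one_mul]; exact hy.err_pos k W w
  · rw [pow_zero, one_mul]; linarith [hy.cost_nonneg]
lemma Blur.lin {F : Fam b ι κ} {B : ∀ p, E (κ p) →L[ℝ] E (κ' p)} (hB : Poly b fun p => ‖B p‖)
    (h : Blur b k F) : Blur b k (κ := κ') fun p W x => B p (F p W x) := by
  obtain ⟨cB, hB⟩ := hB.exists_le
  refine Blur.of_ba fun c₁ => ?_
  obtain ⟨c, hc⟩ := h.ba (c₁ + cB)
  refine ⟨c, _, (Poly.Λ_pow cB).mul (Poly.Λ_pow c), ?_⟩
  filter_upwards [hc, hB] with p h1 h2 In _ y η q hy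
  have h3 := (b p).one_le_Λ_pow cB
  have h4 := (b p).one_le_Λ_pow c
  refine ((h1 In y η q hy).lin (B p) (pow_pos (b p).hθ _).le ((b p).mul_θ_pow_le h2 c₁)).mono
    (fun W w => ?_) ?_
  · rw [mul_assoc]
    exact mul_le_mul_of_nonneg_right h2 (mul_nonneg (by linarith) (hy.err_pos k W w))
  · rw [mul_assoc]
    exact le_mul_of_one_le_left (mul_nonneg (by linarith) (by linarith [hy.cost_nonneg])) h3
lemma Blur.add {F F' : Fam b ι κ} (h : Blur b k F) (h' : Blur b k F') :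
    Blur b k fun p W x => F p W x + F' p W x := by
  refine Blur.of_ba fun c₁ => ?_
  obtain ⟨c, hc⟩ := h.ba (c₁ + 1)
  obtain ⟨c', hc'⟩ := h'.ba (c₁ + 1)
  refine ⟨c + c', _, (Poly.Λ_pow c).add (Poly.Λ_pow c'), ?_⟩
  filter_upwards [hc, hc', ev_θ_le b (ε := 1 / 2) (by norm_num)] with p h1 h2 h3 In _ y η q hy
  exact (((h1.mono (Nat.le_add_right c c') le_rfl In y η q hy).add
    (h2.mono (Nat.le_add_left c' c) le_rfl In y η q hy)).scale (Real.sqrt_nonneg _)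
    ((b p).sqrt_two_le h3 c₁)).mono (fun W w => le_of_eq (by ring)) (le_of_eq (by ring))
lemma Blur.sum {F : Fam (fun p : Σ p, I p => b p.1) (fun p => ι p.1) (fun p => κ p.1)}
    (hI : Poly b fun p => (Fintype.card (I p) : ℝ)) (h : Blur (fun p : Σ p, I p => b p.1) k F) :
    Blur b k (ι := ι) (κ := κ) fun p W x => ∑ i, F ⟨p, i⟩ W x := by
  obtain ⟨cI, hcI⟩ := hI.exists_le
  refine Blur.of_ba fun c₁ => ?_
  obtain ⟨c, hc⟩ := h.ba (c₁ + cI)
  refine ⟨c, _, hI.mul (Poly.Λ_pow c), ?_⟩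
  filter_upwards [ev_sigma.1 hc, hcI] with p h1 h2 In _ y η q hy
  have h3 := (b p).one_le_Λ_pow cI
  have h4 : √((Finset.univ : Finset (I p)).card : ℝ) ≤ (b p).Λ ^ cI :=
    Real.sqrt_le_iff.2 ⟨by linarith, by rw [Finset.card_univ]; nlinarith⟩
  refine ((Bl.sum Finset.univ (pow_pos (b p).hθ _).le fun i _ => h1 i In y η q hy).scale
    (mul_nonneg (Real.sqrt_nonneg _) (pow_pos (b p).hθ _).le) ((b p).mul_θ_pow_le h4 c₁)).mono
    (fun W w => le_of_eq ?_) (le_of_eq ?_)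
  · rw [Finset.sum_const, Finset.card_univ, nsmul_eq_mul, mul_assoc]
  · rw [Finset.sum_const, Finset.card_univ, nsmul_eq_mul, mul_assoc]
lemma Blur.comp_aux {F : Fam b ζ κ} {y : Fam b ι ζ} {B : ∀ p, E (ι p) →L[ℝ] E (ζ p)} {k' : ℕ}
    (hB : Poly b fun p => ‖B p‖) (hy : Blur b k' y) (h : Blur b k F) (hk : k ≤ k' + 1) :
    Blur b k (ι := ι) fun p W x => F p W (B p x + y p W x) := by
  obtain ⟨cB, hcB⟩ := hB.exists_le
  refine Blur.of_ba fun c₁ => ?_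
  obtain ⟨c, hc⟩ := h.ba c₁
  obtain ⟨cy, hcy⟩ := hy.ba (c + 1)
  refine ⟨c + 1 + cB + cy, _, (Poly.Λ_pow c).mul (((Poly.const 1).add hB).add (Poly.Λ_pow cy)), ?_⟩
  filter_upwards [hc, hcy, hcB, ev_θ_le b (ε := 1 / 2) (by norm_num), ev_δ_le b one_pos]
    with p h1 h2 h3 h4 h5 In _ u η q hu
  have a1 := (hu.scale (pow_pos (b p).hθ _).le ((b p).θ_pow_anti (Nat.le_add_right _ cy))).lin
    (B p) (pow_pos (b p).hθ _).le ((b p).mul_θ_pow_le h3 (c + 1))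
  have a2 := h2.mono (Nat.le_add_left cy (c + 1 + cB)) le_rfl In u η q hu
  have a3 := (a1.add a2).scale (Real.sqrt_nonneg _) ((b p).sqrt_two_le h4 c)
  have b1 := (b p).one_le_Λ_pow c
  have b2 := (b p).one_le_Λ_pow cy
  have b3 := norm_nonneg (B p)
  have b4 := hu.cost_nonneg
  refine (h1 In _ _ _ a3).mono (fun W w => ?_) ?_
  · rw [mul_assoc]
    refine mul_le_mul_of_nonneg_left ?_ (by linarith)
    have e1 : (b p).δ * (b p).e k' ≤ (b p).e k := by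
      rw [← Base.e_succ]; exact (b p).e_anti h5 hk
    have e2 := mul_nonneg (b p).δ_pos.le (hu.err_nonneg W w)
    have e3 := ((b p).e_pos k).le
    have e4 : (b p).δ * ((b p).δ * η W w) ≤ (b p).δ * η W w := mul_le_of_le_one_left e2 h5
    have e5 : (b p).Λ ^ cy * ((b p).δ * (b p).e k' + (b p).δ * ((b p).δ * η W w)) ≤
        (b p).Λ ^ cy * ((b p).e k + (b p).δ * η W w) :=
      mul_le_mul_of_nonneg_left (by linarith) (by linarith)
    nlinarith [mul_nonneg b3 e3]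
  · rw [mul_assoc]
    refine mul_le_mul_of_nonneg_left ?_ (by linarith)
    nlinarith [mul_nonneg b3 b4]
lemma Blur.comp {F : Fam b ζ κ} {y : Fam b ι ζ} {B : ∀ p, E (ι p) →L[ℝ] E (ζ p)}
    (hB : Poly b fun p => ‖B p‖) (hy : Blur b k y) (h : Blur b k F) :
    Blur b k (ι := ι) fun p W x => F p W (B p x + y p W x) :=
  Blur.comp_aux hB hy h (Nat.le_succ k)
/-- the inner function is needed to one order less -/
lemma Blur.comp' {F : Fam b ζ κ} {y : Fam b ι ζ} {B : ∀ p, E (ι p) →L[ℝ] E (ζ p)}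
    (hB : Poly b fun p => ‖B p‖) (hy : Blur b k y) (h : Blur b (k + 1) F) :
    Blur b (k + 1) (ι := ι) fun p W x => F p W (B p x + y p W x) :=
  Blur.comp_aux hB hy h le_rfl
lemma Blur.exp_one {F : Fam b (fun p => ι p ⊕ ζ p) κ} (hF : Tame b F) (h : Blur b 1 F) :
    Blur b 1 (ι := ι) fun p W x => ∫ z, F p W (pair x z) ∂γ (ζ p) := by
  obtain ⟨cL, hL⟩ := hF.lip
  obtain ⟨cD, hD⟩ := (Dim.right hF.dimI).sqrt_le
  refine Blur.of_ba fun c₁ => ?_
  obtain ⟨c, hc⟩ := h.ba c₁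
  refine ⟨c, _, (((Poly.const 2).mul (Poly.Λ_pow cL)).mul (Poly.Λ_pow cD)).add (Poly.Λ_pow c), ?_⟩
  filter_upwards [hc, hL, hD] with p h1 h2 h3 In _ y η q hy
  have a1 := h1 (In × E (ζ p)) _ _ _ ((hy.comap (measurable_fst (β := E (ζ p)))).pair_known
    measurable_snd)
  have b0 : 0 ≤ (b p).δ * (b p).Λ ^ cL := mul_nonneg (b p).δ_pos.le (pow_pos (b p).Λ_pos _).le
  have b1 := (b p).one_le_Λ_pow cL
  have b2 := (b p).one_le_Λ_pow cD
  have b3 : 0 ≤ 2 * (b p).Λ ^ cL * (b p).Λ ^ cD := by positivity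
  have hl : ∀ W x, Lip ((b p).δ * (b p).Λ ^ cL) fun z : E (ζ p) => F p W (pair x z) := fun W x => by
    simpa only [mul_one] using (h2 W).comp b0 (Lip.pair_right x)
  refine Sim.mono (Sim.mix (η₃ := fun _ _ => 2 * (b p).Λ ^ cL * (b p).Λ ^ cD * (b p).e 1)
    (η₂ := fun W w => (b p).Λ ^ c * ((b p).e 1 + (b p).δ * η W w)) a1
    (fun _ _ => inferInstance) (fun W w f hf _ => ?_) fun W w f hf hb => ?_) (fun W w => ?_) ?_
  · exact (hf.integral_gs _).continuous.comp (hl W (y W w)).continuous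
  · have g1 := hf.integral_gs ((b p).θ ^ c₁)
    have g2 := (hl W (y W w)).L2le_sub_integral b0
    have g3 := (g1.comp zero_le_one (hl W (y W w))).integrable_γ
    have g4 : ∫ x, ∫ u, f u ∂gs (F p W (pair (y W w) x)) ((b p).θ ^ c₁) ∂γ (ζ p) -
        ∫ u, f u ∂gs (∫ z, F p W (pair (y W w) z) ∂γ (ζ p)) ((b p).θ ^ c₁) =
        ∫ x, (∫ u, f u ∂gs (F p W (pair (y W w) x)) ((b p).θ ^ c₁) -
          ∫ u, f u ∂gs (∫ z, F p W (pair (y W w) z) ∂γ (ζ p)) ((b p).θ ^ c₁)) ∂γ (ζ p) := by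
      rw [integral_sub g3 (integrable_const _), integral_const]
      simp
    show |∫ x, ∫ u, f u ∂gs (F p W (pair (y W w) x)) ((b p).θ ^ c₁) ∂γ (ζ p) -
        ∫ u, f u ∂gs (∫ z, F p W (pair (y W w) z) ∂γ (ζ p)) ((b p).θ ^ c₁)| ≤ _
    rw [g4, ← Real.norm_eq_abs]
    refine (norm_integral_le_of_norm_le g2.integrable.norm
      (Eventually.of_forall fun x => by simpa only [one_mul] using g1 _ _)).trans ?_
    refine (g2.integral_norm_le (by positivity)).trans ?_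
    calc 2 * ((b p).δ * (b p).Λ ^ cL) * √(Fintype.card (ζ p) : ℝ)
        ≤ 2 * ((b p).δ * (b p).Λ ^ cL) * ((b p).Λ ^ cD * √((b p).d : ℝ)) := by gcongr
      _ = _ := by simp only [Base.e]; ring
  · have e2 := mul_nonneg (b p).δ_pos.le (hy.err_nonneg W w)
    nlinarith [mul_nonneg b3 e2]
  · have := hy.cost_nonneg
    nlinarith [mul_nonneg b3 this]

end Crest.Agent.R285
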