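import Crest.Agent.R285.Near
import Crest.Agent.R285.Arc1

/-!
# Row 285 (S0430): Chain1
Chains of arcs: the law.
Write `τ~ X = fstL (sndL X) + τs X`, so `chT τs (n+1) X = τ~ (pair (chT τs n (fstL X)) (sndL X))`.
`measurePreserving_chain_succ` splits the Gaussian seed (`measurePreserving_unpair`, `measurePreserving_gs`).
`chain_near`: induction on `n`.  For a bounded `1`-Lipschitz `f` the function
`f₁ x = ∫ y, f (τ~ (pair x y)) ∂gs (pair u 0) σ` is bounded and `L`-Lipschitz, and
`|∫ f₁ ∂ν - ∫ f ∂ν| = |∫ f ∘ τ~ - f ∘ τ ∂arcM| ≤ η` by the first marginal of `ArcLaw`.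
-/

set_option autoImplicit false

open MeasureTheory ProbabilityTheory Filter Topology
open scoped RealInnerProductSpace

noncomputable section

namespace Crest.Agent.R285

variable {ι κ : Type} [Fintype ι] [Fintype κ] {ν : Measure (E ι)} [IsProbabilityMeasure ν] {u : E ι}
  {σ L η R : ℝ} {τ τs : E (ι ⊕ (ι ⊕ ι)) → E ι}

lemma continuous_chT (hτs : Continuous τs) (n : ℕ) : Continuous (chT τs n) := by
  induction n with
  | zero => exact continuous_id
  | succ n ih =>
    change Continuous fun X : E (chI ι n ⊕ (ι ⊕ ι)) =>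
      fstL (sndL X) + τs (pair (chT τs n (fstL X)) (sndL X))
    exact (fstL.continuous.comp sndL.continuous).add
      (hτs.comp (Continuous.pair' (ih.comp fstL.continuous) sndL.continuous))

lemma lip_chT (hL : 0 ≤ L) (hL1 : L ≤ 1 / 2) (hτs : Lip L τs) (n : ℕ) : Lip 3 (chT τs n) := by
  induction n with
  | zero => exact (Lip.id' (X := E ι)).mono (by norm_num)
  | succ n ih =>
    change Lip 3 fun X : E (chI ι n ⊕ (ι ⊕ ι)) =>
      fstL (sndL X) + τs (pair (chT τs n (fstL X)) (sndL X))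
    have h1 : Lip 1 fun X : E (chI ι n ⊕ (ι ⊕ ι)) => fstL X := (Lip.clm _).mono norm_fstL_le
    have h2 : Lip 1 fun X : E (chI ι n ⊕ (ι ⊕ ι)) => sndL X := (Lip.clm _).mono norm_sndL_le
    have h3 : Lip 1 fun X : E (ι ⊕ ι) => fstL X := (Lip.clm _).mono norm_fstL_le
    exact ((h3.comp zero_le_one h2).add
      (hτs.comp hL ((ih.comp (by norm_num) h1).pair' h2))).mono (by linarith)

lemma measurePreserving_chL (n : ℕ) :
    MeasurePreserving (chL n : E (chI ι n) →L[ℝ] E ι) (γ (chI ι n)) (γ ι) := by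
  cases n with
  | zero => exact MeasurePreserving.id (γ ι)
  | succ n =>
    exact (measurePreserving_fstL (ι := ι) (κ := ι)).comp
      (measurePreserving_sndL (ι := chI ι n) (κ := ι ⊕ ι))

lemma arcM_eq (ν : Measure (E ι)) [SFinite ν] (u : E ι) (σ : ℝ) :
    arcM ν u σ = (ν.prod (gs (pair u (0 : E ι)) σ)).map fun p => pair p.1 p.2 := by
  have m1 : Measurable fun p : E ι × E ι => pair p.1 p.2 :=
    Measurable.pair' measurable_fst measurable_snd
  have m2 : Measurable fun p : E ι × E (ι ⊕ ι) => pair p.1 p.2 :=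
    Measurable.pair' measurable_fst measurable_snd
  rw [← gs_pair]
  conv_rhs => rw [← Measure.map_id (μ := ν)]
  rw [Measure.map_prod_map _ _ measurable_id m1, Measure.map_map m2 (measurable_id.prodMap m1)]
  rfl

lemma ArcLaw.map_eq (hτ : Continuous τ) (h : ArcLaw ν u σ τ) : (arcM ν u σ).map τ = ν := by
  have h1 := congrArg (Measure.map Prod.fst) h
  rw [Measure.map_map measurable_fst (by fun_prop),
    Measure.map_map measurable_fst (by fun_prop)] at h1
  refine h1.trans ?_
  change Measure.map Prod.fst _ = _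
  simp

/-- seed of the first `n` arcs -/
def chF (n : ℕ) : E (chI ι (n + 1)) →L[ℝ] E (chI ι n) :=
  (fstL : E (chI ι n ⊕ (ι ⊕ ι)) →L[ℝ] E (chI ι n))

/-- seed of the last arc -/
def chS (n : ℕ) : E (chI ι (n + 1)) →L[ℝ] E (ι ⊕ ι) :=
  (sndL : E (chI ι n ⊕ (ι ⊕ ι)) →L[ℝ] E (ι ⊕ ι))

/-- the seed of `n+1` arcs is the seed of `n` arcs and a fresh pair -/
lemma measurePreserving_chain_succ (n : ℕ) (u : E ι) (σ : ℝ) :
    MeasurePreserving (fun z : E (chI ι (n + 1)) => (chF n z, pair u (0 : E ι) + σ • chS n z))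
      (γ (chI ι (n + 1))) ((γ (chI ι n)).prod (gs (pair u (0 : E ι)) σ)) :=
  ((MeasurePreserving.id (γ (chI ι n))).prod (measurePreserving_gs (pair u (0 : E ι)) σ)).comp
    (measurePreserving_unpair (ι := chI ι n) (κ := ι ⊕ ι))

lemma chT_succ_seed (n : ℕ) (u : E ι) (σ : ℝ) (z : E (chI ι (n + 1))) :
    chT τs (n + 1) (chB (n + 1) u + σ • z) =
      fstL (pair u (0 : E ι) + σ • chS n z) +
        τs (pair (chT τs n (chB n u + σ • chF n z)) (pair u (0 : E ι) + σ • chS n z)) := by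
  have e : ∀ z : E (chI ι n ⊕ (ι ⊕ ι)),
      (inlL.comp (chB n) + inrL.comp inlL : E ι →L[ℝ] E (chI ι n ⊕ (ι ⊕ ι))) u + σ • z =
        pair (chB n u + σ • fstL z) (pair u (0 : E ι) + σ • sndL z) := by
    intro z
    have e1 : (inlL.comp (chB n) + inrL.comp inlL : E ι →L[ℝ] E (chI ι n ⊕ (ι ⊕ ι))) u =
        pair (chB n u) (pair u 0) := by simp
    rw [e1, ← pair_add, ← pair_smul, pair_fst_snd]
  have e2 : ∀ X : E (chI ι n ⊕ (ι ⊕ ι)), chT τs (n + 1) X =
      fstL (sndL X) + τs (pair (chT τs n (fstL X)) (sndL X)) := fun _ => rfl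
  refine (congrArg (chT τs (n + 1)) (e z)).trans ((e2 _).trans ?_)
  rw [fstL_pair, sndL_pair]
  rfl

lemma inner_chB'_succ (n : ℕ) (g : E ι) (z : E (chI ι (n + 1))) :
    ⟪chB' (n + 1) g, z⟫ = ⟪chB' n g, chF n z⟫ + ⟪g, fstL (chS n z)⟫ := by
  have e : ∀ z : E (chI ι n ⊕ (ι ⊕ ι)),
      ⟪(inlL.comp (chB' n) + inrL.comp inlL : E ι →L[ℝ] E (chI ι n ⊕ (ι ⊕ ι))) g, z⟫ =
        ⟪chB' n g, fstL z⟫ + ⟪g, fstL (sndL z)⟫ := by
    intro z
    have e1 : (inlL.comp (chB' n) + inrL.comp inlL : E ι →L[ℝ] E (chI ι n ⊕ (ι ⊕ ι))) g =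
        pair (chB' n g) (pair g 0) := by simp
    rw [e1]
    conv_lhs => rw [← pair_fst_snd z, ← pair_fst_snd (sndL z), inner_pair, inner_pair]
    simp
  exact e z

/-- one approximate arc -/
def tt (τs : E (ι ⊕ (ι ⊕ ι)) → E ι) (X : E (ι ⊕ (ι ⊕ ι))) : E ι := fstL (sndL X) + τs X

lemma lip_tt (hτs : Lip L τs) : Lip (1 + L) (tt τs) := by
  have h2 : Lip 1 fun X : E (ι ⊕ (ι ⊕ ι)) => sndL X := (Lip.clm _).mono norm_sndL_le
  have h3 : Lip 1 fun X : E (ι ⊕ ι) => fstL X := (Lip.clm _).mono norm_fstL_le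
  exact ((h3.comp zero_le_one h2).add hτs).mono (by linarith)

lemma norm_tt_sub_le (hτs : Lip L τs) (x x' : E ι) (y : E (ι ⊕ ι)) :
    ‖tt τs (pair x y) - tt τs (pair x' y)‖ ≤ L * ‖x - x'‖ := by
  have := hτs (pair x y) (pair x' y)
  rw [pair_sub, sub_self, norm_pair_zero_right] at this
  simpa [tt] using this

lemma lip_integral_param {X Y Ω : Type} [NormedAddCommGroup X] [NormedAddCommGroup Y]
    [NormedSpace ℝ Y] [MeasurableSpace Ω] {μ : Measure Ω} [IsProbabilityMeasure μ]
    {F : X → Ω → Y} {K : ℝ} (hi : ∀ x, Integrable (F x) μ)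
    (h : ∀ x x' y, ‖F x y - F x' y‖ ≤ K * ‖x - x'‖) : Lip K fun x => ∫ y, F x y ∂μ := by
  intro x x'
  rw [← integral_sub (hi x) (hi x')]
  simpa using norm_integral_le_of_norm_le_const (μ := μ) (Eventually.of_forall (h x x'))

lemma mp_integral {Ω Ω' Y : Type} [MeasurableSpace Ω] [MeasurableSpace Ω'] [NormedAddCommGroup Y]
    [NormedSpace ℝ Y] {μ : Measure Ω} {μ' : Measure Ω'} {T : Ω → Ω'}
    (h : MeasurePreserving T μ μ') {f : Ω' → Y} (hf : AEStronglyMeasurable f μ') :
    ∫ x, f (T x) ∂μ = ∫ y, f y ∂μ' := by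
  rw [← h.map_eq] at hf ⊢
  exact (integral_map h.measurable.aemeasurable hf).symm

/-- the law of the chain -/
def chLaw (τs : E (ι ⊕ (ι ⊕ ι)) → E ι) (u : E ι) (σ : ℝ) (n : ℕ) : Measure (E ι) :=
  (γ (chI ι n)).map fun z => chT τs n (chB n u + σ • z)

lemma continuous_chSeed (hτs : Continuous τs) (u : E ι) (σ : ℝ) (n : ℕ) :
    Continuous fun z : E (chI ι n) => chT τs n (chB n u + σ • z) :=
  (continuous_chT hτs n).comp (by fun_prop)

lemma mp_chLaw (hτs : Continuous τs) (u : E ι) (σ : ℝ) (n : ℕ) :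
    MeasurePreserving (fun z : E (chI ι n) => chT τs n (chB n u + σ • z)) (γ (chI ι n))
      (chLaw τs u σ n) := ⟨(continuous_chSeed hτs u σ n).measurable, rfl⟩

lemma prob_chLaw (hτs : Continuous τs) (u : E ι) (σ : ℝ) (n : ℕ) :
    IsProbabilityMeasure (chLaw τs u σ n) :=
  Measure.isProbabilityMeasure_map (continuous_chSeed hτs u σ n).measurable.aemeasurable

lemma chLaw_succ (hτs : Continuous τs) (u : E ι) (σ : ℝ) (n : ℕ) :
    chLaw τs u σ (n + 1) = (arcM (chLaw τs u σ n) u σ).map (tt τs) := by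
  have := prob_chLaw hτs u σ n
  have ct : Continuous (tt τs) := (fstL.continuous.comp sndL.continuous).add hτs
  have m2 : Measurable fun p : E ι × E (ι ⊕ ι) => pair p.1 p.2 :=
    Measurable.pair' measurable_fst measurable_snd
  have h := ((mp_chLaw hτs u σ n).prod (MeasurePreserving.id (gs (pair u (0 : E ι)) σ))).comp
    (measurePreserving_chain_succ n u σ)
  rw [arcM_eq, ← h.map_eq, Measure.map_map m2 h.measurable,
    Measure.map_map ct.measurable (m2.comp h.measurable), chLaw]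
  congr 1
  funext z
  rw [chT_succ_seed]
  simp [tt]

lemma near_arc_step {m m' : Measure (E ι)} [IsProbabilityMeasure m] [IsProbabilityMeasure m']
    (hL : 0 ≤ L) (hτs : Lip L τs) (h : Near m m' η) :
    Near ((arcM m u σ).map (tt τs)) ((arcM m' u σ).map (tt τs)) (L * η) := by
  intro f hf ⟨C, hC⟩
  have ct := (lip_tt hτs).continuous
  have cp : Continuous fun p : E ι × E (ι ⊕ ι) => pair p.1 p.2 :=
    Continuous.pair' continuous_fst continuous_snd
  have cf := hf.continuous
  have key : ∀ (m : Measure (E ι)) [IsProbabilityMeasure m],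
      ∫ x, f x ∂(arcM m u σ).map (tt τs) =
        ∫ x, ∫ y, f (tt τs (pair x y)) ∂gs (pair u (0 : E ι)) σ ∂m := by
    intro m _
    rw [arcM_eq, Measure.map_map ct.measurable cp.measurable,
      integral_map (ct.comp cp).measurable.aemeasurable cf.aestronglyMeasurable]
    exact integral_prod _ (Integrable.of_bound (cf.comp (ct.comp cp)).aestronglyMeasurable C
      (Eventually.of_forall fun p => hC _))
  rw [key, key]
  refine h.lip hL (lip_integral_param (fun x => Integrable.of_bound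
    (cf.comp (ct.comp (Continuous.pair' continuous_const continuous_id))).aestronglyMeasurable C
      (Eventually.of_forall fun p => hC _)) fun x x' y => ?_) ⟨C, fun x => ?_⟩
  · exact (hf _ _).trans (by rw [one_mul]; exact norm_tt_sub_le hτs x x' y)
  · simpa using norm_integral_le_of_norm_le_const (μ := gs (pair u (0 : E ι)) σ)
      (f := fun y => f (tt τs (pair x y))) (Eventually.of_forall fun y => hC _)

theorem chain_near (hσ : 0 ≤ σ) (hσ1 : σ ≤ 1) (hL : 0 ≤ L) (hL1 : L ≤ 1 / 2) (hη : 0 ≤ η)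
    (hR : 0 ≤ R) (hτ : Continuous τ) (hτs : Lip L τs) (hlaw : ArcLaw ν u σ τ)
    (happ : L2le (arcM ν u σ) (fun X => τ X - fstL (sndL X) - τs X) η)
    (hν : L2le ν (fun x => x - u) R) (n : ℕ) :
    Near ((γ (chI ι n)).map fun z => chT τs n (chB n u + σ • z)) ν
      (2 * η + L ^ n * (R + √(Fintype.card ι))) := by
  change Near (chLaw τs u σ n) ν _
  induction n with
  | zero =>
    have e : chLaw τs u σ 0 = gs u σ := rfl
    rw [e]
    refine (near_gs_of_L2le u hσ hR hν).mono ?_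
    have := mul_le_mul_of_nonneg_right hσ1 (Real.sqrt_nonneg (Fintype.card ι : ℝ))
    linarith
  | succ n ih =>
    have := prob_chLaw hτs.continuous u σ n
    rw [chLaw_succ hτs.continuous]
    have h1 := near_arc_step (u := u) (σ := σ) hL hτs ih
    have h2 : Near ((arcM ν u σ).map τ) ((arcM ν u σ).map (tt τs)) η :=
      Near.of_L2le hτ.measurable.aemeasurable (lip_tt hτs).continuous.measurable.aemeasurable hη
        (happ.congr' fun X => by simp only [tt]; abel)
    rw [hlaw.map_eq hτ] at h2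
    refine (h1.trans h2.symm).mono ?_
    have := mul_le_mul_of_nonneg_right hL1 hη
    rw [pow_succ]
    nlinarith


end Crest.Agent.R285
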