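import Crest.Agent.R285.Chain1

/-!
# Row 285 (S0430): Chain2
Chains of arcs: the covariance.  Let `m = ∫ y ∂ν`, `Cov φ g = ∫ ⟪g, x - m⟫ • φ x ∂ν`,
`A n φ g = σ • ∫ ⟪chB' n g, z⟫ • φ (chT τs n (chB n u + σ • z))`.
Induction on `n` for all `φ, M` with the bound `M * (8 η + (n+2) L^n S)`, `S = R + √card`.
`n = 0`: `A = 0`, `Cov φ g = ∫ ⟪g, x - m⟫ • (φ x - φ u)`, `L2le_cov`.
Step: `ArcLaw` gives `Cov φ g = ∫ ⟪g, x₁ - m⟫ • φ (τ X) + ∫ ⟪g, x₂ - u⟫ • φ (τ X)` over `arcM` (add the vanishing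
term `∫ ⟪g, p.2 - u⟫ • φ p.1 ∂ν.prod (gs u σ)`).  Replace `τ` by `τ~` (errors `2 M η` and `M η`, `L2le_cov`).
The first term becomes `Cov φ₁ g` with `φ₁ x = ∫ y, φ (τ~ (pair x y)) ∂gs (pair u 0) σ`, which is
`M L`-Lipschitz, and `A (n+1) φ g = A n φ₁ g + ∫ H x g ∂m_n`, where `m_n` is the law of the chain and
`H x g = ∫ y, ⟪g, fstL y - u⟫ • φ (τ~ (pair x y)) ∂gs (pair u 0) σ`.  The second term is `∫ H x g ∂ν`; use
`L2le_near_op` with `chain_near` (`H x - H x'` has Hilbert–Schmidt norm `≤ M L ‖x - x'‖` by `L2le_cov`).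
`L2le_near_op`: with `D a = ∫ H x (bas a) ∂m₁ - ∫ H x (bas a) ∂m₂`, apply `Near.lip'` to
`f x = ∑ a, ⟪D a, H x (bas a)⟫` (use `L2le_clm_γ_iff`).
-/

set_option autoImplicit false

open MeasureTheory ProbabilityTheory Filter Topology
open scoped RealInnerProductSpace

noncomputable section

namespace Crest.Agent.R285

variable {ι κ : Type} [Fintype ι] [Fintype κ] {ν : Measure (E ι)} [IsProbabilityMeasure ν] {u : E ι}
  {σ L η R : ℝ} {τ τs : E (ι ⊕ (ι ⊕ ι)) → E ι}

lemma Lip.memLp2 {Ω X Y : Type} [MeasurableSpace Ω] {μ : Measure Ω} [IsFiniteMeasure μ]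
    [NormedAddCommGroup X] [NormedAddCommGroup Y] {K : ℝ} {f : X → Y} (hf : Lip K f) {T : Ω → X}
    (hT : MemLp T 2 μ) : MemLp (fun o => f (T o)) 2 μ :=
  MemLp.mono' ((memLp_const ‖f 0‖).add (hT.norm.const_mul K))
    (hf.continuous.comp_aestronglyMeasurable hT.1) (Eventually.of_forall fun o => hf.norm_le _)

lemma memLp2_pair {Ω : Type} [MeasurableSpace Ω] {μ : Measure Ω} {f : Ω → E ι} {g : Ω → E κ}
    (hf : MemLp f 2 μ) (hg : MemLp g 2 μ) : MemLp (fun o => pair (f o) (g o)) 2 μ := by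
  simp only [pair_eq]
  exact ((inlL : E ι →L[ℝ] E (ι ⊕ κ)).comp_memLp' hf).add
    ((inrL : E κ →L[ℝ] E (ι ⊕ κ)).comp_memLp' hg)

lemma memLp2_smul_integrable {Ω Y : Type} [MeasurableSpace Ω] {μ : Measure Ω}
    [NormedAddCommGroup Y] [NormedSpace ℝ Y] {c : Ω → ℝ} {f : Ω → Y} (hc : MemLp c 2 μ)
    (hf : MemLp f 2 μ) : Integrable (fun o => c o • f o) μ :=
  memLp_one_iff_integrable.1 (MemLp.smul (r := 1) hf hc)

lemma memLp2_of_sub {Ω : Type} [MeasurableSpace Ω] {μ : Measure Ω} [IsFiniteMeasure μ]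
    {f : Ω → E ι} {u : E ι} {r : ℝ} (h : L2le μ (fun x => f x - u) r) : MemLp f 2 μ := by
  have := h.memLp.add (memLp_const u)
  refine this.ae_eq (Eventually.of_forall fun x => ?_)
  simp

lemma memLp2_gs (u : E ι) (hσ : 0 ≤ σ) : MemLp (fun y => y) 2 (gs u σ) :=
  memLp2_of_sub (L2le_gs_sub u hσ)

theorem L2le_near_op {α : Type} [Fintype α] {m₁ m₂ : Measure (E ι)} [IsProbabilityMeasure m₁]
    [IsProbabilityMeasure m₂] (h : Near m₁ m₂ η) (hi : Integrable (fun x => x) m₂)
    {H : E ι → (E α →L[ℝ] E κ)} (hL : 0 ≤ L)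
    (hH : ∀ x x', L2le (γ α) (fun g => H x g - H x' g) (L * ‖x - x'‖)) :
    L2le (γ α) (fun g => ∫ x, H x g ∂m₁ - ∫ x, H x g ∂m₂) (L * η) := by
  have hη := h.nonneg
  have hs : ∀ x x', ∑ a, ‖(H x - H x') (bas a)‖ ^ 2 ≤ (L * ‖x - x'‖) ^ 2 := fun x x' =>
    (L2le_clm_γ_iff (H x - H x') (by positivity)).1 (hH x x')
  have hlip : Lip L H := fun x x' =>
    abs_le_of_sq_le_sq' ((norm_sq_le_sum _).trans (hs x x')) (by positivity) |>.2
  have i2 : Integrable H m₂ := near_lip_integrable hlip hi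
  have i1 : Integrable H m₁ := near_lip_integrable hlip (h.integrable_id hi)
  set D : E α →L[ℝ] E κ := ∫ x, H x ∂m₁ - ∫ x, H x ∂m₂ with hD
  have hDg : ∀ g, D g = ∫ x, H x g ∂m₁ - ∫ x, H x g ∂m₂ := fun g => by
    rw [hD, sub_apply, ContinuousLinearMap.integral_apply i1,
      ContinuousLinearMap.integral_apply i2]
  refine L2le.congr' ((L2le_clm_γ_iff D (by positivity)).2 ?_) hDg
  set T : ℝ := ∑ a, ‖D (bas a)‖ ^ 2 with hT
  have hT0 : 0 ≤ T := Finset.sum_nonneg fun a _ => sq_nonneg _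
  have hf : Lip (√T * L) fun x => ∑ a, ⟪D (bas a), H x (bas a)⟫ := by
    intro x x'
    rw [← Finset.sum_sub_distrib, Real.norm_eq_abs, mul_assoc]
    simp_rw [← inner_sub_right]
    refine (Finset.abs_sum_le_sum_abs _ _).trans ?_
    refine (Finset.sum_le_sum fun a _ => abs_real_inner_le_norm _ _).trans ?_
    refine (Real.sum_mul_le_sqrt_mul_sqrt _ _ _).trans ?_
    refine mul_le_mul_of_nonneg_left ?_ (Real.sqrt_nonneg _)
    exact Real.sqrt_le_iff.2 ⟨by positivity, hs x x'⟩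
  have h1 := h.lip' hi (by positivity) hf
  have key : ∀ (m : Measure (E ι)), Integrable H m →
      ∫ x, ∑ a, ⟪D (bas a), H x (bas a)⟫ ∂m = ∑ a, ⟪D (bas a), ∫ x, H x (bas a) ∂m⟫ := by
    intro m hm
    rw [integral_finsetSum _ fun a _ => (hm.apply_continuousLinearMap _).const_inner _]
    exact Finset.sum_congr rfl fun a _ => integral_inner (hm.apply_continuousLinearMap _) _
  rw [key _ i1, key _ i2, ← Finset.sum_sub_distrib] at h1
  simp_rw [← inner_sub_right, ← hDg, real_inner_self_eq_norm_sq] at h1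
  rw [← hT, abs_of_nonneg hT0] at h1
  have h2 : √T ≤ L * η := by
    rcases (Real.sqrt_nonneg T).eq_or_lt with h0 | h0
    · rw [← h0]; positivity
    · refine le_of_mul_le_mul_left ?_ h0
      rw [Real.mul_self_sqrt hT0, ← mul_assoc]
      exact h1
  exact (Real.sqrt_le_iff.1 h2).2

lemma exists_cov_clm {Ω X : Type} [MeasurableSpace Ω] {μ : Measure Ω} {ξ : Ω → E ι}
    {h : X → Ω → E κ} (hξ : MemLp ξ 2 μ) (hh : ∀ x, MemLp (h x) 2 μ) :
    ∃ H : X → (E ι →L[ℝ] E κ), ∀ x g, H x g = ∫ y, ⟪g, ξ y⟫ • h x y ∂μ := by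
  have hint : ∀ x g, Integrable (fun y => ⟪g, ξ y⟫ • h x y) μ := fun x g =>
    memLp2_smul_integrable (hξ.const_inner g) (hh x)
  exact ⟨fun x => LinearMap.toContinuousLinearMap
    { toFun := fun g => ∫ y, ⟪g, ξ y⟫ • h x y ∂μ
      map_add' := fun g g' => by
        rw [← integral_add (hint x g) (hint x g')]
        simp_rw [inner_add_left, add_smul]
      map_smul' := fun a g => by
        rw [RingHom.id_apply, ← integral_smul]
        simp_rw [real_inner_smul_left, mul_smul] }, fun _ _ => rfl⟩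

lemma fubini_arc {Ω ζ : Type} [Fintype ζ] [MeasurableSpace Ω] {μ : Measure Ω}
    [IsProbabilityMeasure μ] {T : Ω → E ι} (hT : MemLp T 2 μ) {c : Ω → ℝ} (hc : MemLp c 2 μ)
    {Φ : E (ι ⊕ ζ) → E κ} {K : ℝ} (hΦ : Lip K Φ) {G : Measure (E ζ)} [IsProbabilityMeasure G]
    (hG : MemLp (fun y => y) 2 G) {d : E ζ → ℝ} (hd : MemLp d 2 G) :
    ∫ p, (c p.1 + d p.2) • Φ (pair (T p.1) p.2) ∂μ.prod G =
      ∫ o, c o • ∫ y, Φ (pair (T o) y) ∂G ∂μ + ∫ o, ∫ y, d y • Φ (pair (T o) y) ∂G ∂μ := by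
  have hF : MemLp (fun p : Ω × E ζ => Φ (pair (T p.1) p.2)) 2 (μ.prod G) :=
    hΦ.memLp2 (memLp2_pair (hT.comp_measurePreserving measurePreserving_fst)
      (hG.comp_measurePreserving measurePreserving_snd))
  have i1 := memLp2_smul_integrable
    (hc.comp_measurePreserving (measurePreserving_fst (μ := μ) (ν := G))) hF
  have i2 := memLp2_smul_integrable
    (hd.comp_measurePreserving (measurePreserving_snd (μ := μ) (ν := G))) hF
  simp only [Function.comp_apply] at i1 i2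
  simp_rw [add_smul]
  rw [integral_add i1 i2, integral_prod _ i1, integral_prod _ i2]
  simp_rw [integral_smul]

lemma L2le_inner_gs (u v : E ι) (hσ : 0 ≤ σ) (hσ1 : σ ≤ 1) :
    L2le (gs u σ) (fun y => ⟪v, y - u⟫) (1 * ‖v‖) := by
  refine L2le.of_comp_mp (measurePreserving_gs u σ) (by fun_prop) ?_
  refine (((L2le_inner_γ v).smul σ).congr' fun z => ?_).mono ?_
  · simp [real_inner_smul_right]
  · rw [abs_of_nonneg hσ]; gcongr

lemma mp_fstL_gs (u : E ι) (v : E κ) (σ : ℝ) :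
    MeasurePreserving fstL (gs (pair u v) σ) (gs u σ) :=
  ⟨fstL.continuous.measurable, by
    simpa using gs_map_clm (T := (fstL : E (ι ⊕ κ) →L[ℝ] E ι)) (fun y => by simp) (pair u v) σ⟩

lemma integral_inner_gs (u v : E ι) (σ : ℝ) : ∫ y, ⟪v, y - u⟫ ∂gs u σ = 0 := by
  rw [integral_gs u σ (by fun_prop)]
  simp_rw [add_sub_cancel_left, real_inner_smul_right]
  rw [integral_const_mul]
  have := integral_strongDual_stdGaussian (E := E ι) (innerSL ℝ v)
  simp only [innerSL_apply_apply] at this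
  rw [this, mul_zero]

lemma mp_arcM (ν : Measure (E ι)) [SFinite ν] (u : E ι) (σ : ℝ) :
    MeasurePreserving (fun p : E ι × E (ι ⊕ ι) => pair p.1 p.2)
      (ν.prod (gs (pair u (0 : E ι)) σ)) (arcM ν u σ) :=
  ⟨Measurable.pair' measurable_fst measurable_snd, (arcM_eq ν u σ).symm⟩

/-- the covariance as an integral over the arc measure -/
lemma cov_arc (hσ : 0 ≤ σ) (hτ : Continuous τ) (hlaw : ArcLaw ν u σ τ)
    (hν : MemLp (fun x => x) 2 ν) {φ : E ι → E κ} {M : ℝ} (hφ : Lip M φ) (g m : E ι) :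
    ∫ x, ⟪g, x - m⟫ • φ x ∂ν =
      ∫ X, ⟪g, fstL X + fstL (sndL X) - m - u⟫ • φ (τ X) ∂arcM ν u σ := by
  have cφ := hφ.continuous
  have cΨ : Continuous fun q : E ι × E ι => ⟪g, q.2 - m - u⟫ • φ q.1 := by fun_prop
  have h1 := congrArg (fun μ => ∫ q, ⟪g, q.2 - m - u⟫ • φ q.1 ∂μ) hlaw
  rw [integral_map (by fun_prop) cΨ.aestronglyMeasurable,
    integral_map (by fun_prop) cΨ.aestronglyMeasurable] at h1
  rw [h1]
  have hF : MemLp (fun p : E ι × E ι => φ p.1) 2 (ν.prod (gs u σ)) :=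
    (hφ.memLp2 hν).comp_measurePreserving measurePreserving_fst
  have i1 := memLp2_smul_integrable (((hν.sub (memLp_const m)).const_inner (𝕜 := ℝ)
    g).comp_measurePreserving (measurePreserving_fst (μ := ν) (ν := gs u σ))) hF
  have i2 := memLp2_smul_integrable ((((memLp2_gs u hσ).sub (memLp_const u)).const_inner (𝕜 := ℝ)
    g).comp_measurePreserving (measurePreserving_snd (μ := ν) (ν := gs u σ))) hF
  simp only [Function.comp_apply, Pi.sub_apply] at i1 i2
  have e : ∀ p : E ι × E ι, ⟪g, p.1 + p.2 - m - u⟫ • φ p.1 =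
      ⟪g, p.1 - m⟫ • φ p.1 + ⟪g, p.2 - u⟫ • φ p.1 := fun p => by
    rw [← add_smul, ← inner_add_right]
    congr 2
    abel
  simp_rw [e]
  rw [integral_add i1 i2, integral_prod _ i1, integral_prod _ i2]
  simp_rw [integral_smul_const, integral_inner_gs]
  simp

theorem chain_cov_aux (hσ : 0 ≤ σ) (hσ1 : σ ≤ 1) (hL : 0 ≤ L) (hL1 : L ≤ 1 / 2) (hη : 0 ≤ η)
    (hR : 0 ≤ R) (hτ : Continuous τ) (hτs : Lip L τs) (hlaw : ArcLaw ν u σ τ)
    (happ : L2le (arcM ν u σ) (fun X => τ X - fstL (sndL X) - τs X) η)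
    (hν : L2le ν (fun x => x - u) R)
    (hm : ∀ v, L2le ν (fun x => ⟪v, x - ∫ y, y ∂ν⟫) (2 * ‖v‖)) (n : ℕ) :
    ∀ {φ : E ι → E κ} {M : ℝ} (hM : 0 ≤ M) (hφ : Lip M φ),
    L2le (γ ι) (fun g =>
        σ • (∫ z, ⟪chB' n g, z⟫ • φ (chT τs n (chB n u + σ • z)) ∂γ (chI ι n)) -
          ∫ x, ⟪g, x - ∫ y, y ∂ν⟫ • φ x ∂ν)
      (M * (8 * η + (n + 2) * L ^ n * (R + √(Fintype.card ι)))) := by
  have hν2 : MemLp (fun x => x) 2 ν := memLp2_of_sub hν
  have hν1 : Integrable (fun x => x) ν := hν2.integrable (by norm_num)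
  set m : E ι := ∫ y, y ∂ν with hmdef
  set S : ℝ := R + √(Fintype.card ι) with hS
  have hS0 : 0 ≤ S := by positivity
  induction n with
  | zero =>
    intro φ M hM hφ
    have h1 : L2le ν (fun x => φ x - φ u) (M * R) :=
      hν.of_norm_le (hφ.continuous.sub continuous_const).aestronglyMeasurable hM fun x => hφ x u
    refine (((L2le_cov (by norm_num) (by positivity) hm h1).neg).congr' fun g => ?_).mono ?_
    · have e0 : (chB' 0 : E ι →L[ℝ] E (chI ι 0)) g = 0 := rfl
      have i1 := (hm g).integrable_smul h1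
      have i2 : Integrable (fun x => ⟪g, x - m⟫ • φ u) ν := (hm g).integrable.smul_const _
      have i3 : ∫ x, ⟪g, x - m⟫ • φ u ∂ν = 0 := by
        have i4 : Integrable (fun x => x - m) ν := hν1.sub (integrable_const m)
        rw [integral_smul_const, integral_inner i4, integral_sub hν1 (integrable_const m)]
        simp [hmdef]
      have e1 : ∀ x, ⟪g, x - m⟫ • φ x = ⟪g, x - m⟫ • (φ x - φ u) + ⟪g, x - m⟫ • φ u := fun x => by
        rw [← smul_add, sub_add_cancel]
      simp_rw [e0, inner_zero_left, zero_smul, integral_zero, smul_zero, zero_sub, e1]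
      rw [integral_add i1 i2, i3, add_zero]
    · have : R ≤ S := le_add_of_nonneg_right (Real.sqrt_nonneg _)
      have h2 := mul_le_mul_of_nonneg_left this hM
      have h3 := mul_nonneg hM hη
      push_cast
      nlinarith
  | succ n ih =>
    intro φ M hM hφ
    have := prob_chLaw hτs.continuous u σ n
    set G : Measure (E (ι ⊕ ι)) := gs (pair u (0 : E ι)) σ with hG
    have hG2 : MemLp (fun y => y) 2 G := memLp2_gs _ hσ
    have hΦ : Lip (M * (1 + L)) fun X => φ (tt τs X) := hφ.comp hM (lip_tt hτs)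
    have hΦx : ∀ x, MemLp (fun y => φ (tt τs (pair x y))) 2 G := fun x =>
      hΦ.memLp2 (memLp2_pair (memLp_const x) hG2)
    have hdiff : ∀ x x' y, ‖φ (tt τs (pair x y)) - φ (tt τs (pair x' y))‖ ≤ M * L * ‖x - x'‖ :=
      fun x x' y => (hφ _ _).trans (by
        rw [mul_assoc]; exact mul_le_mul_of_nonneg_left (norm_tt_sub_le hτs x x' y) hM)
    have hφ₁ : Lip (M * L) fun x => ∫ y, φ (tt τs (pair x y)) ∂G :=
      lip_integral_param (fun x => (hΦx x).integrable (by norm_num)) hdiff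
    have hξ : ∀ v, L2le G (fun y => ⟪v, fstL y - u⟫) (1 * ‖v‖) := fun v =>
      (L2le_inner_gs u v hσ hσ1).comp_mp (mp_fstL_gs u 0 σ)
    have hξ2 : MemLp (fun y => fstL y - u) 2 G :=
      ((fstL : E (ι ⊕ ι) →L[ℝ] E ι).comp_memLp' hG2).sub (memLp_const u)
    obtain ⟨H, hH⟩ := exists_cov_clm hξ2 hΦx
    have hHS : ∀ x x', L2le (γ ι) (fun g => H x g - H x' g) (M * L * ‖x - x'‖) := by
      intro x x'
      have h1 := L2le_cov zero_le_one (by positivity) hξ
        (L2le.of_bound ((hΦx x).1.sub (hΦx x').1) (hdiff x x'))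
      rw [one_mul] at h1
      refine h1.congr' fun g => ?_
      rw [hH, hH, ← integral_sub (memLp2_smul_integrable (hξ g).memLp (hΦx x))
        (memLp2_smul_integrable (hξ g).memLp (hΦx x'))]
      simp_rw [Pi.sub_apply, smul_sub]
    have hHlip : Lip (M * L) H := fun x x' =>
      abs_le_of_sq_le_sq' ((norm_sq_le_sum _).trans
        ((L2le_clm_γ_iff (H x - H x') (by positivity)).1 (hHS x x'))) (by positivity) |>.2
    have e1 := ih (mul_nonneg hM hL) hφ₁
    have hnear : Near (chLaw τs u σ n) ν (2 * η + L ^ n * S) :=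
      chain_near hσ hσ1 hL hL1 hη hR hτ hτs hlaw happ hν n
    have e2 := L2le_near_op hnear hν1 (mul_nonneg hM hL) hHS
    -- replacement of `τ` by `tt τs`
    have hζ : ∀ v, L2le (arcM ν u σ) (fun X => ⟪v, fstL X + fstL (sndL X) - m - u⟫) (3 * ‖v‖) := by
      intro v
      refine L2le.of_comp_mp (mp_arcM ν u σ) (by fun_prop) ?_
      refine ((((hm v).fst (ν := G)).add ((hξ v).snd (μ := ν)) (by positivity)
        (by positivity)).congr' fun p => ?_).mono (by linarith)
      rw [← inner_add_right, fstL_pair, sndL_pair]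
      congr 1
      abel
    have hd : L2le (arcM ν u σ) (fun X => φ (τ X) - φ (tt τs X)) (M * η) :=
      happ.of_norm_le ((hφ.continuous.comp hτ).sub hΦ.continuous).aestronglyMeasurable hM
        fun X => (hφ _ _).trans (by simp only [tt, sub_sub]; exact le_rfl)
    have e3 := L2le_cov (by norm_num) (by positivity) hζ hd
    have harc : MemLp (fun X => X) 2 (arcM ν u σ) := by
      rw [← (mp_arcM ν u σ).map_eq]
      refine (memLp_map_measure_iff aestronglyMeasurable_id
        (mp_arcM ν u σ).measurable.aemeasurable).2 ?_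
      exact memLp2_pair (hν2.comp_measurePreserving measurePreserving_fst)
        (hG2.comp_measurePreserving measurePreserving_snd)
    have hseed : MemLp (fun z => chT τs n (chB n u + σ • z)) 2 (γ (chI ι n)) :=
      (lip_chT hL hL1 hτs n).memLp2 (T := fun z => chB n u + σ • z)
        ((memLp_const (chB n u)).add ((L2le_id_γ.smul σ).memLp))
    refine (((e1.add e2 (by positivity) (by positivity)).sub e3 (by positivity)
      (by positivity)).congr' fun g => ?_).mono ?_
    · -- the identity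
      have a1 : ∫ x, ⟪g, x - m⟫ • φ x ∂ν =
          ∫ X, ⟪g, fstL X + fstL (sndL X) - m - u⟫ • (φ (τ X) - φ (tt τs X)) ∂arcM ν u σ +
            (∫ x, ⟪g, x - m⟫ • ∫ y, φ (tt τs (pair x y)) ∂G ∂ν + ∫ x, H x g ∂ν) := by
        have i1 := (hζ g).integrable_smul hd
        have i2 := memLp2_smul_integrable (hζ g).memLp (hΦ.memLp2 harc)
        have f1 := fubini_arc hν2 (hm g).memLp hΦ hG2 (hξ g).memLp
        simp_rw [← hH] at f1
        rw [cov_arc hσ hτ hlaw hν2 hφ g m, ← f1,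
          ← mp_integral (mp_arcM ν u σ) i1.1, ← integral_add, ← mp_integral (mp_arcM ν u σ)]
        · refine integral_congr_ae (Eventually.of_forall fun p => ?_)
          simp only [fstL_pair, sndL_pair]
          rw [← inner_add_right, show p.1 - m + (fstL p.2 - u) = p.1 + fstL p.2 - m - u by abel,
            ← smul_add, sub_add_cancel]
        · exact (hζ g).1.smul (hφ.continuous.comp hτ).aestronglyMeasurable
        · exact (mp_arcM ν u σ).integrable_comp_of_integrable i1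
        · refine ((mp_arcM ν u σ).integrable_comp_of_integrable i2).congr
            (Eventually.of_forall fun p => ?_)
          simp only [Function.comp_apply, fstL_pair, sndL_pair]
          rw [← inner_add_right, show p.1 - m + (fstL p.2 - u) = p.1 + fstL p.2 - m - u by abel]
      have a2 : σ • ∫ z, ⟪chB' (n + 1) g, z⟫ • φ (chT τs (n + 1) (chB (n + 1) u + σ • z))
            ∂γ (chI ι (n + 1)) =
          σ • (∫ z, ⟪chB' n g, z⟫ • ∫ y, φ (tt τs (pair (chT τs n (chB n u + σ • z)) y)) ∂G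
            ∂γ (chI ι n)) + ∫ x, H x g ∂chLaw τs u σ n := by
        have f1 := fubini_arc hseed ((memLp_inner_γ (chB' n g)).const_mul σ) hΦ hG2 (hξ g).memLp
        simp_rw [← hH, mul_smul] at f1
        rw [integral_smul] at f1
        have cH : Continuous fun x => H x g := by
          have := hHlip.continuous
          fun_prop
        rw [← mp_integral (mp_chLaw hτs.continuous u σ n) cH.aestronglyMeasurable, ← f1,
          ← mp_integral (measurePreserving_chain_succ n u σ), ← integral_smul]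
        · refine integral_congr_ae (Eventually.of_forall fun z => ?_)
          simp only
          rw [chT_succ_seed, inner_chB'_succ, smul_smul]
          simp [tt, real_inner_smul_right, mul_add]
        · have c1 := hΦ.continuous
          have c2 := continuous_chSeed hτs.continuous u σ n
          have c3 : Continuous fun p : E (chI ι n) × E (ι ⊕ ι) =>
              σ * ⟪chB' n g, p.1⟫ + ⟪g, fstL p.2 - u⟫ := by fun_prop
          exact (c3.smul (c1.comp (Continuous.pair' (c2.comp continuous_fst)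
            continuous_snd))).aestronglyMeasurable
      rw [a1, a2]
      abel
    · have h3 := mul_nonneg hM hη
      have h4 := mul_le_mul_of_nonneg_left hL1 h3
      rw [pow_succ]
      push_cast
      nlinarith

theorem chain_cov (hσ : 0 ≤ σ) (hσ1 : σ ≤ 1) (hL : 0 ≤ L) (hL1 : L ≤ 1 / 2) (hη : 0 ≤ η)
    (hR : 0 ≤ R) (hτ : Continuous τ) (hτs : Lip L τs) (hlaw : ArcLaw ν u σ τ)
    (happ : L2le (arcM ν u σ) (fun X => τ X - fstL (sndL X) - τs X) η)
    (hν : L2le ν (fun x => x - u) R)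
    (hm : ∀ v, L2le ν (fun x => ⟪v, x - ∫ y, y ∂ν⟫) (2 * ‖v‖)) (n : ℕ) {φ : E ι → E κ} {M : ℝ}
    (hM : 0 ≤ M) (hφ : Lip M φ) :
    L2le (γ ι) (fun g =>
        σ • (∫ z, ⟪chB' n g, z⟫ • φ (chT τs n (chB n u + σ • z)) ∂γ (chI ι n)) -
          ∫ x, ⟪g, x - ∫ y, y ∂ν⟫ • φ x ∂ν)
      ((n + 8) * M * (η + L ^ n * (R + √(Fintype.card ι)))) := by
  refine (chain_cov_aux hσ hσ1 hL hL1 hη hR hτ hτs hlaw happ hν hm n hM hφ).mono ?_
  have h1 := mul_nonneg hM hη
  have h2 : 0 ≤ M * (L ^ n * (R + √(Fintype.card ι))) := by positivity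
  have h3 : (0 : ℝ) ≤ n := Nat.cast_nonneg n
  have h4 := mul_nonneg h3 h1
  nlinarith


end Crest.Agent.R285
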