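import Crest.Agent.R285.Defs

/-!
# Row 285 (S0430): Comp
Query programs.  All proofs are inductions on the number of queries, generalising the input type.
-/

set_option autoImplicit false

open MeasureTheory ProbabilityTheory Filter Topology
open scoped RealInnerProductSpace

noncomputable section

namespace Crest.Agent.R285

variable {Q Y Y' : Type} [MeasurableSpace Q] [MeasurableSpace Y] [MeasurableSpace Y']

theorem Comp.pure {X : Type} [MeasurableSpace X] {f : X → Y} (hf : Measurable f) :
    Comp Q Y 0 X fun _ => f := by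
  exact ⟨f, hf, fun _ => rfl⟩

theorem Comp.congr {n : ℕ} {X : Type} [MeasurableSpace X] {F G : (Q → Q) → X → Y}
    (h : Comp Q Y n X F) (hFG : ∀ o x, F o x = G o x) : Comp Q Y n X G := by
  have : F = G := by funext o x; exact hFG o x
  rw [← this]; exact h

theorem Comp.comap {n : ℕ} {X X' : Type} [MeasurableSpace X] [MeasurableSpace X']
    {F : (Q → Q) → X → Y} (h : Comp Q Y n X F) {g : X' → X} (hg : Measurable g) :
    Comp Q Y n X' fun o x => F o (g x) := by
  induction n generalizing X X' with
  | zero =>
    obtain ⟨f, hf, hF⟩ := h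
    exact ⟨fun x => f (g x), hf.comp hg, fun o => by funext x; simp only [hF o]⟩
  | succ n ih =>
    obtain ⟨qr, G, hq, hG, hF⟩ := h
    refine ⟨fun x => qr (g x), fun o p => G o (g p.1, p.2), hq.comp hg, ?_, fun o x => hF o _⟩
    exact ih hG (g := fun p : X' × Q => (g p.1, p.2))
      ((hg.comp measurable_fst).prodMk measurable_snd)

theorem Comp.measurable {n : ℕ} {X : Type} [MeasurableSpace X] {F : (Q → Q) → X → Y}
    (h : Comp Q Y n X F) {o : Q → Q} (ho : Measurable o) : Measurable (F o) := by
  induction n generalizing X with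
  | zero =>
    obtain ⟨f, hf, hF⟩ := h
    rw [hF o]; exact hf
  | succ n ih =>
    obtain ⟨qr, G, hq, hG, hF⟩ := h
    have : F o = fun x => G o (x, o (qr x)) := funext (hF o)
    rw [this]
    exact (ih hG).comp (measurable_id.prodMk (ho.comp hq))

theorem Comp.bind {n n' : ℕ} {X : Type} [MeasurableSpace X] {F : (Q → Q) → X → Y}
    {G : (Q → Q) → X × Y → Y'} (hF : Comp Q Y n X F) (hG : Comp Q Y' n' (X × Y) G) :
    Comp Q Y' (n + n') X fun o x => G o (x, F o x) := by
  induction n generalizing X with
  | zero =>
    obtain ⟨f, hf, hF⟩ := hF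
    rw [Nat.zero_add]
    refine (hG.comap (g := fun x => (x, f x)) (measurable_id.prodMk hf)).congr fun o x => ?_
    rw [hF o]
  | succ n ih =>
    obtain ⟨qr, H, hq, hH, hF⟩ := hF
    rw [Nat.add_right_comm]
    have h1 := ih (G := fun o p => G o (p.1.1, p.2)) hH
      (hG.comap (g := fun p : (X × Q) × Y => (p.1.1, p.2))
        ((measurable_fst.comp measurable_fst).prodMk measurable_snd))
    exact ⟨qr, _, hq, h1, fun o x => by simp only [hF o x]⟩

theorem Comp.map {n : ℕ} {X : Type} [MeasurableSpace X] {F : (Q → Q) → X → Y}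
    (hF : Comp Q Y n X F) {g : X × Y → Y'} (hg : Measurable g) :
    Comp Q Y' n X fun o x => g (x, F o x) := by
  exact hF.bind (Comp.pure hg)

theorem Comp.query {X : Type} [MeasurableSpace X] {qr : X → Q} (hq : Measurable qr) :
    Comp Q Q 1 X fun o x => o (qr x) := by
  exact ⟨qr, fun _ p => p.2, hq, Comp.pure measurable_snd, fun _ _ => rfl⟩

theorem Comp.mono [Nonempty Q] {n n' : ℕ} {X : Type} [MeasurableSpace X] {F : (Q → Q) → X → Y}
    (h : Comp Q Y n X F) (hn : n ≤ n') : Comp Q Y n' X F := by
  induction hn with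
  | refl => exact h
  | step _ ih =>
    exact ⟨fun _ => Classical.arbitrary Q, fun o p => F o p.1, measurable_const,
      ih.comap measurable_fst, fun _ _ => rfl⟩



end Crest.Agent.R285
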