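import Crest.Agent.R285.Taylor
import Crest.Agent.R285.Sob
import Crest.Agent.R285.Invar
import Crest.Agent.R285.Near

/-!
# Row 285 (S0430): Core2, auxiliary file
The antisymmetric operator field `Jop A` and its vector field.
-/

set_option autoImplicit false

open MeasureTheory ProbabilityTheory Filter Topology
open scoped RealInnerProductSpace

noncomputable section

namespace Crest.Agent.R285

namespace Core2

variable {ζ κ β : Type} [Fintype ζ] [Fintype κ] [Fintype β]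
variable {Y : Type} [NormedAddCommGroup Y] [NormedSpace ℝ Y]

lemma tg_fst {F : E ζ → Y} (hF : TG F) : TG fun o : E (ζ ⊕ κ) => F (fstL o) :=
  hF.comp' (ContinuousLinearMap.hasTemperateGrowth (fstL : E (ζ ⊕ κ) →L[ℝ] E ζ))

lemma fderiv_fst {F : E ζ → Y} (hF : Differentiable ℝ F) (o v : E (ζ ⊕ κ)) :
    fderiv ℝ (fun o : E (ζ ⊕ κ) => F (fstL o)) o v = fderiv ℝ F (fstL o) (fstL v) := by
  have h := ((hF (fstL o)).hasFDerivAt.comp o
    (fstL : E (ζ ⊕ κ) →L[ℝ] E ζ).hasFDerivAt).fderiv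
  have h' : fderiv ℝ (fun o : E (ζ ⊕ κ) => F (fstL o)) o =
      (fderiv ℝ F (fstL o)).comp fstL := h
  rw [h']; rfl

lemma pd_inl_fst {F : E ζ → Y} (hF : Differentiable ℝ F) (a : ζ) :
    pd (Sum.inl a : ζ ⊕ κ) (fun o : E (ζ ⊕ κ) => F (fstL o)) = fun o => pd a F (fstL o) := by
  funext o
  simp only [pd]
  rw [fderiv_fst hF, bas_inl, fstL_pair]

lemma pd_inr_fst {F : E ζ → Y} (hF : Differentiable ℝ F) (b : κ) :
    pd (Sum.inr b : ζ ⊕ κ) (fun o : E (ζ ⊕ κ) => F (fstL o)) = fun _ => 0 := by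
  funext o
  simp only [pd]
  rw [fderiv_fst hF, bas_inr, fstL_pair, map_zero]

lemma HS_fst (r : ℝ) (n : ℕ) : ∀ {F : E ζ → Y}, TG F → ∀ o : E (ζ ⊕ κ),
    HS r n (fun o : E (ζ ⊕ κ) => F (fstL o)) o = HS r n F (fstL o) := by
  induction n with
  | zero => intro F _ o; rfl
  | succ n ih =>
    intro F hF o
    rw [HS_succ, HS_succ, Fintype.sum_sum_type]
    congr 2
    have h1 : ∀ a : ζ, HS r n (pd (Sum.inl a : ζ ⊕ κ) fun o : E (ζ ⊕ κ) => F (fstL o)) o =
        HS r n (pd a F) (fstL o) := fun a => by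
      rw [pd_inl_fst hF.differentiable, ih (hF.pd' a)]
    have h2 : ∀ b : κ, HS r n (pd (Sum.inr b : ζ ⊕ κ) fun o : E (ζ ⊕ κ) => F (fstL o)) o = 0 :=
      fun b => by rw [pd_inr_fst hF.differentiable, HS_const]; simp
    simp [h1, h2]

/-- the antisymmetric operator field -/
def Jop (A : E ζ → (E ζ →L[ℝ] E κ)) (o : E (ζ ⊕ κ)) : E (ζ ⊕ κ) →L[ℝ] E (ζ ⊕ κ) :=
  (inrL : E κ →L[ℝ] E (ζ ⊕ κ)).comp ((A (fstL o)).comp fstL) -
    (inlL : E ζ →L[ℝ] E (ζ ⊕ κ)).comp ((adj (A (fstL o))).comp sndL)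

variable {A : E ζ → (E ζ →L[ℝ] E κ)}

lemma Jop_apply (o v : E (ζ ⊕ κ)) :
    Jop A o v = pair (-adj (A (fstL o)) (sndL v)) (A (fstL o) (fstL v)) := by
  simp [Jop]

lemma adj_Jop (o : E (ζ ⊕ κ)) : adj (Jop A o) = -Jop A o := by
  simp only [Jop, adj_sub, adj_comp, adj_adj, adj_inlL, adj_inrL, adj_fstL, adj_sndL, neg_sub]
  rfl

lemma tg_Jop (hA : TG A) : TG (Jop A) := by
  have h1 : TG fun o : E (ζ ⊕ κ) => A (fstL o) := tg_fst hA
  refine TG.sub' (TG.clm_comp (Function.HasTemperateGrowth.const _)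
    (TG.clm_comp h1 (Function.HasTemperateGrowth.const _)))
    (TG.clm_comp (Function.HasTemperateGrowth.const _)
    (TG.clm_comp h1.adj' (Function.HasTemperateGrowth.const _)))

lemma tg_app (hA : TG A) (v : E ζ) : TG fun z => A z v :=
  hA.clm_apply (Function.HasTemperateGrowth.const _)

lemma tg_adj_app (hA : TG A) (v : E κ) : TG fun z => adj (A z) v :=
  hA.adj'.clm_apply (Function.HasTemperateGrowth.const _)

lemma HS_Jop (hA : TG A) (r : ℝ) (n : ℕ) (v o : E (ζ ⊕ κ)) :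
    HS r n (fun o => Jop A o v) o = HS r n (fun z => adj (A z) (sndL v)) (fstL o) +
      HS r n (fun z => A z (fstL v)) (fstL o) := by
  simp only [Jop_apply]
  rw [HS_pair r n (tg_fst (tg_adj_app hA (sndL v))).neg' (tg_fst (tg_app hA (fstL v))), HS_neg,
    HS_fst r n (tg_adj_app hA (sndL v)), HS_fst r n (tg_app hA (fstL v))]

lemma mult_Jop (hA : TG A) {r μ : ℝ} {n : ℕ} (h : Mult r μ n A)
    (h' : Mult r μ n fun z => adj (A z)) : Mult r μ n (Jop A) := by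
  intro o v
  rw [HS_Jop hA]
  have h1 := h (fstL o) (fstL v)
  have h2 := h' (fstL o) (sndL v)
  have h3 : ‖v‖ ^ 2 = ‖fstL v‖ ^ 2 + ‖sndL v‖ ^ 2 := by
    rw [← norm_sq_pair, pair_fst_snd]
  rw [h3]
  linarith

lemma sum_HS_Jop (hA : TG A) {r μ : ℝ} {n : ℕ} (h' : Mult r μ n fun z => adj (A z))
    (o : E (ζ ⊕ κ)) :
    ∑ a, HS r n (fun o => Jop A o (bas a)) o ≤ 2 * (Fintype.card κ * μ ^ 2) := by
  simp only [HS_Jop hA]
  rw [Fintype.sum_sum_type]
  simp only [bas_inl, bas_inr, fstL_pair, sndL_pair, map_zero, HS_const, norm_zero]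
  have h1 := Mult.sum_HS_le hA h' (fstL o)
  have h2 := sum_HS_adj r n hA (fstL o)
  simp only [ne_eq, OfNat.ofNat_ne_zero, not_false_eq_true, zero_pow, zero_add, add_zero]
  linarith

/-- the compensating vector field -/
def vA (A : E ζ → (E ζ →L[ℝ] E κ)) (o : E (ζ ⊕ κ)) : E (ζ ⊕ κ) :=
  pair (-adj (A (fstL o)) (sndL o)) (divs hsq (fun a z => A z (bas a)) (fstL o))

lemma vf_Jop (hA : TG A) : vf hsq (Jop A) = vA A := by
  funext o
  simp only [vf, divs, vA, gradient_hsq]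
  rw [Fintype.sum_sum_type]
  have h1 : ∀ a : ζ, pd (Sum.inl a : ζ ⊕ κ) (fun o => Jop A o (bas (Sum.inl a))) o =
      pair 0 (pd a (fun z => A z (bas a)) (fstL o)) := fun a => by
    have : (fun o => Jop A o (bas (Sum.inl a))) =
        fun o : E (ζ ⊕ κ) => (fun z => (inrL : E κ →L[ℝ] E (ζ ⊕ κ)) (A z (bas a))) (fstL o) := by
      funext o; simp [Jop_apply, bas_inl]
    rw [this, pd_inl_fst ((tg_app hA (bas a)).clm _).differentiable,
      pd_clm a _ (tg_app hA (bas a)).differentiable]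
    simp
  have h2 : ∀ b : κ, pd (Sum.inr b : ζ ⊕ κ) (fun o => Jop A o (bas (Sum.inr b))) o = 0 :=
    fun b => by
    have : (fun o => Jop A o (bas (Sum.inr b))) =
        fun o : E (ζ ⊕ κ) => (fun z => (inlL : E ζ →L[ℝ] E (ζ ⊕ κ)) (-adj (A z) (bas b))) (fstL o) := by
      funext o; simp [Jop_apply, bas_inr]
    rw [this, pd_inr_fst ((tg_adj_app hA (bas b)).neg'.clm _).differentiable]
  simp only [h1, h2]
  rw [pair_eq, clm_apply_eq_sum (adj (A (fstL o))) (sndL o), map_neg, map_sum, map_sum, add_comm,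
    ← Finset.sum_neg_distrib]
  congr 1
  · refine Finset.sum_congr rfl fun b _ => ?_
    simp [Jop_apply, bas_inr]
  · refine Finset.sum_congr rfl fun a _ => ?_
    simp [Jop_apply, bas_inl]

lemma norm_pd_le {r μ : ℝ} {n : ℕ} (h : Mult r μ (n + 1) A) (hr : 0 < r) (hμ : 0 ≤ μ) (a a' : ζ)
    (z : E ζ) : ‖pd a (fun z => A z (bas a')) z‖ ≤ μ / r := by
  have h1 := h z (bas a')
  have h2 := HS_pd_le r n (fun z => A z (bas a')) z
  have h3 : HS r n (pd a fun z => A z (bas a')) z ≤ ∑ a, HS r n (pd a fun z => A z (bas a')) z :=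
    Finset.single_le_sum (f := fun a => HS r n (pd a fun z => A z (bas a')) z)
      (fun i _ => HS_nonneg _ _ _ _) (Finset.mem_univ a)
  have h4 := norm_sq_le_HS r n (pd a fun z => A z (bas a')) z
  rw [norm_bas, one_pow, mul_one] at h1
  have h5 : r ^ 2 * ‖pd a (fun z => A z (bas a')) z‖ ^ 2 ≤ μ ^ 2 := by
    have := mul_le_mul_of_nonneg_left (h4.trans h3) (sq_nonneg r)
    linarith
  rw [le_div_iff₀ hr]
  refine abs_le_of_sq_le_sq' ?_ hμ |>.2
  nlinarith

lemma vA_growth {r μ : ℝ} {n : ℕ} (h : Mult r μ (n + 1) A) (hr : 0 < r) (hμ : 0 ≤ μ) :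
    ∃ C, ∀ o, ‖vA A o‖ ≤ C * (1 + ‖o‖) := by
  refine ⟨μ + Fintype.card ζ * (μ + μ / r), fun o => ?_⟩
  have hA : ∀ z, ‖A z‖ ≤ μ := h.norm_le hμ
  have h1 : ‖-adj (A (fstL o)) (sndL o)‖ ≤ μ * (1 + ‖o‖) := by
    rw [norm_neg]
    refine ((adj (A (fstL o))).le_opNorm _).trans ?_
    rw [norm_adj]
    exact mul_le_mul (hA _) ((norm_sndL_apply_le o).trans (by linarith)) (norm_nonneg _) hμ
  have h2 : ‖divs hsq (fun a z => A z (bas a)) (fstL o)‖ ≤
      Fintype.card ζ * ((μ + μ / r) * (1 + ‖o‖)) := by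
    simp only [divs, gradient_hsq]
    refine (norm_sum_le _ _).trans ?_
    rw [← nsmul_eq_mul, ← Finset.card_univ]
    refine Finset.sum_le_card_nsmul _ _ _ fun a _ => ?_
    refine (norm_sub_le _ _).trans ?_
    rw [norm_smul, Real.norm_eq_abs]
    have e1 : |fstL o a| ≤ ‖o‖ := (abs_coord_le _ a).trans (norm_fstL_apply_le o)
    have e2 : ‖A (fstL o) (bas a)‖ ≤ μ := by
      refine ((A (fstL o)).le_opNorm _).trans ?_
      rw [norm_bas, mul_one]; exact hA _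
    have e3 := norm_pd_le h hr hμ a a (fstL o)
    have e4 : |fstL o a| * ‖A (fstL o) (bas a)‖ ≤ ‖o‖ * μ :=
      mul_le_mul e1 e2 (norm_nonneg _) (norm_nonneg _)
    have e5 : 0 ≤ μ / r := div_nonneg hμ hr.le
    nlinarith [norm_nonneg o]
  refine (norm_pair_le _ _).trans ?_
  nlinarith

end Core2

end Crest.Agent.R285
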