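import Crest.Agent.R285.Taylor
import Crest.Agent.R285.Sob
import Crest.Agent.R285.Invar
import Crest.Agent.R285.Near
import Crest.Agent.R285.Core2Aux

/-!
# Row 285 (S0430): Core2
The compensation flow (single instance).  State space `E (ζ ⊕ κ)`, `Φ = hsq`,
`J (pair z g) (pair z' g') = pair (- adj (A z) g') (A z z')` (antisymmetric, `TG`, `Mult r (Cμ)`), so that
`vf hsq J (pair z g) = pair (- adj (A z) g) (divs hsq (fun a z => A z (bas a)) z)` has linear growth
(`A` and `pd a A` are bounded by `Mult`).  Let `X` be its flow (`exists_flow`, `measurePreserving`,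
`divs_vf`, `γ_eq_gibbs`), `x i = X (t i)`.  With `v = vf hsq J`: `X t o - o = ∫ v (X s o)`,
`Quad.integral_L2` for `φ = v` with `exists_Lie_bound`; `∫ ∑ a, HS (pd a v) ≤ r⁻² ∫ HS (2K+1) v`,
`exists_divs_bound`, and `∑ a, HS (J · (bas a)) ≤ 2 card κ μ²` (`HS_pair`, `Mult.sum_HS_le`).
`‖v - v~‖₂ ≤ 2η`.  For the last claim: `sndL (X 1 o)` is standard Gaussian and `∑ l, w l = 1`.
-/

set_option autoImplicit false

open MeasureTheory ProbabilityTheory Filter Topology
open scoped RealInnerProductSpace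

noncomputable section

namespace Crest.Agent.R285

namespace Core2

variable {ζ κ : Type} [Fintype ζ] [Fintype κ] {A : E ζ → (E ζ →L[ℝ] E κ)}

/-- Sobolev bound for the compensating field -/
lemma exists_vA_bound : ∃ C : ℕ → ℝ, (∀ n, 1 ≤ C n) ∧
    ∀ {ζ κ : Type} [Fintype ζ] [Fintype κ] (n : ℕ) {A : E ζ → (E ζ →L[ℝ] E κ)} {r μ : ℝ},
      0 < r → r ≤ 1 → TG A → Mult r μ (n + 1) (fun z => adj (A z)) →
      ∫ o, HS r n (vA A) o ∂γ (ζ ⊕ κ) ≤ (C n * (μ / r) * √(Fintype.card κ)) ^ 2 := by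
  obtain ⟨C, hC1, hC⟩ := exists_divs_bound
  refine ⟨fun n => 3 * C n, fun n => by linarith [hC1 n], ?_⟩
  intro ζ κ _ _ n A r μ hr hr1 hA h'
  have hu : ∀ a : ζ ⊕ κ, TG fun o => Jop A o (bas a) := fun a =>
    (tg_Jop hA).clm_apply (Function.HasTemperateGrowth.const _)
  have h1 := hC n (Φ := hsq) (u := fun a o => Jop A o (bas a)) nicePot_hsq hr hr1 zero_le_one
    (mult_hess_hsq r n) hu
  have h2 : divs hsq (fun a o => Jop A o (bas a)) = vA A := vf_Jop hA
  rw [h2, ← γ_eq_gibbs] at h1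
  have h3 : ∫ o, ∑ a, HS r (n + 1) (fun o => Jop A o (bas a)) o ∂γ (ζ ⊕ κ) ≤
      2 * (Fintype.card κ * μ ^ 2) := by
    refine (integral_mono_of_nonneg (g := fun _ => 2 * (Fintype.card κ * μ ^ 2))
      (Eventually.of_forall fun o => Finset.sum_nonneg fun a _ => HS_nonneg _ _ _ _)
      (integrable_const _) (Eventually.of_forall fun o => sum_HS_Jop hA h' o)).trans ?_
    simp
  have hc : (0 : ℝ) ≤ Fintype.card κ := Nat.cast_nonneg _
  have hCn := hC1 n
  refine h1.trans ((mul_le_mul_of_nonneg_left h3 (by positivity)).trans ?_)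
  rw [mul_pow, mul_pow, Real.sq_sqrt hc, div_pow]
  have e : 0 ≤ μ ^ 2 / r ^ 2 * (Fintype.card κ : ℝ) := by positivity
  have e2 : C n * (1 + 1) ^ 2 / r ^ 2 * (2 * (Fintype.card κ * μ ^ 2)) =
      (8 * C n) * (μ ^ 2 / r ^ 2 * (Fintype.card κ : ℝ)) := by ring
  rw [e2, mul_assoc ((3 * C n) ^ 2)]
  refine mul_le_mul_of_nonneg_right ?_ e
  nlinarith

lemma tg_vA (hA : TG A) : TG (vA A) := by
  rw [← vf_Jop hA]; exact TG.vf' nicePot_hsq (tg_Jop hA)

/-- the compensating field is close to its surrogate -/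
lemma L2le_vA_sub {f : E ζ → E κ} {S : E (ζ ⊕ κ) → E ζ} {c : E κ} {η : ℝ} (hη : 0 ≤ η)
    (hA : TG A) (hS : Continuous S)
    (h1 : L2le (γ ζ) (fun z => divs hsq (fun a z => A z (bas a)) z - (f z - c)) η)
    (h2 : ∀ z, L2le (γ κ) (fun g => S (pair z g) - adj (A z) g) η) :
    L2le (γ (ζ ⊕ κ)) (fun o => vA A o - pair (-S o) (f (fstL o) - c)) (η + η) := by
  have hc : Continuous fun o : E (ζ ⊕ κ) => S o - adj (A (fstL o)) (sndL o) :=
    hS.sub ((tg_fst hA).adj'.clm_apply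
      (ContinuousLinearMap.hasTemperateGrowth (sndL : E (ζ ⊕ κ) →L[ℝ] E κ))).continuous
  have hp : Continuous fun p : E ζ × E κ => pair p.1 p.2 :=
    Continuous.pair' continuous_fst continuous_snd
  have e1 : L2le (γ (ζ ⊕ κ)) (fun o => S o - adj (A (fstL o)) (sndL o)) η := by
    refine L2le.of_comp_mp measurePreserving_pair hc.aestronglyMeasurable ?_
    refine L2le.prod_of_forall (hc.comp hp).aestronglyMeasurable fun z => ?_
    simpa using h2 z
  have e2 := L2le.comp_mp (measurePreserving_fstL (ι := ζ) (κ := κ)) h1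
  refine (e1.pair' e2 hη hη).congr' fun o => ?_
  simp only [vA, pair_sub]
  congr 1
  abel

end Core2

open Core2 in
theorem core_flow : ∃ C : ℕ → ℝ, (∀ K, 1 ≤ C K) ∧
    ∀ (K : ℕ) {CQ : ℝ} (Q : Quad K 1 1 CQ) {ζ κ : Type} [Fintype ζ] [Fintype κ] {f : E ζ → E κ}
      {A : E ζ → (E ζ →L[ℝ] E κ)} {S : E (ζ ⊕ κ) → E ζ} {r μ η : ℝ}, 1 ≤ K → 0 < r → r ≤ 1 →
      0 ≤ μ → 0 ≤ η → TG f → TG A → Continuous S → Mult r μ (2 * K + 2) A →
      Mult r μ (2 * K + 2) (fun z => adj (A z)) →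
      L2le (γ ζ) (fun z => divs hsq (fun a z => A z (bas a)) z - (f z - ∫ z', f z' ∂γ ζ)) η →
      (∀ z, L2le (γ κ) (fun g => S (pair z g) - adj (A z) g) η) →
      ∃ x : Fin Q.N → E (ζ ⊕ κ) → E (ζ ⊕ κ), (∀ i, Continuous (x i)) ∧
        (∀ i, L2le (γ (ζ ⊕ κ)) (fun o => x i o - o -
          ∑ l, (∫ s in (0 : ℝ)..Q.t i, Q.ℓ l s) •
            pair (-S (x l o)) (f (fstL (x l o)) - ∫ z', f z' ∂γ ζ))
          (C K * (1 + CQ) * (η + (μ / r ^ 2) ^ (K + 1) * √(Fintype.card κ)))) ∧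
        (∀ i, L2le (γ (ζ ⊕ κ)) (fun o => x i o - o) (C K * (μ / r) * √(Fintype.card κ))) ∧
        Near ((γ (ζ ⊕ κ)).map fun o =>
            sndL o + ∑ l, (∫ s in (0 : ℝ)..1, Q.ℓ l s) • f (fstL (x l o)))
          (gs (∫ z', f z' ∂γ ζ) 1)
          (C K * (1 + CQ) * (η + (μ / r ^ 2) ^ (K + 1) * √(Fintype.card κ))) := by
  obtain ⟨CL, hCL1, hCL⟩ := exists_Lie_bound
  obtain ⟨CV, hCV1, hCV⟩ := exists_vA_bound
  refine ⟨fun K => 2 + CV 0 + CL K * 2 ^ K * CV (2 * K + 1), fun K => ?_, ?_⟩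
  · have := hCV1 0
    have h1 := hCL1 K
    have h2 := hCV1 (2 * K + 1)
    have : 0 ≤ CL K * 2 ^ K * CV (2 * K + 1) := by positivity
    linarith
  intro K CQ Q ζ κ _ _ f A S r μ η hK hr hr1 hμ hη hf hA hS hM hM' h1 h2
  have hCQ : 0 ≤ CQ := Q.nonneg
  have hL1 := hCL1 K
  have hV0 := hCV1 0
  have hV1 := hCV1 (2 * K + 1)
  have hP : 0 ≤ CL K * 2 ^ K * CV (2 * K + 1) := by positivity
  set c : E κ := ∫ z', f z' ∂γ ζ with hc
  set D : ℝ := √(Fintype.card κ) with hD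
  have hD0 : 0 ≤ D := Real.sqrt_nonneg _
  have hv : TG (vA A) := tg_vA hA
  have hg := vA_growth hM hr hμ
  obtain ⟨X, hX⟩ := exists_flow (hv.contDiff 1) hg
  have hmp : ∀ t, MeasurePreserving (X t) (γ (ζ ⊕ κ)) (γ (ζ ⊕ κ)) := fun t => by
    rw [γ_eq_gibbs]
    refine hX.measurePreserving (hv.contDiff 1) hg nicePot_hsq (fun o => ?_) t
    rw [← vf_Jop hA]
    exact divs_vf nicePot_hsq (tg_Jop hA) adj_Jop o
  -- `L²` norm of the field
  have hv0 : L2le (γ (ζ ⊕ κ)) (vA A) (CV 0 * (μ / r) * D) := by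
    refine L2le.of_integral_sq_le hv.continuous.aestronglyMeasurable hv.norm_sq.integrable_γ
      (by positivity) ?_
    exact hCV 0 hr hr1 hA (hM'.mono hr.le le_rfl hμ le_rfl (by omega))
  -- the iterated Lie derivative
  have hR : ∫ o, ∑ a, HS r (2 * K) (pd a (vA A)) o ∂gibbs hsq ≤
      (CV (2 * K + 1) * (μ / r ^ 2) * D) ^ 2 := by
    rw [← γ_eq_gibbs]
    have e1 := hCV (2 * K + 1) hr hr1 hA hM'
    have e2 : ∫ o, ∑ a, HS r (2 * K) (pd a (vA A)) o ∂γ (ζ ⊕ κ) ≤
        ∫ o, (r ^ 2)⁻¹ * HS r (2 * K + 1) (vA A) o ∂γ (ζ ⊕ κ) := by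
      refine integral_mono_of_nonneg
        (Eventually.of_forall fun o => Finset.sum_nonneg fun a _ => HS_nonneg _ _ _ _)
        ((hv.hs r (2 * K + 1)).integrable_γ.const_mul _) (Eventually.of_forall fun o => ?_)
      have := HS_pd_le r (2 * K) (vA A) o
      show ∑ a, HS r (2 * K) (pd a (vA A)) o ≤ (r ^ 2)⁻¹ * HS r (2 * K + 1) (vA A) o
      rw [le_inv_mul_iff₀ (by positivity)]
      exact this
    rw [integral_const_mul] at e2
    refine e2.trans ((mul_le_mul_of_nonneg_left e1 (by positivity)).trans (le_of_eq ?_))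
    rw [← hD]
    field_simp
  have hLie := hCL K (Φ := hsq) (J := Jop A) (φ := vA A) hK nicePot_hsq hr hr1 zero_le_one hμ
    (by positivity) (mult_hess_hsq r (2 * K)) (tg_Jop hA) adj_Jop
    (mult_Jop hA (hM.mono hr.le le_rfl hμ le_rfl (by omega))
      (hM'.mono hr.le le_rfl hμ le_rfl (by omega))) hv hR
  rw [← γ_eq_gibbs, vf_Jop hA] at hLie
  set R : ℝ := CL K * ((1 + 1) * μ / r ^ 2) ^ K * (CV (2 * K + 1) * (μ / r ^ 2) * D) with hRdef
  have hR0 : 0 ≤ R := by positivity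
  have hRe : R = CL K * 2 ^ K * CV (2 * K + 1) * ((μ / r ^ 2) ^ (K + 1) * D) := by
    rw [hRdef, mul_div_assoc, mul_pow, pow_succ (μ / r ^ 2)]; norm_num; ring
  have hsub := L2le_vA_sub (c := c) hη hA hS h1 h2
  -- the main estimate at an arbitrary time
  have main : ∀ t ∈ Set.Icc (0 : ℝ) 1, L2le (γ (ζ ⊕ κ)) (fun o => X t o - o -
      ∑ l, (∫ s in (0 : ℝ)..t, Q.ℓ l s) •
        pair (-S (X (Q.t l) o)) (f (fstL (X (Q.t l) o)) - c))
      ((2 + CV 0 + CL K * 2 ^ K * CV (2 * K + 1)) * (1 + CQ) *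
        (η + (μ / r ^ 2) ^ (K + 1) * D)) := fun t ht => by
    have e1 := Q.integral_L2 hX hv hmp hv hR0 hLie (k := fun _ => 1) continuous_const
      (fun _ => by simp) ht
    have e2 := Q.sum_abs_weight_le (k := fun _ => 1) continuous_const (fun _ => by simp) ht
    simp only [one_smul, one_mul, one_pow, mul_one] at e1 e2
    have e3 := L2le.sum_smul (fun l : Fin Q.N => hsub.comp_mp (hmp (Q.t l))) (by positivity) e2
    refine ((e1.add e3 (by positivity) (by positivity)).congr' fun o => ?_).mono ?_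
    · rw [hX.sub_eq_integral' hv.continuous]
      simp only [smul_sub, Finset.sum_sub_distrib]
      abel
    · rw [hRe]
      have p1 : 0 ≤ (μ / r ^ 2) ^ (K + 1) * D := by positivity
      set P := CL K * 2 ^ K * CV (2 * K + 1)
      set Z := (μ / r ^ 2) ^ (K + 1) * D
      have q1 : 0 ≤ (1 + CQ) * (P * η) := by positivity
      have q2 : 0 ≤ (1 + CQ) * ((2 + CV 0) * Z) := by positivity
      have q3 : 0 ≤ (1 + CQ) * (CV 0 * η) := by positivity
      nlinarith
  refine ⟨fun i => X (Q.t i), fun i => hX.continuous _, fun i => main _ (Q.t_mem i), fun i => ?_, ?_⟩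
  · have ht := Q.t_mem i
    have hG : StronglyMeasurable (Function.uncurry fun s o => vA A (X s o)) :=
      (hv.continuous.comp hX.cont).stronglyMeasurable
    have e1 := L2le.interval (μ := γ (ζ ⊕ κ)) (G := fun s o => vA A (X s o)) ht.1 (by positivity) hG
      (fun s _ => hv0.comp_mp (hmp s))
    refine (e1.congr' fun o => (hX.sub_eq_integral' hv.continuous _ o).symm).mono ?_
    have p1 : 0 ≤ μ / r * D := by positivity
    have p2 : (Q.t i - 0) * (CV 0 * (μ / r) * D) ≤ 1 * (CV 0 * (μ / r) * D) :=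
      mul_le_mul_of_nonneg_right (by linarith [ht.2]) (by positivity)
    refine p2.trans ?_
    rw [one_mul, mul_assoc, mul_assoc]
    exact mul_le_mul_of_nonneg_right (by linarith) p1
  · have e1 := main 1 ⟨zero_le_one, le_rfl⟩
    have hw := Q.sum_weight_eq hK (k := fun _ => 1) continuous_const ⟨zero_le_one, le_rfl⟩
    simp only [one_mul, intervalIntegral.integral_const, sub_zero, smul_eq_mul, mul_one] at hw
    have hmp' : MeasurePreserving (fun o => c + (1 : ℝ) • sndL (X 1 o)) (γ (ζ ⊕ κ)) (gs c 1) :=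
      (measurePreserving_gs c 1).comp (measurePreserving_sndL.comp (hmp 1))
    rw [← hmp'.map_eq]
    have hB : 0 ≤ (2 + CV 0 + CL K * 2 ^ K * CV (2 * K + 1)) * (1 + CQ) *
        (η + (μ / r ^ 2) ^ (K + 1) * D) := by positivity
    refine (Near.of_L2le hmp'.measurable.aemeasurable ?_ hB ?_).symm
    · refine Continuous.aemeasurable (sndL.continuous.add (continuous_finsetSum _ fun l _ => ?_))
      exact (hf.continuous.comp (fstL.continuous.comp (hX.continuous (Q.t l)))).const_smul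
        (∫ s in (0 : ℝ)..1, Q.ℓ l s)
    · refine ((e1.clm sndL).congr' fun o => ?_).mono ?_
      · simp only [map_sub, map_sum, map_smul, sndL_pair, smul_sub, Finset.sum_sub_distrib,
          ← Finset.sum_smul, hw, one_smul]
        abel
      · exact mul_le_of_le_one_left hB norm_sndL_le


end Crest.Agent.R285
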