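import Crest.Agent.R285.OpMul

/-!
# Row 285 (S0430): PreR
`Pre k` is a closed class (use the `D_*` formulas with `OpG.congr`).
-/

set_option autoImplicit false

open MeasureTheory ProbabilityTheory Filter Topology
open scoped RealInnerProductSpace

noncomputable section

namespace Crest.Agent.R285

variable {P P' : Type} {b : P → Base} {ι κ κ' ζ α β α' β' I : P → Type} [∀ p, Fintype (ι p)]
  [∀ p, Fintype (κ p)] [∀ p, Fintype (κ' p)] [∀ p, Fintype (ζ p)] [∀ p, Fintype (α p)]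
  [∀ p, Fintype (β p)] [∀ p, Fintype (α' p)] [∀ p, Fintype (β' p)] [∀ p, Fintype (I p)]

theorem closed_pre {k : ℕ} (hk : Lvl k) : Closed (@Pre k) where
  tame h := h.1.tame
  reindex r h := ⟨hk.closed.reindex r h.1, fun a => (h.2 a).reindex hk r⟩
  congr he h := ⟨hk.closed.congr he h.1, fun a => (h.2 a).congr (D_congr he)⟩
  zero h₁ h₂ := ⟨hk.closed.zero h₁ h₂, fun _ => (OpG.zero hk h₁ h₁ h₂).congr
    (Eventually.of_forall fun p W => (D_zero p W).symm)⟩
  lin hB hd h := ⟨hk.closed.lin hB hd h.1, fun a => ((h.2 a).left hk hB hd).congr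
    (D_lin h.1.tame _)⟩
  add h h' := ⟨hk.closed.add h.1 h'.1, fun a => ((h.2 a).add hk (h'.2 a)).congr
    (D_add h.1.tame h'.1.tame)⟩
  sum hI h₁ h₂ h := ⟨hk.closed.sum hI h₁ h₂ h.1, fun a => ((h.2 a).sum hk hI h₁ h₁ h₂).congr
    (D_sum h.1.tame)⟩
  comp hB hy h := ⟨hk.closed.comp hB hy.1 h.1, fun a =>
    ((((h.2 a).subst hk hB hy.1).right hk hB hy.1.tame.dimI).add hk
      (OpG.mul hk ((h.2 a).subst hk hB hy.1) (hy.2 a))).congr (D_comp _ hy.1.tame h.1.tame)⟩
theorem expClosed_pre {k : ℕ} (hk : Lvl k) : ExpClosed (@Pre k) := by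
  intro P b ι κ ζ _ _ _ F h
  exact ⟨hk.exp h.1, fun a => (((h.2 a).right hk Poly.norm_inlL h.1.tame.dimI.left).exp hk).congr
    (D_exp h.1.tame)⟩


end Crest.Agent.R285
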