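import Crest.Agent.R285.Taylor
import Crest.Agent.R285.Sob

/-!
# Row 285 (S0430): Rot
Rotations of two Gaussian copies: `rotB = vf hsq J` for the constant antisymmetric
`J (pair x y) = pair y (-x)`.
`exists_fd_exp`: apply `fd_L2` to `φ = f ∘ fstL` (so `Lie rotB φ (pair z g) = fderiv f z g`), transport to
`(γ ζ).prod (γ ζ)`, swap, and integrate out `z` with `L2le.integral_right`.
`exists_resolvent`: put `ψ = Lie rotB (f ∘ fstL)`.  By Stein's identity in `z'`,
`∫ z', ψ (rotX t (pair z z')) = - divs hsq (fun a z => (sin t • ∫ z', fderiv f (cos t • z + sin t • z')) (bas a)) z`,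
and `∫ t in 0..π/2, ψ (rotX t (pair z z')) = f z' - f z`.  Apply `Quad.integral_L2` (kernel `1`) to `ψ` and
integrate out `z'`.
-/

set_option autoImplicit false

open MeasureTheory ProbabilityTheory Filter Topology
open scoped RealInnerProductSpace

noncomputable section

namespace Crest.Agent.R285

variable {ι κ : Type} [Fintype ι] [Fintype κ]

/-- the generator of the rotation as a linear map -/
def rotJ : E (ι ⊕ ι) →L[ℝ] E (ι ⊕ ι) := inlL.comp sndL - inrL.comp fstL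

lemma rotJ_apply (z : E (ι ⊕ ι)) : rotJ z = pair (sndL z) (-fstL z) := by
  simp [rotJ]

lemma rotB_eq : (rotB : E (ι ⊕ ι) → E (ι ⊕ ι)) = rotJ := by
  funext z; rw [rotJ_apply]; rfl

lemma rotJ_rotJ (z : E (ι ⊕ ι)) : rotJ (rotJ z) = -z := by
  rw [rotJ_apply, rotJ_apply, fstL_pair, sndL_pair, ← pair_neg, pair_fst_snd]

lemma adj_rotJ : adj (rotJ : E (ι ⊕ ι) →L[ℝ] E (ι ⊕ ι)) = -rotJ := by
  simp only [rotJ, adj_sub, adj_comp, adj_inlL, adj_inrL, adj_fstL, adj_sndL, neg_sub]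

lemma norm_rotJ_le : ‖(rotJ : E (ι ⊕ ι) →L[ℝ] E (ι ⊕ ι))‖ ≤ 1 := by
  refine ContinuousLinearMap.opNorm_le_bound _ zero_le_one fun z => ?_
  have h1 : ‖rotJ z‖ ^ 2 = ‖z‖ ^ 2 := by
    conv_rhs => rw [← pair_fst_snd z]
    rw [rotJ_apply, norm_sq_pair, norm_sq_pair, norm_neg, add_comm]
  rw [one_mul]
  exact (pow_left_inj₀ (norm_nonneg _) (norm_nonneg _) two_ne_zero).1 h1 |>.le

lemma rotX_eq (t : ℝ) (z : E (ι ⊕ ι)) : rotX t z = Real.cos t • z + Real.sin t • rotJ z := by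
  conv_rhs => rw [rotJ_apply, ← pair_fst_snd z]
  simp only [rotX, pair_smul, pair_add, fstL_pair, sndL_pair, smul_neg, neg_smul]
  rw [add_comm (-(Real.sin t • fstL z))]

lemma isFlow_rot : IsFlow (rotB : E (ι ⊕ ι) → E (ι ⊕ ι)) rotX := by
  refine ⟨?_, fun x => ?_, fun t x => ?_⟩
  · have : Function.uncurry (rotX : ℝ → E (ι ⊕ ι) → E (ι ⊕ ι)) =
        fun p => Real.cos p.1 • p.2 + Real.sin p.1 • rotJ p.2 := by
      funext p; exact rotX_eq p.1 p.2
    rw [this]
    fun_prop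
  · simp [rotX_eq]
  · simp only [rotX_eq, rotB_eq, map_add, map_smul, rotJ_rotJ]
    refine (((Real.hasDerivAt_cos t).smul_const x).add
      ((Real.hasDerivAt_sin t).smul_const (rotJ x))).congr_deriv ?_
    rw [smul_neg, neg_smul, add_comm]

lemma measurePreserving_rotX (t : ℝ) :
    MeasurePreserving (rotX t : E (ι ⊕ ι) → E (ι ⊕ ι)) (γ (ι ⊕ ι)) (γ (ι ⊕ ι)) := by
  have h := measurePreserving_clm
    (T := Real.cos t • ContinuousLinearMap.id ℝ (E (ι ⊕ ι)) + Real.sin t • rotJ) fun y => by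
      simp only [adj_add, adj_smul, adj_id, adj_rotJ, add_apply,
        smul_apply, ContinuousLinearMap.id_apply,
        neg_apply, map_add, map_smul, map_neg, rotJ_rotJ]
      have h2 := Real.cos_sq_add_sin_sq t
      calc _ = (Real.cos t ^ 2 + Real.sin t ^ 2) • y := by module
        _ = y := by rw [h2, one_smul]
  convert h using 1
  funext z
  simp [rotX_eq]

lemma tg_rotB : TG (rotB : E (ι ⊕ ι) → E (ι ⊕ ι)) := by
  rw [rotB_eq]; exact (rotJ : E (ι ⊕ ι) →L[ℝ] E (ι ⊕ ι)).hasTemperateGrowth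

lemma rotB_eq_vf : (rotB : E (ι ⊕ ι) → E (ι ⊕ ι)) = vf hsq fun _ => rotJ := by
  funext x
  rw [vf_const, gradient_hsq, rotB_eq]

lemma rot_fderiv_comp_fstL {f : E ι → E κ} (hf : TG f) (x : E (ι ⊕ ι)) :
    fderiv ℝ (fun z : E (ι ⊕ ι) => f (fstL z)) x = (fderiv ℝ f (fstL x)).comp fstL :=
  ((hf.differentiable (fstL x)).hasFDerivAt.comp x
    (fstL : E (ι ⊕ ι) →L[ℝ] E ι).hasFDerivAt).fderiv

lemma rot_tg_comp_fstL {f : E ι → E κ} (hf : TG f) : TG fun z : E (ι ⊕ ι) => f (fstL z) :=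
  hf.comp' (fstL : E (ι ⊕ ι) →L[ℝ] E ι).hasTemperateGrowth

lemma lie_rotB_fstL {f : E ι → E κ} (hf : TG f) (x : E (ι ⊕ ι)) :
    Lie rotB (fun z : E (ι ⊕ ι) => f (fstL z)) x = fderiv ℝ f (fstL x) (sndL x) := by
  simp [Lie, rot_fderiv_comp_fstL hf, rotB]

theorem exists_rot_bound : ∃ C : ℕ → ℝ, (∀ K, 1 ≤ C K) ∧
    ∀ {ι κ : Type} [Fintype ι] [Fintype κ] (K : ℕ) {f : E ι → E κ} {r μ : ℝ}, 1 ≤ K → TG f →
      0 < r → r ≤ 1 → 0 ≤ μ → Mult r μ (2 * K) (fun x => adj (fderiv ℝ f x)) →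
      L2le (γ (ι ⊕ ι)) ((Lie rotB)^[K] fun z => f (fstL z))
        (C K / r ^ (2 * K) * μ * √(Fintype.card κ)) := by
  obtain ⟨C, hC1, hC⟩ := exists_Lie_bound
  refine ⟨fun K => C K * 2 ^ K * 5 ^ ((2 * K) ^ 2), fun K => ?_, ?_⟩
  · exact one_le_mul_of_one_le_of_one_le
      (one_le_mul_of_one_le_of_one_le (hC1 K) (one_le_pow₀ (by norm_num)))
      (one_le_pow₀ (by norm_num))
  intro ι κ _ _ K f r μ hK hf hr hr1 hμ hM
  have hφ := rot_tg_comp_fstL hf
  have hA : TG fun x : E ι => adj (fderiv ℝ f x) := hf.fderiv'.adj'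
  have h1 : Mult r (5 ^ ((2 * K) ^ 2) * μ) (2 * K)
      fun x : E (ι ⊕ ι) => adj (fderiv ℝ f (0 + fstL x)) :=
    Mult.comp_affine hA hM fstL 0 hr.le (mul_le_of_le_one_right hr.le norm_fstL_le)
  have h2 := Mult.left (hA.comp' (TG.affine (fstL : E (ι ⊕ ι) →L[ℝ] E ι) 0)) h1
    (inlL : E ι →L[ℝ] E (ι ⊕ ι))
  have h3 : Mult r (5 ^ ((2 * K) ^ 2) * μ) (2 * K)
      fun x : E (ι ⊕ ι) => adj (fderiv ℝ (fun z : E (ι ⊕ ι) => f (fstL z)) x) := by
    have h4 := h2.mono hr.le le_rfl (by positivity)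
      (mul_le_of_le_one_left (by positivity) norm_inlL_le) le_rfl
    simpa only [rot_fderiv_comp_fstL hf, adj_comp, adj_fstL, zero_add] using h4
  have hP := (nicePot_hsq (ι := ι ⊕ ι)).wpot.prob
  have h5 : ∫ x, ∑ a, HS r (2 * K) (pd a fun z : E (ι ⊕ ι) => f (fstL z)) x ∂gibbs hsq ≤
      (5 ^ ((2 * K) ^ 2) * μ * √(Fintype.card κ)) ^ 2 := by
    calc _ ≤ ∫ _ : E (ι ⊕ ι), (Fintype.card κ * (5 ^ ((2 * K) ^ 2) * μ) ^ 2 : ℝ) ∂gibbs hsq :=
          integral_mono_of_nonneg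
            (Eventually.of_forall fun x => Finset.sum_nonneg fun a _ => HS_nonneg _ _ _ _)
            (integrable_const _) (Eventually.of_forall fun x => Mult.sum_HS_pd_le hφ h3 x)
      _ = _ := by
          rw [integral_const, probReal_univ, one_smul, mul_pow _ (√(Fintype.card κ : ℝ)),
            Real.sq_sqrt (Nat.cast_nonneg _), mul_comm]
  have h6 := hC K (Φ := hsq) (J := fun _ => (rotJ : E (ι ⊕ ι) →L[ℝ] E (ι ⊕ ι))) (m := 1) (μ := 1) hK nicePot_hsq hr hr1
    zero_le_one zero_le_one (by positivity) (mult_hess_hsq r _) (Function.HasTemperateGrowth.const _)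
    (fun _ => adj_rotJ) (Mult.const _ norm_rotJ_le) hφ h5
  rw [← rotB_eq_vf, ← γ_eq_gibbs] at h6
  refine h6.mono (le_of_eq ?_)
  rw [div_pow, ← pow_mul]
  field_simp
  norm_num
  ring

lemma tg_comp_rot {Y : Type} [NormedAddCommGroup Y] [NormedSpace ℝ Y] {f : E ι → Y} (hf : TG f)
    (c : ℝ) (u : E ι) : TG fun z : E ι => f (c • z + u) :=
  hf.comp' ((TG.const_smul Function.HasTemperateGrowth.id' c).add'
    (Function.HasTemperateGrowth.const u))

lemma tg_comp_rot' {Y : Type} [NormedAddCommGroup Y] [NormedSpace ℝ Y] {f : E ι → Y} (hf : TG f)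
    (c : ℝ) (u : E ι) : TG fun z : E ι => f (u + c • z) := by
  simpa only [add_comm] using tg_comp_rot hf c u

theorem exists_fd_exp : ∃ C : ℕ → ℝ, (∀ K, 1 ≤ C K) ∧ ∀ K : ℕ, 1 ≤ K →
    ∃ c : Fin (K + 1) → ℝ, (∀ l, |c l| ≤ C K) ∧
    ∀ {ι κ : Type} [Fintype ι] [Fintype κ] {f : E ι → E κ} {r μ ρ : ℝ}, TG f →
      0 < r → r ≤ 1 → 0 ≤ μ → 0 < ρ → Mult r μ (2 * K + 2) (fun x => adj (fderiv ℝ f x)) →
      L2le (γ ι) (fun g => ∑ l, (c l / ρ) • (∫ z, f (Real.cos (((l : ℕ) : ℝ) * ρ) • z +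
          Real.sin (((l : ℕ) : ℝ) * ρ) • g) ∂γ ι) - (∫ z, fderiv ℝ f z ∂γ ι) g)
        (C K * (ρ / r ^ 2) ^ K / r ^ 2 * μ * √(Fintype.card κ)) := by
  obtain ⟨C, hC1, hC⟩ := exists_rot_bound
  choose c hc using exists_fd
  have hS : ∀ K, 0 ≤ ∑ l, |c K l| := fun K => Finset.sum_nonneg fun l _ => abs_nonneg _
  have hS' : ∀ K, 0 ≤ ∑ l, |c K l| * ((l : ℕ) : ℝ) ^ (K + 1) := fun K =>
    Finset.sum_nonneg fun l _ => by positivity
  have hC0 : ∀ K, 0 ≤ C K := fun K => zero_le_one.trans (hC1 K)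
  refine ⟨fun K => 1 + ∑ l, |c K l| + (∑ l, |c K l| * ((l : ℕ) : ℝ) ^ (K + 1)) * C (K + 1),
    fun K => ?_, fun K hK => ⟨c K, fun l => ?_, ?_⟩⟩
  · have := mul_nonneg (hS' K) (hC0 (K + 1))
    have := hS K
    linarith
  · have := mul_nonneg (hS' K) (hC0 (K + 1))
    have := Finset.single_le_sum (f := fun l => |c K l|) (fun l _ => abs_nonneg _) (Finset.mem_univ l)
    linarith
  intro ι κ _ _ f r μ ρ hf hr hr1 hμ hρ hM
  have h1 := hC (K + 1) (by omega) hf hr hr1 hμ hM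
  have hR : 0 ≤ C (K + 1) / r ^ (2 * (K + 1)) * μ * √(Fintype.card κ) := by
    have := hC0 (K + 1)
    positivity
  have h2 := fd_L2 isFlow_rot tg_rotB measurePreserving_rotX (rot_tg_comp_fstL hf) hR hK h1 (hc K) hρ
  have h3 := (h2.comp_mp measurePreserving_pair).swap.integral_right
  refine (h3.congr' fun g => ?_).mono ?_
  · simp only [lie_rotB_fstL hf, rotX, fstL_pair, sndL_pair]
    have hi : ∀ l : Fin (K + 1), Integrable (fun z => (c K l / ρ) •
        f (Real.cos (((l : ℕ) : ℝ) * ρ) • z + Real.sin (((l : ℕ) : ℝ) * ρ) • g)) (γ ι) := fun l =>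
      ((tg_comp_rot hf _ _).const_smul _).integrable_γ
    rw [integral_sub (integrable_finsetSum _ fun l _ => hi l)
      (hf.fderiv'.clm_apply (Function.HasTemperateGrowth.const g)).integrable_γ,
      integral_finsetSum _ fun l _ => hi l,
      ContinuousLinearMap.integral_apply hf.fderiv'.integrable_γ]
    simp only [integral_smul]
  · have e : (∑ l, |c K l| * ((l : ℕ) : ℝ) ^ (K + 1)) * ρ ^ K *
        (C (K + 1) / r ^ (2 * (K + 1)) * μ * √(Fintype.card κ)) =
        ((∑ l, |c K l| * ((l : ℕ) : ℝ) ^ (K + 1)) * C (K + 1)) * (ρ / r ^ 2) ^ K / r ^ 2 * μ *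
          √(Fintype.card κ) := by
      rw [div_pow, ← pow_mul]
      field_simp
      ring
    rw [e]
    have := hS K
    gcongr
    linarith

/-- the divergence of an averaged rotated derivative -/
lemma divs_rot {f : E ι → E κ} (hf : TG f) (c s : ℝ) (z : E ι) :
    divs hsq (fun a z => (s • ∫ z', fderiv ℝ f (c • z + s • z') ∂γ ι) (bas a)) z =
      -∫ z', fderiv ℝ f (c • z + s • z') (-s • z + c • z') ∂γ ι := by
  have hI : ∀ z : E ι, Integrable (fun z' => fderiv ℝ f (c • z + s • z')) (γ ι) := fun z =>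
    (tg_comp_rot' hf.fderiv' s (c • z)).integrable_γ
  have hu : ∀ a, (fun z => (s • ∫ z', fderiv ℝ f (c • z + s • z') ∂γ ι) (bas a)) =
      fun z => s • ∫ z', pd a f (c • z + s • z') ∂γ ι := fun a => by
    funext z
    rw [smul_apply, ContinuousLinearMap.integral_apply (hI z)]
    rfl
  let A : E (ι ⊕ ι) →L[ℝ] E ι := c • fstL + s • sndL
  have hA : ∀ x y : E ι, 0 + A (pair x y) = c • x + s • y := fun x y => by simp [A]
  have hF : ∀ a, TG fun w => pd a f (0 + A w) := fun a => (hf.pd' a).comp' (TG.affine A 0)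
  have hpd : ∀ a, pd a (fun z => s • ∫ z', pd a f (c • z + s • z') ∂γ ι) z =
      (s * c) • ∫ z', pd a (pd a f) (c • z + s • z') ∂γ ι := fun a => by
    have h1 := (hF a).integral_right
    have h2 := (hF a).pd_integral a
    simp only [hA] at h1 h2
    rw [pd_const_smul a s h1.differentiable, h2, pd_comp_clm _ (hf.pd' a).differentiable]
    simp only [hA]
    have h3 : A (bas (Sum.inl a)) = c • bas a := by simp [A, bas_inl]
    simp only [h3, map_smul, integral_smul, smul_smul]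
    rfl
  have hst : ∀ a, ∫ z', z' a • pd a f (c • z + s • z') ∂γ ι =
      s • ∫ z', pd a (pd a f) (c • z + s • z') ∂γ ι := fun a => by
    have h1 := stein (tg_comp_rot' (hf.pd' a) s (c • z)) (bas a)
    simp only [inner_bas_left] at h1
    rw [← h1, ← integral_smul]
    refine integral_congr_ae (Eventually.of_forall fun z' => ?_)
    have h2 := congrFun (pd_comp_clm a (hf.pd' a).differentiable
      (s • ContinuousLinearMap.id ℝ (E ι)) (c • z)) z'
    simp only [smul_apply, ContinuousLinearMap.id_apply, map_smul] at h2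
    exact h2
  have hi1 : ∀ a, Integrable (fun z' => pd a f (c • z + s • z')) (γ ι) := fun a =>
    (tg_comp_rot' (hf.pd' a) s (c • z)).integrable_γ
  have hi2 : ∀ a, Integrable (fun z' : E ι => z' a • pd a f (c • z + s • z')) (γ ι) := fun a =>
    ((TG.coord Function.HasTemperateGrowth.id' a).smul'
      (tg_comp_rot' (hf.pd' a) s (c • z))).integrable_γ
  have hR : ∀ z' : E ι, fderiv ℝ f (c • z + s • z') (-s • z + c • z') =
      ∑ a, ((-s * z a) • pd a f (c • z + s • z') + c • z' a • pd a f (c • z + s • z')) := fun z' => by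
    rw [fderiv_apply_eq_sum_pd]
    refine Finset.sum_congr rfl fun a _ => ?_
    simp only [PiLp.add_apply, PiLp.smul_apply, smul_eq_mul, add_smul, smul_smul]
  have hi3 : ∀ a, Integrable (fun z' => (-s * z a) • pd a f (c • z + s • z')) (γ ι) := fun a =>
    (hi1 a).smul (-s * z a)
  have hi4 : ∀ a, Integrable (fun z' : E ι => c • z' a • pd a f (c • z + s • z')) (γ ι) := fun a =>
    (hi2 a).smul c
  have hi5 : ∀ a, Integrable (fun z' : E ι => (-s * z a) • pd a f (c • z + s • z') +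
      c • z' a • pd a f (c • z + s • z')) (γ ι) := fun a => (hi3 a).add (hi4 a)
  simp only [hR]
  rw [integral_finsetSum _ fun a _ => hi5 a, ← Finset.sum_neg_distrib]
  simp only [divs, gradient_hsq]
  refine Finset.sum_congr rfl fun a _ => ?_
  rw [congrFun (hu a) z, hu a, hpd a, integral_add (hi3 a) (hi4 a), integral_smul,
    integral_smul, hst a]
  module

lemma rot_divs_sum_smul {I Y : Type} [Fintype I] [NormedAddCommGroup Y] [NormedSpace ℝ Y]
    (Φ : E ι → ℝ) {u : I → ι → E ι → Y} (hu : ∀ l a, TG (u l a)) (w : I → ℝ) (z : E ι) :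
    divs Φ (fun a z => ∑ l, w l • u l a z) z = ∑ l, w l • divs Φ (u l) z := by
  simp only [divs, Finset.smul_sum]
  rw [Finset.sum_comm]
  refine Finset.sum_congr rfl fun a _ => ?_
  rw [pd_sum a _ fun l _ => ((hu l a).const_smul (w l)).differentiable, ← Finset.sum_sub_distrib]
  refine Finset.sum_congr rfl fun l _ => ?_
  rw [pd_const_smul a _ (hu l a).differentiable]
  module

theorem exists_resolvent : ∃ C : ℕ → ℝ, (∀ K, 1 ≤ C K) ∧
    ∀ (K : ℕ) {ρ CQ : ℝ} (Q : Quad K (Real.pi / 2) ρ CQ) {ι κ : Type} [Fintype ι] [Fintype κ]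
      {f : E ι → E κ} {r μ : ℝ}, 1 ≤ K → TG f → 0 < r → r ≤ 1 → 0 ≤ μ → 0 ≤ ρ →
      Mult r μ (2 * K + 2) (fun x => adj (fderiv ℝ f x)) →
      L2le (γ ι) (fun z => divs hsq (fun a z => (∑ l,
          ((∫ s in (0 : ℝ)..(Real.pi / 2), Q.ℓ l s) * Real.sin (Q.t l)) •
            ∫ z', fderiv ℝ f (Real.cos (Q.t l) • z + Real.sin (Q.t l) • z') ∂γ ι) (bas a)) z -
          (f z - ∫ z', f z' ∂γ ι))
        (C K * (1 + CQ) * (ρ / r ^ 2) ^ K / r ^ 2 * μ * √(Fintype.card κ)) := by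
  obtain ⟨C, hC1, hC⟩ := exists_rot_bound
  have hC0 : ∀ K, 0 ≤ C K := fun K => zero_le_one.trans (hC1 K)
  refine ⟨fun K => 2 * C (K + 1), fun K => by have := hC1 (K + 1); linarith, ?_⟩
  intro K ρ CQ Q ι κ _ _ f r μ hK hf hr hr1 hμ hρ hM
  have h1 := hC (K + 1) (by omega) hf hr hr1 hμ hM
  have hR : 0 ≤ C (K + 1) / r ^ (2 * (K + 1)) * μ * √(Fintype.card κ) := by
    have := hC0 (K + 1)
    positivity
  rw [Function.iterate_succ_apply] at h1
  have hφ := rot_tg_comp_fstL hf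
  have hπ : Real.pi / 2 ∈ Set.Icc 0 (Real.pi / 2) := ⟨by positivity, le_rfl⟩
  have h2 := Q.integral_L2 isFlow_rot tg_rotB measurePreserving_rotX (tg_rotB.lie hφ) hR h1
    (k := fun _ => 1) continuous_const (fun _ => by simp) hπ
  simp only [one_smul, one_mul, ← isFlow_rot.sub_eq_integral tg_rotB hφ] at h2
  have h3 := (h2.comp_mp measurePreserving_pair).integral_right
  refine (h3.congr' fun z => ?_).mono ?_
  · simp only [lie_rotB_fstL hf, rotX, fstL_pair, sndL_pair, Real.cos_pi_div_two,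
      Real.sin_pi_div_two, Real.cos_zero, Real.sin_zero, zero_smul, one_smul, zero_add, add_zero]
    have hi : ∀ l : Fin Q.N, Integrable (fun z' => (∫ s in (0 : ℝ)..(Real.pi / 2), Q.ℓ l s) •
        fderiv ℝ f (Real.cos (Q.t l) • z + Real.sin (Q.t l) • z')
          (-Real.sin (Q.t l) • z + Real.cos (Q.t l) • z')) (γ ι) := fun l =>
      (((tg_comp_rot' hf.fderiv' _ _).clm_apply
        (tg_comp_rot' Function.HasTemperateGrowth.id' _ _)).const_smul _).integrable_γ
    have hT : ∀ (l : Fin Q.N) (a : ι), TG fun z => (Real.sin (Q.t l) •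
        ∫ z', fderiv ℝ f (Real.cos (Q.t l) • z + Real.sin (Q.t l) • z') ∂γ ι) (bas a) := by
      intro l a
      have h4 := (hf.fderiv'.comp' (Real.cos (Q.t l) • fstL + Real.sin (Q.t l) • sndL :
        E (ι ⊕ ι) →L[ℝ] E ι).hasTemperateGrowth).integral_right
      simp only [add_apply, smul_apply, fstL_pair,
        sndL_pair] at h4
      exact (h4.const_smul _).clm_apply (Function.HasTemperateGrowth.const _)
    have h5 := rot_divs_sum_smul hsq hT (fun l => ∫ s in (0 : ℝ)..(Real.pi / 2), Q.ℓ l s) z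
    simp only [divs_rot hf] at h5
    have hi' : Integrable (fun z' => f z' - f z) (γ ι) := hf.integrable_γ.sub (integrable_const _)
    rw [integral_sub hi' (integrable_finsetSum _ fun l _ => hi l), integral_finsetSum _ fun l _ => hi l,
      integral_sub hf.integrable_γ (integrable_const _), integral_const, probReal_univ, one_smul]
    simp only [integral_smul, mul_smul, sum_apply]
    simp only [smul_apply] at h5 ⊢
    rw [h5]
    simp only [smul_neg, Finset.sum_neg_distrib]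
    abel
  · have e : 2 * C (K + 1) * (1 + CQ) * (ρ / r ^ 2) ^ K / r ^ 2 * μ * √(Fintype.card κ) =
        2 * ((1 + CQ) * ρ ^ K * (C (K + 1) / r ^ (2 * (K + 1)) * μ * √(Fintype.card κ))) := by
      rw [div_pow, ← pow_mul]
      field_simp
      ring
    rw [e]
    have := Q.nonneg
    have := Real.pi_le_four
    gcongr
    linarith

end Crest.Agent.R285
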