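import Crest.Agent.R285.Core2
import Crest.Agent.R285.PreR
import Crest.Agent.R285.Rot
import Crest.Agent.R285.Picard

/-!
# Row 285 (S0430): Core3
The compensation lemma for families.
1. Resolvent field: with `c` from `Tame F`, `K' p = ν a + 1`, `ρ p = θ^(2c+1)`, a scheme
`Q' p : Quad (K' p) (π/2) (ρ p) _` (`Classical.choice`), put
`A p W (pair x z) = ∑ l, (ω l * sin (t l)) • ∫ z', (D F (pair x (cos t_l • z + sin t_l • z'))).comp inrL`;
it is `OpG k b a` by `OpG.subst_lin/right/exp/smul/sum`; let `S` be a surrogate for its adjoint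
(input `pair (pair x z) g`).  2. Fixed scheme `Q : Quad (a+1) 1 1 _`, `K = Q.N`, `w l = ∫ ℓ l`.
3. `g (pair x (pair z g')) = pair (-S (pair (pair x z) g')) (F (pair x z) - ∫ F (pair x ·))` is `Good k`;
`sm (p,i) = fstL ∘ pic g (inlL ∘ fstL) inrL (fun _ => sndL) w (a+1) i` (`Closed.pic'`, reindexed along
`P × Fin K → Σ p, Fin K`).  4. For fixed `W, x`: `exists_resolvent`, `core_flow` (with `Mult.pair_right`),
`picard_L2` with `X o = pair x o`, `Near.of_L2le`, `Near.trans`.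
-/

set_option autoImplicit false

open MeasureTheory ProbabilityTheory Filter Topology
open scoped RealInnerProductSpace

noncomputable section

namespace Crest.Agent.R285

variable {P P' : Type} {b : P → Base} {ι κ κ' ζ α β α' β' I : P → Type} [∀ p, Fintype (ι p)]
  [∀ p, Fintype (κ p)] [∀ p, Fintype (κ' p)] [∀ p, Fintype (ζ p)] [∀ p, Fintype (α p)]
  [∀ p, Fintype (β p)] [∀ p, Fintype (α' p)] [∀ p, Fintype (β' p)] [∀ p, Fintype (I p)]

lemma core3_poly_pow {x : P → ℝ} (hx : Poly b x) (n : ℕ) : Poly b fun p => x p ^ n := by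
  induction n with
  | zero => simpa using Poly.const (b := b) 1
  | succ n ih => simpa [pow_succ] using ih.mul hx

/-- the rotation map `((x, z), z') ↦ (x, cos t • z + sin t • z')` -/
def core3_rot (ι ζ : Type) [Fintype ι] [Fintype ζ] (t : ℝ) :
    E ((ι ⊕ ζ) ⊕ ζ) →L[ℝ] E (ι ⊕ ζ) :=
  inlL.comp (fstL.comp fstL) + inrL.comp (Real.cos t • sndL.comp fstL + Real.sin t • sndL)

lemma core3_rot_pair {ι ζ : Type} [Fintype ι] [Fintype ζ] (t : ℝ) (x : E ι) (z z' : E ζ) :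
    core3_rot ι ζ t (pair (pair x z) z') = pair x (Real.cos t • z + Real.sin t • z') := by
  simp [core3_rot]

lemma core3_norm_comp_le {α β κ : Type} [Fintype α] [Fintype β] [Fintype κ]
    {M : E β →L[ℝ] E κ} {N : E α →L[ℝ] E β} {m n : ℝ} (hM : ‖M‖ ≤ m) (hN : ‖N‖ ≤ n) :
    ‖M.comp N‖ ≤ m * n :=
  (ContinuousLinearMap.opNorm_comp_le _ _).trans
    (mul_le_mul hM hN (norm_nonneg _) ((norm_nonneg _).trans hM))

lemma core3_norm_rot_le (ι ζ : Type) [Fintype ι] [Fintype ζ] (t : ℝ) :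
    ‖core3_rot ι ζ t‖ ≤ 3 := by
  have h1 : ‖(inlL.comp (fstL.comp fstL) : E ((ι ⊕ ζ) ⊕ ζ) →L[ℝ] E (ι ⊕ ζ))‖ ≤ 1 * (1 * 1) :=
    core3_norm_comp_le norm_inlL_le (core3_norm_comp_le norm_fstL_le norm_fstL_le)
  have h2 : ‖(Real.cos t • sndL.comp fstL : E ((ι ⊕ ζ) ⊕ ζ) →L[ℝ] E ζ)‖ ≤ 1 * (1 * 1) := by
    rw [norm_smul]
    exact mul_le_mul (Real.abs_cos_le_one t) (core3_norm_comp_le norm_sndL_le norm_fstL_le)
      (norm_nonneg _) zero_le_one
  have h3 : ‖(Real.sin t • sndL : E ((ι ⊕ ζ) ⊕ ζ) →L[ℝ] E ζ)‖ ≤ 1 * 1 := by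
    rw [norm_smul]
    exact mul_le_mul (Real.abs_sin_le_one t) norm_sndL_le (norm_nonneg _) zero_le_one
  have h4 := core3_norm_comp_le (norm_inrL_le (ι := ι) (κ := ζ))
    ((norm_add_le _ _).trans (add_le_add h2 h3))
  exact (norm_add_le _ _).trans ((add_le_add h1 h4).trans (by norm_num))

/-- Step 1: the resolvent field. -/
lemma core3_resolvent {k : ℕ} (hk : Lvl k) {F : Fam b (fun p => ι p ⊕ ζ p) κ} (hF : Pre k b F)
    (a : ℕ) : ∃ A : OFam b (fun p => ι p ⊕ ζ p) ζ κ, OpG k b a A ∧ ∃ c : ℕ, ∀ᶠ p in ev b, ∀ W x,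
      L2le (γ (ζ p)) (fun z => divs hsq (fun i z => A p W (pair x z) (bas i)) z -
        (F p W (pair x z) - ∫ z', F p W (pair x z') ∂γ (ζ p))) ((b p).Λ ^ c * (b p).e a) := by
  obtain ⟨CQ, hCQ1, hCQ⟩ := exists_quad
  obtain ⟨CR, hCR1, hCR⟩ := exists_resolvent
  have hT : Tame b F := hF.1.tame
  obtain ⟨c, hc⟩ := hT.op.mult
  have hpi : (0 : ℝ) < Real.pi / 2 := by positivity
  let Q : ∀ p, Quad ((b p).ν * a + 1) (Real.pi / 2) ((b p).θ ^ (2 * c + 1))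
      (CQ ((b p).ν * a + 1)) := fun p =>
    Classical.choice (hCQ _ _ _ (Nat.le_add_left _ _) hpi (pow_pos (b p).hθ _))
  let ω : ∀ p, Fin (Q p).N → ℝ := fun p l =>
    (∫ s in (0 : ℝ)..(Real.pi / 2), (Q p).ℓ l s) * Real.sin ((Q p).t l)
  have hdI : Dim b fun p => ι p ⊕ ζ p := hT.dimI
  have hdζ : Dim b ζ := hdI.right
  have hdκ : Dim b κ := hT.dimO
  have hN : Poly b fun p => (Fintype.card (Fin (Q p).N) : ℝ) := by
    refine ((Poly.nu fun n => ((n * a + 1 : ℕ) : ℝ)).mul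
      (((Poly.const (Real.pi / 2)).mul (Poly.Λ_pow (2 * c + 1))).add (Poly.const 1))).of_le'
      (fun _ => Nat.cast_nonneg _) fun p => ?_
    have h := (Q p).card_le
    rw [Fintype.card_fin]
    refine h.trans (le_of_eq ?_)
    rw [div_eq_mul_inv (Real.pi / 2), ← inv_pow]
    rfl
  have hω : Poly (fun q : Σ p, Fin (Q p).N => b q.1) fun q => ω q.1 q.2 := by
    refine (Poly.nu (b := fun q : Σ p, Fin (Q p).N => b q.1)
      fun n => Real.pi / 2 * CQ (n * a + 1)).of_le (Eventually.of_forall fun q => ?_)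
    have h := (Q q.1).sum_abs_weight_le (k := fun _ => 1) continuous_const (by simp)
      (t := Real.pi / 2) ⟨hpi.le, le_rfl⟩
    simp only [one_mul] at h
    have h2 := Finset.single_le_sum
      (f := fun l => |∫ s in (0 : ℝ)..(Real.pi / 2), (Q q.1).ℓ l s|)
      (fun l _ => abs_nonneg _) (Finset.mem_univ q.2)
    refine le_trans ?_ (le_abs_self _)
    simp only [ω, abs_mul]
    exact (mul_le_of_le_one_right (abs_nonneg _) (Real.abs_sin_le_one _)).trans (h2.trans h)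
  have h0 := OpG.reindex hk (fun q : Σ p, Fin (Q p).N => q.1) (hF.2 a)
  have h1 := OpG.subst_lin hk (ι := fun q : Σ p, Fin (Q p).N => (ι q.1 ⊕ ζ q.1) ⊕ ζ q.1)
    (B := fun q => core3_rot (ι q.1) (ζ q.1) ((Q q.1).t q.2))
    (Poly.norm_of_le fun _ => core3_norm_rot_le _ _ _)
    ((hdI.sum hdζ).reindex (fun q : Σ p, Fin (Q p).N => q.1)) h0
  have h2 := OpG.right hk (α' := fun q : Σ p, Fin (Q p).N => ζ q.1) (B := fun _ => inrL)
    Poly.norm_inrL (hdζ.reindex (fun q : Σ p, Fin (Q p).N => q.1)) h1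
  have h3 := OpG.smul hk hω (OpG.exp hk h2)
  have h4 := OpG.sum hk hN hdI hdζ hdκ h3
  refine ⟨_, h4, ?_⟩
  obtain ⟨cκ, hcκ⟩ := hdκ.sqrt_le
  obtain ⟨c₁, hc₁⟩ := (((Poly.nu (b := b) fun n => CR (n * a + 1) * (1 + CQ (n * a + 1))).mul
    (Poly.Λ_pow (3 * c))).mul (Poly.Λ_pow cκ)).exists_le
  refine ⟨c₁, ?_⟩
  filter_upwards [hc fun n => 2 * (n * a + 1) + 2, hT.tg, hcκ, hc₁, ev_δ_le b one_pos]
    with p hm htg hκ h₁ hδ W x
  have hθ := (b p).hθ
  have hΛ := (b p).Λ_pos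
  have hδ0 := (b p).δ_pos
  have hf : TG fun z => F p W (pair x z) := (htg W).pair_right x
  have hM : Mult ((b p).θ ^ c) ((b p).δ * (b p).Λ ^ c) (2 * ((b p).ν * a + 1) + 2)
      fun z => adj (fderiv ℝ (fun z => F p W (pair x z)) z) := by
    have htg' : TG fun y => adj (fderiv ℝ (F p W) y) := (htg W).fderiv'.adj'
    have h5 := (((hm W).2.pair_right htg' x).left (htg'.pair_right x) sndL).mono
      (pow_pos hθ c).le le_rfl (by positivity)
      (mul_le_of_le_one_left (by positivity) norm_sndL_le) le_rfl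
    convert h5 using 2 with z
    rw [(htg W).fderiv_pair_right, adj_comp, adj_inrL]
  have h6 := hCR _ (Q p) (Nat.le_add_left _ _) hf (pow_pos hθ c) ((b p).θ_pow_le_one c)
    (by positivity) (pow_pos hθ _).le hM
  refine (h6.congr' fun z => ?_).mono ?_
  · simp only [(htg W).fderiv_pair_right, core3_rot_pair, Fam.D, ω]
  · have e1 : (b p).θ ^ (2 * c + 1) / ((b p).θ ^ c) ^ 2 = (b p).θ := by
      field_simp; ring
    have e2 : (((b p).θ ^ c) ^ 2)⁻¹ * (b p).Λ ^ c = (b p).Λ ^ (3 * c) := by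
      rw [← inv_pow, ← inv_pow]; change ((b p).Λ ^ c) ^ 2 * _ = _; ring
    have e3 : (b p).θ ^ ((b p).ν * a + 1) ≤ (b p).δ ^ a :=
      ((b p).θ_pow_anti (Nat.le_add_right _ _)).trans ((b p).θ_pow_le_δ_pow a)
    have hC : 0 ≤ CR ((b p).ν * a + 1) * (1 + CQ ((b p).ν * a + 1)) :=
      mul_nonneg (zero_le_one.trans (hCR1 _)) (by linarith [hCQ1 ((b p).ν * a + 1)])
    rw [e1]
    calc CR ((b p).ν * a + 1) * (1 + CQ ((b p).ν * a + 1)) * (b p).θ ^ ((b p).ν * a + 1) /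
          ((b p).θ ^ c) ^ 2 * ((b p).δ * (b p).Λ ^ c) * √(Fintype.card (κ p))
        = CR ((b p).ν * a + 1) * (1 + CQ ((b p).ν * a + 1)) *
          ((((b p).θ ^ c) ^ 2)⁻¹ * (b p).Λ ^ c) *
          ((b p).θ ^ ((b p).ν * a + 1) * (b p).δ * √(Fintype.card (κ p))) := by ring
      _ ≤ CR ((b p).ν * a + 1) * (1 + CQ ((b p).ν * a + 1)) * (b p).Λ ^ (3 * c) *
          ((b p).δ ^ a * 1 * ((b p).Λ ^ cκ * √((b p).d : ℝ))) := by
          rw [e2]; gcongr
      _ = (CR ((b p).ν * a + 1) * (1 + CQ ((b p).ν * a + 1)) * (b p).Λ ^ (3 * c) *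
          (b p).Λ ^ cκ) * (b p).e a := by rw [Base.e]; ring
      _ ≤ (b p).Λ ^ c₁ * (b p).e a := mul_le_mul_of_nonneg_right h₁ ((b p).e_pos a).le

/-- `(x, (z, g)) ↦ ((x, z), g)` -/
def core3_assoc (ι ζ κ : Type) [Fintype ι] [Fintype ζ] [Fintype κ] :
    E (ι ⊕ (ζ ⊕ κ)) →L[ℝ] E ((ι ⊕ ζ) ⊕ κ) :=
  inlL.comp (inlL.comp fstL + inrL.comp (fstL.comp sndL)) + inrL.comp (sndL.comp sndL)

lemma core3_assoc_pair {ι ζ κ : Type} [Fintype ι] [Fintype ζ] [Fintype κ] (x : E ι)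
    (o : E (ζ ⊕ κ)) : core3_assoc ι ζ κ (pair x o) = pair (pair x (fstL o)) (sndL o) := by
  simp [core3_assoc]

lemma core3_norm_assoc_le (ι ζ κ : Type) [Fintype ι] [Fintype ζ] [Fintype κ] :
    ‖core3_assoc ι ζ κ‖ ≤ 3 := by
  have h1 : ‖(inlL.comp fstL : E (ι ⊕ (ζ ⊕ κ)) →L[ℝ] E (ι ⊕ ζ))‖ ≤ 1 * 1 :=
    core3_norm_comp_le norm_inlL_le norm_fstL_le
  have h2 : ‖(inrL.comp (fstL.comp sndL) : E (ι ⊕ (ζ ⊕ κ)) →L[ℝ] E (ι ⊕ ζ))‖ ≤ 1 * (1 * 1) :=
    core3_norm_comp_le norm_inrL_le (core3_norm_comp_le norm_fstL_le norm_sndL_le)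
  have h3 : ‖(inrL.comp (sndL.comp sndL) : E (ι ⊕ (ζ ⊕ κ)) →L[ℝ] E ((ι ⊕ ζ) ⊕ κ))‖ ≤
      1 * (1 * 1) :=
    core3_norm_comp_le norm_inrL_le (core3_norm_comp_le norm_sndL_le norm_sndL_le)
  have h4 := core3_norm_comp_le (norm_inlL_le (ι := ι ⊕ ζ) (κ := κ))
    ((norm_add_le _ _).trans (add_le_add h1 h2))
  exact (norm_add_le _ _).trans ((add_le_add h4 h3).trans (by norm_num))

/-- Step 4 for a single instance: replacing the flow by Picard iterates. -/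
lemma core3_inst {ι ζ κ : Type} [Fintype ι] [Fintype ζ] [Fintype κ] {N : ℕ} {w : Fin N → ℝ}
    {ww : Fin N → Fin N → ℝ} {F : E (ι ⊕ ζ) → E κ} {g : E (ι ⊕ (ζ ⊕ κ)) → E (ζ ⊕ κ)}
    {y : Fin N → E (ζ ⊕ κ) → E (ζ ⊕ κ)} {m : Measure (E κ)} {L LF c η R η' : ℝ} (x : E ι)
    (hL : 0 ≤ L) (hLF : 0 ≤ LF) (hc : 0 ≤ c) (hη : 0 ≤ η) (hR : 0 ≤ R) (hg : Lip L g)
    (hF : Lip LF F) (hw : ∑ l, |w l| ≤ c) (hww : ∀ i, ∑ l, |ww i l| ≤ c) (hcL : c * L ≤ 1 / 2)
    (hy : ∀ i, Continuous (y i))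
    (h1 : ∀ i, L2le (γ (ζ ⊕ κ)) (fun o => y i o - o - ∑ l, ww i l • g (pair x (y l o))) η)
    (h2 : ∀ i, L2le (γ (ζ ⊕ κ)) (fun o => y i o - o) R)
    (h3 : Near ((γ (ζ ⊕ κ)).map fun o => sndL o + ∑ l, w l • F (pair x (fstL (y l o)))) m η')
    (r : ℕ) :
    Near ((γ (ζ ⊕ κ)).map fun o => sndL o + ∑ i, w i • F (pair x (fstL o +
      fstL (pic g (inlL.comp fstL) inrL (fun _ => sndL) ww r i (pair x o))))) m
      (c * (LF * (2 * η + (c * L) ^ r * R)) + η') := by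
  have hXc : Continuous fun o : E (ζ ⊕ κ) => pair x o := (Lip.pair_right x).continuous
  have hFc := hF.continuous
  have hpic : ∀ i, Continuous fun o : E (ζ ⊕ κ) =>
      pic g (inlL.comp fstL) inrL (fun _ => sndL) ww r i (pair x o) := fun i =>
    (continuous_pic hg.continuous _ _ _ _ r i).comp hXc
  have hP := fun i => picard_L2 (μ := γ (ζ ⊕ κ)) (A := inlL.comp fstL) (C := inrL)
    (lin := fun _ => sndL) (w := ww) (X := fun o => pair x o) (x := y) hL hc hη hR hg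
    norm_inrL_le hww hcL hXc.aestronglyMeasurable (fun i => (hy i).aestronglyMeasurable)
    (fun i => (h1 i).congr' fun o => by simp) (fun i => (h2 i).congr' fun o => by simp) r i
  have hE : 0 ≤ 2 * η + (c * L) ^ r * R := by positivity
  have c1 : ∀ i, Continuous fun o : E (ζ ⊕ κ) => F (pair x (fstL o +
      fstL (pic g (inlL.comp fstL) inrL (fun _ => sndL) ww r i (pair x o)))) := fun i =>
    hFc.comp ((Lip.pair_right x).continuous.comp
      (fstL.continuous.add (fstL.continuous.comp (hpic i))))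
  have c2 : ∀ i, Continuous fun o : E (ζ ⊕ κ) => F (pair x (fstL (y i o))) := fun i =>
    hFc.comp ((Lip.pair_right x).continuous.comp (fstL.continuous.comp (hy i)))
  have hD : ∀ i, L2le (γ (ζ ⊕ κ)) (fun o => F (pair x (fstL o +
      fstL (pic g (inlL.comp fstL) inrL (fun _ => sndL) ww r i (pair x o)))) -
      F (pair x (fstL (y i o)))) (LF * (2 * η + (c * L) ^ r * R)) := fun i => by
    refine (hP i).of_norm_le ((c1 i).sub (c2 i)).aestronglyMeasurable hLF fun o => ?_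
    refine (hF _ _).trans (mul_le_mul_of_nonneg_left ?_ hLF)
    rw [pair_sub, sub_self, norm_pair_zero_left, norm_sub_rev, ← map_add, ← map_sub]
    refine (norm_fstL_apply_le _).trans (le_of_eq ?_)
    rw [sndL_pair, sub_sub]
  have c3 : Continuous fun o : E (ζ ⊕ κ) => sndL o + ∑ i, w i • F (pair x (fstL o +
      fstL (pic g (inlL.comp fstL) inrL (fun _ => sndL) ww r i (pair x o)))) :=
    sndL.continuous.add (continuous_finsetSum _ fun i _ => (c1 i).const_smul (w i))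
  have c4 : Continuous fun o : E (ζ ⊕ κ) => sndL o + ∑ i, w i • F (pair x (fstL (y i o))) :=
    sndL.continuous.add (continuous_finsetSum _ fun i _ => (c2 i).const_smul (w i))
  refine Near.trans (Near.of_L2le c3.measurable.aemeasurable c4.measurable.aemeasurable
    (by positivity) ?_) h3
  refine (L2le.sum_smul hD (by positivity) hw).congr' fun o => ?_
  simp only [smul_sub, Finset.sum_sub_distrib]
  abel

theorem core {k : ℕ} (hk : Lvl k) {F : Fam b (fun p => ι p ⊕ ζ p) κ} (hF : Pre k b F) (a : ℕ) :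
    ∃ (K : ℕ) (w : Fin K → ℝ)
      (sm : Fam (fun p : P × Fin K => b p.1) (fun p => ι p.1 ⊕ (ζ p.1 ⊕ κ p.1)) fun p => ζ p.1),
      Good k (fun p : P × Fin K => b p.1) sm ∧ ∃ c : ℕ, ∀ᶠ p in ev b, ∀ W x,
        Near ((γ (ζ p ⊕ κ p)).map fun o =>
            sndL o + ∑ i, w i • F p W (pair x (fstL o + sm (p, i) W (pair x o))))
          (gs (∫ z, F p W (pair x z) ∂γ (ζ p)) 1) ((b p).Λ ^ c * (b p).e a) := by
  obtain ⟨CQ, hCQ1, hCQ⟩ := exists_quad
  obtain ⟨CF, hCF1, hCF⟩ := core_flow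
  obtain ⟨A, hA, cR, hcR⟩ := core3_resolvent hk hF a
  obtain ⟨S, hS, cS, hcS⟩ := hA.opT
  obtain ⟨cA, hcA⟩ := hA.tame.mult
  obtain ⟨Q⟩ := hCQ (a + 1) 1 1 (Nat.le_add_left _ _) one_pos one_pos
  have hT : Tame b F := hF.1.tame
  have hdI : Dim b fun p => ι p ⊕ ζ p := hT.dimI
  have hdι : Dim b ι := hdI.left
  have hdζ : Dim b ζ := hdI.right
  have hdκ : Dim b κ := hT.dimO
  have hdX : Dim b fun p => ι p ⊕ (ζ p ⊕ κ p) := hdι.sum (hdζ.sum hdκ)
  have hcl := hk.closed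
  -- the vector field
  let g : Fam b (fun p => ι p ⊕ (ζ p ⊕ κ p)) (fun p => ζ p ⊕ κ p) := fun p W Y =>
    pair (-S p W (core3_assoc (ι p) (ζ p) (κ p) Y))
      (F p W ((fstL.comp (core3_assoc (ι p) (ζ p) (κ p))) Y) -
        ∫ z, F p W (pair (fstL Y) z) ∂γ (ζ p))
  have hass : Poly b fun p => ‖core3_assoc (ι p) (ζ p) (κ p)‖ :=
    Poly.norm_of_le fun _ => core3_norm_assoc_le _ _ _
  have hg : Good k b g :=
    hcl.pair' (hcl.neg (hcl.comp_lin hass hdX hS))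
      (hcl.sub (hcl.comp_lin (Poly.norm_fstL.norm_comp hass) hdX hF.1)
        (hcl.comp_lin (B := fun p => (fstL : E (ι p ⊕ (ζ p ⊕ κ p)) →L[ℝ] E (ι p)))
          Poly.norm_fstL hdX (hk.exp hF.1)))
  let ww : Fin Q.N → Fin Q.N → ℝ := fun i l => ∫ s in (0 : ℝ)..Q.t i, Q.ℓ l s
  let w : Fin Q.N → ℝ := fun l => ∫ s in (0 : ℝ)..1, Q.ℓ l s
  have hsum : ∀ t ∈ Set.Icc (0 : ℝ) 1, ∑ l, |∫ s in (0 : ℝ)..t, Q.ℓ l s| ≤ CQ (a + 1) :=
    fun t ht => by simpa using Q.sum_abs_weight_le (k := fun _ => 1) continuous_const (by simp) ht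
  have hww : ∀ i, ∑ l, |ww i l| ≤ CQ (a + 1) := fun i => hsum _ (Q.t_mem i)
  have hw : ∑ l, |w l| ≤ CQ (a + 1) := hsum 1 ⟨zero_le_one, le_rfl⟩
  have hpic := hcl.pic' (I := fun _ => Fin Q.N) (g := g)
    (A := fun p => (inlL.comp fstL : E (ι p ⊕ (ζ p ⊕ κ p)) →L[ℝ] E (ι p ⊕ (ζ p ⊕ κ p))))
    (C := fun _ => inrL) (lin := fun _ _ => sndL) (w := fun _ => ww) (Poly.const _) hdX
    (Poly.norm_inlL.norm_comp Poly.norm_fstL) Poly.norm_inrL
    ⟨0, Eventually.of_forall fun p _ => by simpa using norm_sndL_le⟩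
    ⟨1, (ev_const' b (CQ (a + 1))).mono fun p hp i l => by
      rw [pow_one]
      exact ((Finset.single_le_sum (f := fun l => |ww i l|) (fun l _ => abs_nonneg _)
        (Finset.mem_univ l)).trans (hww i)).trans hp⟩ hg a
  have hsm := hcl.lin (B := fun p : P × Fin Q.N => (fstL : E (ζ p.1 ⊕ κ p.1) →L[ℝ] E (ζ p.1)))
    Poly.norm_fstL (hdζ.reindex fun p : P × Fin Q.N => p.1)
    (hcl.reindex (fun p : P × Fin Q.N => (⟨p.1, p.2⟩ : Σ _ : P, Fin Q.N)) hpic)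
  refine ⟨Q.N, w, _, hsm, ?_⟩
  obtain ⟨cκ, hcκ⟩ := hdκ.sqrt_le
  obtain ⟨cg, hcg⟩ := hg.tame.lip
  obtain ⟨cF, hcF⟩ := hT.lip
  -- the polynomial constants
  let T₁ : P → ℝ := fun p => CF (a + 1) * (1 + CQ (a + 1)) *
    ((b p).Λ ^ (cR + cS) + ((b p).Λ ^ (3 * cA)) ^ (a + 1 + 1) * (b p).Λ ^ cκ)
  let T₂ : P → ℝ := fun p => (CQ (a + 1) * (b p).Λ ^ cg) ^ a *
    (CF (a + 1) * (b p).Λ ^ (2 * cA) * (b p).Λ ^ cκ)
  have hT₁ : Poly b T₁ := (Poly.const _).mul ((Poly.Λ_pow _).add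
    ((core3_poly_pow (Poly.Λ_pow _) _).mul (Poly.Λ_pow _)))
  have hT₂ : Poly b T₂ := (core3_poly_pow ((Poly.const _).mul (Poly.Λ_pow _)) _).mul
    (((Poly.const _).mul (Poly.Λ_pow _)).mul (Poly.Λ_pow _))
  obtain ⟨c, hc⟩ := (((Poly.const (CQ (a + 1))).mul (((Poly.const 2).mul hT₁).add hT₂)).add
    hT₁).exists_le
  have hQ0 : 0 < CQ (a + 1) := one_pos.trans_le (hCQ1 _)
  have hF0 : 0 < CF (a + 1) := one_pos.trans_le (hCF1 _)
  refine ⟨c, ?_⟩
  filter_upwards [hcR, hcS, hcA fun _ => 2 * (a + 1) + 2, hT.tg, hA.tame.tg, hS.tame.tg, hcκ, hcg,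
    hcF, hc, ev_δ_le b one_pos, ev_δ_mul_le b cF one_pos,
    ev_δ_mul_le b cg (ε := 1 / (2 * CQ (a + 1))) (by positivity)]
    with p hR hSa hm tF tA tS hκ lg lF hcp hδ hδF hδg W x
  have hθ := (b p).hθ
  have hΛ := (b p).Λ_pos
  have hδ0 := (b p).δ_pos
  have he := (b p).e_pos a
  have cS' : Continuous fun o : E (ζ p ⊕ κ p) => S p W (pair (pair x (fstL o)) (sndL o)) :=
    (tS W).continuous.comp (Continuous.pair'
      (Continuous.pair' continuous_const fstL.continuous) sndL.continuous)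
  obtain ⟨y, hy, h1, h2, h3⟩ := hCF (a + 1) Q (f := fun z => F p W (pair x z))
    (A := fun z => A p W (pair x z)) (S := fun o => S p W (pair (pair x (fstL o)) (sndL o)))
    (r := (b p).θ ^ cA) (μ := (b p).δ * (b p).Λ ^ cA) (η := (b p).Λ ^ (cR + cS) * (b p).e a)
    (Nat.le_add_left _ _) (pow_pos hθ _) ((b p).θ_pow_le_one _) (by positivity) (by positivity)
    ((tF W).pair_right x) ((tA W).pair_right x) cS' ((hm W).1.pair_right (tA W) x)
    ((hm W).2.pair_right (tA W).adj' x)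
    ((hR W x).mono (mul_le_mul_of_nonneg_right ((b p).Λ_pow_mono (Nat.le_add_right _ _)) he.le))
    (fun z => (((hSa W (pair x z)).mono (mul_le_mul_of_nonneg_right
      ((b p).Λ_pow_mono (Nat.le_add_left _ _)) he.le))).congr' fun g' => by simp [OFam.adj])
  have e1 : (b p).δ * (b p).Λ ^ cA / ((b p).θ ^ cA) ^ 2 = (b p).δ * (b p).Λ ^ (3 * cA) := by
    rw [div_eq_mul_inv, ← inv_pow, ← inv_pow]
    change _ * ((b p).Λ ^ cA) ^ 2 = _
    ring
  have e2 : (b p).δ * (b p).Λ ^ cA / (b p).θ ^ cA = (b p).δ * (b p).Λ ^ (2 * cA) := by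
    rw [div_eq_mul_inv, ← inv_pow]
    change _ * (b p).Λ ^ cA = _
    ring
  rw [e1] at h1 h3
  rw [e2] at h2
  have hsq := Real.sqrt_nonneg (Fintype.card (κ p) : ℝ)
  have b1 : CF (a + 1) * (1 + CQ (a + 1)) * ((b p).Λ ^ (cR + cS) * (b p).e a +
      ((b p).δ * (b p).Λ ^ (3 * cA)) ^ (a + 1 + 1) * √(Fintype.card (κ p))) ≤
      T₁ p * (b p).e a := by
    have : ((b p).δ * (b p).Λ ^ (3 * cA)) ^ (a + 1 + 1) * √(Fintype.card (κ p)) ≤
        ((b p).Λ ^ (3 * cA)) ^ (a + 1 + 1) * (b p).Λ ^ cκ * (b p).e a := by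
      calc ((b p).δ * (b p).Λ ^ (3 * cA)) ^ (a + 1 + 1) * √(Fintype.card (κ p))
          = ((b p).Λ ^ (3 * cA)) ^ (a + 1 + 1) *
            ((b p).δ ^ (a + 1 + 1) * √(Fintype.card (κ p))) := by ring
        _ ≤ ((b p).Λ ^ (3 * cA)) ^ (a + 1 + 1) *
            ((b p).δ ^ a * ((b p).Λ ^ cκ * √((b p).d : ℝ))) := by
            have := pow_le_pow_of_le_one hδ0.le hδ (show a ≤ a + 1 + 1 by omega)
            gcongr
        _ = _ := by rw [Base.e]; ring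
    calc _ ≤ CF (a + 1) * (1 + CQ (a + 1)) * ((b p).Λ ^ (cR + cS) * (b p).e a +
          ((b p).Λ ^ (3 * cA)) ^ (a + 1 + 1) * (b p).Λ ^ cκ * (b p).e a) := by gcongr
      _ = _ := by simp only [T₁]; ring
  have b2 : (CQ (a + 1) * ((b p).δ * (b p).Λ ^ cg)) ^ a *
      (CF (a + 1) * ((b p).δ * (b p).Λ ^ (2 * cA)) * √(Fintype.card (κ p))) ≤
      T₂ p * (b p).e a := by
    calc _ = (CQ (a + 1) * (b p).Λ ^ cg) ^ a * (CF (a + 1) * (b p).Λ ^ (2 * cA)) *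
          ((b p).δ ^ a * (b p).δ * √(Fintype.card (κ p))) := by ring
      _ ≤ (CQ (a + 1) * (b p).Λ ^ cg) ^ a * (CF (a + 1) * (b p).Λ ^ (2 * cA)) *
          ((b p).δ ^ a * 1 * ((b p).Λ ^ cκ * √((b p).d : ℝ))) := by gcongr
      _ = _ := by simp only [T₂, Base.e]; ring
  have hT0 : 0 ≤ T₁ p := by simp only [T₁]; positivity
  have hT0' : 0 ≤ T₂ p := by simp only [T₂]; positivity
  have key := core3_inst (w := w) (ww := ww) (g := g p W) (y := y) x (by positivity)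
    (by positivity) hQ0.le (mul_nonneg hT0 he.le) (by positivity) (lg W) (lF W) hw hww
    (by rw [le_div_iff₀ (by positivity)] at hδg; linarith) hy
    (fun i => ((h1 i).mono b1).congr' fun o => by simp [g, ww, core3_assoc_pair]) h2
    (h3.mono b1) a
  refine key.mono ?_
  calc CQ (a + 1) * ((b p).δ * (b p).Λ ^ cF * (2 * (T₁ p * (b p).e a) +
        (CQ (a + 1) * ((b p).δ * (b p).Λ ^ cg)) ^ a *
          (CF (a + 1) * ((b p).δ * (b p).Λ ^ (2 * cA)) * √(Fintype.card (κ p))))) +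
        T₁ p * (b p).e a
      ≤ CQ (a + 1) * (1 * (2 * (T₁ p * (b p).e a) + T₂ p * (b p).e a)) + T₁ p * (b p).e a := by
        gcongr
    _ = (CQ (a + 1) * (2 * T₁ p + T₂ p) + T₁ p) * (b p).e a := by ring
    _ ≤ (b p).Λ ^ c * (b p).e a := mul_le_mul_of_nonneg_right hcp he.le


end Crest.Agent.R285
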