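import Crest.Agent.R285.Tilt1
import Crest.Agent.R285.CutAux

/-!
# Row 285 (S0430): Cut1
A slowly varying cut-off.
`exists_cut`: `φ t = 1 - Real.smoothTransition (Real.log t / M)` (recall `Real.log t = log |t|`, `log 0 = 0`; `φ = 1`
on `(-1,1)`); the first two derivatives of `smoothTransition` are bounded (continuous, zero outside `[0,1]`);
`t φ' t = -S'/M`, `t² φ'' t = S'/M - S''/M²`; `T = exp M`.
`cut_bp`: `W x = φ (‖x‖²/R²) * U x`; `‖∇U x‖ ≤ ‖x‖/2`, `|U x| ≤ ‖x‖²/4`, `‖fderiv ∇U‖ ≤ 1/2`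
(`Lip.norm_fderiv_le`); differentiate the formula for the gradient and use `Lip.of_fderiv`:
`1/2 + 2 (2ε)(1/2) + (1/4)(6 ε) ≤ 1` for `ε = 1/10`.
-/

set_option autoImplicit false

open MeasureTheory ProbabilityTheory Filter Topology
open scoped RealInnerProductSpace

noncomputable section

namespace Crest.Agent.R285

variable {ι : Type} [Fintype ι]

/-- slowly varying cut-off function -/
structure Cut (φ : ℝ → ℝ) (T : ℝ) : Prop where
  one_le : 1 ≤ T
  smooth : ContDiff ℝ 2 φ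
  mem : ∀ t, 0 ≤ φ t ∧ φ t ≤ 1
  eq_one : ∀ t, |t| ≤ 1 → φ t = 1
  eq_zero : ∀ t, T ≤ |t| → φ t = 0
  d1 : ∀ t, |t * deriv φ t| ≤ 1 / 10
  d2 : ∀ t, |t ^ 2 * deriv (deriv φ) t| ≤ 1 / 10

lemma bdd_of_zero_off {g : ℝ → ℝ} (hg : Continuous g) (h : ∀ t ∉ Set.Icc (0 : ℝ) 1, g t = 0) :
    ∃ C, 0 ≤ C ∧ ∀ t, |g t| ≤ C := by
  obtain ⟨C, hC⟩ := (isCompact_Icc (a := (0 : ℝ)) (b := 1)).exists_bound_of_continuousOn
    hg.continuousOn
  refine ⟨max C 0, le_max_right _ _, fun t => ?_⟩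
  by_cases ht : t ∈ Set.Icc (0 : ℝ) 1
  · exact (hC t ht).trans (le_max_left _ _)
  · rw [h t ht, abs_zero]; exact le_max_right _ _

lemma hasFDerivAt_sq_div (R : ℝ) (x : E ι) :
    HasFDerivAt (fun x : E ι => ‖x‖ ^ 2 / R ^ 2) ((2 / R ^ 2 : ℝ) • innerSL ℝ x) x := by
  have := (hasStrictFDerivAt_norm_sq x).hasFDerivAt.mul_const (R ^ 2)⁻¹
  simp only [← div_eq_mul_inv] at this
  refine this.congr_fderiv ?_
  ext v
  simp only [smul_apply, smul_eq_mul, nsmul_eq_mul]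
  push_cast; ring

theorem exists_cut : ∃ φ T, Cut φ T := by
  set S := Real.smoothTransition with hS
  have hS2 : ContDiff ℝ 2 S := Real.smoothTransition.contDiff
  have hS1 : ContDiff ℝ 1 (deriv S) := hS2.deriv'
  have hU : IsOpen (Set.Icc (0 : ℝ) 1)ᶜ := isClosed_Icc.isOpen_compl
  have z1 : ∀ t ∉ Set.Icc (0 : ℝ) 1, deriv S t = 0 := by
    intro t ht
    rw [Set.mem_Icc, not_and_or, not_le, not_le] at ht
    rcases ht with ht | ht
    · have : S =ᶠ[𝓝 t] fun _ => 0 := Filter.mem_of_superset (Iio_mem_nhds ht) fun u hu =>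
        Real.smoothTransition.zero_of_nonpos (le_of_lt hu)
      rw [this.deriv_eq, deriv_const]
    · have : S =ᶠ[𝓝 t] fun _ => 1 := Filter.mem_of_superset (Ioi_mem_nhds ht) fun u hu =>
        Real.smoothTransition.one_of_one_le (le_of_lt hu)
      rw [this.deriv_eq, deriv_const]
  have z2 : ∀ t ∉ Set.Icc (0 : ℝ) 1, deriv (deriv S) t = 0 := by
    intro t ht
    have : deriv S =ᶠ[𝓝 t] fun _ => 0 := (hU.mem_nhds ht : _ ∈ _) |> fun h =>
      Filter.mem_of_superset h fun u hu => z1 u hu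
    rw [this.deriv_eq, deriv_const]
  obtain ⟨C1, hC10, hC1⟩ := bdd_of_zero_off hS1.continuous z1
  obtain ⟨C2, hC20, hC2⟩ := bdd_of_zero_off (hS1.continuous_deriv le_rfl) z2
  set M := 20 * (C1 + C2 + 1) with hM
  have hM1 : 1 ≤ M := by linarith
  have hM0 : 0 < M := by linarith
  have one : ∀ t, |t| ≤ 1 → 1 - S (Real.log t / M) = 1 := fun t ht => by
    rw [hS, Real.smoothTransition.zero_of_nonpos, sub_zero]
    rw [← Real.log_abs]
    exact div_nonpos_of_nonpos_of_nonneg (Real.log_nonpos (abs_nonneg t) ht) hM0.le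
  have hl : ∀ t : ℝ, t ≠ 0 → HasDerivAt (fun t => Real.log t / M) (t⁻¹ / M) t := fun t ht =>
    (Real.hasDerivAt_log ht).div_const M
  have e1 : ∀ t : ℝ, t ≠ 0 → deriv (fun t => 1 - S (Real.log t / M)) t
      = -(deriv S (Real.log t / M) * (t⁻¹ / M)) := fun t ht =>
    (((hS2.differentiable (by norm_num) _).hasDerivAt.comp t (hl t ht)).const_sub 1).deriv
  refine ⟨fun t => 1 - S (Real.log t / M), Real.exp M, Real.one_le_exp hM0.le, ?_, fun t => ?_,
    one, fun t ht => ?_, fun t => ?_, fun t => ?_⟩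
  · refine contDiff_iff_contDiffAt.2 fun t => ?_
    rcases eq_or_ne t 0 with rfl | ht
    · refine (contDiffAt_const (c := (1 : ℝ))).congr_of_eventuallyEq ?_
      filter_upwards [Metric.closedBall_mem_nhds (0 : ℝ) one_pos] with u hu
      exact one u (by simpa using hu)
    · exact contDiffAt_const.sub (hS2.contDiffAt.comp t ((Real.contDiffAt_log.2 ht).div_const M))
  · have h1 := Real.smoothTransition.nonneg (Real.log t / M)
    have h2 := Real.smoothTransition.le_one (Real.log t / M)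
    constructor <;> linarith
  · show 1 - S (Real.log t / M) = 0
    rw [hS, Real.smoothTransition.one_of_one_le, sub_self]
    rw [le_div_iff₀ hM0, one_mul, ← Real.log_abs]
    exact (Real.le_log_iff_exp_le ((Real.exp_pos M).trans_le ht)).2 ht
  · rcases eq_or_ne t 0 with rfl | ht
    · norm_num
    rw [e1 t ht, show t * -(deriv S (Real.log t / M) * (t⁻¹ / M)) = -(deriv S (Real.log t / M) / M)
      by field_simp, abs_neg, abs_div, abs_of_pos hM0, div_le_iff₀ hM0]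
    linarith [hC1 (Real.log t / M)]
  · rcases eq_or_ne t 0 with rfl | ht
    · norm_num
    have e2 : deriv (fun t => 1 - S (Real.log t / M)) =ᶠ[𝓝 t]
        fun t => -(deriv S (Real.log t / M) * (t⁻¹ / M)) := by
      filter_upwards [isOpen_ne.mem_nhds ht] with u hu using e1 u hu
    have e3 := ((((hS1.differentiable one_ne_zero _).hasDerivAt.comp t (hl t ht)).mul
      ((hasDerivAt_inv ht).div_const M)).neg).deriv
    rw [e2.deriv_eq]
    erw [e3]
    simp only [Function.comp]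
    rw [show t ^ 2 * -(deriv (deriv S) (Real.log t / M) * (t⁻¹ / M) * (t⁻¹ / M) +
        deriv S (Real.log t / M) * (-(t ^ 2)⁻¹ / M))
        = deriv S (Real.log t / M) / M - deriv (deriv S) (Real.log t / M) / M / M
      by field_simp; ring]
    refine (abs_sub _ _).trans ?_
    rw [abs_div, abs_div, abs_div, abs_of_pos hM0]
    have a1 : |deriv S (Real.log t / M)| / M ≤ 1 / 20 := by
      rw [div_le_iff₀ hM0]; linarith [hC1 (Real.log t / M)]
    have a2 : |deriv (deriv S) (Real.log t / M)| / M ≤ 1 / 20 := by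
      rw [div_le_iff₀ hM0]; linarith [hC2 (Real.log t / M)]
    have a3 := div_le_self (show 0 ≤ |deriv (deriv S) (Real.log t / M)| / M by positivity) hM1
    linarith

theorem Cut.gradient_eq {φ : ℝ → ℝ} {T : ℝ} (h : Cut φ T) {U : E ι → ℝ} (hU : Differentiable ℝ U)
    (R : ℝ) (x : E ι) : gradient (fun x => φ (‖x‖ ^ 2 / R ^ 2) * U x) x =
      φ (‖x‖ ^ 2 / R ^ 2) • gradient U x + (U x * (2 * deriv φ (‖x‖ ^ 2 / R ^ 2) / R ^ 2)) • x := by
  refine gradient_ext fun v => ?_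
  have h1 := (((h.smooth.differentiable (by norm_num) _).hasDerivAt.comp_hasFDerivAt x
    (hasFDerivAt_sq_div R x)).mul (hU x).hasFDerivAt).fderiv
  erw [h1]
  simp only [inner_add_left, inner_smul_left, inner_gradient, add_apply, smul_apply, conj_trivial,
    smul_eq_mul, Function.comp, innerSL_apply_apply]
  ring

theorem Cut.bp {φ : ℝ → ℝ} {T : ℝ} (h : Cut φ T) {U : E ι → ℝ} (hU : ContDiff ℝ 2 U) (h0 : U 0 = 0)
    (h0' : gradient U 0 = 0) (hL : Lip (1 / 2) (gradient U)) {R : ℝ} (hR : 0 < R) :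
    BP (fun x => φ (‖x‖ ^ 2 / R ^ 2) * U x) 1 (R * √T) := by
  have hUd : Differentiable ℝ U := hU.differentiable (by norm_num)
  have hφ : Differentiable ℝ φ := h.smooth.differentiable (by norm_num)
  have hφ' : Differentiable ℝ (deriv φ) :=
    (h.smooth.deriv' (n := 1)).differentiable one_ne_zero
  have hg : Differentiable ℝ (gradient U) := (contDiff_one_gradient hU).differentiable one_ne_zero
  have b1 : ∀ x, ‖gradient U x‖ ≤ 1 / 2 * ‖x‖ := hL.norm_le_of_zero h0'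
  have b2 : ∀ x, |U x| ≤ 1 / 2 * ‖x‖ ^ 2 := abs_le_of_lip_gradient hUd h0 h0' (by norm_num) hL
  have d1 : ∀ x : E ι, ‖x‖ ^ 2 * |deriv φ (‖x‖ ^ 2 / R ^ 2)| / R ^ 2 ≤ 1 / 10 := fun x => by
    have := h.d1 (‖x‖ ^ 2 / R ^ 2)
    rw [abs_mul, abs_of_nonneg (by positivity)] at this
    exact le_trans (le_of_eq (by ring)) this
  have d2 : ∀ x : E ι, ‖x‖ ^ 4 * |deriv (deriv φ) (‖x‖ ^ 2 / R ^ 2)| / R ^ 4 ≤ 1 / 10 := fun x => by
    have := h.d2 (‖x‖ ^ 2 / R ^ 2)
    rw [abs_mul, abs_of_nonneg (by positivity)] at this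
    exact le_trans (le_of_eq (by field_simp)) this
  refine ⟨fun x => ((hφ _).hasDerivAt.comp_hasFDerivAt x
    (hasFDerivAt_sq_div R x)).differentiableAt.mul (hUd x), zero_le_one, ?_, fun x => ?_⟩
  · rw [funext (h.gradient_eq hUd R)]
    have hd := fun x : E ι => (((hφ _).hasDerivAt.comp_hasFDerivAt x
      (hasFDerivAt_sq_div R x)).smul (hg x).hasFDerivAt).add
      (((hUd x).hasFDerivAt.mul (((((hφ' _).hasDerivAt.comp_hasFDerivAt x
        (hasFDerivAt_sq_div R x)).const_mul 2).mul_const (R ^ 2)⁻¹))).smul (hasFDerivAt_id x))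
    simp only [div_eq_mul_inv _ (R ^ 2)] at hd ⊢
    refine Lip.of_fderiv (fun x => (hd x).differentiableAt) fun x => ?_
    erw [(hd x).fderiv]
    refine ContinuousLinearMap.opNorm_le_bound _ zero_le_one fun v => ?_
    simp only [add_apply, smul_apply, ContinuousLinearMap.smulRight_apply, Function.comp,
      ContinuousLinearMap.id_apply, innerSL_apply_apply, smul_eq_mul, id, Pi.mul_apply,
      ← div_eq_mul_inv _ (R ^ 2), ← inner_gradient]
    set s := ‖x‖ ^ 2 / R ^ 2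
    have i1 : |⟪x, v⟫| ≤ ‖x‖ * ‖v‖ := abs_real_inner_le_norm _ _
    have i2 : |⟪gradient U x, v⟫| ≤ 1 / 2 * ‖x‖ * ‖v‖ := (abs_real_inner_le_norm _ _).trans
      (mul_le_mul_of_nonneg_right (b1 x) (norm_nonneg _))
    have i3 : ‖fderiv ℝ (gradient U) x v‖ ≤ 1 / 2 * ‖v‖ :=
      (ContinuousLinearMap.le_opNorm _ _).trans
        (mul_le_mul_of_nonneg_right (hL.norm_fderiv_le (by norm_num) x) (norm_nonneg _))
    have e1 := mul_le_mul_of_nonneg_right (d1 x) (norm_nonneg v)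
    have e2 := mul_le_mul_of_nonneg_right (d2 x) (norm_nonneg v)
    change ‖x‖ ^ 2 * |deriv φ s| / R ^ 2 * ‖v‖ ≤ _ at e1
    change ‖x‖ ^ 4 * |deriv (deriv φ) s| / R ^ 4 * ‖v‖ ≤ _ at e2
    have hR2 : |R ^ 2| = R ^ 2 := abs_of_pos (pow_pos hR 2)
    have t1 : ‖φ s • (fderiv ℝ (gradient U) x) v‖ ≤ 1 * (1 / 2 * ‖v‖) := by
      rw [norm_smul, Real.norm_of_nonneg (h.mem _).1]
      exact mul_le_mul (h.mem _).2 i3 (norm_nonneg _) zero_le_one
    have t2 : ‖(deriv φ s * (2 / R ^ 2 * ⟪x, v⟫)) • gradient U x‖ ≤ 1 / 10 * ‖v‖ := by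
      simp only [norm_smul, Real.norm_eq_abs, abs_mul, abs_div, abs_two, hR2]
      calc _ ≤ |deriv φ s| * (2 / R ^ 2 * (‖x‖ * ‖v‖)) * (1 / 2 * ‖x‖) := by gcongr; exact b1 x
        _ = _ := by ring
        _ ≤ _ := e1
    have t3 : ‖(U x * (2 * deriv φ s / R ^ 2)) • v‖ ≤ 1 / 10 * ‖v‖ := by
      simp only [norm_smul, Real.norm_eq_abs, abs_mul, abs_div, abs_two, hR2]
      calc _ ≤ (1 / 2 * ‖x‖ ^ 2) * (2 * |deriv φ s| / R ^ 2) * ‖v‖ := by gcongr; exact b2 x
        _ = _ := by ring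
        _ ≤ _ := e1
    have t4 : ‖(U x * ((R ^ 2)⁻¹ * (2 * (deriv (deriv φ) s * (2 / R ^ 2 * ⟪x, v⟫))))) • x‖
        ≤ 2 * (1 / 10 * ‖v‖) := by
      simp only [norm_smul, Real.norm_eq_abs, abs_mul, abs_div, abs_two, hR2, abs_inv]
      calc _ ≤ (1 / 2 * ‖x‖ ^ 2) * ((R ^ 2)⁻¹ * (2 * (|deriv (deriv φ) s| *
            (2 / R ^ 2 * (‖x‖ * ‖v‖))))) * ‖x‖ := by gcongr; exact b2 x
        _ = 2 * (‖x‖ ^ 4 * |deriv (deriv φ) s| / R ^ 4 * ‖v‖) := by field_simp
        _ ≤ _ := by linarith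
    have t5 : ‖(2 * deriv φ s / R ^ 2 * ⟪gradient U x, v⟫) • x‖ ≤ 1 / 10 * ‖v‖ := by
      simp only [norm_smul, Real.norm_eq_abs, abs_mul, abs_div, abs_two, hR2]
      calc _ ≤ 2 * |deriv φ s| / R ^ 2 * (1 / 2 * ‖x‖ * ‖v‖) * ‖x‖ := by gcongr
        _ = _ := by ring
        _ ≤ _ := e1
    rw [add_smul]
    refine (norm_add_le_of_le (norm_add_le_of_le t1 t2)
      (norm_add_le_of_le t3 (norm_add_le_of_le t4 t5))).trans ?_
    linarith
  · rw [h.gradient_eq hUd R]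
    have hT : 0 ≤ T := zero_le_one.trans h.one_le
    rcases le_or_gt (‖x‖ ^ 2 / R ^ 2) T with hx | hx
    · have hx' : ‖x‖ ≤ R * √T := by
        rw [div_le_iff₀ (by positivity)] at hx
        refine abs_le_of_sq_le_sq' ?_ (by positivity) |>.2
        rw [mul_pow, Real.sq_sqrt hT]; linarith
      refine (norm_add_le _ _).trans (le_trans ?_ hx')
      rw [norm_smul, norm_smul, Real.norm_of_nonneg (h.mem _).1, Real.norm_eq_abs, abs_mul,
        abs_div, abs_mul, abs_two, abs_of_pos (pow_pos hR 2)]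
      have a1 : φ (‖x‖ ^ 2 / R ^ 2) * ‖gradient U x‖ ≤ 1 * (1 / 2 * ‖x‖) :=
        mul_le_mul (h.mem _).2 (b1 x) (norm_nonneg _) zero_le_one
      have a2 : |U x| * (2 * |deriv φ (‖x‖ ^ 2 / R ^ 2)| / R ^ 2) ≤ 1 / 10 :=
        (mul_le_mul_of_nonneg_right (b2 x) (by positivity)).trans
          (le_trans (le_of_eq (by ring)) (d1 x))
      have a3 := mul_le_mul_of_nonneg_right a2 (norm_nonneg x)
      linarith [norm_nonneg x]
    · have e : φ =ᶠ[𝓝 (‖x‖ ^ 2 / R ^ 2)] fun _ => 0 := 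
        Filter.mem_of_superset (Ioi_mem_nhds hx) fun u hu =>
        h.eq_zero u ((le_of_lt hu).trans (le_abs_self u))
      rw [e.deriv_eq, deriv_const, e.eq_of_nhds]
      simp only [zero_smul, mul_zero, zero_div, add_zero, norm_zero]
      positivity


end Crest.Agent.R285
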