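import Crest.Agent.R285.Cut1
import Crest.Agent.R285.Adm

/-!
# Row 285 (S0430): Cut2
Reduction to potentials with bounded gradient.
`U x = V x - (3/4) ‖x‖²`, `R = 10 √d`, `W x = φ (‖x‖²/R²) * U x`, `B₀ = 10 √T`;
`dec (x, (v, g)) = φ • (g - (3/2) • x) + ((v - (3/4) ‖x‖²) * (2 φ'/R²)) • x`.
`tg W 0 √(2/3) = gibbs (‖x‖²/(2 (2/3)) + W x)` agrees with `V` on the ball of radius `R`; second moments `≤ 2 d`
(`WPot.second_moment` with `a = 1/2`, `B = 0`, using `∇W 0 = 0` and `Lip 1 ∇W`).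
-/

set_option autoImplicit false

open MeasureTheory ProbabilityTheory Filter Topology
open scoped RealInnerProductSpace

noncomputable section

namespace Crest.Agent.R285

open Crest.OracleSampling

theorem exists_cutoff : ∃ B₀ : ℝ, 1 ≤ B₀ ∧ ∀ d : ℕ, 1 ≤ d →
    ∃ dec : E (Fin d) × Answer d → E (Fin d), Measurable dec ∧ ∀ V, Admissible d V →
      ∃ W : E (Fin d) → ℝ, BP W 1 (B₀ * √(d : ℝ)) ∧ (∀ x, gradient W x = dec (x, oracle V x)) ∧
        ∀ S, MeasurableSet S →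
          |(tg W 0 √(2 / 3) S).toReal - (target d V S).toReal| ≤ 1 / 20 := by
  obtain ⟨φ, T, hφ⟩ := exists_cut
  have hT : (1 : ℝ) ≤ √T := Real.one_le_sqrt.2 hφ.one_le
  refine ⟨10 * √T, by linarith, fun d hd => ?_⟩
  have hd1 : (1 : ℝ) ≤ d := by exact_mod_cast hd
  have hsd : (0 : ℝ) < √(d : ℝ) := Real.sqrt_pos.2 (by linarith)
  set R : ℝ := 10 * √(d : ℝ) with hRd
  have hR : 0 < R := by positivity
  have hR2 : R ^ 2 = 100 * d := by rw [hRd, mul_pow, Real.sq_sqrt (by linarith)]; norm_num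
  have hφc : Continuous φ := hφ.smooth.continuous
  have hφc' : Continuous (deriv φ) := hφ.smooth.continuous_deriv (by norm_num)
  refine ⟨fun p => φ (‖p.1‖ ^ 2 / R ^ 2) • (p.2.2 - (3 / 2 : ℝ) • p.1) +
    ((p.2.1 - 3 / 4 * ‖p.1‖ ^ 2) * (2 * deriv φ (‖p.1‖ ^ 2 / R ^ 2) / R ^ 2)) • p.1, ?_,
    fun V hV => ?_⟩
  · apply Continuous.measurable; fun_prop
  set U : E (Fin d) → ℝ := fun x => V x - 3 / 4 * ‖x‖ ^ 2 with hU
  have hU2 : ContDiff ℝ 2 U := adm_contDiff hV
  have hUd : Differentiable ℝ U := hU2.differentiable (by norm_num)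
  have hU0 : U 0 = 0 := by simp [hU, hV.2.1]
  have hU0' : gradient U 0 = 0 := by rw [hU, adm_gradient hV, hV.2.2.1]; simp
  have hbp := hφ.bp hU2 hU0 hU0' (adm_lip hV) hR
  set W : E (Fin d) → ℝ := fun x => φ (‖x‖ ^ 2 / R ^ 2) * U x with hW
  have hσ : (0 : ℝ) < √(2 / 3) := Real.sqrt_pos.2 (by norm_num)
  have hσ2 : √(2 / 3 : ℝ) ^ 2 = 2 / 3 := Real.sq_sqrt (by norm_num)
  refine ⟨W, ?_, fun x => ?_, fun S hS => ?_⟩
  · convert hbp using 1; rw [hRd]; ring
  · rw [hW, hφ.gradient_eq hUd R x, hU, adm_gradient hV]; rfl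
  · have hW0 : gradient W 0 = 0 := by rw [hW, hφ.gradient_eq hUd R 0, hU0']; simp
    have hm1 := (hbp.wpot 0 hσ).second_moment 0 (a := 1 / 2) (B := 0) (by norm_num) le_rfl
      (fun x => by
        rw [hbp.gradient_full, hσ2, inner_add_right, inner_smul_right, real_inner_self_eq_norm_sq]
        have h1 := hbp.lip x 0
        rw [hW0, sub_zero] at h1
        have h2 := abs_real_inner_le_norm (x - 0) (gradient W x)
        have h3 := mul_le_mul_of_nonneg_left h1 (norm_nonneg (x - 0))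
        have h4 := neg_abs_le ⟪x - 0, gradient W x⟫
        norm_num at h2 h3 h4 ⊢
        nlinarith)
    have hr : (0 : ℝ) / (1 / 2) + √((Fintype.card (Fin d) : ℝ) / (1 / 2)) = √(2 * (d : ℝ)) := by
      rw [zero_div, zero_add, Fintype.card_fin]; congr 1; ring
    rw [hr] at hm1
    have hm1' := hm1.congr' (g := fun x => x) (fun x => sub_zero x)
    have hm2 := (adm_moment hV).mono (r' := √(2 * (d : ℝ))) (Real.sqrt_le_sqrt (by linarith))
    rw [tg_eq_gibbs W 0 hσ, adm_target hV]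
    refine (tv_of_eqOn (hbp.wpot 0 hσ) (adm_wpot hV) hR (fun x hx => ?_) hm1' hm2 hS).trans ?_
    · have h1 : φ (‖x‖ ^ 2 / R ^ 2) = 1 := by
        apply hφ.eq_one
        rw [abs_of_nonneg (by positivity), div_le_one (by positivity)]
        exact pow_le_pow_left₀ (norm_nonneg _) hx 2
      simp only [hW, hU, h1, hσ2, sub_zero]; ring
    · rw [Real.sq_sqrt (by linarith), hR2]
      have : 2 * (2 * (d : ℝ) / (100 * d)) = 1 / 25 := by field_simp; norm_num
      rw [this]; norm_num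


end Crest.Agent.R285
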