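import Crest.Agent.R285.Basic

/-!
# Row 285 (S0430): Ev
The asymptotic regime `ev b`; polynomially bounded families; dimensions.
-/

set_option autoImplicit false

open MeasureTheory ProbabilityTheory Filter Topology
open scoped RealInnerProductSpace

noncomputable section

namespace Crest.Agent.R285

namespace Base
variable (b : Base)
lemma Λ_pos : 0 < b.Λ := inv_pos.2 b.hθ
lemma one_le_Λ : 1 ≤ b.Λ := (one_le_inv₀ b.hθ).2 b.hθ1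
lemma δ_pos : 0 < b.δ := (pow_pos b.hθ _).trans_le b.hδ
lemma θ_mul_Λ : b.θ * b.Λ = 1 := mul_inv_cancel₀ b.hθ.ne'
lemma θ_pow_mul_Λ_pow (c : ℕ) : b.θ ^ c * b.Λ ^ c = 1 := by rw [← mul_pow, b.θ_mul_Λ, one_pow]
lemma one_le_Λ_pow (c : ℕ) : 1 ≤ b.Λ ^ c := one_le_pow₀ b.one_le_Λ
lemma Λ_pow_mono {c c' : ℕ} (h : c ≤ c') : b.Λ ^ c ≤ b.Λ ^ c' := pow_le_pow_right₀ b.one_le_Λ h
lemma θ_pow_anti {c c' : ℕ} (h : c ≤ c') : b.θ ^ c' ≤ b.θ ^ c := pow_le_pow_of_le_one b.hθ.le b.hθ1 h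
lemma θ_pow_le_one (c : ℕ) : b.θ ^ c ≤ 1 := pow_le_one₀ b.hθ.le b.hθ1
lemma one_le_sqrt_d : 1 ≤ √(b.d : ℝ) := Real.one_le_sqrt.2 (by exact_mod_cast b.hd)
lemma e_pos (a : ℕ) : 0 < b.e a := mul_pos (pow_pos b.δ_pos _) (zero_lt_one.trans_le b.one_le_sqrt_d)
lemma e_succ (a : ℕ) : b.e (a + 1) = b.δ * b.e a := by simp only [e, pow_succ]; ring
lemma e_zero : b.e 0 = √(b.d : ℝ) := by simp only [e, pow_zero, one_mul]
lemma e_anti (hδ : b.δ ≤ 1) {a a' : ℕ} (h : a ≤ a') : b.e a' ≤ b.e a := 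
  mul_le_mul_of_nonneg_right (pow_le_pow_of_le_one b.δ_pos.le hδ h) (Real.sqrt_nonneg _)
lemma θ_pow_le_δ_pow (a : ℕ) : b.θ ^ (b.ν * a) ≤ b.δ ^ a := by
  rw [pow_mul]; exact pow_le_pow_left₀ (pow_pos b.hθ _).le b.hδ a
lemma σ_nonneg : 0 ≤ b.σ := Real.sqrt_nonneg _
lemma σ_le_one : b.σ ≤ 1 := Real.sqrt_le_one.2 (by nlinarith [sq_nonneg b.θ])
lemma σ_sq : b.σ ^ 2 = 1 - b.θ ^ 2 := Real.sq_sqrt (by nlinarith [b.hθ, b.hθ1])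
lemma half_le_σ (h : b.θ ≤ 1 / 2) : 1 / 2 ≤ b.σ := Real.le_sqrt_of_sq_le (by nlinarith [b.hθ])
end Base

variable {P P' : Type} {b : P → Base} {ι κ κ' ζ α β α' β' I : P → Type} [∀ p, Fintype (ι p)]
  [∀ p, Fintype (κ p)] [∀ p, Fintype (κ' p)] [∀ p, Fintype (ζ p)] [∀ p, Fintype (α p)]
  [∀ p, Fintype (β p)] [∀ p, Fintype (α' p)] [∀ p, Fintype (β' p)] [∀ p, Fintype (I p)]

lemma ev_iff {Q : P → Prop} : (∀ᶠ p in ev b, Q p) ↔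
    ∃ (c : ℕ) (C : ℕ → ℝ), ∀ p, (b p).δ ≤ (b p).θ ^ c → C (b p).ν * (b p).θ ≤ 1 → Q p := by
  constructor
  · rintro ⟨S, ⟨c, C, h⟩, hS⟩
    exact ⟨c, C, fun p h1 h2 => hS (h _ h1 h2)⟩
  · rintro ⟨c, C, h⟩
    exact ⟨{b' | b'.δ ≤ b'.θ ^ c ∧ C b'.ν * b'.θ ≤ 1}, ⟨c, C, fun _ h1 h2 => ⟨h1, h2⟩⟩,
      fun p hp => h p hp.1 hp.2⟩
lemma ev_reindex (r : P' → P) {Q : P → Prop} (h : ∀ᶠ p in ev b, Q p) :
    ∀ᶠ p in ev (fun p => b (r p)), Q (r p) := by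
  obtain ⟨c, C, h⟩ := ev_iff.1 h
  exact ev_iff.2 ⟨c, C, fun p h1 h2 => h _ h1 h2⟩
lemma ev_sigma {T : P → Type} {Q : (Σ p, T p) → Prop} :
    (∀ᶠ p in ev (fun p : Σ p, T p => b p.1), Q p) ↔ ∀ᶠ p in ev b, ∀ t, Q ⟨p, t⟩ := by
  simp only [ev_iff]
  exact ⟨fun ⟨c, C, h⟩ => ⟨c, C, fun p h1 h2 t => h ⟨p, t⟩ h1 h2⟩,
    fun ⟨c, C, h⟩ => ⟨c, C, fun p h1 h2 => h p.1 h1 h2 p.2⟩⟩
lemma ev_prod {T : Type} {Q : P × T → Prop} :
    (∀ᶠ p in ev (fun p : P × T => b p.1), Q p) ↔ ∀ᶠ p in ev b, ∀ t, Q (p, t) := by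
  simp only [ev_iff]
  exact ⟨fun ⟨c, C, h⟩ => ⟨c, C, fun p h1 h2 t => h ⟨p, t⟩ h1 h2⟩,
    fun ⟨c, C, h⟩ => ⟨c, C, fun p h1 h2 => h p.1 h1 h2 p.2⟩⟩
lemma ev_id : ev (fun b : Base => b) = evF := Filter.comap_id
lemma ev_of_evF (b : P → Base) {Q : Base → Prop} (h : ∀ᶠ b' in evF, Q b') :
    ∀ᶠ p in ev b, Q (b p) := ⟨_, h, fun _ hp => hp⟩
lemma evF_of_sigma {T : Base → Type} {Q : (Σ b, T b) → Prop}
    (h : ∀ᶠ p in ev (fun p : Σ b, T b => p.1), Q p) : ∀ᶠ b in evF, ∀ t, Q ⟨b, t⟩ := by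
  rw [← ev_id]; exact (ev_sigma (b := fun b : Base => b)).1 h
lemma ev_const (b : P → Base) (C : ℕ → ℝ) : ∀ᶠ p in ev b, C (b p).ν ≤ (b p).Λ := 
  ev_iff.2 ⟨0, C, fun p _ h => by
    rw [Base.Λ, ← one_div, le_div_iff₀ (b p).hθ]; exact h⟩
lemma ev_const' (b : P → Base) (C : ℝ) : ∀ᶠ p in ev b, C ≤ (b p).Λ := ev_const b fun _ => C
lemma ev_two_le_Λ (b : P → Base) : ∀ᶠ p in ev b, 2 ≤ (b p).Λ := ev_const' b 2
lemma ev_θ_le (b : P → Base) {ε : ℝ} (hε : 0 < ε) : ∀ᶠ p in ev b, (b p).θ ≤ ε := 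
  (ev_const' b ε⁻¹).mono fun p h => (inv_le_inv₀ hε (b p).hθ).1 h
lemma ev_δ_le_θ_pow (b : P → Base) (c : ℕ) : ∀ᶠ p in ev b, (b p).δ ≤ (b p).θ ^ c := 
  ev_iff.2 ⟨c, fun _ => 0, fun _ h _ => h⟩
lemma ev_δ_mul_le (b : P → Base) (c : ℕ) {ε : ℝ} (hε : 0 < ε) :
    ∀ᶠ p in ev b, (b p).δ * (b p).Λ ^ c ≤ ε := by
  filter_upwards [ev_δ_le_θ_pow b (c + 1), ev_θ_le b hε] with p h1 h2
  calc (b p).δ * (b p).Λ ^ c ≤ (b p).θ ^ (c + 1) * (b p).Λ ^ c :=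
        mul_le_mul_of_nonneg_right h1 (pow_pos (b p).Λ_pos _).le
    _ = (b p).θ * ((b p).θ ^ c * (b p).Λ ^ c) := by ring
    _ ≤ ε := by rw [Base.θ_pow_mul_Λ_pow, mul_one]; exact h2
lemma ev_δ_le (b : P → Base) {ε : ℝ} (hε : 0 < ε) : ∀ᶠ p in ev b, (b p).δ ≤ ε := by
  simpa using ev_δ_mul_le b 0 hε

lemma Poly.of_le {x y : P → ℝ} (hy : Poly b y) (h : ∀ᶠ p in ev b, |x p| ≤ |y p|) : Poly b x := by
  obtain ⟨c, hc⟩ := hy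
  exact ⟨c, by filter_upwards [hc, h] with p h1 h2 using h2.trans h1⟩
lemma Poly.of_le' {x y : P → ℝ} (hy : Poly b y) (h0 : ∀ p, 0 ≤ x p) (h : ∀ p, x p ≤ y p) :
    Poly b x := 
  hy.of_le (Eventually.of_forall fun p => by
    rw [abs_of_nonneg (h0 p)]; exact (h p).trans (le_abs_self _))
lemma Poly.const (c : ℝ) : Poly b fun _ => c := 
  ⟨1, (ev_const' b |c|).mono fun p h => by rwa [pow_one]⟩
lemma Poly.nu (C : ℕ → ℝ) : Poly b fun p => C (b p).ν := 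
  ⟨1, (ev_const b fun n => |C n|).mono fun p h => by rwa [pow_one]⟩
lemma Poly.bound {x : P → ℝ} {c : ℝ} (h : ∀ᶠ p in ev b, |x p| ≤ c) : Poly b x := 
  (Poly.const c).of_le (h.mono fun _ h => h.trans (le_abs_self _))
lemma Poly.Λ_pow (c : ℕ) : Poly b fun p => (b p).Λ ^ c := 
  ⟨c, Eventually.of_forall fun p => (abs_of_pos (pow_pos (b p).Λ_pos c)).le⟩
lemma Poly.add {x y : P → ℝ} (hx : Poly b x) (hy : Poly b y) : Poly b fun p => x p + y p := by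
  obtain ⟨c, hc⟩ := hx
  obtain ⟨c', hc'⟩ := hy
  refine ⟨c + c' + 1, ?_⟩
  filter_upwards [hc, hc', ev_two_le_Λ b] with p h1 h2 h3
  have h4 := (b p).Λ_pow_mono (Nat.le_add_right c c')
  have h5 := (b p).Λ_pow_mono (Nat.le_add_left c' c)
  have h6 := abs_add_le (x p) (y p)
  have h7 := (b p).one_le_Λ_pow (c + c')
  rw [pow_succ]
  nlinarith
lemma Poly.mul {x y : P → ℝ} (hx : Poly b x) (hy : Poly b y) : Poly b fun p => x p * y p := by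
  obtain ⟨c, hc⟩ := hx
  obtain ⟨c', hc'⟩ := hy
  refine ⟨c + c', ?_⟩
  filter_upwards [hc, hc'] with p h1 h2
  rw [abs_mul, pow_add]
  exact mul_le_mul h1 h2 (abs_nonneg _) (pow_pos (b p).Λ_pos _).le
lemma Poly.abs {x : P → ℝ} (hx : Poly b x) : Poly b fun p => |x p| := 
  hx.of_le (Eventually.of_forall fun _ => (abs_abs _).le)
lemma Poly.reindex (r : P' → P) {x : P → ℝ} (hx : Poly b x) :
    Poly (fun p => b (r p)) fun p => x (r p) := by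
  obtain ⟨c, hc⟩ := hx
  exact ⟨c, ev_reindex r hc⟩
lemma Poly.exists_le {x : P → ℝ} (hx : Poly b x) : ∃ c : ℕ, ∀ᶠ p in ev b, x p ≤ (b p).Λ ^ c := by
  obtain ⟨c, hc⟩ := hx
  exact ⟨c, hc.mono fun _ h => (le_abs_self _).trans h⟩
lemma Poly.σ_inv : Poly b fun p => ((b p).σ)⁻¹ := by
  refine Poly.bound (c := 2) ?_
  filter_upwards [ev_θ_le b (ε := 1 / 2) (by norm_num)] with p h
  have := (b p).half_le_σ h
  rw [abs_of_nonneg (inv_nonneg.2 (b p).σ_nonneg), inv_le_comm₀ (by linarith) (by norm_num)]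
  linarith
lemma Poly.norm_of_le {B : ∀ p, E (ι p) →L[ℝ] E (κ p)} {c : ℝ} (h : ∀ p, ‖B p‖ ≤ c) :
    Poly b fun p => ‖B p‖ := (Poly.const c).of_le' (fun _ => norm_nonneg _) h
lemma Poly.norm_comp {B : ∀ p, E (κ p) →L[ℝ] E (ζ p)} {B' : ∀ p, E (ι p) →L[ℝ] E (κ p)}
    (h : Poly b fun p => ‖B p‖) (h' : Poly b fun p => ‖B' p‖) :
    Poly b fun p => ‖(B p).comp (B' p)‖ := 
  (h.mul h').of_le' (fun _ => norm_nonneg _) fun _ => ContinuousLinearMap.opNorm_comp_le _ _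
lemma Poly.norm_add {B B' : ∀ p, E (ι p) →L[ℝ] E (κ p)} (h : Poly b fun p => ‖B p‖)
    (h' : Poly b fun p => ‖B' p‖) : Poly b fun p => ‖B p + B' p‖ := 
  (h.add h').of_le' (fun _ => norm_nonneg _) fun _ => norm_add_le _ _
lemma Poly.norm_smul {x : P → ℝ} {B : ∀ p, E (ι p) →L[ℝ] E (κ p)} (hx : Poly b x)
    (h : Poly b fun p => ‖B p‖) : Poly b fun p => ‖x p • B p‖ := 
  (hx.abs.mul h).of_le' (fun _ => norm_nonneg _) fun _ => (_root_.norm_smul _ _).le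
lemma Poly.norm_adj {B : ∀ p, E (ι p) →L[ℝ] E (κ p)} (h : Poly b fun p => ‖B p‖) :
    Poly b fun p => ‖adj (B p)‖ := by simpa only [R285.norm_adj] using h
lemma Poly.norm_id : Poly b fun p => ‖ContinuousLinearMap.id ℝ (E (ι p))‖ := 
  Poly.norm_of_le fun _ => ContinuousLinearMap.norm_id_le
lemma Poly.norm_zero : Poly b fun p => ‖(0 : E (ι p) →L[ℝ] E (κ p))‖ := 
  Poly.norm_of_le (c := 0) fun _ => _root_.norm_zero.le
lemma Poly.norm_fstL : Poly b fun p => ‖(fstL : E (ι p ⊕ κ p) →L[ℝ] E (ι p))‖ := 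
  Poly.norm_of_le fun _ => norm_fstL_le
lemma Poly.norm_sndL : Poly b fun p => ‖(sndL : E (ι p ⊕ κ p) →L[ℝ] E (κ p))‖ := 
  Poly.norm_of_le fun _ => norm_sndL_le
lemma Poly.norm_inlL : Poly b fun p => ‖(inlL : E (ι p) →L[ℝ] E (ι p ⊕ κ p))‖ := 
  Poly.norm_of_le fun _ => norm_inlL_le
lemma Poly.norm_inrL : Poly b fun p => ‖(inrL : E (κ p) →L[ℝ] E (ι p ⊕ κ p))‖ := 
  Poly.norm_of_le fun _ => norm_inrL_le

lemma Dim.of_le (h : Dim b ι) {x : P → ℝ} (hx : Poly b x)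
    (hκ : ∀ p, (Fintype.card (κ p) : ℝ) ≤ x p * Fintype.card (ι p)) : Dim b κ := by
  obtain ⟨c, hc⟩ := h
  obtain ⟨c', hc'⟩ := hx.exists_le
  refine ⟨c' + c, ?_⟩
  filter_upwards [hc, hc'] with p h1 h2
  rw [pow_add, mul_assoc]
  exact (hκ p).trans (mul_le_mul h2 h1 (Nat.cast_nonneg _) (pow_pos (b p).Λ_pos _).le)
lemma Dim.sum (h : Dim b ι) (h' : Dim b κ) : Dim b fun p => ι p ⊕ κ p := by
  obtain ⟨c, hc⟩ := h
  obtain ⟨c', hc'⟩ := h'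
  obtain ⟨c₁, h₁⟩ := ((Poly.Λ_pow (b := b) c).add (Poly.Λ_pow c')).exists_le
  refine ⟨c₁, ?_⟩
  filter_upwards [hc, hc', h₁] with p h1 h2 h3
  rw [Fintype.card_sum, Nat.cast_add]
  refine (add_le_add h1 h2).trans ?_
  rw [← add_mul]
  exact mul_le_mul_of_nonneg_right h3 (Nat.cast_nonneg _)
lemma Dim.left (h : Dim b fun p => ι p ⊕ κ p) : Dim b ι := 
  h.of_le (Poly.const 1) fun p => by simp
lemma Dim.right (h : Dim b fun p => ι p ⊕ κ p) : Dim b κ := 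
  h.of_le (Poly.const 1) fun p => by simp
lemma Dim.fin : Dim b fun p => Fin (b p).d := ⟨0, Eventually.of_forall fun p => by simp⟩
lemma Dim.chI (h : Dim b ι) (n : ℕ) : Dim b fun p => chI (ι p) n := 
  h.of_le (Poly.const (2 * n + 1)) fun p => by rw [card_chI]; push_cast; exact le_rfl
lemma Dim.reindex (r : P' → P) (h : Dim b ι) : Dim (fun p => b (r p)) fun p => ι (r p) := by
  obtain ⟨c, hc⟩ := h
  exact ⟨c, ev_reindex r hc⟩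
lemma Dim.sqrt_le (h : Dim b ι) :
    ∃ c : ℕ, ∀ᶠ p in ev b, √(Fintype.card (ι p) : ℝ) ≤ (b p).Λ ^ c * √((b p).d : ℝ) := by
  obtain ⟨c, hc⟩ := h
  refine ⟨c, hc.mono fun p hp => (Real.sqrt_le_sqrt hp).trans ?_⟩
  have h1 := (b p).one_le_Λ_pow c
  rw [Real.sqrt_mul (by linarith)]
  exact mul_le_mul_of_nonneg_right (Real.sqrt_le_iff.2 ⟨by linarith, by nlinarith⟩)
    (Real.sqrt_nonneg _)


end Crest.Agent.R285
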