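import Crest.Agent.R285.Near
import Crest.Agent.R285.Tilt1

/-!
# Row 285 (S0430): TV
From Wasserstein to total variation by adding a small Gaussian.
`f x = ∫ z, 1_S (x + τ • z) ∂γ` is bounded and `√card/τ`-Lipschitz (`WPot.shift` for `hsq`, `γ_eq_gibbs`,
`integral_norm_γ_le`); `|∫ f ∂π - π S| ≤ ∫ z, τ ‖z‖ G` by Fubini and `WPot.shift` for
`π = tg W 0 √(2/3) = gibbs _` (`tg_eq_gibbs`, `BP.wpot`, `BP.gradient_full`, `BP.L2le_sub`).
-/

set_option autoImplicit false

open MeasureTheory ProbabilityTheory Filter Topology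
open scoped RealInnerProductSpace

noncomputable section

namespace Crest.Agent.R285

variable {ι : Type} [Fintype ι]

theorem tv_grad_le {W : E ι → ℝ} {lam B : ℝ} (h : BP W lam B) :
    ∫ x, ‖gradient (fun x : E ι => ‖x - 0‖ ^ 2 / (2 * √(2 / 3) ^ 2) + W x) x‖
      ∂(tg W 0 √(2 / 3)) ≤ 2 * B + 2 * √(Fintype.card ι) := by
  have hσ : (0 : ℝ) < √(2 / 3) := Real.sqrt_pos.2 (by norm_num)
  have hσ2 : √(2 / 3 : ℝ) ^ 2 = 2 / 3 := Real.sq_sqrt (by norm_num)
  have hσ1 : √(2 / 3 : ℝ) ≤ 1 := Real.sqrt_le_one.2 (by norm_num)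
  have := h.prob 0 √(2 / 3)
  have hB := h.nonneg
  have hc : (0 : ℝ) ≤ √(Fintype.card ι) := Real.sqrt_nonneg _
  have hL := h.L2le_sub 0 hσ
  have h1 := hL.integral_norm_le (by positivity)
  have hi := hL.integrable.norm
  calc _ ≤ ∫ x, (3 / 2 * ‖x - 0‖ + B) ∂(tg W 0 √(2 / 3)) := by
        refine integral_mono_of_nonneg (Eventually.of_forall fun x => norm_nonneg _)
          ((hi.const_mul _).add (integrable_const _)) (Eventually.of_forall fun x => ?_)
        dsimp only
        rw [h.gradient_full, hσ2]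
        refine (norm_add_le _ _).trans (add_le_add ?_ (h.bdd x))
        rw [norm_smul]; norm_num
    _ = 3 / 2 * ∫ x, ‖x - 0‖ ∂(tg W 0 √(2 / 3)) + B := by
        rw [integral_add (hi.const_mul _) (integrable_const _), integral_const_mul,
          integral_const, probReal_univ, one_smul]
    _ ≤ _ := by
        rw [hσ2] at h1
        nlinarith [mul_le_mul_of_nonneg_right hσ1 hc]

theorem tv_of_near {m : Measure (E ι)} [IsProbabilityMeasure m] {W : E ι → ℝ} {lam B η τ : ℝ}
    (h : BP W lam B) (hτ : 0 < τ) (hn : Near m (tg W 0 √(2 / 3)) η) {S : Set (E ι)}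
    (hS : MeasurableSet S) :
    |((m.prod (γ ι)).map (fun p => p.1 + τ • p.2) S).toReal - (tg W 0 √(2 / 3) S).toReal| ≤
      η * √(Fintype.card ι) / τ + τ * √(Fintype.card ι) * (2 * B + 2 * √(Fintype.card ι)) := by
  have hσ : (0 : ℝ) < √(2 / 3) := Real.sqrt_pos.2 (by norm_num)
  have hπ := h.prob 0 √(2 / 3)
  have hB := h.nonneg
  set c : ℝ := √(Fintype.card ι) with hcd
  have hc : 0 ≤ c := Real.sqrt_nonneg _
  set ind : E ι → ℝ := S.indicator (fun _ => (1 : ℝ)) with hind
  have hindm : Measurable ind := measurable_const.indicator hS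
  have hind1 : ∀ x, |ind x| ≤ 1 := fun x => by
    by_cases hx : x ∈ S <;> simp [hind, hx]
  have hg : Measurable (fun p : E ι × E ι => p.1 + τ • p.2) := by fun_prop
  have hint : ∀ (μ : Measure (E ι)) [IsProbabilityMeasure μ],
      Integrable (fun p : E ι × E ι => ind (p.1 + τ • p.2)) (μ.prod (γ ι)) := fun μ _ =>
    Integrable.of_bound (hindm.comp hg).aestronglyMeasurable 1
      (Eventually.of_forall fun p => hind1 _)
  set f : E ι → ℝ := fun x => ∫ z, ind (x + τ • z) ∂γ ι with hf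
  have hreal : ∀ μ : Measure (E ι), (μ S).toReal = ∫ x, ind x ∂μ := fun μ => by
    rw [hind, integral_indicator hS]; simp [Measure.real]
  have e1 : ((m.prod (γ ι)).map (fun p => p.1 + τ • p.2) S).toReal = ∫ x, f x ∂m := by
    rw [hreal, integral_map hg.aemeasurable hindm.aestronglyMeasurable, integral_prod _ (hint m)]
  have hfb : ∀ x, |f x| ≤ 1 := fun x => by
    have := norm_integral_le_of_norm_le_const (μ := γ ι) (f := fun z => ind (x + τ • z)) (C := 1)
      (Eventually.of_forall fun z => hind1 _)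
    simpa using this
  have hfl : Lip (c / τ) f := by
    intro x y
    have h1 := (nicePot_hsq (ι := ι)).wpot.shift (f := fun z => ind (y + τ • z))
      (hindm.comp (by fun_prop)) (fun z => hind1 _) (τ⁻¹ • (x - y))
    rw [← γ_eq_gibbs, gradient_hsq] at h1
    have e : ∀ z : E ι, y + τ • (z + τ⁻¹ • (x - y)) = x + τ • z := fun z => by
      rw [smul_add, smul_smul, mul_inv_cancel₀ hτ.ne', one_smul]; abel
    simp only [e] at h1
    rw [Real.norm_eq_abs]
    refine h1.trans ?_
    rw [norm_smul, Real.norm_eq_abs, abs_of_pos (inv_pos.2 hτ)]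
    calc _ ≤ τ⁻¹ * ‖x - y‖ * c := mul_le_mul_of_nonneg_left integral_norm_γ_le (by positivity)
      _ = _ := by ring
  have h2 := hn.lip (by positivity) hfl ⟨1, hfb⟩
  set G : ℝ := 2 * B + 2 * c with hG
  have h3 : |∫ x, f x ∂(tg W 0 √(2 / 3)) - (tg W 0 √(2 / 3) S).toReal| ≤ τ * c * G := by
    have hi := hint (tg W 0 √(2 / 3))
    have e2 : ∫ x, f x ∂(tg W 0 √(2 / 3)) =
        ∫ z, ∫ x, ind (x + τ • z) ∂(tg W 0 √(2 / 3)) ∂γ ι := integral_integral_swap hi
    have e3 : (tg W 0 √(2 / 3) S).toReal = ∫ _z, (∫ x, ind x ∂(tg W 0 √(2 / 3))) ∂γ ι := by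
      rw [hreal]; simp
    have hnz : Integrable (fun z : E ι => ‖z‖) (γ ι) := L2le_id_γ.integrable.norm
    rw [e2, e3, ← integral_sub hi.integral_prod_right (integrable_const _), ← Real.norm_eq_abs]
    calc _ ≤ ∫ z, (τ * G) * ‖z‖ ∂γ ι := by
          refine norm_integral_le_of_norm_le (hnz.const_mul _) (Eventually.of_forall fun z => ?_)
          have h4 := (h.wpot 0 hσ).shift hindm hind1 (τ • z)
          rw [← tg_eq_gibbs W 0 hσ] at h4
          rw [Real.norm_eq_abs]
          refine h4.trans ?_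
          rw [norm_smul, Real.norm_eq_abs, abs_of_pos hτ]
          calc _ ≤ τ * ‖z‖ * G := mul_le_mul_of_nonneg_left (tv_grad_le h) (by positivity)
            _ = _ := by ring
      _ = τ * G * ∫ z, ‖z‖ ∂γ ι := integral_const_mul _ _
      _ ≤ τ * G * c := mul_le_mul_of_nonneg_left integral_norm_γ_le (by positivity)
      _ = _ := by ring
  rw [e1]
  calc _ ≤ |∫ x, f x ∂m - ∫ x, f x ∂(tg W 0 √(2 / 3))| +
        |∫ x, f x ∂(tg W 0 √(2 / 3)) - (tg W 0 √(2 / 3) S).toReal| := abs_sub_le _ _ _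
    _ ≤ c / τ * η + τ * c * G := add_le_add h2 h3
    _ = _ := by ring


end Crest.Agent.R285
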