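import Crest.Agent.R285.Comp

/-!
# Row 285 (S0430): Trans
From `Comp` to `QueryAlg`.
Prove by induction on `n`, for all measurable spaces `X`, the existence of measurable
`query : (i : ℕ) → X → (Fin i → Answer d) → E d` and `output` whose run (define a measure-free transcript `tr`)
is `F (fun x => dec (x, oracle V x))`.  Step: `query 0 x _ = qr x`,
`query (i+1) x t = query' i (x, dec (qr x, t 0)) (Fin.tail t)`; `tr (i+1) = Fin.cons (oracle V (qr x)) (tr' i)`
by induction on `i` (`Fin.cons_snoc_eq_snoc_cons`).
-/

set_option autoImplicit false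

open MeasureTheory ProbabilityTheory Filter Topology
open scoped RealInnerProductSpace

noncomputable section

namespace Crest.Agent.R285

open Crest.OracleSampling

/-- measure-free transcript -/
def trans_tr {d : ℕ} {X : Type} (query : (i : ℕ) → X → (Fin i → Answer d) → E (Fin d))
    (o : E (Fin d) → Answer d) (x : X) : (i : ℕ) → (Fin i → Answer d)
  | 0 => Fin.elim0
  | i + 1 => Fin.snoc (trans_tr query o x i) (o (query i x (trans_tr query o x i)))

theorem trans_transcript {d n : ℕ} (A : QueryAlg d n) (V : E (Fin d) → ℝ) (ω : A.Ω) (i : ℕ) :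
    transcript A V ω i = trans_tr A.query (oracle V) ω i := by
  induction i with
  | zero => rfl
  | succ i ih => rw [transcript, trans_tr, ih]

/-- the query maps after one more initial query -/
def trans_step {d : ℕ} {X : Type} (qr : X → E (Fin d)) (dec : E (Fin d) × Answer d → E (Fin d))
    (query : (i : ℕ) → X × E (Fin d) → (Fin i → Answer d) → E (Fin d)) :
    (i : ℕ) → X → (Fin i → Answer d) → E (Fin d)
  | 0 => fun x _ => qr x
  | i + 1 => fun x t => query i (x, dec (qr x, t 0)) (Fin.tail t)

theorem trans_tr_step {d : ℕ} {X : Type} (qr : X → E (Fin d))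
    (dec : E (Fin d) × Answer d → E (Fin d))
    (query : (i : ℕ) → X × E (Fin d) → (Fin i → Answer d) → E (Fin d))
    (o : E (Fin d) → Answer d) (x : X) (i : ℕ) :
    trans_tr (trans_step qr dec query) o x (i + 1) =
      Fin.cons (o (qr x)) (trans_tr query o (x, dec (qr x, o (qr x))) i) := by
  induction i with
  | zero =>
    funext j
    rw [Fin.fin_one_eq_zero j]
    rfl
  | succ i ih =>
    rw [trans_tr, ih, trans_tr, Fin.cons_snoc_eq_snoc_cons]
    simp only [trans_step, Fin.cons_zero, Fin.tail_cons]

theorem trans_meas {d i : ℕ} {X Z : Type} [MeasurableSpace X] [MeasurableSpace Z]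
    {qr : X → E (Fin d)} (hq : Measurable qr)
    {dec : E (Fin d) × Answer d → E (Fin d)} (hdec : Measurable dec)
    {G : X × E (Fin d) → (Fin i → Answer d) → Z} (hG : Measurable (Function.uncurry G)) :
    Measurable (Function.uncurry fun (x : X) (t : Fin (i + 1) → Answer d) =>
      G (x, dec (qr x, t 0)) (Fin.tail t)) := by
  have h1 : Measurable fun p : X × (Fin (i + 1) → Answer d) =>
      ((p.1, dec (qr p.1, p.2 0)), Fin.tail p.2) := by
    refine (measurable_fst.prodMk (hdec.comp ((hq.comp measurable_fst).prodMk
      ((measurable_pi_apply 0).comp measurable_snd)))).prodMk ?_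
    exact measurable_pi_lambda _ fun j => (measurable_pi_apply j.succ).comp measurable_snd
  exact hG.comp h1

theorem trans_exists {d : ℕ} {dec : E (Fin d) × Answer d → E (Fin d)} (hdec : Measurable dec)
    (n : ℕ) : ∀ (X : Type) [MeasurableSpace X] (F : (E (Fin d) → E (Fin d)) → X → E (Fin d)),
      Comp (E (Fin d)) (E (Fin d)) n X F →
      ∃ (query : (i : ℕ) → X → (Fin i → Answer d) → E (Fin d))
        (output : X → (Fin n → Answer d) → E (Fin d)),
        (∀ i, Measurable (Function.uncurry (query i))) ∧ Measurable (Function.uncurry output) ∧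
        ∀ (o : E (Fin d) → Answer d) (x : X),
          output x (trans_tr query o x n) = F (fun z => dec (z, o z)) x := by
  induction n with
  | zero =>
    intro X _ F ⟨f, hf, hF⟩
    exact ⟨fun _ _ _ => 0, fun x _ => f x, fun _ => measurable_const, hf.comp measurable_fst,
      fun o x => by rw [hF]⟩
  | succ n ih =>
    intro X _ F ⟨qr, G, hq, hG, hF⟩
    obtain ⟨query, output, h1, h2, h3⟩ := ih _ G hG
    refine ⟨trans_step qr dec query, fun x t => output (x, dec (qr x, t 0)) (Fin.tail t), ?_,
      trans_meas hq hdec h2, fun o x => ?_⟩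
    · intro i
      cases i with
      | zero => exact hq.comp measurable_fst
      | succ i => exact trans_meas hq hdec (h1 i)
    · rw [trans_tr_step, hF]
      simp only [Fin.cons_zero, Fin.tail_cons]
      exact h3 o _

theorem exists_queryAlg {d n : ℕ} {Ω : Type} [MeasurableSpace Ω] (μ : Measure Ω)
    [IsProbabilityMeasure μ] {F : (E (Fin d) → E (Fin d)) → Ω → E (Fin d)}
    (hF : Comp (E (Fin d)) (E (Fin d)) n Ω F) {dec : E (Fin d) × Answer d → E (Fin d)}
    (hdec : Measurable dec) :
    ∃ A : QueryAlg d n, ∀ V, outputLaw A V = μ.map (F fun x => dec (x, oracle V x)) := by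
  obtain ⟨query, output, h1, h2, h3⟩ := trans_exists hdec n Ω F hF
  refine ⟨⟨Ω, inferInstance, μ, inferInstance, query, output, h1, h2⟩, fun V => ?_⟩
  unfold outputLaw
  congr 1
  funext ω
  unfold run
  rw [trans_transcript]
  exact h3 _ _


end Crest.Agent.R285
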