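import Crest.Agent.R285.Outer
import Crest.Agent.R285.TV
import Crest.Agent.R285.Cut2
import Crest.Agent.R285.Trans

/-!
# Row 285 (S0430): Final
Assembly.
`alg_of_sim`: seed space `Ω × E (Fin d)` with `μ.prod γ`, program `F o ((), ω.1) + τ • ω.2` (`Comp.comap`,
`Comp.map`), `exists_queryAlg`, `tv_of_near` with `τ = 1/(320 B₀ d)`; the potential `W` of `exists_cutoff` is
in `Pot b` because `B₀ ≤ Λ`.
`alg_of_base`: `outer` with `k = 2m + 4`, `n = ⌈δ⁻²⌉₊ ≤ 2/δ²`, `(1 - δ/2)^n ≤ exp (-1/(2δ)) ≤ k! (2δ)^k`,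
`d² δ^(2m) ≤ 1`.
`main`: `m ≥ 3/ε`; unpack `evF` to `c', C`; `ν = max (max c c') 1`, `D = max d d₀` with
`d₀ = (max 1 (C ν))^(m ν)`, `θ = D^(-1/(m ν))`, `δ = θ^ν`.
-/

set_option autoImplicit false

open MeasureTheory ProbabilityTheory Filter Topology
open scoped RealInnerProductSpace

noncomputable section

namespace Crest.Agent.R285

open Crest.OracleSampling

theorem alg_of_sim : ∃ C : ℝ, 1 ≤ C ∧ ∀ (b : Base) (η q : ℝ), C ≤ b.Λ →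
    C * η * (b.d * √(b.d : ℝ)) ≤ 1 →
    Sim b (In := Unit) (fun W _ => tg W.W 0 √(2 / 3)) (fun _ _ => η) q →
    ∃ (n : ℕ) (A : QueryAlg b.d n), (n : ℝ) ≤ q ∧ ∀ V, Admissible b.d V → Succeeds A V := by
  obtain ⟨B₀, hB₀, hcut⟩ := exists_cutoff
  refine ⟨12800 * B₀, by linarith, fun b η q hΛ hη h => ?_⟩
  obtain ⟨dec, hdec, hV⟩ := hcut b.d b.hd
  obtain ⟨Ω, _, μ, _, n, F, hn, hF, hnear⟩ := h
  have hd : (1 : ℝ) ≤ b.d := by exact_mod_cast b.hd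
  set τ : ℝ := 1 / (320 * B₀ * b.d) with hτ
  have hτ0 : 0 < τ := by positivity
  have hG : Comp (E (Fin b.d)) (E (Fin b.d)) n (Ω × E (Fin b.d))
      fun o x => F o ((), x.1) + τ • x.2 :=
    (hF.comap (g := fun x : Ω × E (Fin b.d) => ((), x.1)) (by fun_prop)).map
      (g := fun y => y.2 + τ • y.1.2) (by fun_prop)
  obtain ⟨A, hA⟩ := exists_queryAlg (μ.prod (γ (Fin b.d))) hG hdec
  refine ⟨n, A, hn, fun V hVa S hS => ?_⟩
  obtain ⟨W, hW, hdW, hTV⟩ := hV V hVa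
  let W' : Pot b := ⟨W, hW.mono le_rfl
    (mul_le_mul_of_nonneg_right (by linarith) (Real.sqrt_nonneg _))⟩
  have hg : (fun x => dec (x, oracle V x)) = gradient W := funext fun x => (hdW x).symm
  rw [hA V, hg]
  have hmeas : Measurable fun o => F (gradient W) ((), o) :=
    (hF.measurable W'.measurable_grad).comp (by fun_prop)
  have : IsProbabilityMeasure (μ.map fun o => F (gradient W) ((), o)) :=
    Measure.isProbabilityMeasure_map hmeas.aemeasurable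
  have e : (μ.prod (γ (Fin b.d))).map (fun x => F (gradient W) ((), x.1) + τ • x.2) =
      ((μ.map fun o => F (gradient W) ((), o)).prod (γ (Fin b.d))).map
        fun p => p.1 + τ • p.2 := by
    have e1 : (μ.map fun o => F (gradient W) ((), o)).prod (γ (Fin b.d)) =
        (μ.prod (γ (Fin b.d))).map (Prod.map (fun o => F (gradient W) ((), o)) id) := by
      rw [← Measure.map_prod_map μ _ hmeas measurable_id, Measure.map_id]
    rw [e1, Measure.map_map (by fun_prop) (hmeas.prodMap measurable_id)]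
    rfl
  have h1 := tv_of_near hW hτ0 (hnear W' ()) hS
  have h2 := hTV S hS
  rw [← e, Fintype.card_fin] at h1
  have hs : √(b.d : ℝ) * √(b.d : ℝ) = b.d := Real.mul_self_sqrt (by linarith)
  have a1 : η * √(b.d : ℝ) / τ ≤ 1 / 40 := by
    rw [hτ, div_div_eq_mul_div, div_one]
    linarith
  have a2 : τ * √(b.d : ℝ) * (2 * (B₀ * √(b.d : ℝ)) + 2 * √(b.d : ℝ)) ≤ 1 / 80 := by
    have e2 : τ * √(b.d : ℝ) * (2 * (B₀ * √(b.d : ℝ)) + 2 * √(b.d : ℝ)) =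
        τ * (2 * B₀ + 2) * (√(b.d : ℝ) * √(b.d : ℝ)) := by ring
    rw [e2, hs, hτ, div_mul_eq_mul_div, div_mul_eq_mul_div, div_le_iff₀ (by positivity)]
    nlinarith
  refine (abs_sub_le _ (tg W 0 √(2 / 3) S).toReal _).trans ?_
  linarith

lemma one_sub_pow_le {δ : ℝ} (hδ : 0 < δ) (hδ1 : δ ≤ 1) {n : ℕ} (hn : 1 / δ ^ 2 ≤ n) (k : ℕ) :
    (1 - δ / 2) ^ n ≤ k.factorial * (2 * δ) ^ k := by
  have h1 : (1 - δ / 2) ^ n ≤ Real.exp (-(δ / 2)) ^ n :=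
    pow_le_pow_left₀ (by linarith) (by linarith [Real.add_one_le_exp (-(δ / 2))]) n
  have h2 : Real.exp (-(δ / 2)) ^ n ≤ Real.exp (-(1 / (2 * δ))) := by
    rw [← Real.exp_nat_mul]
    refine Real.exp_le_exp.2 ?_
    have e : 1 / (2 * δ) = 1 / δ ^ 2 * (δ / 2) := by field_simp
    have := mul_le_mul_of_nonneg_right hn (by linarith : 0 ≤ δ / 2)
    rw [e]
    linarith
  have h3 := Real.pow_div_factorial_le_exp (1 / (2 * δ)) (by positivity) k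
  refine h1.trans (h2.trans ?_)
  rw [Real.exp_neg, inv_le_comm₀ (Real.exp_pos _) (by positivity)]
  refine le_trans (le_of_eq ?_) h3
  have : (0 : ℝ) < k.factorial := by positivity
  rw [one_div, inv_pow]
  field_simp

theorem alg_of_base (m : ℕ) : ∃ c : ℕ, ∀ᶠ b in evF, (b.d : ℝ) * b.δ ^ m ≤ 1 →
    ∃ (n : ℕ) (A : QueryAlg b.d n), (n : ℝ) ≤ b.Λ ^ c / b.δ ^ 2 ∧
      ∀ V, Admissible b.d V → Succeeds A V := by
  obtain ⟨C, hC, hsim⟩ := alg_of_sim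
  obtain ⟨c, hc⟩ := outer (2 * m + 4)
  set k := 2 * m + 4 with hk
  set C' : ℝ := C * (2 + 2 * (k.factorial * 2 ^ k)) with hC'
  have hC0 : 0 < C' := by positivity
  refine ⟨c + 1, ?_⟩
  have h1 : ∀ᶠ b in evF, C ≤ b.Λ := ev_id ▸ ev_const' (fun b : Base => b) C
  have h2 : ∀ᶠ b in evF, 2 ≤ b.Λ := ev_id ▸ ev_two_le_Λ (fun b : Base => b)
  have h3 : ∀ᶠ b in evF, b.δ * b.Λ ^ (c + 1) ≤ 1 / C' :=
    ev_id ▸ ev_δ_mul_le (fun b : Base => b) (c + 1) (by positivity)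
  have h4 : ∀ᶠ b in evF, b.δ ≤ 1 := ev_id ▸ ev_δ_le (fun b : Base => b) one_pos
  filter_upwards [hc, h1, h2, h3, h4] with b hb hCΛ h2Λ hδΛ hδ1 hd
  have hδ0 := b.δ_pos
  have hΛ0 := b.Λ_pos
  set n := ⌈1 / b.δ ^ 2⌉₊ with hn
  have hn1 : 1 / b.δ ^ 2 ≤ n := Nat.le_ceil _
  have hn2 : (n : ℝ) ≤ 2 / b.δ ^ 2 := by
    have a1 : (n : ℝ) < 1 / b.δ ^ 2 + 1 := Nat.ceil_lt_add_one (by positivity)
    have a2 : 1 ≤ 1 / b.δ ^ 2 := by
      rw [le_div_iff₀ (by positivity), one_mul]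
      exact pow_le_one₀ hδ0.le hδ1
    have a3 : 2 / b.δ ^ 2 = 1 / b.δ ^ 2 + 1 / b.δ ^ 2 := by ring
    linarith
  suffices key : C * (n * (b.Λ ^ c * b.e k) + (1 - b.δ / 2) ^ n * (2 * b.Λ * √(b.d : ℝ))) *
      (b.d * √(b.d : ℝ)) ≤ 1 by
    obtain ⟨N, A, hN, hA⟩ := hsim b _ _ hCΛ key (hb n)
    refine ⟨N, A, hN.trans ?_, hA⟩
    calc (n : ℝ) * b.Λ ^ c ≤ 2 / b.δ ^ 2 * b.Λ ^ c := by gcongr
      _ = 2 * b.Λ ^ c / b.δ ^ 2 := by ring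
      _ ≤ b.Λ * b.Λ ^ c / b.δ ^ 2 := by gcongr
      _ = _ := by rw [← pow_succ']
  · have hs : √(b.d : ℝ) * √(b.d : ℝ) = b.d := Real.mul_self_sqrt (Nat.cast_nonneg _)
    have hL1 : b.Λ ^ c ≤ b.Λ ^ (c + 1) := b.Λ_pow_mono (by omega)
    have hL2 : b.Λ ≤ b.Λ ^ (c + 1) := by simpa using b.Λ_pow_mono (show 1 ≤ c + 1 by omega)
    have hp := one_sub_pow_le hδ0 hδ1 hn1 k
    have hsq := Real.sqrt_nonneg (b.d : ℝ)
    have b1 : (n : ℝ) * (b.Λ ^ c * b.e k) ≤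
        2 * (b.δ * b.Λ ^ (c + 1) * (b.δ ^ m * b.δ ^ m * √(b.d : ℝ))) := by
      have he := (b.e_pos k).le
      calc (n : ℝ) * (b.Λ ^ c * b.e k) ≤ 2 / b.δ ^ 2 * (b.Λ ^ (c + 1) * b.e k) := by gcongr
        _ = 2 * (b.δ * b.Λ ^ (c + 1) * (b.δ ^ m * b.δ ^ m * √(b.d : ℝ))) * b.δ := by
            unfold Base.e
            rw [hk]
            field_simp
            ring
        _ ≤ _ := mul_le_of_le_one_right (by positivity) hδ1
    have b2 : (1 - b.δ / 2) ^ n * (2 * b.Λ * √(b.d : ℝ)) ≤ 2 * (k.factorial * 2 ^ k) *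
        (b.δ * b.Λ ^ (c + 1) * (b.δ ^ m * b.δ ^ m * √(b.d : ℝ))) := by
      calc _ ≤ k.factorial * (2 * b.δ) ^ k * (2 * b.Λ ^ (c + 1) * √(b.d : ℝ)) := by gcongr
        _ = 2 * (k.factorial * 2 ^ k) *
            (b.δ * b.Λ ^ (c + 1) * (b.δ ^ m * b.δ ^ m * √(b.d : ℝ))) * b.δ ^ 3 := by
            rw [mul_pow, hk]
            ring
        _ ≤ _ := mul_le_of_le_one_right (by positivity) (pow_le_one₀ hδ0.le hδ1)
    have b3 : b.δ * b.Λ ^ (c + 1) * C' ≤ 1 := by rwa [le_div_iff₀ hC0] at hδΛ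
    have b4 : ((b.d : ℝ) * b.δ ^ m) ^ 2 ≤ 1 := pow_le_one₀ (by positivity) hd
    calc _ ≤ C * (2 * (b.δ * b.Λ ^ (c + 1) * (b.δ ^ m * b.δ ^ m * √(b.d : ℝ))) +
          2 * (k.factorial * 2 ^ k) * (b.δ * b.Λ ^ (c + 1) * (b.δ ^ m * b.δ ^ m * √(b.d : ℝ)))) *
          (b.d * √(b.d : ℝ)) := by gcongr
      _ = (b.δ * b.Λ ^ (c + 1) * C') * (b.δ ^ m * b.δ ^ m * b.d * (√(b.d : ℝ) * √(b.d : ℝ))) := by
          rw [hC']; ring
      _ = (b.δ * b.Λ ^ (c + 1) * C') * ((b.d : ℝ) * b.δ ^ m) ^ 2 := by rw [hs]; ring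
      _ ≤ 1 := mul_le_one₀ b3 (by positivity) b4

theorem main : ∀ ε : ℝ, 0 < ε → ∃ C : ℝ, ∀ d : ℕ, 2 ≤ d →
    ∃ (q : ℕ) (A : QueryAlg d q), (q : ℝ) ≤ C * (d : ℝ) ^ ε ∧
      ∀ V : Crest.OracleSampling.E d → ℝ, Admissible d V → Succeeds A V := by
  intro ε hε
  obtain ⟨m, hm⟩ : ∃ m : ℕ, 3 / ε ≤ m := exists_nat_ge _
  have hm0 : (0 : ℝ) < m := lt_of_lt_of_le (by positivity) hm
  have hmε : 3 / (m : ℝ) ≤ ε := by
    rw [div_le_iff₀ hm0]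
    rw [div_le_iff₀ hε] at hm
    linarith
  obtain ⟨c, c', C, hC⟩ := alg_of_base m
  set ν : ℕ := c + c' + 1 with hν
  have hν0 : (0 : ℝ) < ν := by positivity
  set C₁ : ℝ := max 1 (C ν) with hC₁
  have hC1 : 1 ≤ C₁ := le_max_left _ _
  set d₀ : ℝ := C₁ ^ (m * ν) with hd₀
  have hd1 : 1 ≤ d₀ := one_le_pow₀ hC1
  refine ⟨d₀ ^ ε, fun d hd => ?_⟩
  have hd' : (1 : ℝ) ≤ d := by exact_mod_cast (by omega : 1 ≤ d)
  set D : ℝ := d₀ * d with hD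
  have hD1 : 1 ≤ D := by nlinarith
  have hD0 : 0 < D := by linarith
  set Λ : ℝ := D ^ (1 / ((m : ℝ) * ν)) with hΛ
  have hΛ1 : 1 ≤ Λ := Real.one_le_rpow hD1 (by positivity)
  have hΛ0 : 0 < Λ := by linarith
  have hΛp : Λ ^ (m * ν) = D := by
    rw [hΛ, ← Real.rpow_natCast, ← Real.rpow_mul hD0.le]
    push_cast
    rw [one_div_mul_cancel (by positivity), Real.rpow_one]
  have hmν : m * ν ≠ 0 := by
    have : 0 < m := by exact_mod_cast hm0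
    positivity
  have hCΛ : C₁ ≤ Λ := by
    refine le_of_pow_le_pow_left₀ hmν hΛ0.le ?_
    rw [hΛp, hD]
    exact le_mul_of_one_le_right (by positivity) hd'
  let b : Base := ⟨d, Λ⁻¹ ^ ν, Λ⁻¹, ν, by omega, inv_pos.2 hΛ0, inv_le_one_of_one_le₀ hΛ1, le_rfl⟩
  have hb := hC b (pow_le_pow_of_le_one b.hθ.le b.hθ1 (by omega)) (by
    show C ν * Λ⁻¹ ≤ 1
    rw [← div_eq_mul_inv, div_le_one hΛ0]
    exact (le_max_right _ _).trans hCΛ)
  obtain ⟨n, A, hn, hA⟩ := hb (by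
    show (d : ℝ) * (Λ⁻¹ ^ ν) ^ m ≤ 1
    rw [← pow_mul, mul_comm ν, inv_pow, hΛp, ← div_eq_mul_inv, div_le_one hD0, hD]
    exact le_mul_of_one_le_left (by positivity) hd1)
  refine ⟨n, A, hn.trans ?_, hA⟩
  show Λ⁻¹⁻¹ ^ c / (Λ⁻¹ ^ ν) ^ 2 ≤ _
  rw [inv_inv, ← Real.mul_rpow (by positivity) (by positivity), ← hD]
  calc Λ ^ c / (Λ⁻¹ ^ ν) ^ 2 = Λ ^ (c + ν * 2) := by
        rw [← pow_mul, inv_pow, div_inv_eq_mul, ← pow_add]
    _ ≤ Λ ^ (3 * ν) := pow_le_pow_right₀ hΛ1 (by omega)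
    _ = D ^ (3 / (m : ℝ)) := by
        rw [hΛ, ← Real.rpow_natCast, ← Real.rpow_mul hD0.le]
        congr 1
        push_cast
        field_simp
    _ ≤ D ^ ε := Real.rpow_le_rpow_of_exponent_le hD1 hmε


end Crest.Agent.R285
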