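import Crest.Agent.R285.OpR
import Crest.Agent.R285.Rot

/-!
# Row 285 (S0430): OpFD
Finite difference surrogate for the mean derivative in the averaged variable.
With `Mult (θ^c) (δ Λ^c)` from `Tame F` (`Mult.pair_right`, `Mult.left`, `TG.fderiv_pair_right`), take
`K p = ν * a + 1`, `ρ p = θ^(2c+1)`, the weights of `exists_fd_exp` (they depend only on `K`, so they are
bounded by a function of `ν`), and
`S (pair x g) = ∑ l, (c l/ρ) • ∫ z, F (pair x (cos (l ρ) • z + sin (l ρ) • g))`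
(`Good k` by `comp_lin`, `exp`, `smul`, `sum` over `I p = Fin (K p + 1)`).
-/

set_option autoImplicit false

open MeasureTheory ProbabilityTheory Filter Topology
open scoped RealInnerProductSpace

noncomputable section

namespace Crest.Agent.R285

variable {P P' : Type} {b : P → Base} {ι κ κ' ζ α β α' β' I : P → Type} [∀ p, Fintype (ι p)]
  [∀ p, Fintype (κ p)] [∀ p, Fintype (κ' p)] [∀ p, Fintype (ζ p)] [∀ p, Fintype (α p)]
  [∀ p, Fintype (β p)] [∀ p, Fintype (α' p)] [∀ p, Fintype (β' p)] [∀ p, Fintype (I p)]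

lemma fd_num (b : Base) (hδ : b.δ ≤ 1) {C X : ℝ} {a c c₂ : ℕ} (hC : C ≤ b.Λ) (hX0 : 0 ≤ X)
    (hX : X ≤ b.Λ ^ c₂ * √(b.d : ℝ)) :
    C * (b.θ ^ (2 * c + 1) / (b.θ ^ c) ^ 2) ^ (b.ν * a + 1) / (b.θ ^ c) ^ 2 * (b.δ * b.Λ ^ c) * X ≤
      b.Λ ^ (1 + 2 * c + c + c₂) * b.e a := by
  have hθ := b.hθ
  have hΛ := b.Λ_pos
  have hδ0 := b.δ_pos
  have e1 : b.θ ^ (2 * c + 1) / (b.θ ^ c) ^ 2 = b.θ := by
    field_simp
    ring
  have e2 : ((b.θ ^ c) ^ 2)⁻¹ = b.Λ ^ (2 * c) := by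
    rw [Base.Λ, inv_pow, ← pow_mul, mul_comm]
  have h1 : b.θ ^ (b.ν * a + 1) ≤ b.δ ^ a :=
    (b.θ_pow_anti (Nat.le_succ _)).trans (b.θ_pow_le_δ_pow a)
  rw [e1, div_eq_mul_inv, e2, Base.e]
  calc _ ≤ b.Λ * b.δ ^ a * b.Λ ^ (2 * c) * (1 * b.Λ ^ c) * (b.Λ ^ c₂ * √(b.d : ℝ)) := by gcongr
    _ = _ := by ring

theorem OpA.fd {k : ℕ} (hk : Lvl k) (a : ℕ) {F : Fam b (fun p => ι p ⊕ ζ p) κ} (h : Good k b F) :
    OpA k b a (ι := ι) (α := ζ) (β := κ)
      fun p W x => ∫ z, fderiv ℝ (fun z => F p W (pair x z)) z ∂γ (ζ p) := by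
  obtain ⟨c, hc⟩ := h.tame.op.mult
  obtain ⟨C, hC1, hC⟩ := exists_fd_exp
  choose w hw hfd using fun ν : ℕ => hC (ν * a + 1) (by omega)
  have hι : Dim b ι := h.tame.dimI.left
  have hζ : Dim b ζ := h.tame.dimI.right
  have hκ : Dim b κ := h.tame.dimO
  let J : P → Type := fun p => Fin ((b p).ν * a + 1 + 1)
  let ρ : P → ℝ := fun p => (b p).θ ^ (2 * c + 1)
  let B : ∀ q : Σ p, J p, E ((ι q.1 ⊕ ζ q.1) ⊕ ζ q.1) →L[ℝ] E (ι q.1 ⊕ ζ q.1) := fun q =>
    inlL.comp (fstL.comp fstL) + inrL.comp (Real.cos (((q.2 : ℕ) : ℝ) * ρ q.1) • sndL +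
      Real.sin (((q.2 : ℕ) : ℝ) * ρ q.1) • sndL.comp fstL)
  have hB : Poly (fun q : Σ p, J p => b q.1) fun q => ‖B q‖ :=
    Poly.norm_add (Poly.norm_comp Poly.norm_inlL (Poly.norm_comp Poly.norm_fstL Poly.norm_fstL))
      (Poly.norm_comp Poly.norm_inrL (Poly.norm_add
        (Poly.norm_smul (Poly.bound (Eventually.of_forall fun _ => Real.abs_cos_le_one _))
          Poly.norm_sndL)
        (Poly.norm_smul (Poly.bound (Eventually.of_forall fun _ => Real.abs_sin_le_one _))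
          (Poly.norm_comp Poly.norm_sndL Poly.norm_fstL))))
  have hBp : ∀ q x g z, B q (pair (pair x g) z) = pair x
      (Real.cos (((q.2 : ℕ) : ℝ) * ρ q.1) • z + Real.sin (((q.2 : ℕ) : ℝ) * ρ q.1) • g) := by
    intro q x g z
    rw [pair_eq x (_ + _)]
    simp only [B, add_apply, ContinuousLinearMap.comp_apply,
      smul_apply, fstL_pair, sndL_pair]
  have hwp : Poly (fun q : Σ p, J p => b q.1) fun q => w (b q.1).ν q.2 / ρ q.1 := by
    refine Poly.of_le ((Poly.nu fun ν => C (ν * a + 1)).mul (Poly.Λ_pow (2 * c + 1)))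
      (Eventually.of_forall fun q => ?_)
    rw [div_eq_mul_inv, ← inv_pow, abs_mul, abs_mul]
    exact mul_le_mul_of_nonneg_right ((hw _ _).trans (le_abs_self _)) (abs_nonneg _)
  have h1 := hk.closed.comp_lin hB (((hι.sum hζ).sum hζ).reindex Sigma.fst)
    (hk.closed.reindex (Sigma.fst : (Σ p, J p) → P) h)
  have h2 := hk.closed.sum (I := J) (Poly.nu fun ν => (Fintype.card (Fin (ν * a + 1 + 1)) : ℝ))
    (hι.sum hζ) hκ (hk.closed.smul hwp (hk.exp h1))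
  obtain ⟨c₂, hc₂⟩ := hκ.sqrt_le
  refine ⟨_, h2, 1 + 2 * c + c + c₂, ?_⟩
  filter_upwards [hc fun ν => 2 * (ν * a + 1) + 2, h.tame.tg, hc₂,
    ev_const b fun ν => C (ν * a + 1), ev_δ_le b one_pos] with p hp htg hd hCp hδ W x
  have hθ := (b p).hθ
  have hm : 0 ≤ (b p).δ * (b p).Λ ^ c := mul_nonneg (b p).δ_pos.le (pow_pos (b p).Λ_pos c).le
  have hM : Mult ((b p).θ ^ c) ((b p).δ * (b p).Λ ^ c) (2 * ((b p).ν * a + 1) + 2)
      fun z => adj (fderiv ℝ (fun z => F p W (pair x z)) z) := by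
    have ht : TG fun z => adj (fderiv ℝ (F p W) z) := (htg W).fderiv'.adj'
    have := (Mult.left (ht.pair_right x) (Mult.pair_right ht (hp W).2 x) (adj inrL)).mono
      (pow_pos hθ c).le le_rfl (mul_nonneg (norm_nonneg _) hm)
      (mul_le_of_le_one_left hm (by rw [norm_adj]; exact norm_inrL_le)) le_rfl
    simpa only [(htg W).fderiv_pair_right, adj_comp] using this
  refine ((hfd (b p).ν ((htg W).pair_right x) (pow_pos hθ c) ((b p).θ_pow_le_one c) hm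
    (pow_pos hθ (2 * c + 1)) hM).congr' fun g => ?_).mono
    (fd_num (b p) hδ hCp (Real.sqrt_nonneg _) hd)
  simp only [hBp]
  rfl


end Crest.Agent.R285
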