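import Crest.Agent.R285.OpR

/-!
# Row 285 (S0430): OpG
Rules for `OpG` (combine `TameOp.*`, `OpA.*`, and the `adj_*` lemmas through `OpA.congr`).
-/

set_option autoImplicit false

open MeasureTheory ProbabilityTheory Filter Topology
open scoped RealInnerProductSpace

noncomputable section

namespace Crest.Agent.R285

variable {P P' : Type} {b : P → Base} {ι κ κ' ζ α β α' β' I : P → Type} [∀ p, Fintype (ι p)]
  [∀ p, Fintype (κ p)] [∀ p, Fintype (κ' p)] [∀ p, Fintype (ζ p)] [∀ p, Fintype (α p)]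
  [∀ p, Fintype (β p)] [∀ p, Fintype (α' p)] [∀ p, Fintype (β' p)] [∀ p, Fintype (I p)]

variable {k a : ℕ}

lemma OpG.adj' {M : OFam b ι α β} (h : OpG k b a M) : OpG k b a (OFam.adj b M) :=
  ⟨h.tame.adj', h.opT, h.op.congr (Eventually.of_forall fun p W => by
    funext x; simp only [OFam.adj, adj_adj])⟩
lemma OpG.mono {M : OFam b ι α β} {a' : ℕ} (h : OpG k b a M) (ha : a' ≤ a) : OpG k b a' M :=
  ⟨h.tame, h.op.mono ha, h.opT.mono ha⟩
lemma OpG.congr {M M' : OFam b ι α β} (he : ∀ᶠ p in ev b, ∀ W, M p W = M' p W) (h : OpG k b a M) :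
    OpG k b a M' :=
  ⟨h.tame.congr he, h.op.congr he, h.opT.congr (he.mono fun p hp W => by
    funext x; simp only [OFam.adj, hp W])⟩

variable (hk : Lvl k)
include hk

lemma OpG.one {M : OFam b ι α β} (h : TameOp b M) : OpG k b 1 M :=
  ⟨h, OpA.one hk h, OpA.one hk h.adj'⟩
lemma OpG.zero (h₁ : Dim b ι) (h₂ : Dim b α) (h₃ : Dim b β) :
    OpG k b a (ι := ι) (α := α) (β := β) fun _ _ _ => 0 :=
  ⟨TameOp.zero h₁ h₂ h₃, OpA.zero hk h₁ h₂ h₃, (OpA.zero hk h₁ h₃ h₂).congr
    (Eventually.of_forall fun p W => by funext x; simp only [OFam.adj, adj_zero])⟩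
lemma OpG.reindex {M : OFam b ι α β} (r : P' → P) (h : OpG k b a M) :
    OpG k (fun p => b (r p)) a (ι := fun p => ι (r p)) (α := fun p => α (r p))
      (β := fun p => β (r p)) fun p => M (r p) :=
  ⟨h.tame.reindex r, h.op.reindex hk r, h.opT.reindex hk r⟩
lemma OpG.left {M : OFam b ι α β} {B : ∀ p, E (β p) →L[ℝ] E (β' p)} (hB : Poly b fun p => ‖B p‖)
    (hd : Dim b β') (h : OpG k b a M) : OpG k b a (β := β') fun p W x => (B p).comp (M p W x) :=
  ⟨h.tame.left hB hd, h.op.left hk hB hd, (h.opT.right hk hB.norm_adj hd).congr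
    (Eventually.of_forall fun p W => by funext x; simp only [OFam.adj, adj_comp])⟩
lemma OpG.right {M : OFam b ι α β} {B : ∀ p, E (α' p) →L[ℝ] E (α p)}
    (hB : Poly b fun p => ‖B p‖) (hd : Dim b α') (h : OpG k b a M) :
    OpG k b a (α := α') fun p W x => (M p W x).comp (B p) :=
  ⟨h.tame.right hB hd, h.op.right hk hB hd, (h.opT.left hk hB.norm_adj hd).congr
    (Eventually.of_forall fun p W => by funext x; simp only [OFam.adj, adj_comp])⟩
lemma OpG.smul {M : OFam b ι α β} {c : P → ℝ} (hc : Poly b c) (h : OpG k b a M) :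
    OpG k b a fun p W x => c p • M p W x :=
  ⟨h.tame.smul hc, h.op.smul hk hc, (h.opT.smul hk hc).congr
    (Eventually.of_forall fun p W => by funext x; simp only [OFam.adj, adj_smul])⟩
lemma OpG.add {M N : OFam b ι α β} (h : OpG k b a M) (h' : OpG k b a N) :
    OpG k b a fun p W x => M p W x + N p W x :=
  ⟨h.tame.add h'.tame, h.op.add hk h'.op, (h.opT.add hk h'.opT).congr
    (Eventually.of_forall fun p W => by funext x; simp only [OFam.adj, adj_add])⟩
lemma OpG.sum {M : OFam (fun p : Σ p, I p => b p.1) (fun p => ι p.1) (fun p => α p.1)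
      (fun p => β p.1)} (hI : Poly b fun p => (Fintype.card (I p) : ℝ)) (h₁ : Dim b ι)
    (h₂ : Dim b α) (h₃ : Dim b β) (h : OpG k (fun p : Σ p, I p => b p.1) a M) :
    OpG k b a (ι := ι) (α := α) (β := β) fun p W x => ∑ i, M ⟨p, i⟩ W x :=
  ⟨h.tame.sum hI h₁ h₂ h₃, h.op.sum hk hI h₁ h₂ h₃, (h.opT.sum hk hI h₁ h₃ h₂).congr
    (Eventually.of_forall fun p W => by funext x; simp only [OFam.adj, adj_sum])⟩
lemma OpG.subst {M : OFam b ζ α β} {y : Fam b ι ζ} {B : ∀ p, E (ι p) →L[ℝ] E (ζ p)}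
    (hB : Poly b fun p => ‖B p‖) (hy : Good k b y) (h : OpG k b a M) :
    OpG k b a (ι := ι) fun p W x => M p W (B p x + y p W x) :=
  ⟨h.tame.subst hB hy.tame, h.op.subst hk hB hy, (h.opT.subst hk hB hy).congr
    (Eventually.of_forall fun p W => by funext x; simp only [OFam.adj])⟩
lemma OpG.subst_lin {M : OFam b ζ α β} {B : ∀ p, E (ι p) →L[ℝ] E (ζ p)}
    (hB : Poly b fun p => ‖B p‖) (hd : Dim b ι) (h : OpG k b a M) :
    OpG k b a (ι := ι) fun p W x => M p W (B p x) :=
  (h.subst hk hB (hk.closed.zero hd h.tame.dimI)).congr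
    (Eventually.of_forall fun p W => by funext x; simp only [add_zero])
lemma OpG.exp {M : OFam b (fun p => ι p ⊕ ζ p) α β} (h : OpG k b a M) :
    OpG k b a (ι := ι) fun p W x => ∫ z, M p W (pair x z) ∂γ (ζ p) := by
  refine ⟨h.tame.exp, h.op.exp hk h.tame, (h.opT.exp hk h.tame.adj').congr ?_⟩
  filter_upwards [h.tame.tg] with p hp W
  funext x
  obtain ⟨A, hA⟩ := exists_adjL (α := α p) (β := β p)
  have hi : Integrable (fun z => M p W (pair x z)) (γ (ζ p)) :=
    TG.integrable_γ ((hp W).comp' (TG.pair' (Function.HasTemperateGrowth.const x)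
      Function.HasTemperateGrowth.id'))
  simp only [OFam.adj, ← hA]
  exact A.integral_comp_comm hi


end Crest.Agent.R285
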