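import Crest.Agent.R285.Unfold
import Crest.Agent.R285.OpFD
import Crest.Agent.R285.OpG

/-!
# Row 285 (S0430): GateOp
Surrogates for the derivative of the gate.
Fix `a`; `unfold` with `Q = Good k`.  `F p W X = gateN p W (chL n (B X) + Ts p W (B X))` with
`B = (chB n).comp fstL + σ • sndL` is `Good k` (`Closed.gateN'`, `comp_lin`, `comp`), and
`B (pair u z) = chB n u + σ • z`.  Then `OpA.fd`, `OpA.right` (by `chB' n`), `OpA.smul` (`Poly.σ_inv`),
`OpA.approx`; the adjoint family is the same (`adj_fderiv_gate`).
-/

set_option autoImplicit false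

open MeasureTheory ProbabilityTheory Filter Topology
open scoped RealInnerProductSpace

noncomputable section

namespace Crest.Agent.R285

theorem pre_gate {k : ℕ} (hk : Lvl k) (hg : Good k gb gate) : Pre k gb gate := by
  have hop : ∀ a, OpA k gb a (Fam.D gb gate) := by
    intro a
    obtain ⟨n, Ts, hTs, c, hc⟩ := unfold hk.closed hg a
    have hd : Dim gb gd := hg.tame.dimI
    let B : ∀ p : GI, E (gd p ⊕ chI (gd p) n) →L[ℝ] E (chI (gd p) n) := fun p =>
      (chB n).comp fstL + p.1.σ • sndL
    have hB : Poly gb fun p => ‖B p‖ :=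
      Poly.norm_add (Poly.norm_comp (Poly.norm_of_le fun _ => norm_chB_le n) Poly.norm_fstL)
        (Poly.norm_smul (Poly.bound (Eventually.of_forall fun p =>
          (abs_of_nonneg p.1.σ_nonneg).trans_le p.1.σ_le_one)) Poly.norm_sndL)
    have hBp : ∀ p u z, B p (pair u z) = chB n u + p.1.σ • z := fun p u z => by
      simp only [B, add_apply, ContinuousLinearMap.comp_apply,
        smul_apply, fstL_pair, sndL_pair]
    have h1 := hk.closed.comp_lin hB (hd.sum (hd.chI n))
      (hk.closed.comp (B := fun _ => chL n) (Poly.norm_of_le fun _ => norm_chL_le n) hTs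
        (hk.closed.gateN' hg))
    have h2 := OpA.smul hk Poly.σ_inv (OpA.right hk (B := fun _ => chB' n)
      (Poly.norm_of_le fun _ => norm_chB'_le n) hd (OpA.fd hk a h1))
    refine h2.approx ⟨c, hc.mono fun p hp W u => (hp W u).2.congr' fun g => ?_⟩
    simp only [hBp]
    rfl
  refine ⟨hg, fun a => ⟨hg.tame.op, hop a, (hop a).congr (Eventually.of_forall fun p W => ?_)⟩⟩
  funext u
  exact (adj_fderiv_gate p W u).symm


end Crest.Agent.R285
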