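import Crest.Agent.R285.Core3
import Crest.Agent.R285.BlurR

/-!
# Row 285 (S0430): Level
All rules hold at all levels.
`blur_exp`: given `c₁`, apply `core` to the family `2 Λ^c₁ • F` with `a = k+2`.  The family
`G (pair x o) = ∑ i, w i • F (pair x (fstL o + sm i (pair x o)))` has `Blur (k+2)` (`Blur.comp'`, `lin`, `sum`).
Use `Sim.mix` with seed `o`, kernel `gs (θ^c₁/2 • sndL o + G (pair y o)) s'` where `s'² + θ^(2c₁)/4 = θ^(2c₁)`
(`Bl.pair_known`, `Bl.scale`, `Bl.add_known`); for the comparison scale the `Near` statement of `core` by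
`θ^c₁/2` (`Near.map`, `gs_map_smul`) and convolve with `gs 0 s'` (`Lip.integral_gs`, `gs_conv`).
-/

set_option autoImplicit false

open MeasureTheory ProbabilityTheory Filter Topology
open scoped RealInnerProductSpace

noncomputable section

namespace Crest.Agent.R285

variable {P P' : Type} {b : P → Base} {ι κ κ' ζ α β α' β' I : P → Type} [∀ p, Fintype (ι p)]
  [∀ p, Fintype (κ p)] [∀ p, Fintype (κ' p)] [∀ p, Fintype (ζ p)] [∀ p, Fintype (α p)]
  [∀ p, Fintype (β p)] [∀ p, Fintype (α' p)] [∀ p, Fintype (β' p)] [∀ p, Fintype (I p)]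

lemma level_conv {κ : Type} [Fintype κ] {f : E κ → ℝ} (hf : Lip 1 f) (hb : ∃ C, ∀ x, |f x| ≤ C)
    (m : E κ) (t s : ℝ) :
    ∫ u, ∫ y, f y ∂gs u s ∂gs m t = ∫ y, f y ∂gs m √(t ^ 2 + s ^ 2) := by
  obtain ⟨C, hC⟩ := hb
  have hc := hf.continuous
  have h := gs_conv m 0 t s
  rw [add_zero] at h
  rw [← h, integral_map (by fun_prop) hc.aestronglyMeasurable, integral_prod]
  · refine integral_congr_ae (Eventually.of_forall fun u => ?_)
    have h' := gs_map_add (0 : E κ) u s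
    rw [add_zero] at h'
    beta_reduce
    rw [← h', integral_map (by fun_prop) hc.aestronglyMeasurable]
  · exact Integrable.of_bound (hc.comp continuous_add).aestronglyMeasurable C
      (Eventually.of_forall fun _ => hC _)

lemma level_near {κ O : Type} [Fintype κ] [Fintype O] {T : E O → E κ} (hT : Continuous T) {m : E κ}
    {t lam ε : ℝ} (ht : 0 ≤ t) (htl : t * lam = 1) (h : Near ((γ O).map T) (gs (lam • m) 1) ε)
    {f : E κ → ℝ} (hf : Lip 1 f) (hb : ∃ C, ∀ x, |f x| ≤ C) :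
    |∫ o, ∫ y, f y ∂gs (t • T o) (√3 * t) ∂γ O - ∫ y, f y ∂gs m (2 * t)| ≤ t * ε := by
  have hφ := hf.integral_gs (√3 * t)
  have hψ : Lip t fun u : E κ => ∫ y, f y ∂gs (t • u) (√3 * t) := fun u v => by
    refine (hφ _ _).trans (le_of_eq ?_)
    rw [one_mul, ← smul_sub, norm_smul, Real.norm_of_nonneg ht]
  have h1 := h.lip ht hψ (by
    obtain ⟨C, hC⟩ := hb
    refine ⟨C, fun u => ?_⟩
    simpa using norm_integral_le_of_norm_le_const (μ := gs (t • u) (√3 * t)) (f := f) (C := C)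
      (Eventually.of_forall hC))
  rw [integral_map hT.aemeasurable hψ.continuous.aestronglyMeasurable,
    ← integral_map (φ := fun u : E κ => t • u) (f := fun u => ∫ y, f y ∂gs u (√3 * t))
      (by fun_prop) hφ.continuous.aestronglyMeasurable, gs_map_smul, smul_smul, htl, one_smul,
    mul_one, level_conv hf hb] at h1
  have e : √(t ^ 2 + (√3 * t) ^ 2) = 2 * t := by
    rw [mul_pow, Real.sq_sqrt (by norm_num), show t ^ 2 + 3 * t ^ 2 = (2 * t) ^ 2 by ring,
      Real.sqrt_sq (by positivity)]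
  rwa [e] at h1

theorem blur_exp {k : ℕ} (hk : Lvl k) {F : Fam b (fun p => ι p ⊕ ζ p) κ} (hF : Good (k + 1) b F) :
    Blur b (k + 2) (ι := ι) fun p W x => ∫ z, F p W (pair x z) ∂γ (ζ p) := by
  intro c₁
  obtain ⟨hpre, hbl⟩ := good_succ_iff.1 hF
  obtain ⟨K, w, sm, hsm, c, hc⟩ := core hk ((closed_pre hk).smul (c := fun p => 2 * (b p).Λ ^ c₁)
    ((Poly.const 2).mul (Poly.Λ_pow c₁)) hpre) (k + 2)
  let B : ∀ p, E (ι p ⊕ (ζ p ⊕ κ p)) →L[ℝ] E (ι p ⊕ ζ p) := fun p =>
    inlL.comp fstL + inrL.comp (fstL.comp sndL)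
  have hB : Poly b fun p => ‖B p‖ :=
    Poly.norm_add (Poly.norm_comp Poly.norm_inlL Poly.norm_fstL)
      (Poly.norm_comp Poly.norm_inrL (Poly.norm_comp Poly.norm_fstL Poly.norm_sndL))
  have hBp : ∀ p x o v, B p (pair x o) + inrL v = pair x (fstL o + v) := fun p x o v => by
    rw [pair_eq x (_ + _), map_add, ← add_assoc]
    simp only [B, add_apply, ContinuousLinearMap.comp_apply, fstL_pair, sndL_pair]
  have hw : Poly (fun q : Σ _ : P, Fin K => b q.1) fun q => w q.2 :=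
    Poly.bound (c := ∑ i, |w i|) (Eventually.of_forall fun q =>
      Finset.single_le_sum (f := fun i => |w i|) (fun _ _ => abs_nonneg _) (Finset.mem_univ q.2))
  have hs' : Blur (fun q : Σ _ : P, Fin K => b q.1) (k + 1)
      (ι := fun q => ι q.1 ⊕ (ζ q.1 ⊕ κ q.1)) (κ := fun q => ζ q.1) fun q => sm (q.1, q.2) :=
    hsm.blur.reindex fun q : Σ _ : P, Fin K => (q.1, q.2)
  have hs'' := Blur.lin (κ' := fun q : Σ _ : P, Fin K => ι q.1 ⊕ ζ q.1) (B := fun _ => inrL)
    Poly.norm_inrL hs'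
  have hF' := Blur.comp' (hB.reindex (Sigma.fst : (Σ _ : P, Fin K) → P)) hs''
    (hbl.reindex (Sigma.fst : (Σ _ : P, Fin K) → P))
  have hF'' := Blur.lin (κ' := fun q : Σ _ : P, Fin K => κ q.1)
    (B := fun q : Σ _ : P, Fin K => w q.2 • ContinuousLinearMap.id ℝ (E (κ q.1)))
    (hw.norm_smul Poly.norm_id) hF'
  have hG := Blur.sum (I := fun _ => Fin K) (ι := fun p => ι p ⊕ (ζ p ⊕ κ p)) (κ := κ)
    (Poly.const _) hF''
  obtain ⟨c', hc'⟩ := hG (c₁ + 1)
  refine ⟨c + c' + 1, ?_⟩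
  filter_upwards [hc, hc', hF.tame.tg, ev_prod.1 hsm.tame.tg, ev_two_le_Λ b,
    ev_θ_le b one_half_pos] with p hp hp' htg hsg hΛ hθ2 In _ y η q hy
  have hθ := (b p).hθ
  have hΛ0 := (b p).Λ_pos
  set t := (b p).θ ^ c₁ / 2 with ht
  have ht0 : 0 ≤ t := by positivity
  have htl : t * (2 * (b p).Λ ^ c₁) = 1 := by
    rw [← (b p).θ_pow_mul_Λ_pow c₁, ht]
    ring
  have h1 := hp' (In × E (ζ p ⊕ κ p)) _ _ _ (((hy.scale (by positivity)
    ((b p).θ_pow_anti (by omega : c' ≤ c + c' + 1))).comap measurable_fst).pair_known measurable_snd)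
  have hs : (b p).θ ^ (c₁ + 1) ≤ √3 * t := by
    have h3 : 1 ≤ √3 := Real.one_le_sqrt.2 (by norm_num)
    calc _ ≤ (b p).θ ^ c₁ * (1 / 2) := by rw [pow_succ]; gcongr
      _ = 1 * t := by rw [ht]; ring
      _ ≤ _ := by gcongr
  have h2 := (h1.scale (by positivity) hs).add_known (g := fun v => t • sndL v.2) (by fun_prop)
  simp only [smul_apply, ContinuousLinearMap.id_apply, hBp] at h2
  have hT : ∀ W x, Continuous fun o : E (ζ p ⊕ κ p) => sndL o + ∑ i, w i •
      (2 * (b p).Λ ^ c₁) • F p W (pair x (fstL o + sm (p, i) W (pair x o))) := fun W x => by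
    have a1 := (htg W).continuous
    have a2 := fun i => (hsg i W).continuous
    fun_prop
  have hTe : ∀ W x (o : E (ζ p ⊕ κ p)),
      t • sndL o + ∑ i, w i • F p W (pair x (fstL o + sm (p, i) W (pair x o))) =
      t • (sndL o + ∑ i, w i •
        (2 * (b p).Λ ^ c₁) • F p W (pair x (fstL o + sm (p, i) W (pair x o)))) := fun W x o => by
    rw [smul_add, Finset.smul_sum]
    congr 1
    refine Finset.sum_congr rfl fun i _ => ?_
    rw [smul_comm t, smul_smul t, htl, one_smul]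
  simp only [hTe] at h2
  refine Sim.mono (Sim.mix (η₃ := fun _ _ => t * ((b p).Λ ^ c * (b p).e (k + 2)))
    (η₂ := fun W v => (b p).Λ ^ c' * ((b p).e (k + 2) + (b p).δ * η W v)) h2
    (fun _ _ => inferInstance) (fun W v f hf _ => ?_) fun W v f hf hb => ?_) (fun W v => ?_) ?_
  · exact (hf.integral_gs _).continuous.comp ((hT W (y W v)).const_smul t)
  · have h3 := hp W (y W v)
    rw [integral_smul] at h3
    have h4 := level_near (hT W (y W v)) ht0 htl h3 hf hb
    rwa [show 2 * t = (b p).θ ^ c₁ by rw [ht]; ring] at h4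
  · have he := ((b p).e_pos (k + 2)).le
    have hη := mul_nonneg (b p).δ_pos.le (hy.err_nonneg W v)
    have ht1 : t ≤ 1 := by
      have := (b p).θ_pow_le_one c₁
      rw [ht]
      linarith
    have a1 := (b p).Λ_pow_mono (Nat.le_add_right c c')
    have a2 := (b p).Λ_pow_mono (Nat.le_add_left c' c)
    calc _ ≤ 1 * ((b p).Λ ^ (c + c') * ((b p).e (k + 2) + (b p).δ * η W v)) +
          (b p).Λ ^ (c + c') * ((b p).e (k + 2) + (b p).δ * η W v) := by
          gcongr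
          exact le_add_of_nonneg_right hη
      _ = (b p).Λ ^ (c + c') * 2 * ((b p).e (k + 2) + (b p).δ * η W v) := by ring
      _ ≤ _ := by rw [pow_succ]; gcongr
  · have := hy.cost_nonneg
    exact mul_le_mul_of_nonneg_right ((b p).Λ_pow_mono (by omega)) (by positivity)

lemma level_closed {Q Q' : FamProp} {n : ℕ} (hQ : Closed Q)
    (h : ∀ {P : Type} {b : P → Base} {ι κ : P → Type} [∀ p, Fintype (ι p)] [∀ p, Fintype (κ p)]
      {F : Fam b ι κ}, Q' b F ↔ Q b F ∧ Blur b n F) : Closed Q' where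
  tame hF := hQ.tame (h.1 hF).1
  reindex r hF := h.2 ⟨hQ.reindex r (h.1 hF).1, (h.1 hF).2.reindex r⟩
  congr he hF := h.2 ⟨hQ.congr he (h.1 hF).1, (h.1 hF).2.congr he⟩
  zero h₁ h₂ := h.2 ⟨hQ.zero h₁ h₂, Blur.zero⟩
  lin hB hd hF := h.2 ⟨hQ.lin hB hd (h.1 hF).1, (h.1 hF).2.lin hB⟩
  add hF hF' := h.2 ⟨hQ.add (h.1 hF).1 (h.1 hF').1, (h.1 hF).2.add (h.1 hF').2⟩
  sum hI h₁ h₂ hF := h.2 ⟨hQ.sum hI h₁ h₂ (h.1 hF).1, (h.1 hF).2.sum hI⟩
  comp hB hy hF := h.2 ⟨hQ.comp hB (h.1 hy).1 (h.1 hF).1, Blur.comp hB (h.1 hy).2 (h.1 hF).2⟩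

theorem lvl_zero : Lvl 0 :=
  ⟨level_closed closed_tame good_zero_iff, fun hF => good_zero_iff.2
    ⟨expClosed_tame hF.tame, Blur.exp_one hF.tame hF.blur⟩⟩
theorem lvl_succ {k : ℕ} (hk : Lvl k) : Lvl (k + 1) :=
  ⟨level_closed (closed_pre hk) good_succ_iff, fun hF => good_succ_iff.2
    ⟨expClosed_pre hk (good_succ_iff.1 hF).1, blur_exp hk hF⟩⟩
theorem lvl (k : ℕ) : Lvl k := by
  induction k with
  | zero => exact lvl_zero
  | succ k ih => exact lvl_succ ih


end Crest.Agent.R285
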