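import Crest.Agent.R285.GateBlur
import Crest.Agent.R285.GateOp
import Crest.Agent.R285.Level

/-!
# Row 285 (S0430): Gate
The gate is good at every level.
-/

set_option autoImplicit false

open MeasureTheory ProbabilityTheory Filter Topology
open scoped RealInnerProductSpace

noncomputable section

namespace Crest.Agent.R285

theorem good_gate (k : ℕ) : Good k gb gate := by
  induction k with
  | zero => exact good_zero_gate
  | succ k ih =>
    exact good_succ_iff.2 ⟨pre_gate (lvl k) ih, gate_blur (lvl k) (pre_gate (lvl k) ih)⟩


end Crest.Agent.R285
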