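import Crest.Agent.R285.Basic

/-!
# Row 285 (S0430): Sqrt
Operator square roots.
`exists_sqrt`: spectral theorem for the symmetric operator `M M†` (eigenvalues in `[0,1]`,
`LinearMap.IsSymmetric.eigenvectorBasis`), `C = ∑ √(1-λ i) proj i`; put `D = 1 - C` (eigenvalues
`1 - √(1-λ) ≤ λ ≤ μ²`).  `D` is symmetric, `2 D = M M† + D D`, hence
`D - D_(r+1) = (D (D - D_r) + (D - D_r) D_r)/2` and `‖D_r‖ ≤ μ²` by induction.
-/

set_option autoImplicit false

open MeasureTheory ProbabilityTheory Filter Topology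
open scoped RealInnerProductSpace

noncomputable section

namespace Crest.Agent.R285

variable {ι κ ζ α β : Type} [Fintype ι] [Fintype κ] [Fintype ζ] [Fintype α] [Fintype β]
variable {Y Y' : Type} [NormedAddCommGroup Y] [NormedSpace ℝ Y] [NormedAddCommGroup Y']
  [NormedSpace ℝ Y']

/-- approximations of `1 - √(1 - A)` -/
def Dseq (A : E β →L[ℝ] E β) : ℕ → (E β →L[ℝ] E β)
  | 0 => 0
  | r + 1 => (1 / 2 : ℝ) • (A + (Dseq A r).comp (Dseq A r))

section diag
variable {I V : Type} [Fintype I] [NormedAddCommGroup V] [InnerProductSpace ℝ V]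

private lemma sqx_exists_diag (b : OrthonormalBasis I ℝ V) (d : I → ℝ) :
    ∃ D : V →L[ℝ] V, ∀ x i, b.repr (D x) i = d i * b.repr x i := by
  classical
  refine ⟨∑ j, d j • (innerSL ℝ (b j)).smulRight (b j), fun x i => ?_⟩
  simp only [_root_.sum_apply, _root_.smul_apply,
    ContinuousLinearMap.smulRight_apply, innerSL_apply_apply, map_sum, map_smul,
    OrthonormalBasis.repr_self, WithLp.ofLp_sum, WithLp.ofLp_smul, Finset.sum_apply,
    Pi.smul_apply, smul_eq_mul]
  rw [Finset.sum_eq_single i]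
  · simp [OrthonormalBasis.repr_apply_apply]
  · intro j _ hj
    simp [Ne.symm hj]
  · simp

private lemma sqx_norm_diag_le (b : OrthonormalBasis I ℝ V) {d : I → ℝ} {D : V →L[ℝ] V}
    (hD : ∀ x i, b.repr (D x) i = d i * b.repr x i) {m : ℝ} (hm : 0 ≤ m) (hd : ∀ i, |d i| ≤ m) :
    ‖D‖ ≤ m := by
  refine ContinuousLinearMap.opNorm_le_bound _ hm fun x => ?_
  refine (pow_le_pow_iff_left₀ (norm_nonneg _) (mul_nonneg hm (norm_nonneg _)) two_ne_zero).1 ?_
  rw [← b.repr.norm_map (D x), ← b.repr.norm_map x, mul_pow, EuclideanSpace.norm_sq_eq,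
    EuclideanSpace.norm_sq_eq, Finset.mul_sum]
  refine Finset.sum_le_sum fun i _ => ?_
  rw [hD, norm_mul, mul_pow]
  exact mul_le_mul_of_nonneg_right (pow_le_pow_left₀ (norm_nonneg _) (hd i) 2) (sq_nonneg _)

private lemma sqx_inner_diag (b : OrthonormalBasis I ℝ V) {d : I → ℝ} {D : V →L[ℝ] V}
    (hD : ∀ x i, b.repr (D x) i = d i * b.repr x i) (x y : V) : ⟪D x, y⟫ = ⟪x, D y⟫ := by
  rw [← b.repr.inner_map_map (D x) y, ← b.repr.inner_map_map x (D y), PiLp.inner_apply,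
    PiLp.inner_apply]
  refine Finset.sum_congr rfl fun i _ => ?_
  rw [hD, hD]
  simp only [RCLike.inner_apply, conj_trivial]
  ring

end diag

/-- the symmetric square root of `1 - M M†` -/
theorem exists_sqrt_core (M : E α →L[ℝ] E β) {μ : ℝ} (hM : ‖M‖ ≤ μ) (hμ : μ ≤ 1) :
    ∃ C : E β →L[ℝ] E β, adj C = C ∧ ‖C‖ ≤ 1 ∧ ‖ContinuousLinearMap.id ℝ (E β) - C‖ ≤ μ ^ 2 ∧
      ∀ y, M (adj M y) + C (C y) = y := by
  have hμ0 : 0 ≤ μ := (norm_nonneg _).trans hM
  have hsym : ((M.comp (adj M) : E β →L[ℝ] E β) : E β →ₗ[ℝ] E β).IsSymmetric := by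
    intro x y
    simp only [ContinuousLinearMap.coe_coe, ContinuousLinearMap.comp_apply]
    rw [← inner_adj_right, inner_adj_left]
  set b := hsym.eigenvectorBasis rfl with hb
  set lam := hsym.eigenvalues rfl with hlam
  have hA : ∀ x i, b.repr (M (adj M x)) i = lam i * b.repr x i := fun x i =>
    hsym.eigenvectorBasis_apply_self_apply rfl x i
  have hl : ∀ i, lam i = ‖adj M (b i)‖ ^ 2 := by
    intro i
    have h1 := hA (b i) i
    rw [b.repr_apply_apply, b.repr_apply_apply, ← inner_adj_left, real_inner_self_eq_norm_sq,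
      real_inner_self_eq_norm_sq, b.orthonormal.1 i] at h1
    rw [h1]; ring
  have hl0 : ∀ i, 0 ≤ lam i := fun i => by rw [hl]; positivity
  have hl1 : ∀ i, lam i ≤ μ ^ 2 := by
    intro i
    rw [hl]
    refine pow_le_pow_left₀ (norm_nonneg _) ?_ 2
    calc ‖adj M (b i)‖ ≤ ‖adj M‖ * ‖b i‖ := (adj M).le_opNorm _
      _ = ‖M‖ := by rw [norm_adj, b.orthonormal.1 i, mul_one]
      _ ≤ μ := hM
  have hl2 : ∀ i, lam i ≤ 1 := fun i => (hl1 i).trans (pow_le_one₀ hμ0 hμ)
  obtain ⟨C, hC⟩ := sqx_exists_diag b fun i => √(1 - lam i)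
  have hs1 : ∀ i, √(1 - lam i) ≤ 1 := fun i => Real.sqrt_le_one.2 (by linarith [hl0 i])
  have hs2 : ∀ i, √(1 - lam i) * √(1 - lam i) = 1 - lam i := fun i =>
    Real.mul_self_sqrt (by linarith [hl2 i])
  refine ⟨C, ?_, ?_, ?_, ?_⟩
  · ext1 y
    refine ext_inner_right ℝ fun x => ?_
    rw [inner_adj_left, sqx_inner_diag b hC]
  · refine sqx_norm_diag_le b hC zero_le_one fun i => ?_
    rw [abs_of_nonneg (Real.sqrt_nonneg _)]
    exact hs1 i
  · refine sqx_norm_diag_le b (d := fun i => 1 - √(1 - lam i)) (fun x i => ?_) (sq_nonneg _) fun i => ?_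
    · simp only [_root_.sub_apply, ContinuousLinearMap.id_apply, map_sub,
        PiLp.sub_apply, hC]
      ring
    · rw [abs_of_nonneg (by linarith [hs1 i])]
      have := Real.sqrt_nonneg (1 - lam i)
      nlinarith [hs1 i, hs2 i, hl1 i]
  · intro y
    apply b.repr.injective
    ext i
    simp only [map_add, PiLp.add_apply, hC, hA]
    rw [← mul_assoc, hs2]
    ring

theorem exists_sqrt (M : E α →L[ℝ] E β) (hM : ‖M‖ ≤ 1) :
    ∃ C : E β →L[ℝ] E β, ‖C‖ ≤ 1 ∧ ∀ y, M (adj M y) + C (adj C y) = y := by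
  obtain ⟨C, h1, h2, -, h4⟩ := exists_sqrt_core M hM le_rfl
  exact ⟨C, h2, fun y => by rw [h1, h4]⟩

theorem exists_sqrt_approx (M : E α →L[ℝ] E β) {μ : ℝ} (hM : ‖M‖ ≤ μ) (hμ : μ ≤ 1) :
    ∃ C : E β →L[ℝ] E β, (∀ y, M (adj M y) + C (adj C y) = y) ∧
      ∀ r, ‖C - (ContinuousLinearMap.id ℝ (E β) - Dseq (M.comp (adj M)) r)‖ ≤ μ ^ r := by
  obtain ⟨C, h1, -, h3, h4⟩ := exists_sqrt_core M hM hμ
  have hμ0 : 0 ≤ μ := (norm_nonneg _).trans hM
  have hμ2 : μ ^ 2 ≤ μ := by nlinarith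
  refine ⟨C, fun y => by rw [h1, h4], fun r => ?_⟩
  set A := M.comp (adj M) with hA
  set D := ContinuousLinearMap.id ℝ (E β) - C with hD
  have hAn : ‖A‖ ≤ μ ^ 2 := by
    calc ‖A‖ ≤ ‖M‖ * ‖adj M‖ := ContinuousLinearMap.opNorm_comp_le _ _
      _ = ‖M‖ ^ 2 := by rw [norm_adj, sq]
      _ ≤ μ ^ 2 := pow_le_pow_left₀ (norm_nonneg _) hM 2
  have hDr : ∀ r, ‖Dseq A r‖ ≤ μ := by
    intro r
    induction r with
    | zero => simpa [Dseq] using hμ0
    | succ r ih =>
      rw [Dseq, norm_smul]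
      have e1 : ‖(Dseq A r).comp (Dseq A r)‖ ≤ μ * μ :=
        (ContinuousLinearMap.opNorm_comp_le _ _).trans (mul_le_mul ih ih (norm_nonneg _) hμ0)
      have e2 := norm_add_le A ((Dseq A r).comp (Dseq A r))
      have e3 : ‖(1 / 2 : ℝ)‖ = 1 / 2 := by norm_num
      rw [e3]
      nlinarith
  have hDD : D = (1 / 2 : ℝ) • (A + D.comp D) := by
    ext1 y
    have := h4 y
    simp only [hD, hA, _root_.smul_apply, _root_.add_apply,
      ContinuousLinearMap.comp_apply, _root_.sub_apply, ContinuousLinearMap.id_apply,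
      map_sub]
    have e : M (adj M y) = y - C (C y) := eq_sub_of_add_eq this
    rw [e]
    module
  have key : ∀ r, ‖D - Dseq A r‖ ≤ μ ^ r := by
    intro r
    induction r with
    | zero =>
      simp only [Dseq, sub_zero, pow_zero]
      exact h3.trans (hμ2.trans hμ)
    | succ r ih =>
      have e : D - Dseq A (r + 1) =
          (1 / 2 : ℝ) • (D.comp (D - Dseq A r) + (D - Dseq A r).comp (Dseq A r)) := by
        have e0 : D - Dseq A (r + 1) = (1 / 2 : ℝ) • (A + D.comp D) -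
            (1 / 2 : ℝ) • (A + (Dseq A r).comp (Dseq A r)) := by rw [← hDD, Dseq]
        rw [e0]
        ext1 y
        simp only [_root_.smul_apply, _root_.add_apply, ContinuousLinearMap.comp_apply,
          _root_.sub_apply, map_sub]
        module
      have e1 : ‖D.comp (D - Dseq A r)‖ ≤ μ * μ ^ r :=
        (ContinuousLinearMap.opNorm_comp_le _ _).trans
          (mul_le_mul (h3.trans hμ2) ih (norm_nonneg _) hμ0)
      have e2 : ‖(D - Dseq A r).comp (Dseq A r)‖ ≤ μ ^ r * μ :=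
        (ContinuousLinearMap.opNorm_comp_le _ _).trans
          (mul_le_mul ih (hDr r) (norm_nonneg _) (pow_nonneg hμ0 _))
      have e3 : ‖(1 / 2 : ℝ)‖ = 1 / 2 := by norm_num
      have e4 := norm_add_le (D.comp (D - Dseq A r)) ((D - Dseq A r).comp (Dseq A r))
      rw [e, norm_smul, e3, pow_succ]
      linarith
  have e : C - (ContinuousLinearMap.id ℝ (E β) - Dseq A r) = -(D - Dseq A r) := by
    rw [hD]; abel
  rw [e, norm_neg]
  exact key r


end Crest.Agent.R285
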