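import Crest.Agent.R285.Gauss
import Crest.Agent.R285.Sqrt

/-!
# Row 285 (S0430): Gs
The Gaussians `gs u σ = N(u, σ² I)`.
-/

set_option autoImplicit false

open MeasureTheory ProbabilityTheory Filter Topology
open scoped RealInnerProductSpace

noncomputable section

namespace Crest.Agent.R285

variable {ι κ ζ α β : Type} [Fintype ι] [Fintype κ] [Fintype ζ] [Fintype α] [Fintype β]
variable {Y Y' : Type} [NormedAddCommGroup Y] [NormedSpace ℝ Y] [NormedAddCommGroup Y']
  [NormedSpace ℝ Y']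

instance (u : E ι) (σ : ℝ) : IsProbabilityMeasure (gs u σ) := by
  unfold gs
  exact Measure.isProbabilityMeasure_map (by fun_prop)

theorem measurePreserving_gs (u : E ι) (σ : ℝ) :
    MeasurePreserving (fun z => u + σ • z) (γ ι) (gs u σ) := by
  exact ⟨by fun_prop, rfl⟩

theorem integral_gs (u : E ι) (σ : ℝ) {f : E ι → Y} (hf : AEStronglyMeasurable f (gs u σ)) :
    ∫ x, f x ∂gs u σ = ∫ z, f (u + σ • z) ∂γ ι := by
  unfold gs at hf ⊢
  exact integral_map (by fun_prop) hf

theorem gs_zero_one : gs (0 : E ι) 1 = γ ι := by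
  simp [gs]

theorem gs_zero_right (u : E ι) : gs u 0 = Measure.dirac u := by
  simp [gs, Measure.map_const]

theorem gsx_charFun (u : E ι) (σ : ℝ) (t : E ι) :
    charFun (gs u σ) t =
      Complex.exp (((-(σ ^ 2 * ‖t‖ ^ 2) / 2 : ℝ) : ℂ) + (⟪u, t⟫ : ℝ) * Complex.I) := by
  have h : gs u σ = ((γ ι).map fun z => σ • z).map fun z => u + z := by
    rw [Measure.map_map (by fun_prop) (by fun_prop)]; rfl
  rw [h, charFun_map_const_add, charFun_map_smul, charFun_stdGaussian, Complex.exp_add]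
  congr 2
  rw [norm_smul, Real.norm_eq_abs, ← sq_abs σ]
  push_cast
  ring

theorem gsx_charFun_clm (μ : Measure (E α)) (B : E α →L[ℝ] E β) (t : E β) :
    charFun (μ.map B) t = charFun μ (adj B t) := by
  rw [charFun_apply, charFun_apply, integral_map (by fun_prop) (by fun_prop)]
  simp only [inner_adj_right]

theorem gsx_charFun_add (μ : Measure (E α)) (ν : Measure (E ζ)) [IsFiniteMeasure μ]
    [IsFiniteMeasure ν] (B : E α →L[ℝ] E β) (C : E ζ →L[ℝ] E β) (t : E β) :
    charFun ((μ.prod ν).map fun p => B p.1 + C p.2) t =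
      charFun μ (adj B t) * charFun ν (adj C t) := by
  rw [charFun_apply, charFun_apply, charFun_apply, integral_map (by fun_prop) (by fun_prop),
    ← integral_prod_mul]
  simp only [inner_adj_right, inner_add_left, Complex.ofReal_add, add_mul, Complex.exp_add]

/-- sums of linear images of independent Gaussians -/
theorem gs_lin_add (B : E α →L[ℝ] E β) (C : E ζ →L[ℝ] E β) {s r s' : ℝ}
    (h : ∀ t, s ^ 2 * ‖adj B t‖ ^ 2 + r ^ 2 * ‖adj C t‖ ^ 2 = s' ^ 2 * ‖t‖ ^ 2) (u : E α)
    (v : E ζ) :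
    ((gs u s).prod (gs v r)).map (fun p => B p.1 + C p.2) = gs (B u + C v) s' := by
  have : IsProbabilityMeasure (((gs u s).prod (gs v r)).map fun p => B p.1 + C p.2) :=
    Measure.isProbabilityMeasure_map (by fun_prop)
  refine Measure.ext_of_charFun (funext fun t => ?_)
  rw [gsx_charFun_add, gsx_charFun, gsx_charFun, gsx_charFun, ← Complex.exp_add, ← h t,
    inner_adj_right, inner_adj_right, inner_add_left]
  congr 1
  push_cast
  ring

theorem gs_abs (u : E ι) (σ : ℝ) : gs u |σ| = gs u σ := by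
  refine Measure.ext_of_charFun (funext fun t => ?_)
  rw [gsx_charFun, gsx_charFun, sq_abs]

theorem gs_map_add (u v : E ι) (σ : ℝ) : (gs u σ).map (fun x => v + x) = gs (v + u) σ := by
  unfold gs
  rw [Measure.map_map (by fun_prop) (by fun_prop)]
  congr 1
  funext z
  simp only [Function.comp_apply, add_assoc]

theorem gs_map_smul (u : E ι) (σ c : ℝ) : (gs u σ).map (fun x => c • x) = gs (c • u) (c * σ) := by
  unfold gs
  rw [Measure.map_map (by fun_prop) (by fun_prop)]
  congr 1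
  funext z
  simp only [Function.comp_apply, smul_add, smul_smul]

theorem gs_map_clm {T : E α →L[ℝ] E β} (hT : ∀ y, T (adj T y) = y) (u : E α) (σ : ℝ) :
    (gs u σ).map T = gs (T u) σ := by
  unfold gs
  rw [← (measurePreserving_clm hT).map_eq, Measure.map_map (by fun_prop) (by fun_prop),
    Measure.map_map (by fun_prop) (by fun_prop)]
  congr 1
  funext z
  simp only [Function.comp_apply, map_add, map_smul]

theorem gs_conv (u v : E ι) (σ τ : ℝ) :
    ((gs u σ).prod (gs v τ)).map (fun p => p.1 + p.2) = gs (u + v) √(σ ^ 2 + τ ^ 2) := by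
  refine gs_lin_add (ContinuousLinearMap.id ℝ (E ι)) (ContinuousLinearMap.id ℝ (E ι))
    (fun t => ?_) u v
  rw [adj_id, ContinuousLinearMap.id_apply, Real.sq_sqrt (by positivity)]
  ring

theorem gs_pair (u : E ι) (v : E κ) (σ : ℝ) :
    ((gs u σ).prod (gs v σ)).map (fun p => pair p.1 p.2) = gs (pair u v) σ := by
  have h := gs_lin_add (inlL : E ι →L[ℝ] E (ι ⊕ κ)) (inrL : E κ →L[ℝ] E (ι ⊕ κ))
    (s := σ) (r := σ) (s' := σ) (fun t => by
      rw [adj_inlL, adj_inrL, ← mul_add, ← norm_sq_pair, pair_fst_snd]) u v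
  simpa only [← pair_eq] using h

/-- linear image plus complementary noise (use `exists_sqrt` for `(s/s') • B`) -/
theorem exists_gs_lin (B : E α →L[ℝ] E β) {s s' : ℝ} (hs : 0 ≤ s) (h : ‖B‖ * s ≤ s') :
    ∃ C : E β →L[ℝ] E β, ∀ u,
      ((gs u s).prod (γ β)).map (fun p => B p.1 + C p.2) = gs (B u) s' := by
  have hs' : 0 ≤ s' := (mul_nonneg (norm_nonneg _) hs).trans h
  suffices H : ∃ C : E β →L[ℝ] E β,
      ∀ t, s ^ 2 * ‖adj B t‖ ^ 2 + 1 ^ 2 * ‖adj C t‖ ^ 2 = s' ^ 2 * ‖t‖ ^ 2 by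
    obtain ⟨C, hC⟩ := H
    refine ⟨C, fun u => ?_⟩
    have h1 := gs_lin_add B C hC u 0
    rwa [gs_zero_one, map_zero, add_zero] at h1
  rcases hs'.eq_or_lt with h0 | h0
  · refine ⟨0, fun t => ?_⟩
    have h1 : s * ‖adj B t‖ = 0 := by
      refine le_antisymm ?_ (mul_nonneg hs (norm_nonneg _))
      calc s * ‖adj B t‖ ≤ s * (‖adj B‖ * ‖t‖) :=
            mul_le_mul_of_nonneg_left ((adj B).le_opNorm t) hs
        _ = ‖B‖ * s * ‖t‖ := by rw [norm_adj]; ring
        _ ≤ s' * ‖t‖ := mul_le_mul_of_nonneg_right h (norm_nonneg _)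
        _ = 0 := by rw [← h0, zero_mul]
    rw [← mul_pow, h1, ← h0]
    simp
  · have hM : ‖(s / s') • B‖ ≤ 1 := by
      rw [norm_smul, Real.norm_eq_abs, abs_of_nonneg (div_nonneg hs hs'), div_mul_eq_mul_div,
        div_le_one h0, mul_comm]
      exact h
    obtain ⟨C, -, hC⟩ := exists_sqrt _ hM
    refine ⟨s' • C, fun t => ?_⟩
    have h1 : ‖adj ((s / s') • B) t‖ ^ 2 + ‖adj C t‖ ^ 2 = ‖t‖ ^ 2 := by
      rw [← real_inner_self_eq_norm_sq, ← real_inner_self_eq_norm_sq,
        ← real_inner_self_eq_norm_sq, inner_adj_left, inner_adj_left, ← inner_add_right, hC]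
    rw [adj_smul, _root_.smul_apply, norm_smul, mul_pow, Real.norm_eq_abs, sq_abs] at h1
    rw [adj_smul, _root_.smul_apply, norm_smul, mul_pow, Real.norm_eq_abs, sq_abs, ← h1]
    field_simp

theorem PolyB.integrable_gs {f : E ι → Y} (hf : PolyB f) (hc : Continuous f) (u : E ι) (σ : ℝ) :
    Integrable f (gs u σ) := by
  have hl : Lip |σ| fun z : E ι => u + σ • z := by
    intro x y
    rw [add_sub_add_left_eq_sub, ← smul_sub, norm_smul, Real.norm_eq_abs]
  refine ((measurePreserving_gs u σ).integrable_comp hc.aestronglyMeasurable).1 ?_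
  exact (hf.comp hl.polyB).integrable_γ (hc.comp (by fun_prop)).aestronglyMeasurable

theorem L2le_gs_sub (u : E ι) {σ : ℝ} (hσ : 0 ≤ σ) :
    L2le (gs u σ) (fun x => x - u) (σ * √(Fintype.card ι)) := by
  refine L2le.of_comp_mp (measurePreserving_gs u σ) (by fun_prop) ?_
  have h := (L2le_id_γ (ι := ι)).smul σ
  rw [abs_of_nonneg hσ] at h
  exact h.congr' fun x => by simp

theorem integral_norm_sub_gs_le (u : E ι) {σ : ℝ} (hσ : 0 ≤ σ) :
    ∫ x, ‖x - u‖ ∂gs u σ ≤ σ * √(Fintype.card ι) := by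
  exact (L2le_gs_sub u hσ).integral_norm_le (mul_nonneg hσ (Real.sqrt_nonneg _))

theorem gsx_map_tilted {X X' : Type} [MeasurableSpace X] [MeasurableSpace X'] (e : X ≃ᵐ X')
    (μ : Measure X) (f : X' → ℝ) :
    (μ.tilted fun x => f (e x)).map e = (μ.map e).tilted f := by
  ext s hs
  rw [Measure.map_apply e.measurable hs, tilted_apply' _ _ (e.measurable hs), tilted_apply' _ _ hs,
    integral_map_equiv, e.restrict_map, lintegral_map_equiv]

theorem gsx_tilted_smul {X : Type} [MeasurableSpace X] (μ : Measure X) (f : X → ℝ) {c : ℝ}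
    (hc : 0 < c) : (ENNReal.ofReal c • μ).tilted f = μ.tilted f := by
  unfold Measure.tilted
  rw [withDensity_smul_measure, integral_smul_measure,
    ← withDensity_smul' _ _ ENNReal.ofReal_ne_top]
  congr 1
  funext x
  rw [Pi.smul_apply, smul_eq_mul, smul_eq_mul, ENNReal.toReal_ofReal hc.le,
    ← ENNReal.ofReal_mul hc.le, ← mul_div_assoc, mul_div_mul_left _ _ hc.ne']

/-- density of `gs` -/
theorem gs_eq_gibbs (u : E ι) {σ : ℝ} (hσ : 0 < σ) :
    gs u σ = gibbs fun x => ‖x - u‖ ^ 2 / (2 * σ ^ 2) := by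
  let e : E ι ≃ᵐ E ι := (MeasurableEquiv.smul₀ σ hσ.ne').trans (MeasurableEquiv.addLeft u)
  have he : ∀ z, e z = u + σ • z := fun z => rfl
  have h1 : (volume : Measure (E ι)).map e =
      ENNReal.ofReal |(σ ^ Module.finrank ℝ (E ι))⁻¹| • (volume : Measure (E ι)) := by
    have : (volume : Measure (E ι)).map e =
        ((volume : Measure (E ι)).map fun z => σ • z).map fun z => u + z := by
      rw [Measure.map_map (by fun_prop) (by fun_prop)]; rfl
    rw [this, Measure.map_addHaar_smul _ hσ.ne', Measure.map_smul, map_add_left_eq_self]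
  have h2 := gsx_map_tilted e volume fun x => -(‖x - u‖ ^ 2 / (2 * σ ^ 2))
  rw [h1, gsx_tilted_smul _ _ (abs_pos.2 (inv_ne_zero (pow_ne_zero _ hσ.ne')))] at h2
  unfold gs gibbs
  rw [← h2, γ_eq_gibbs, gibbs]
  congr 2
  funext z
  rw [he, add_sub_cancel_left, norm_smul, mul_pow, Real.norm_eq_abs, sq_abs, hsq]
  field_simp



end Crest.Agent.R285
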