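import Crest.Agent.R285.ClosedR
import Crest.Agent.R285.Gs

/-!
# Row 285 (S0430): OpR
Rules for surrogates (at a level where all rules for `Good k` hold).
`left`: `B ∘ S`.  `right`: with `‖B p‖ ≤ m p = Λ^c` and `C p` from `exists_sqrt (m⁻¹ • B)` (choose `C p`
by `Classical.choose`, with a default value when the bound fails),
`S' (pair x g) = m • ∫ g', S (pair x (m⁻¹ • B g + C g'))`; the error is
`m • ∫ g', (S (pair x R) - M x R)` with `R = m⁻¹ • B g + C g'` standard (`measurePreserving_add`,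
`integral_clm_γ`, `L2le.integral_right`).  `subst`: `S (pair (B x + y x) g)`.
`exp`: `∫ z, S (pair (pair x z) g)`.
-/

set_option autoImplicit false

open MeasureTheory ProbabilityTheory Filter Topology
open scoped RealInnerProductSpace

noncomputable section

namespace Crest.Agent.R285

variable {P P' : Type} {b : P → Base} {ι κ κ' ζ α β α' β' I : P → Type} [∀ p, Fintype (ι p)]
  [∀ p, Fintype (κ p)] [∀ p, Fintype (κ' p)] [∀ p, Fintype (ζ p)] [∀ p, Fintype (α p)]
  [∀ p, Fintype (β p)] [∀ p, Fintype (α' p)] [∀ p, Fintype (β' p)] [∀ p, Fintype (I p)]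

variable {k a : ℕ}

lemma Good.tame {F : Fam b ι κ} (h : Good k b F) : Tame b F := by
  induction k with
  | zero => exact h.1
  | succ k ih => exact ih h.1
lemma Good.blur {F : Fam b ι κ} (h : Good k b F) : Blur b (k + 1) F := by
  cases k with
  | zero => exact h.2
  | succ k => exact h.2.2.2
lemma good_zero_iff {F : Fam b ι κ} : Good 0 b F ↔ Tame b F ∧ Blur b 1 F := Iff.rfl
lemma good_succ_iff {F : Fam b ι κ} : Good (k + 1) b F ↔ Pre k b F ∧ Blur b (k + 2) F :=
  ⟨fun h => ⟨⟨h.1, fun a => ⟨(Good.tame h.1).op, h.2.1 a, h.2.2.1 a⟩⟩, h.2.2.2⟩,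
    fun h => ⟨h.1.1, fun a => (h.1.2 a).op, fun a => (h.1.2 a).opT, h.2⟩⟩

/-- accuracy with a polynomially bounded constant -/
lemma Acc.of_poly {S : Fam b (fun p => ι p ⊕ α p) β} {M : OFam b ι α β} {x : P → ℝ}
    (hx : Poly b x) (h : ∀ᶠ p in ev b, ∀ W y,
      L2le (γ (α p)) (fun g => S p W (pair y g) - M p W y g) (x p * (b p).e a)) : Acc b a S M := by
  obtain ⟨c, hc⟩ := hx.exists_le
  refine ⟨c, ?_⟩
  filter_upwards [hc, h] with p h1 h2 W y
  exact (h2 W y).mono (mul_le_mul_of_nonneg_right h1 ((b p).e_pos a).le)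

lemma Base.Λ_pow_e_nonneg (b : Base) (c a : ℕ) : 0 ≤ b.Λ ^ c * b.e a :=
  (mul_pos (pow_pos b.Λ_pos c) (b.e_pos a)).le

lemma Acc.mono {S : Fam b (fun p => ι p ⊕ α p) β} {M : OFam b ι α β} {a' : ℕ} (h : Acc b a S M)
    (ha : a' ≤ a) : Acc b a' S M := by
  obtain ⟨c, hc⟩ := h
  refine ⟨c, ?_⟩
  filter_upwards [hc, ev_δ_le b one_pos] with p h1 h2 W x
  exact (h1 W x).mono
    (mul_le_mul_of_nonneg_left ((b p).e_anti h2 ha) (pow_pos (b p).Λ_pos c).le)
lemma OpA.mono {M : OFam b ι α β} {a' : ℕ} (h : OpA k b a M) (ha : a' ≤ a) : OpA k b a' M := by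
  obtain ⟨S, hS, hA⟩ := h
  exact ⟨S, hS, hA.mono ha⟩
lemma OpA.congr {M M' : OFam b ι α β} (he : ∀ᶠ p in ev b, ∀ W, M p W = M' p W) (h : OpA k b a M) :
    OpA k b a M' := by
  obtain ⟨S, hS, c, hc⟩ := h
  refine ⟨S, hS, c, ?_⟩
  filter_upwards [hc, he] with p h1 h2 W x
  rw [← h2 W]
  exact h1 W x
lemma OpA.approx {M M' : OFam b ι α β} (h : OpA k b a M)
    (he : ∃ c : ℕ, ∀ᶠ p in ev b, ∀ W x,
      L2le (γ (α p)) (fun g => M p W x g - M' p W x g) ((b p).Λ ^ c * (b p).e a)) :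
    OpA k b a M' := by
  obtain ⟨S, hS, c, hc⟩ := h
  obtain ⟨c', hc'⟩ := he
  refine ⟨S, hS, Acc.of_poly ((Poly.Λ_pow c).add (Poly.Λ_pow c')) ?_⟩
  filter_upwards [hc, hc'] with p h1 h2 W x
  rw [add_mul]
  exact ((h1 W x).add (h2 W x) ((b p).Λ_pow_e_nonneg _ _) ((b p).Λ_pow_e_nonneg _ _)).congr'
    fun g => sub_add_sub_cancel _ _ _

variable (hk : Lvl k)
include hk

/-- small operators: the zero surrogate has accuracy `1` -/
lemma OpA.one {M : OFam b ι α β} (h : TameOp b M) : OpA k b 1 M := by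
  obtain ⟨c, hc⟩ := h.norm_le
  obtain ⟨c', hc'⟩ := h.dimA.sqrt_le
  refine ⟨_, hk.closed.zero (h.dimI.sum h.dimA) h.dimB, c + c', ?_⟩
  filter_upwards [hc, hc'] with p h1 h2 W x
  refine ((L2le_clm_γ (M p W x)).neg.congr' fun g => (zero_sub _).symm).mono ?_
  refine (mul_le_mul (h1 W x) h2 (Real.sqrt_nonneg _)
    (mul_pos (b p).δ_pos (pow_pos (b p).Λ_pos c)).le).trans (le_of_eq ?_)
  simp only [Base.e]
  ring
lemma OpA.zero (h₁ : Dim b ι) (h₂ : Dim b α) (h₃ : Dim b β) :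
    OpA k b a (ι := ι) (α := α) (β := β) fun _ _ _ => 0 := by
  refine ⟨_, hk.closed.zero (h₁.sum h₂) h₃, 0, Eventually.of_forall fun p W x => ?_⟩
  exact L2le.zero.congr' fun g => by simp
lemma OpA.reindex {M : OFam b ι α β} (r : P' → P) (h : OpA k b a M) :
    OpA k (fun p => b (r p)) a (ι := fun p => ι (r p)) (α := fun p => α (r p))
      (β := fun p => β (r p)) fun p => M (r p) := by
  obtain ⟨S, hS, c, hc⟩ := h
  exact ⟨fun p => S (r p), hk.closed.reindex r hS, c, ev_reindex r hc⟩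
lemma OpA.left {M : OFam b ι α β} {B : ∀ p, E (β p) →L[ℝ] E (β' p)} (hB : Poly b fun p => ‖B p‖)
    (hd : Dim b β') (h : OpA k b a M) : OpA k b a (β := β') fun p W x => (B p).comp (M p W x) := by
  obtain ⟨S, hS, c, hc⟩ := h
  refine ⟨_, hk.closed.lin hB hd hS, Acc.of_poly (hB.mul (Poly.Λ_pow c)) ?_⟩
  filter_upwards [hc] with p h1 W x
  rw [mul_assoc]
  exact ((h1 W x).clm (B p)).congr' fun g => by simp
lemma OpA.right {M : OFam b ι α β} {B : ∀ p, E (α' p) →L[ℝ] E (α p)}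
    (hB : Poly b fun p => ‖B p‖) (hd : Dim b α') (h : OpA k b a M) :
    OpA k b a (α := α') fun p W x => (M p W x).comp (B p) := by
  obtain ⟨S, hS, c, hc⟩ := h
  have hT := Good.tame hS
  set m : P → ℝ := fun p => ‖B p‖ + 1 with hm
  have hm0 : ∀ p, 0 < m p := fun p => by simp only [hm]; positivity
  have hmP : Poly b m := hB.add (Poly.const 1)
  set B' : ∀ p, E (α' p) →L[ℝ] E (α p) := fun p => (m p)⁻¹ • B p with hB'
  have hB1 : ∀ p, ‖B' p‖ ≤ 1 := fun p => by
    simp only [hB']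
    rw [norm_smul, norm_inv, Real.norm_eq_abs, abs_of_pos (hm0 p), inv_mul_le_iff₀ (hm0 p)]
    simp only [hm]
    linarith
  choose C hC1 hC using fun p => exists_sqrt (B' p) (hB1 p)
  let A : ∀ p, E ((ι p ⊕ α' p) ⊕ α p) →L[ℝ] E (ι p ⊕ α p) := fun p =>
    inlL.comp (fstL.comp fstL) + inrL.comp ((B' p).comp (sndL.comp fstL) + (C p).comp sndL)
  have hA : Poly b fun p => ‖A p‖ :=
    (Poly.norm_inlL.norm_comp (Poly.norm_fstL.norm_comp Poly.norm_fstL)).norm_add
      (Poly.norm_inrL.norm_comp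
        (((Poly.norm_of_le hB1).norm_comp (Poly.norm_sndL.norm_comp Poly.norm_fstL)).norm_add
          ((Poly.norm_of_le hC1).norm_comp Poly.norm_sndL)))
  have hA' : ∀ p (x : E (ι p)) (g : E (α' p)) (z : E (α p)),
      A p (pair (pair x g) z) = pair x (B' p g + C p z) := fun p x g z => by simp [A]
  have h1 := hk.closed.comp_lin hA ((hT.dimI.left.sum hd).sum hT.dimI.right) hS
  have h2 := hk.closed.smul hmP (hk.exp h1)
  refine ⟨_, h2, Acc.of_poly (hmP.abs.mul (Poly.Λ_pow c)) ?_⟩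
  filter_upwards [hc, hT.tg] with p h3 h4 W x
  rw [mul_assoc]
  have h5 := ((h3 W x).comp_mp (measurePreserving_add (hC p))).integral_right.smul (m p)
  refine h5.congr' fun g => ?_
  simp only [hA']
  have hR : TG fun z : E (α p) => B' p g + C p z := TG.affine (C p) (B' p g)
  have i1 : Integrable (fun z => S p W (pair x (B' p g + C p z))) (γ (α p)) :=
    ((h4 W).comp' (TG.pair' (Function.HasTemperateGrowth.const x) hR)).integrable_γ
  have i2 : Integrable (fun z => M p W x (B' p g + C p z)) (γ (α p)) :=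
    (hR.clm (M p W x)).integrable_γ
  have i3 : ∫ z, M p W x (B' p g + C p z) ∂γ (α p) = M p W x (B' p g) := by
    simp only [map_add]
    rw [integral_add (integrable_const _)
      (TG.integrable_γ (TG.clm (C p).hasTemperateGrowth (M p W x)))]
    have := integral_clm_γ ((M p W x).comp (C p))
    simp only [ContinuousLinearMap.comp_apply] at this
    rw [this]
    simp
  rw [integral_sub i1 i2, i3, smul_sub]
  congr 1
  simp only [hB', smul_apply, map_smul, smul_smul,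
    mul_inv_cancel₀ (hm0 p).ne', one_smul, ContinuousLinearMap.comp_apply]
lemma OpA.smul {M : OFam b ι α β} {c : P → ℝ} (hc : Poly b c) (h : OpA k b a M) :
    OpA k b a fun p W x => c p • M p W x := by
  obtain ⟨S, hS, c', hc'⟩ := h
  refine ⟨_, hk.closed.smul hc hS, Acc.of_poly (hc.abs.mul (Poly.Λ_pow c')) ?_⟩
  filter_upwards [hc'] with p h1 W x
  rw [mul_assoc]
  exact ((h1 W x).smul (c p)).congr' fun g => by simp [smul_sub]
lemma OpA.add {M N : OFam b ι α β} (h : OpA k b a M) (h' : OpA k b a N) :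
    OpA k b a fun p W x => M p W x + N p W x := by
  obtain ⟨S, hS, c, hc⟩ := h
  obtain ⟨S', hS', c', hc'⟩ := h'
  refine ⟨_, hk.closed.add hS hS', Acc.of_poly ((Poly.Λ_pow c).add (Poly.Λ_pow c')) ?_⟩
  filter_upwards [hc, hc'] with p h1 h2 W x
  rw [add_mul]
  exact ((h1 W x).add (h2 W x) ((b p).Λ_pow_e_nonneg _ _) ((b p).Λ_pow_e_nonneg _ _)).congr'
    fun g => by simp only [add_apply]; abel
lemma OpA.sum {M : OFam (fun p : Σ p, I p => b p.1) (fun p => ι p.1) (fun p => α p.1)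
      (fun p => β p.1)} (hI : Poly b fun p => (Fintype.card (I p) : ℝ)) (h₁ : Dim b ι)
    (h₂ : Dim b α) (h₃ : Dim b β) (h : OpA k (fun p : Σ p, I p => b p.1) a M) :
    OpA k b a (ι := ι) (α := α) (β := β) fun p W x => ∑ i, M ⟨p, i⟩ W x := by
  obtain ⟨S, hS, c, hc⟩ := h
  refine ⟨_, hk.closed.sum (ι := fun p => ι p ⊕ α p) (κ := β) (F := S) hI (h₁.sum h₂) h₃ hS,
    Acc.of_poly (hI.mul (Poly.Λ_pow c)) ?_⟩
  filter_upwards [ev_sigma.1 hc] with p h1 W x
  let S' : I p → E (ι p ⊕ α p) → E (β p) := fun i => S ⟨p, i⟩ W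
  let M' : I p → (E (α p) →L[ℝ] E (β p)) := fun i => M ⟨p, i⟩ W x
  have h2 := L2le.sum (μ := γ (α p)) Finset.univ (f := fun i g => S' i (pair x g) - M' i g)
    (r := fun _ => (b p).Λ ^ c * (b p).e a) (fun i _ => h1 i W x)
    fun i _ => (b p).Λ_pow_e_nonneg c a
  refine (h2.congr' fun g => ?_).mono (le_of_eq ?_)
  · change _ = ∑ i, S' i (pair x g) - (∑ i, M' i) g
    simp [Finset.sum_sub_distrib]
  · simp [mul_assoc]
lemma OpA.subst {M : OFam b ζ α β} {y : Fam b ι ζ} {B : ∀ p, E (ι p) →L[ℝ] E (ζ p)}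
    (hB : Poly b fun p => ‖B p‖) (hy : Good k b y) (h : OpA k b a M) :
    OpA k b a (ι := ι) fun p W x => M p W (B p x + y p W x) := by
  obtain ⟨S, hS, c, hc⟩ := h
  have hT := Good.tame hS
  have hd : Dim b fun p => ι p ⊕ α p := (Good.tame hy).dimI.sum hT.dimI.right
  let A : ∀ p, E (ι p ⊕ α p) →L[ℝ] E (ζ p ⊕ α p) := fun p =>
    inlL.comp ((B p).comp fstL) + inrL.comp sndL
  have hA : Poly b fun p => ‖A p‖ :=
    (Poly.norm_inlL.norm_comp (hB.norm_comp Poly.norm_fstL)).norm_add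
      (Poly.norm_inrL.norm_comp Poly.norm_sndL)
  have h1 := hk.closed.lin (κ' := fun p => ζ p ⊕ α p) (B := fun p => inlL) Poly.norm_inlL hT.dimI
    (hk.closed.comp_lin (B := fun p => fstL) Poly.norm_fstL hd hy)
  refine ⟨_, hk.closed.comp hA h1 hS, c, ?_⟩
  filter_upwards [hc] with p h2 W x
  exact (h2 W (B p x + y p W x)).congr' fun g => by simp [A]
lemma OpA.exp {M : OFam b (fun p => ι p ⊕ ζ p) α β} (hM : TameOp b M) (h : OpA k b a M) :
    OpA k b a (ι := ι) fun p W x => ∫ z, M p W (pair x z) ∂γ (ζ p) := by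
  obtain ⟨S, hS, c, hc⟩ := h
  have hT := Good.tame hS
  let A : ∀ p, E ((ι p ⊕ α p) ⊕ ζ p) →L[ℝ] E ((ι p ⊕ ζ p) ⊕ α p) := fun p =>
    inlL.comp (inlL.comp (fstL.comp fstL) + inrL.comp sndL) + inrL.comp (sndL.comp fstL)
  have hA : Poly b fun p => ‖A p‖ :=
    (Poly.norm_inlL.norm_comp ((Poly.norm_inlL.norm_comp
      (Poly.norm_fstL.norm_comp Poly.norm_fstL)).norm_add
        (Poly.norm_inrL.norm_comp Poly.norm_sndL))).norm_add
      (Poly.norm_inrL.norm_comp (Poly.norm_sndL.norm_comp Poly.norm_fstL))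
  have hA' : ∀ p (x : E (ι p)) (g : E (α p)) (z : E (ζ p)),
      A p (pair (pair x g) z) = pair (pair x z) g := fun p x g z => by simp [A]
  have h1 := hk.closed.comp_lin hA ((hM.dimI.left.sum hM.dimA).sum hM.dimI.right) hS
  refine ⟨_, hk.exp h1, c, ?_⟩
  filter_upwards [hc, hT.tg, hM.tg] with p h3 h4 h5 W x
  have hc1 : Continuous (S p W) := (h4 W).continuous
  have hc2 : Continuous (M p W) := (h5 W).continuous
  have h6 : L2le ((γ (ζ p)).prod (γ (α p)))
      (fun q => S p W (pair (pair x q.1) q.2) - M p W (pair x q.1) q.2)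
      ((b p).Λ ^ c * (b p).e a) := by
    refine L2le.prod_of_forall (Continuous.aestronglyMeasurable ?_) fun z => h3 W (pair x z)
    fun_prop
  refine h6.swap.integral_right.congr' fun g => ?_
  simp only [hA']
  have hR : TG fun z : E (ζ p) => pair x z :=
    TG.pair' (Function.HasTemperateGrowth.const x) (ContinuousLinearMap.id ℝ _).hasTemperateGrowth
  have i1 : Integrable (fun z => S p W (pair (pair x z) g)) (γ (ζ p)) :=
    ((h4 W).comp' (hR.pair' (Function.HasTemperateGrowth.const g))).integrable_γ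
  have i2 : Integrable (fun z => M p W (pair x z) g) (γ (ζ p)) :=
    (((h5 W).comp' hR).clm_apply (Function.HasTemperateGrowth.const g)).integrable_γ
  rw [integral_sub i1 i2, integral_clm_apply (h5 W)]


end Crest.Agent.R285
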