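import Crest.Agent.R285.Step
import Crest.Agent.R285.OpR
import Crest.Agent.R285.BlurR

/-!
# Row 285 (S0430): Gate0
The gate at level `0`.
`tame_gate`: `BP.tg_gm`, `exists_gm_mult`, `Mult.smul`, `adj_fderiv_gate`, exponent `c = 1`.
`gate_crude`: `Bl.query` with `a = √s`, `c = lam δ/√s` and `BP.norm_gm_sub_le`.
-/

set_option autoImplicit false

open MeasureTheory ProbabilityTheory Filter Topology
open scoped RealInnerProductSpace

noncomputable section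

namespace Crest.Agent.R285

theorem tg_gate (p : GI) (W : Pot p.1) : TG (gate p W) :=
  (W.bp.tg_gm_smul p.s_pos _).const_smul _

theorem tame_gate : Tame gb gate := by
  refine ⟨Eventually.of_forall tg_gate, Dim.fin, Dim.fin, Dim.fin,
    Eventually.of_forall fun p W => (tg_gate p W).fderiv', 1, fun n => ?_⟩
  obtain ⟨C, hC1, hC⟩ := exists_gm_mult
  filter_upwards [ev_δ_le gb (ε := 1 / 2) (by norm_num), ev_const gb fun ν => C (n ν)]
    with p hδ hΛ W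
  have hs := p.s_pos
  have hs' : 0 < √p.2.1 := Real.sqrt_pos.2 hs
  have hg := W.bp.tg_gm_smul hs √p.2.1
  have hδ0 := p.1.δ_pos
  have h1 := (hC (n p.1.ν) W.bp hs (p.s_le.trans hδ)).smul hg.fderiv' (p.1.δ / √p.2.1)
  have h2 : Fam.D gb gate p W =
      fun x => (p.1.δ / √p.2.1) • fderiv ℝ (fun u => gm W.W p.2.1 (√p.2.1 • u)) x := by
    funext x
    exact fderiv_const_smul (hg.differentiable x) (p.1.δ / √p.2.1)
  have h3 : Mult (p.1.θ ^ 1) (p.1.δ * p.1.Λ ^ 1) (n p.1.ν) (Fam.D gb gate p W) := by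
    rw [h2]
    have e : |p.1.δ / √p.2.1| * (C (n p.1.ν) * √p.2.1) = p.1.δ * C (n p.1.ν) := by
      rw [abs_of_pos (div_pos hδ0 hs')]; field_simp
    rw [e] at h1
    refine h1.mono (pow_nonneg p.1.hθ.le _) (p.1.θ_pow_le_one _)
      (mul_nonneg hδ0.le (zero_le_one.trans (hC1 _))) ?_ le_rfl
    rw [pow_one]
    exact mul_le_mul_of_nonneg_left hΛ hδ0.le
  refine ⟨h3, ?_⟩
  have h4 : (fun x => adj (Fam.D gb gate p W x)) = Fam.D gb gate p W :=
    funext fun x => adj_fderiv_gate p W x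
  rw [h4]
  exact h3

theorem gate_crude (p : GI) (hδ : p.1.δ ≤ 1) {In : Type} [MeasurableSpace In]
    {u : Pot p.1 → In → E (Fin p.1.d)} {η : Pot p.1 → In → ℝ} {σ q : ℝ} (h : Bl p.1 u σ η q)
    (hσ : 0 ≤ σ) (hσ1 : σ ≤ 1) (lam s' : ℝ) :
    Bl p.1 (fun W w => lam • gate p W (u W w)) s'
      (fun W w => |lam| * p.1.δ * (η W w + 3 * p.1.Λ * √(p.1.d : ℝ))) (q + 1) := by
  have hs := p.s_pos
  have hs' : 0 < √p.2.1 := Real.sqrt_pos.2 hs
  have hs1 : √p.2.1 ≤ 1 := Real.sqrt_le_one.2 (p.s_le.trans hδ)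
  have hδ0 := p.1.δ_pos
  have hss : √p.2.1 * √p.2.1 = p.2.1 := Real.mul_self_sqrt hs.le
  have e : |lam * (p.1.δ / √p.2.1)| * √p.2.1 = |lam| * p.1.δ := by
    rw [abs_mul, abs_of_pos (div_pos hδ0 hs')]; field_simp
  have hq := Bl.query (y := fun W w => lam • gate p W (u W w)) h hσ hs'.le
    (c := lam * (p.1.δ / √p.2.1))
    (ε := |lam| * p.1.δ * (√p.2.1 * (p.1.Λ * √(p.1.d : ℝ)) + √(p.1.d : ℝ))) (fun W w x => by
      have h1 := W.bp.norm_gm_sub_le hs (√p.2.1 • u W w) (√p.2.1 • x)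
      rw [← smul_sub, norm_smul, Real.norm_eq_abs, abs_of_pos hs', Fintype.card_fin] at h1
      show ‖lam • (p.1.δ / √p.2.1) • gm W.W p.2.1 (√p.2.1 • u W w) - _‖ ≤ _
      rw [smul_smul, ← smul_sub, norm_smul, Real.norm_eq_abs]
      refine (mul_le_mul_of_nonneg_left h1 (abs_nonneg _)).trans (le_of_eq ?_)
      rw [← e]
      linear_combination (-(|lam * (p.1.δ / √p.2.1)| * (p.1.Λ * √(p.1.d : ℝ)))) * hss) s'
  refine hq.mono (fun W w => ?_) le_rfl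
  rw [e, ← mul_add]
  refine mul_le_mul_of_nonneg_left ?_ (mul_nonneg (abs_nonneg _) hδ0.le)
  have hd : 0 ≤ √(p.1.d : ℝ) := Real.sqrt_nonneg _
  have hΛ := p.1.one_le_Λ
  have a1 : σ * √(p.1.d : ℝ) ≤ p.1.Λ * √(p.1.d : ℝ) := mul_le_mul_of_nonneg_right (by linarith) hd
  have a2 : √(p.1.d : ℝ) ≤ p.1.Λ * √(p.1.d : ℝ) := le_mul_of_one_le_left hd hΛ
  have a3 : √p.2.1 * (p.1.Λ * √(p.1.d : ℝ)) ≤ p.1.Λ * √(p.1.d : ℝ) :=
    mul_le_of_le_one_left (by positivity) hs1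
  linarith

theorem good_zero_gate : Good 0 gb gate := by
  refine ⟨tame_gate, fun c₁ => ⟨2, ?_⟩⟩
  filter_upwards [ev_δ_le gb (ε := 1) one_pos, ev_const' gb 3] with p hδ hΛ In _ y η q h
  have h1 := gate_crude p hδ h (pow_nonneg p.1.hθ.le _) (p.1.θ_pow_le_one _) 1 (p.1.θ ^ c₁)
  have hq := h.cost_nonneg
  have hΛ2 := p.1.one_le_Λ_pow 2
  have hδ0 := p.1.δ_pos
  refine (h1.congr fun W w => one_smul _ _).mono (fun W w => ?_) (by nlinarith)
  have hη := h.err_nonneg W w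
  have hd : 0 ≤ √(p.1.d : ℝ) := Real.sqrt_nonneg _
  have e : (gb p).e 1 = p.1.δ * √(p.1.d : ℝ) := by simp [Base.e]
  rw [e, abs_one, one_mul]
  have a1 : 3 * p.1.Λ ≤ p.1.Λ ^ 2 := by
    have := p.1.Λ_pos
    change 3 ≤ p.1.Λ at hΛ
    nlinarith
  have a2 := mul_le_mul_of_nonneg_right a1 (mul_nonneg hδ0.le hd)
  have a3 := mul_le_mul_of_nonneg_right hΛ2 (mul_nonneg hδ0.le hη)
  change _ ≤ p.1.Λ ^ 2 * (p.1.δ * √(p.1.d : ℝ) + p.1.δ * η W w)
  nlinarith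


end Crest.Agent.R285
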