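import Crest.Agent.R285.BlurR

/-!
# Row 285 (S0430): HistL
Graded blurring algorithms for a moving location.
`hist_step`: let `c₁ ↦ cx c₁` be the exponent given by `Blur (k+1) sm`; define `cs` downwards by
`cs (k+1) = 1`, `cs j = cx (cs (j+1))` (e.g. `cs j = cx^[k+1-j] 1`), `cB = 1 + ∑_{j ≤ k+1} cs j`; intersect the
finitely many eventual statements (`Filter.eventually_all_finset`/`eventually_all` on `Fin (k+2)`).
Order `j+1 ≥ 2`: blur `u` to order `j` at scale `θ^(cs j)`, `Bl.comap`, `Bl.pair_known`, the `Blur` statement,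
`Bl.add_known`.  Order `1`: `Bl.known` for `est` at scale `θ^(cs 0)`, `Bl.shift` to `u`, then the same.
Use `δ^(k+1) √d ≤ δ^j Ef`, `δ ≤ 1`, `2 ≤ Λ`.
-/

set_option autoImplicit false

open MeasureTheory ProbabilityTheory Filter Topology
open scoped RealInnerProductSpace

noncomputable section

namespace Crest.Agent.R285

theorem hist_init (k : ℕ) (cs : ℕ → ℕ) (cB : ℕ) : ∃ c₀ : ℕ, ∀ (b : Base) (In κ : Type)
    [MeasurableSpace In] [Fintype κ] (u : Pot b → In → E κ) (Ef η : Pot b → In → ℝ) (q : ℝ),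
    (∀ W w, 0 ≤ Ef W w) → Bl b u (b.θ ^ c₀) η q → Hist b k cs cB u Ef η q := by
  refine ⟨∑ j ∈ Finset.range (k + 2), cs j, fun b In κ _ _ u Ef η q hE h j _ hj => ?_⟩
  have hle : cs j ≤ ∑ j ∈ Finset.range (k + 2), cs j :=
    Finset.single_le_sum (fun _ _ => Nat.zero_le _) (Finset.mem_range.2 (by omega))
  have h1 := b.one_le_Λ_pow (cB * j)
  refine (h.scale (pow_pos b.hθ _).le (b.θ_pow_anti hle)).mono (fun W w => ?_) ?_
  · have h0 := h.err_nonneg W w
    have h2 : 0 ≤ b.δ ^ j * Ef W w := mul_nonneg (pow_pos b.δ_pos _).le (hE W w)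
    nlinarith
  · have h0 := h.cost_nonneg
    nlinarith

lemma Hist.top {b : Base} {In κ : Type} [MeasurableSpace In] [Fintype κ] {k cB : ℕ} {cs : ℕ → ℕ}
    {u : Pot b → In → E κ} {Ef η : Pot b → In → ℝ} {q : ℝ} (h : Hist b k cs cB u Ef η q)
    (hcs : cs (k + 1) = 1) :
    Bl b u b.θ (fun W w => b.Λ ^ (cB * (k + 1)) * (b.δ ^ (k + 1) * Ef W w + η W w))
      (b.Λ ^ (cB * (k + 1)) * (1 + q)) := by
  have := h (k + 1) (by omega) le_rfl
  rwa [hcs, pow_one] at this

theorem hist_step {k : ℕ} {P : Type} {b : P → Base} {κ ζ : P → Type} [∀ p, Fintype (κ p)]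
    [∀ p, Fintype (ζ p)] {sm : Fam b (fun p => κ p ⊕ ζ p) κ} (h : Blur b (k + 1) sm) :
    ∃ (cs : ℕ → ℕ) (cB : ℕ), cs (k + 1) = 1 ∧ ∀ᶠ p in ev b, ∀ (In In' : Type) [MeasurableSpace In]
      [MeasurableSpace In'] (u : Pot (b p) → In → E (κ p)) (Ef η : Pot (b p) → In → ℝ) (q : ℝ)
      (g : In' → In) (x : In' → E (ζ p)) (l est : In' → E (κ p)), Measurable g → Measurable x →
      Measurable l → Measurable est → 0 ≤ q → (∀ W w, √((b p).d : ℝ) ≤ Ef W w) →
      (∀ W w, 0 ≤ η W w) → Hist (b p) k cs cB u Ef η q →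
      Hist (b p) k cs cB (fun W w => l w + sm p W (pair (u W (g w)) (x w)))
        (fun W w => Ef W (g w) + ‖est w - u W (g w)‖) (fun W w => η W (g w)) q := by
  choose cx hcx using h
  set cs : ℕ → ℕ := fun j => cx^[k + 1 - j] 1 with hcs
  have hcs1 : ∀ j, j ≤ k → cs j = cx (cs (j + 1)) := fun j hj => by
    simp only [hcs]
    rw [show k + 1 - j = (k + 1 - (j + 1)) + 1 by omega, Function.iterate_succ_apply']
  set cB : ℕ := 1 + ∑ j ∈ Finset.range (k + 2), cs j with hcB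
  have hle : ∀ j, j ≤ k + 1 → cs j + 1 ≤ cB := fun j hj => by
    have : cs j ≤ ∑ j ∈ Finset.range (k + 2), cs j :=
      Finset.single_le_sum (fun _ _ => Nat.zero_le _) (Finset.mem_range.2 (by omega))
    omega
  refine ⟨cs, cB, by simp [hcs], ?_⟩
  have hall := (Filter.eventually_all_finset (Finset.range (k + 2))).2
    fun j _ => hcx (cs j)
  filter_upwards [hall, ev_two_le_Λ b, ev_δ_le b one_pos] with p hp h2 hδ
  intro In In' _ _ u Ef η q g x l est hg hx hl hest hq hE hη hH j h1 hj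
  obtain ⟨j, rfl⟩ : ∃ j', j = j' + 1 := ⟨j - 1, by omega⟩
  have hB := hp (j + 1) (Finset.mem_range.2 (by omega))
  rw [← hcs1 j (by omega)] at hB
  have hδ0 := (b p).δ_pos
  have hΛ : 2 * ((b p).Λ ^ cs j * (b p).Λ ^ (cB * j)) ≤ (b p).Λ ^ (cB * (j + 1)) := by
    calc 2 * ((b p).Λ ^ cs j * (b p).Λ ^ (cB * j))
        ≤ (b p).Λ * ((b p).Λ ^ cs j * (b p).Λ ^ (cB * j)) :=
          mul_le_mul_of_nonneg_right h2 (by have := (b p).Λ_pos; positivity)
      _ = (b p).Λ ^ (cs j + 1 + cB * j) := by ring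
      _ ≤ _ := (b p).Λ_pow_mono (by have := hle j (by omega); nlinarith)
  have hL1 := (b p).one_le_Λ_pow (cs j)
  have hL2 := (b p).one_le_Λ_pow (cB * j)
  have he : ∀ W w, (b p).e (k + 1) ≤ (b p).δ ^ (j + 1) * Ef W w := fun W w => by
    unfold Base.e
    exact mul_le_mul (pow_le_pow_of_le_one hδ0.le hδ hj) (hE W w) (Real.sqrt_nonneg _)
      (pow_pos hδ0 _).le
  have hE0 : ∀ W w, 0 ≤ Ef W w := fun W w => (Real.sqrt_nonneg _).trans (hE W w)
  rcases Nat.eq_zero_or_pos j with rfl | hj0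
  · have h0 : Bl (b p) (fun W w => u W (g w)) ((b p).θ ^ cs 0)
        (fun W w => 0 + ‖est w - u W (g w)‖) 0 :=
      (Bl.known hest _).shift (y' := fun W w => u W (g w)) fun W w => le_rfl
    refine ((hB _ _ _ _ (h0.pair_known hx)).add_known hl).mono (fun W w => ?_) ?_
    · have a1 := he W (g w)
      have a2 := hη W (g w)
      have a3 := norm_nonneg (est w - u W (g w))
      have a4 := hE0 W (g w)
      simp only [zero_add, pow_one, mul_zero, pow_zero, mul_one] at a1 hΛ ⊢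
      have a5 : (b p).e (k + 1) + (b p).δ * ‖est w - u W (g w)‖ ≤
          (b p).δ * (Ef W (g w) + ‖est w - u W (g w)‖) + η W (g w) := by nlinarith
      have a6 : 0 ≤ (b p).δ * (Ef W (g w) + ‖est w - u W (g w)‖) + η W (g w) := by positivity
      calc _ ≤ (b p).Λ ^ cs 0 * ((b p).δ * (Ef W (g w) + ‖est w - u W (g w)‖) + η W (g w)) :=
            mul_le_mul_of_nonneg_left a5 (by linarith)
        _ ≤ _ := mul_le_mul_of_nonneg_right (by linarith) a6
    · simp only [zero_add, mul_zero, pow_zero, mul_one, add_zero] at hΛ ⊢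
      nlinarith
  · have h0 := (hH j hj0 (by omega)).comap hg
    refine ((hB _ _ _ _ (h0.pair_known hx)).add_known hl).mono (fun W w => ?_) ?_
    · have a1 := he W (g w)
      have a2 := hη W (g w)
      have a3 := norm_nonneg (est w - u W (g w))
      have a4 := hE0 W (g w)
      have a0 : 0 ≤ (b p).δ ^ (j + 1) := (pow_pos hδ0 _).le
      set X := (b p).δ ^ (j + 1) * (Ef W (g w) + ‖est w - u W (g w)‖) + η W (g w) with hX
      have a6 : 0 ≤ X := by positivity
      have a7 : (b p).δ ^ (j + 1) * Ef W (g w) ≤ X := by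
        have := mul_nonneg a0 a3
        nlinarith
      have a8 : (b p).δ * ((b p).δ ^ j * Ef W (g w) + η W (g w)) ≤ X := by
        have := mul_nonneg a0 a3
        have e1 : (b p).δ * ((b p).δ ^ j * Ef W (g w)) = (b p).δ ^ (j + 1) * Ef W (g w) := by ring
        nlinarith
      have a9 : (b p).e (k + 1) + (b p).δ * ((b p).Λ ^ (cB * j) *
          ((b p).δ ^ j * Ef W (g w) + η W (g w))) ≤ 2 * (b p).Λ ^ (cB * j) * X := by
        have := mul_le_mul_of_nonneg_left a8 (le_trans zero_le_one hL2)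
        nlinarith
      calc _ ≤ (b p).Λ ^ cs j * (2 * (b p).Λ ^ (cB * j) * X) :=
            mul_le_mul_of_nonneg_left a9 (by linarith)
        _ = 2 * ((b p).Λ ^ cs j * (b p).Λ ^ (cB * j)) * X := by ring
        _ ≤ _ := mul_le_mul_of_nonneg_right hΛ a6
    · have a1 : 1 + (b p).Λ ^ (cB * j) * (1 + q) ≤ 2 * (b p).Λ ^ (cB * j) * (1 + q) := by nlinarith
      calc _ ≤ (b p).Λ ^ cs j * (2 * (b p).Λ ^ (cB * j) * (1 + q)) :=
            mul_le_mul_of_nonneg_left a1 (by linarith)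
        _ = 2 * ((b p).Λ ^ cs j * (b p).Λ ^ (cB * j)) * (1 + q) := by ring
        _ ≤ _ := mul_le_mul_of_nonneg_right hΛ (by linarith)


end Crest.Agent.R285
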