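import Crest.Agent.R285.Bl

/-!
# Row 285 (S0430): Seed
Two-stage blurring with an additional fresh Gaussian seed.
First fix the seed `g : E ξ` as part of the input (`In × E ξ`) and apply `Sim.bind` with
`K₁ = gs (y₁ W w) σ` (`Sim.comap` of `h₁`), `K₂ ((w,g),x) = gs (y₂ W (w,x,g)) s₂` (`Sim.comap` of `h₂`,
`Lip.integral_gs`) and the mixture
`K (w,g) = ((γ ζ).prod (γ κ)).map fun z => y₂ W (w, y₁ W w + σ • z.1, g) + s₂ • z.2`, `η₃ = 0`.
Then `Sim.mix` over `g`: for a bounded `1`-Lipschitz `f`, `f~ y = ∫ f ∂gs y s₂` is bounded and `1`-Lipschitz,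
`∫ g, ∫ f ∂K (w,g) = ∫ f~ ∂(law in h₃)` (`integral_γ_sum`, Fubini) and `∫ f~ ∂gs y₃ s₃ = ∫ f ∂gs y₃ √(s₃²+s₂²)`
(`gs_conv`).
-/

set_option autoImplicit false

open MeasureTheory ProbabilityTheory Filter Topology
open scoped RealInnerProductSpace

noncomputable section

namespace Crest.Agent.R285

variable {b : Base} {In κ ζ ξ : Type} [MeasurableSpace In] [Fintype κ] [Fintype ζ] [Fintype ξ]

theorem integral_integral_gs (y : E κ) (s s' : ℝ) {f : E κ → ℝ} (hf : Continuous f)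
    (hb : ∃ C, ∀ x, |f x| ≤ C) :
    ∫ x, ∫ x', f x' ∂gs x s' ∂gs y s = ∫ x, f x ∂gs y √(s ^ 2 + s' ^ 2) := by
  obtain ⟨C, hC⟩ := hb
  have h := gs_conv y 0 s s'
  rw [add_zero] at h
  rw [← h, integral_map (by fun_prop) hf.aestronglyMeasurable, integral_prod _
    (Integrable.of_bound (by fun_prop) C (ae_of_all _ fun p => hC _))]
  refine integral_congr_ae (ae_of_all _ fun x => ?_)
  have h' := gs_map_add 0 x s'
  rw [add_zero] at h'
  simp only
  rw [← h', integral_map (by fun_prop) hf.aestronglyMeasurable]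

lemma seed_bound {f : E κ → ℝ} {C : ℝ} (hC : ∀ x, |f x| ≤ C) (u : E κ) (s : ℝ) :
    |∫ x, f x ∂gs u s| ≤ C := by
  have := norm_integral_le_of_norm_le_const (μ := gs u s) (f := f) (C := C)
    (ae_of_all _ fun x => hC x)
  simpa using this

theorem Bl.bind_seed {y₁ : Pot b → In → E ζ} {η₁ η₃ : Pot b → In → ℝ}
    {y₂ : Pot b → In × (E ζ × E ξ) → E κ} {η₂ : Pot b → In × E ζ → ℝ} {y₃ : Pot b → In → E κ}
    {σ s₂ s₃ L L' q₁ q₂ : ℝ} (h₁ : Bl b y₁ σ η₁ q₁)
    (h₂ : Bl b y₂ s₂ (fun W w => η₂ W (w.1, w.2.1)) q₂) (hL : 0 ≤ L) (hL' : 0 ≤ L')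
    (hlip : ∀ W w g, Lip L fun x => y₂ W (w, x, g))
    (hcont : ∀ W w, Continuous fun xg : E ζ × E ξ => y₂ W (w, xg))
    (hη : ∀ W w, Lip L' fun x => η₂ W (w, x))
    (h₃ : ∀ W w, Near ((γ (ζ ⊕ ξ)).map fun o => y₂ W (w, y₁ W w + σ • fstL o, sndL o))
      (gs (y₃ W w) s₃) (η₃ W w)) :
    Bl b y₃ √(s₃ ^ 2 + s₂ ^ 2)
      (fun W w => η₃ W w + (L + L') * η₁ W w + ∫ x, η₂ W (w, x) ∂gs (y₁ W w) σ) (q₁ + q₂) := by
  let K : Pot b → In × E ξ → Measure (E κ) := fun W p =>
    ((γ ζ).prod (γ κ)).map fun z => y₂ W (p.1, y₁ W p.1 + σ • z.1, p.2) + s₂ • z.2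
  have hc : ∀ W w, Continuous fun zg : E ζ × E ξ => y₂ W (w, y₁ W w + σ • zg.1, zg.2) :=
    fun W w => (hcont W w).comp (f := fun zg : E ζ × E ξ => (y₁ W w + σ • zg.1, zg.2)) (by fun_prop)
  have hc' : ∀ W w g, Continuous fun z : E ζ × E κ =>
      y₂ W (w, y₁ W w + σ • z.1, g) + s₂ • z.2 := fun W w g =>
    ((hc W w).comp (f := fun z : E ζ × E κ => (z.1, g)) (by fun_prop)).add (by fun_prop)
  have hK : ∀ W w g (f : E κ → ℝ), Lip 1 f → (∃ C, ∀ x, |f x| ≤ C) →
      ∫ y, f y ∂K W (w, g) =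
        ∫ z, ∫ y, f y ∂gs (y₂ W (w, y₁ W w + σ • z, g)) s₂ ∂γ ζ := by
    rintro W w g f hf ⟨C, hC⟩
    rw [integral_map (hc' W w g).aemeasurable hf.continuous.aestronglyMeasurable, integral_prod
      (fun z : E ζ × E κ => f (y₂ W (w, y₁ W w + σ • z.1, g) + s₂ • z.2)) (Integrable.of_bound (hf.continuous.comp (hc' W w g)).aestronglyMeasurable C
        (ae_of_all _ fun p => hC _))]
    refine integral_congr_ae (ae_of_all _ fun z => ?_)
    simp only
    rw [integral_gs _ _ hf.continuous.aestronglyMeasurable]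
  have hb : Sim b K (fun W p => 0 + (L + L') * η₁ W p.1 + ∫ x, η₂ W (p.1, x) ∂gs (y₁ W p.1) σ)
      (q₁ + q₂) := by
    refine Sim.bind (K₁ := fun W p => gs (y₁ W p.1) σ)
      (K₂ := fun W (r : (In × E ξ) × E ζ) => gs (y₂ W (r.1.1, r.2, r.1.2)) s₂)
      (η₁ := fun W p => η₁ W p.1) (η₂ := fun W r => η₂ W (r.1.1, r.2)) (η₃ := fun _ _ => 0)
      (Sim.comap h₁ measurable_fst)
      (Sim.comap h₂ (g := fun r : (In × E ξ) × E ζ => (r.1.1, r.2, r.1.2)) (by fun_prop))
      (fun _ _ => inferInstance) (fun _ _ => inferInstance) (fun W p => ?_) hL hL'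
      (fun W p f hf _ => ?_) (fun W p => hη W p.1) fun W p f hf hf' => ?_
    · have := ((L2le_gs_sub (y₁ W p.1) (abs_nonneg σ)).integrable).add
        (integrable_const (y₁ W p.1))
      rw [gs_abs] at this
      exact this.congr (ae_of_all _ fun x => by simp)
    · have := (hf.integral_gs s₂).comp zero_le_one (hlip W p.1 p.2)
      rwa [one_mul] at this
    · rw [hK W p.1 p.2 f hf hf', integral_gs _ _
        ((hf.integral_gs s₂).comp zero_le_one (hlip W p.1 p.2)).continuous.aestronglyMeasurable,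
        sub_self, abs_zero]
  have hm := Sim.mix (K := fun W w => gs (y₃ W w) √(s₃ ^ 2 + s₂ ^ 2))
    (η₂ := fun W w => 0 + (L + L') * η₁ W w + ∫ x, η₂ W (w, x) ∂gs (y₁ W w) σ) (η₃ := η₃) hb
    (fun W p => Measure.isProbabilityMeasure_map (hc' W p.1 p.2).aemeasurable)
    (fun W w f hf hf' => by
      simp only [hK W w _ f hf hf']
      obtain ⟨C, hC⟩ := hf'
      have h1 := (hf.integral_gs s₂).continuous.comp (hc W w)
      exact continuous_of_dominated (bound := fun _ => C)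
        (fun g => (h1.comp (f := fun z : E ζ => (z, g)) (by fun_prop)).aestronglyMeasurable)
        (fun g => ae_of_all _ fun z => seed_bound hC _ _) (integrable_const _)
        (ae_of_all _ fun z => h1.comp (f := fun g : E ξ => (z, g)) (by fun_prop)))
    (fun W w f hf hf' => by
      simp only [hK W w _ f hf hf']
      rw [← integral_integral_gs _ _ _ hf.continuous hf']
      obtain ⟨C, hC⟩ := hf'
      have h1 := (hf.integral_gs s₂).continuous.comp (hc W w)
      have h2 : Continuous fun o : E (ζ ⊕ ξ) => y₂ W (w, y₁ W w + σ • fstL o, sndL o) :=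
        (hc W w).comp (f := fun o : E (ζ ⊕ ξ) => (fstL o, sndL o)) (by fun_prop)
      have h4 := h₃ W w (fun u => ∫ x, f x ∂gs u s₂) (hf.integral_gs s₂)
        ⟨C, fun u => seed_bound hC _ _⟩
      rw [integral_map h2.aemeasurable (hf.integral_gs s₂).continuous.aestronglyMeasurable,
        integral_γ_sum (F := fun o : E (ζ ⊕ ξ) =>
          ∫ x, f x ∂gs (y₂ W (w, y₁ W w + σ • fstL o, sndL o)) s₂) (Integrable.of_bound
          ((hf.integral_gs s₂).continuous.comp h2).aestronglyMeasurable C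
          (ae_of_all _ fun o => seed_bound hC _ _))] at h4
      simp only [fstL_pair, sndL_pair] at h4
      rwa [integral_integral_swap (f := fun (z : E ζ) (g : E ξ) =>
        ∫ x, f x ∂gs (y₂ W (w, y₁ W w + σ • z, g)) s₂) (Integrable.of_bound h1.aestronglyMeasurable C
        (ae_of_all _ fun o => seed_bound hC _ _))] at h4)
  exact Sim.mono hm (fun W w => le_of_eq (by ring)) le_rfl


end Crest.Agent.R285
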