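import Crest.Agent.R285.GateStr
import Crest.Agent.R285.Seed
import Crest.Agent.R285.HistL
import Crest.Agent.R285.Gate0

/-!
# Row 285 (S0430): GateBlur
Blurring the gate to order `k+2` by recursion over the levels `s, θ² s, θ⁴ s, …`.
`gb_zero`: `Hist.top`, `gate_crude`.
`gb_step`: `gate_str`, `hist_step` for `loc`.  Given `Hist u Ef η q`, use `Bl.bind_seed` with `y₁ = chB n u` at scale
`σ` (`Hist.top`, `Bl.lin`), `y₂ (w,x,G) = (√2)⁻¹ • G + ∑ i, (w i lam θ) • gateX (u' i)`,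
`u' i = Λ • chL n x + loc i (pair u (pair x G))`, `s₂ = s₃ = (√2)⁻¹`.  `hist_step` (with `est = chL n x`) gives
`Hist (u' i) (Ef + ‖chL n x - u‖) η q`; the induction hypothesis with `lam' = √(2(K+1)) w i lam θ`, `Bl.smul` by
`(√(2(K+1)))⁻¹`, `Bl.sum`, `Bl.scale`, `Bl.add_known`.  Finally `∫ ‖chL n x - u‖ ∂gs (chB n u) σ ≤ √d ≤ Ef`.
`gate_blur`: `n = ν (k+1)`, `3 A₁^n ≤ Λ` eventually, `hist_init` with `Ef = √d`, `lam = Λ^c₁`, `Bl.smul` by
`θ^c₁`.
-/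

set_option autoImplicit false

open MeasureTheory ProbabilityTheory Filter Topology
open scoped RealInnerProductSpace

noncomputable section

namespace Crest.Agent.R285

/-- the gate at every level can be blurred using `n` further levels -/
def GB (k : ℕ) (cs : ℕ → ℕ) (cB c₁ c' : ℕ) (b : Base) (n : ℕ) (A : ℝ) : Prop :=
  ∀ (s : {s : ℝ // 0 < s ∧ s ≤ b.δ}) (lam : ℝ), |lam| ≤ b.Λ ^ c₁ →
    ∀ (In : Type) [MeasurableSpace In] (u : Pot b → In → E (Fin b.d)) (Ef η : Pot b → In → ℝ) (q : ℝ),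
      0 ≤ q → (∀ W w, √(b.d : ℝ) ≤ Ef W w) → (∀ W w, 0 ≤ η W w) → Hist b k cs cB u Ef η q →
      Bl b (fun W w => lam • gate ⟨b, s⟩ W (u W w)) 1
        (fun W w => A * (b.Λ ^ c' * (b.δ ^ (k + 2) * Ef W w + b.δ * η W w) +
          b.Λ * |lam| * b.θ ^ n * b.δ * Ef W w)) (A * b.Λ ^ c' * (1 + q))

theorem gb_zero {k : ℕ} {cs : ℕ → ℕ} {cB c₁ c' : ℕ} (hcs : cs (k + 1) = 1)
    (hc : c₁ + cB * (k + 1) ≤ c') : ∀ᶠ b in evF, GB k cs cB c₁ c' b 0 3 := by
  have h1 : ∀ᶠ b in evF, b.δ ≤ 1 := ev_id ▸ ev_δ_le (fun b : Base => b) one_pos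
  filter_upwards [h1] with b hδ s lam hlam In _ u Ef η q hq hE hη hH
  have h0 := gate_crude ⟨b, s⟩ hδ (hH.top hcs) b.hθ.le b.hθ1 lam 1
  have hδ0 := b.δ_pos
  have hΛ0 := b.Λ_pos
  have hZ : b.Λ ^ c₁ * b.Λ ^ (cB * (k + 1)) ≤ b.Λ ^ c' := by
    rw [← pow_add]; exact b.Λ_pow_mono hc
  have hZ' : b.Λ ^ (cB * (k + 1)) ≤ b.Λ ^ c' := b.Λ_pow_mono (by omega)
  have hZ1 := b.one_le_Λ_pow c'
  refine h0.mono (fun W w => ?_) ?_
  · have a1 := hE W w
    have a2 := hη W w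
    have a3 : 0 ≤ Ef W w := (Real.sqrt_nonneg _).trans a1
    have a4 : 0 ≤ b.δ ^ (k + 2) * Ef W w + b.δ * η W w := by positivity
    have a5 : |lam| * b.Λ ^ (cB * (k + 1)) ≤ b.Λ ^ c' :=
      (mul_le_mul_of_nonneg_right hlam (by positivity)).trans hZ
    have a6 := mul_le_mul_of_nonneg_right a5 a4
    have a7 : b.Λ * |lam| * b.δ * √(b.d : ℝ) ≤ b.Λ * |lam| * b.δ * Ef W w :=
      mul_le_mul_of_nonneg_left a1 (by positivity)
    have a8 : 0 ≤ b.Λ ^ c' * (b.δ ^ (k + 2) * Ef W w + b.δ * η W w) := by positivity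
    calc |lam| * b.δ * (b.Λ ^ (cB * (k + 1)) * (b.δ ^ (k + 1) * Ef W w + η W w) +
          3 * b.Λ * √(b.d : ℝ))
        = |lam| * b.Λ ^ (cB * (k + 1)) * (b.δ ^ (k + 2) * Ef W w + b.δ * η W w) +
          3 * (b.Λ * |lam| * b.δ * √(b.d : ℝ)) := by ring
      _ ≤ _ := by rw [pow_zero, mul_one]; linarith
  · have := mul_le_mul_of_nonneg_right hZ' (by linarith : 0 ≤ 1 + q)
    show b.Λ ^ (cB * (k + 1)) * (1 + q) + 1 ≤ 3 * b.Λ ^ c' * (1 + q)
    nlinarith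

lemma integral_norm_chL_le {ι : Type} [Fintype ι] (n : ℕ) (u : E ι) {σ : ℝ} (hσ : 0 ≤ σ)
    (hσ1 : σ ≤ 1) : ∫ x, ‖chL n x - u‖ ∂gs (chB n u) σ ≤ √(Fintype.card ι) := by
  rw [integral_gs _ _ (by fun_prop : Continuous fun x => ‖chL n x - u‖).aestronglyMeasurable]
  have e : ∀ z : E (chI ι n), ‖chL n (chB n u + σ • z) - u‖ = σ * ‖chL n z‖ := fun z => by
    rw [map_add, map_smul, chL_chB, add_sub_cancel_left, norm_smul, Real.norm_of_nonneg hσ]
  simp only [e]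
  rw [integral_const_mul]
  have h2 : ∫ z : E (chI ι n), ‖chL n z‖ ∂γ (chI ι n) = ∫ z, ‖z‖ ∂γ ι := by
    rw [← (measurePreserving_chL (ι := ι) n).map_eq, integral_map
      (measurePreserving_chL (ι := ι) n).aemeasurable continuous_norm.aestronglyMeasurable]
  rw [h2]
  have h3 := integral_norm_γ_le (ι := ι)
  have h4 : 0 ≤ ∫ z, ‖z‖ ∂γ ι := integral_nonneg fun _ => norm_nonneg _
  nlinarith

lemma lip_norm_chL {ι : Type} [Fintype ι] (n : ℕ) (u : E ι) :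
    Lip 1 fun x : E (chI ι n) => ‖chL n x - u‖ := fun y y' => by
  refine (abs_norm_sub_norm_le _ _).trans ?_
  rw [sub_sub_sub_cancel_right, ← map_sub]
  exact (chL (ι := ι) n).le_of_opNorm_le (norm_chL_le (ι := ι) n) _

lemma gb_int {ι : Type} [Fintype ι] (n : ℕ) (u : E ι) {σ L Ef C : ℝ} (hσ : 0 ≤ σ) (hσ1 : σ ≤ 1)
    (hL : 0 ≤ L) (hE : √(Fintype.card ι) ≤ Ef) :
    ∫ y, (L * (Ef + ‖chL n y - u‖) + C) ∂gs (chB n u) σ ≤ L * (Ef + Ef) + C := by
  have i1 : Integrable (fun y : E (chI ι n) => ‖chL n y - u‖) (gs (chB n u) σ) :=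
    (lip_norm_chL n u).polyB.integrable_gs (lip_norm_chL n u).continuous _ _
  have i0 : Integrable (fun y : E (chI ι n) => Ef + ‖chL n y - u‖) (gs (chB n u) σ) :=
    (integrable_const _).add i1
  rw [integral_add (i0.const_mul _) (integrable_const _),
    integral_const_mul, integral_add (integrable_const _) i1]
  have i3 := mul_le_mul_of_nonneg_left ((integral_norm_chL_le n u hσ hσ1).trans hE) hL
  simp only [integral_const, probReal_univ, smul_eq_mul, one_mul]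
  linarith

lemma gb_lip {ι : Type} [Fintype ι] (n : ℕ) (u : E ι) {L : ℝ} (Ef C : ℝ) (hL : 0 ≤ L) :
    Lip L fun y : E (chI ι n) => L * (Ef + ‖chL n y - u‖) + C := fun y y' => by
  have a1 := lip_norm_chL n u y y'
  have a2 : L * (Ef + ‖chL n y - u‖) + C - (L * (Ef + ‖chL n y' - u‖) + C) =
      L * (‖chL n y - u‖ - ‖chL n y' - u‖) := by ring
  rw [a2, norm_mul, Real.norm_of_nonneg hL]
  rw [one_mul] at a1
  exact mul_le_mul_of_nonneg_left a1 hL

lemma gb_arith {δ Λc Λb Z lam Λ θn Ef η e K N wb A δk nb L' I : ℝ} (hδ : 0 ≤ δ) (hδk : 0 ≤ δk)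
    (hΛc : 0 ≤ Λc) (hΛb : 0 ≤ Λb) (hZ : 0 ≤ Z) (hlam : 0 ≤ lam) (hΛ : 0 ≤ Λ) (hθ : 0 ≤ θn)
    (hEf : 0 ≤ Ef) (hη : 0 ≤ η) (hK : 0 ≤ K) (hwb : 0 ≤ wb) (hA : 1 ≤ A) (hnb : 0 ≤ nb)
    (hnbN : nb ≤ N) (he : e ≤ δk * δ * Ef) (h1 : Λc ≤ Z) (h2 : Λc * Λb ≤ Z) (h3 : δk * Λb ≤ 1)
    (h4 : Λ * lam * θn * Λb ≤ Z) (hL' : L' = K * A * (Z * (δk * δ) + Λ * (wb * lam) * θn * δ))
    (hI : I ≤ L' * (Ef + Ef) + K * A * Z * (δ * η)) :
    Λc * e + (δ * Λc + L') * (nb * (Λb * (δk * Ef + η))) + I ≤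
      (1 + N + K * N * (1 + wb) + 3 * K + 2 * K * wb) * A *
        (Z * (δk * δ * Ef + δ * η) + Λ * lam * θn * δ * Ef) := by
  set X := δk * δ * Ef + δ * η with hX
  set Y := Λ * lam * θn * δ * Ef with hY
  have hN : 0 ≤ N := hnb.trans hnbN
  have hX0 : 0 ≤ X := by positivity
  have hY0 : 0 ≤ Y := by positivity
  have hZX : 0 ≤ Z * X := by positivity
  have hX1 : δk * δ * Ef ≤ X := by have : 0 ≤ δ * η := by positivity
                                   linarith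
  have hX2 : δ * η ≤ X := by have : 0 ≤ δk * δ * Ef := by positivity
                             linarith
  have hL0 : 0 ≤ L' := by rw [hL']; positivity
  have T1 : Λc * e ≤ A * (Z * X) := by
    have : Λc * e ≤ Z * X := (mul_le_mul_of_nonneg_left (he.trans hX1) hΛc).trans
      (mul_le_mul_of_nonneg_right h1 hX0)
    nlinarith
  have T0 : (δ * Λc + L') * (nb * (Λb * (δk * Ef + η))) ≤
      (δ * Λc + L') * (N * (Λb * (δk * Ef + η))) :=
    mul_le_mul_of_nonneg_left (mul_le_mul_of_nonneg_right hnbN (by positivity)) (by positivity)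
  have T2 : δ * Λc * (N * (Λb * (δk * Ef + η))) ≤ N * (A * (Z * X)) := by
    have a1 : Λc * Λb * X ≤ A * (Z * X) := by
      have := mul_le_mul_of_nonneg_right h2 hX0
      nlinarith
    calc _ = N * (Λc * Λb * X) := by rw [hX]; ring
      _ ≤ _ := mul_le_mul_of_nonneg_left a1 hN
  have T3 : L' * (N * (Λb * (δk * Ef + η))) ≤ K * N * (1 + wb) * (A * (Z * X)) := by
    have a1 : Z * (δk * Λb) + wb * (Λ * lam * θn * Λb) ≤ (1 + wb) * Z := by
      have := mul_le_mul_of_nonneg_left h3 hZ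
      have := mul_le_mul_of_nonneg_left h4 hwb
      linarith
    calc _ = K * A * N * ((Z * (δk * Λb) + wb * (Λ * lam * θn * Λb)) * X) := by
          rw [hL', hX]; ring
      _ ≤ K * A * N * ((1 + wb) * Z * X) :=
          mul_le_mul_of_nonneg_left (mul_le_mul_of_nonneg_right a1 hX0) (by positivity)
      _ = _ := by ring
  have T4 : L' * (Ef + Ef) ≤ 2 * K * (A * (Z * X)) + 2 * K * wb * (A * Y) := by
    have a1 : Z * (δk * δ * Ef) ≤ Z * X := mul_le_mul_of_nonneg_left hX1 hZ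
    calc _ = 2 * K * A * (Z * (δk * δ * Ef)) + 2 * K * wb * (A * Y) := by rw [hL', hY]; ring
      _ ≤ 2 * K * A * (Z * X) + 2 * K * wb * (A * Y) := by
          have := mul_le_mul_of_nonneg_left a1 (by positivity : 0 ≤ 2 * K * A)
          linarith
      _ = _ := by ring
  have T5 : K * A * Z * (δ * η) ≤ K * (A * (Z * X)) := by
    have := mul_le_mul_of_nonneg_left hX2 (by positivity : 0 ≤ K * A * Z)
    linarith
  have hAZ : 0 ≤ A * (Z * X) := by positivity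
  have hAY : 0 ≤ A * Y := by positivity
  have e1 : (1 + N + K * N * (1 + wb) + 3 * K + 2 * K * wb) * A * (Z * X + Y) =
      (1 + N + K * N * (1 + wb) + 3 * K) * (A * (Z * X)) + 2 * K * wb * (A * Y) +
        (2 * K * wb * (A * (Z * X)) + (1 + N + K * N * (1 + wb) + 3 * K) * (A * Y)) := by ring
  have e2 : 0 ≤ 2 * K * wb * (A * (Z * X)) + (1 + N + K * N * (1 + wb) + 3 * K) * (A * Y) := by
    positivity
  rw [e1]
  nlinarith

theorem gb_step {k : ℕ} (hk : Lvl k) (hg : Pre k gb gate) (c₁ : ℕ) :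
    ∃ (cs : ℕ → ℕ) (cB c' : ℕ) (A₁ : ℝ), cs (k + 1) = 1 ∧ c₁ + cB * (k + 1) ≤ c' ∧ 1 ≤ A₁ ∧
      ∀ᶠ b in evF, ∀ (n : ℕ) (A : ℝ), 1 ≤ A → GB k cs cB c₁ c' b n A →
        GB k cs cB c₁ c' b (n + 1) (A₁ * A) := by
  obtain ⟨n₀, K, w, loc, hloc, c, hc⟩ := gate_str hk hg c₁
  obtain ⟨cs, cB, hcs, hH⟩ := hist_step hloc
  set wb : ℝ := ∑ i, |w i| with hwb
  have hwb0 : 0 ≤ wb := Finset.sum_nonneg fun _ _ => abs_nonneg _
  have hwi : ∀ i, |w i| ≤ wb := fun i =>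
    Finset.single_le_sum (f := fun i => |w i|) (fun _ _ => abs_nonneg _) (Finset.mem_univ i)
  set t : ℝ := √(2 * ((K : ℝ) + 1)) with ht
  have ht1 : 1 ≤ t := Real.one_le_sqrt.2 (by have : (0 : ℝ) ≤ K := Nat.cast_nonneg _; linarith)
  have ht0 : 0 < t := by linarith
  refine ⟨cs, cB, c + c₁ + cB * (k + 1) + 1,
    1 + ((n₀ : ℝ) + 1) + K * ((n₀ : ℝ) + 1) * (1 + wb) + 3 * K + 2 * K * wb, hcs, by omega,
    by have : 0 ≤ ((n₀ : ℝ) + 1) + K * ((n₀ : ℝ) + 1) * (1 + wb) + 3 * K + 2 * K * wb := by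
         positivity
       linarith, ?_⟩
  set c' := c + c₁ + cB * (k + 1) + 1 with hc'
  have hc1 := evF_of_sigma ((ev_sigma (b := gb)).1 hc)
  have hH1 := evF_of_sigma ((ev_sigma (b := gb)).1
    ((ev_prod (b := fun p : LI c₁ => p.1.1)).1 hH))
  have h1 : ∀ᶠ b in evF, b.δ * b.Λ ^ cB ≤ 1 := ev_id ▸ ev_δ_mul_le (fun b : Base => b) cB one_pos
  have h2 : ∀ᶠ b in evF, b.θ ≤ 1 / (2 * ((n₀ : ℝ) + 1)) :=
    ev_id ▸ ev_θ_le (fun b : Base => b) (by positivity)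
  have h3 : ∀ᶠ b in evF, b.θ ≤ 1 / (t * (wb + 1)) :=
    ev_id ▸ ev_θ_le (fun b : Base => b) (by positivity)
  filter_upwards [hc1, hH1, h1, h2, h3] with b hcb hHb hδB hθ1 hθ2 n A hA IH s lam hlam In _ u Ef η q
    hq hE hη hHist
  have hδ0 := b.δ_pos
  have hΛ0 := b.Λ_pos
  have hθ0 := b.hθ
  have hE0 : ∀ W w, 0 ≤ Ef W w := fun W w => (Real.sqrt_nonneg _).trans (hE W w)
  have hn0 : (0 : ℝ) ≤ n₀ := Nat.cast_nonneg _
  have hθh : ((n₀ : ℝ) + 1) * b.θ ≤ 1 / 2 := by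
    rw [le_div_iff₀ (by positivity)] at hθ1
    linarith
  have hσ : 1 / 2 ≤ b.σ := b.half_le_σ (by nlinarith)
  set Z := b.Λ ^ c' with hZ
  have hZ0 : 0 < Z := by positivity
  set L' : ℝ := K * A * (Z * (b.δ ^ (k + 1) * b.δ) + b.Λ * (wb * |lam|) * b.θ ^ (n + 1) * b.δ)
    with hL'
  have hL0 : 0 ≤ L' := by positivity
  -- first stage
  have s1 := (hHist.top hcs).lin (chB n₀) hθ0.le (s' := b.σ)
    (((mul_le_mul_of_nonneg_right (norm_chB_le n₀) hθ0.le).trans hθh).trans hσ)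
  -- second stage
  have s2 : ∀ i : Fin K, Bl b (In := In × (E (chI (Fin b.d) n₀) × E (Fin b.d)))
      (fun W x => (w i * lam * b.θ) • gateX ⟨b, s⟩ W (b.Λ • chL n₀ x.2.1 +
        loc (⟨⟨b, s⟩, ⟨lam, hlam⟩⟩, i) W (pair (u W x.1) (pair x.2.1 x.2.2)))) t⁻¹
      (fun W x => A * (Z * (b.δ ^ (k + 2) * (Ef W x.1 + ‖chL n₀ x.2.1 - u W x.1‖) +
        b.δ * η W x.1) + b.Λ * (wb * |lam|) * b.θ ^ (n + 1) * b.δ *
          (Ef W x.1 + ‖chL n₀ x.2.1 - u W x.1‖))) (A * Z * (1 + q)) := fun i => by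
    have a1 := hHb s ⟨lam, hlam⟩ i In (In × (E (chI (Fin b.d) n₀) × E (Fin b.d))) u Ef η q
      Prod.fst (fun x => pair x.2.1 x.2.2) (fun x => b.Λ • chL n₀ x.2.1) (fun x => chL n₀ x.2.1)
      measurable_fst (by fun_prop) (by fun_prop) (by fun_prop) hq hE hη hHist
    have a2 : |t * (w i * lam * b.θ)| = t * (|w i| * |lam| * b.θ) := by
      rw [abs_mul, abs_mul, abs_mul, abs_of_pos ht0, abs_of_pos hθ0]
    have a3 : |t * (w i * lam * b.θ)| ≤ b.Λ ^ c₁ := by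
      rw [a2]
      rw [le_div_iff₀ (by positivity)] at hθ2
      have b1 : t * |w i| * b.θ ≤ 1 := by
        have := mul_le_mul_of_nonneg_left (hwi i) (mul_pos ht0 hθ0).le
        nlinarith [mul_pos ht0 hθ0]
      have := mul_le_mul_of_nonneg_right b1 (abs_nonneg lam)
      linarith
    have a4 := (IH (GI.next ⟨b, s⟩).2 _ a3 _ _ _ _ q hq
      (fun W (x : In × (E (chI (Fin b.d) n₀) × E (Fin b.d))) =>
        (hE W x.1).trans (le_add_of_nonneg_right (norm_nonneg _)))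
      (fun W (x : In × (E (chI (Fin b.d) n₀) × E (Fin b.d))) => hη W x.1) a1).smul t⁻¹
    have a5 : |t⁻¹| = t⁻¹ := abs_of_pos (inv_pos.2 ht0)
    rw [a5, mul_one] at a4
    refine (a4.congr fun W x => ?_).mono (fun W x => ?_) le_rfl
    · rw [smul_smul, ← mul_assoc, inv_mul_cancel₀ ht0.ne', one_mul]
      rfl
    · rw [a2]
      have b0 := hE0 W x.1
      have b1 := hη W x.1
      set F := Ef W x.1 + ‖chL n₀ x.2.1 - u W x.1‖ with hF
      have b2 : 0 ≤ F := by positivity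
      have b3 : t⁻¹ ≤ 1 := inv_le_one_of_one_le₀ ht1
      have b4 : 0 ≤ A * (Z * (b.δ ^ (k + 2) * F + b.δ * η W x.1)) := by positivity
      have b5 : A * (b.Λ * (|w i| * |lam|) * b.θ ^ (n + 1) * b.δ * F) ≤
          A * (b.Λ * (wb * |lam|) * b.θ ^ (n + 1) * b.δ * F) := by
        have := hwi i
        gcongr
      calc t⁻¹ * (A * (Z * (b.δ ^ (k + 2) * F + b.δ * η W x.1) +
            b.Λ * (t * (|w i| * |lam| * b.θ)) * b.θ ^ n * b.δ * F))
          = t⁻¹ * (A * (Z * (b.δ ^ (k + 2) * F + b.δ * η W x.1))) +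
            A * (b.Λ * (|w i| * |lam|) * b.θ ^ (n + 1) * b.δ * F) := by
            field_simp
            ring
        _ ≤ _ := by nlinarith
  have s3 := ((Bl.sum Finset.univ (inv_pos.2 ht0).le fun i _ => s2 i).scale
    (by positivity) (s' := (√2)⁻¹) (by
      rw [Finset.card_univ, Fintype.card_fin, ht, ← div_eq_mul_inv,
        div_le_iff₀ (by positivity), Real.sqrt_mul (by norm_num), ← mul_assoc,
        inv_mul_cancel₀ (by positivity), one_mul]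
      exact Real.sqrt_le_sqrt (by linarith))).add_known
    (g := fun x => (√2)⁻¹ • x.2.2) (by fun_prop)
  have s4 := Bl.bind_seed (s₃ := (√2)⁻¹) (L := b.δ * b.Λ ^ c) (L' := L')
    (y₃ := fun W x => lam • gate ⟨b, s⟩ W (u W x)) (η₃ := fun _ _ => b.Λ ^ c * b.e (k + 2))
    (η₂ := fun W x => L' * (Ef W x.1 + ‖chL n₀ x.2 - u W x.1‖) + K * A * Z * (b.δ * η W x.1))
    s1 (s3.mono (fun W x => le_of_eq (by
      simp only [Finset.sum_const, Finset.card_univ, Fintype.card_fin, nsmul_eq_mul, hL']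
      ring)) le_rfl) (by positivity) hL0
    (fun W x G => by
      have a1 := ((hcb s ⟨lam, hlam⟩ W).1.comp (by positivity)
        ((Lip.pair_right (u W x)).comp zero_le_one (Lip.pair_left G)))
      simp only [sndL_pair, fstL_pair, mul_one] at a1
      intro y y'
      simpa only [add_sub_add_left_eq_sub] using a1 y y')
    (fun W x => by
      have a1 := (hcb s ⟨lam, hlam⟩ W).1.continuous.comp
        (by fun_prop : Continuous fun y : E (chI (Fin b.d) n₀) × E (Fin b.d) =>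
          pair (u W x) (pair y.1 y.2))
      simp only [Function.comp_def, sndL_pair, fstL_pair] at a1
      exact Continuous.add (by fun_prop) a1)
    (fun W x => gb_lip n₀ (u W x) (Ef W x) (K * A * Z * (b.δ * η W x)) hL0)
    (fun W x => (hcb s ⟨lam, hlam⟩ W).2 (u W x))
  have e1 : √((√2)⁻¹ ^ 2 + (√2)⁻¹ ^ 2 : ℝ) = 1 := by
    rw [inv_pow, Real.sq_sqrt (by norm_num)]; norm_num
  rw [e1] at s4
  refine s4.mono (fun W x => ?_) ?_
  · have hI := gb_int n₀ (u W x) (Ef := Ef W x) (C := K * A * Z * (b.δ * η W x)) b.σ_nonneg b.σ_le_one hL0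
      (by rw [Fintype.card_fin]; exact hE W x)
    have := gb_arith (δ := b.δ) (Λc := b.Λ ^ c) (Λb := b.Λ ^ (cB * (k + 1))) (Z := Z) (lam := |lam|)
      (Λ := b.Λ) (θn := b.θ ^ (n + 1)) (Ef := Ef W x) (η := η W x) (e := b.e (k + 2)) (K := K)
      (N := (n₀ : ℝ) + 1) (wb := wb) (A := A) (δk := b.δ ^ (k + 1))
      (nb := ‖(chB n₀ : E (Fin b.d) →L[ℝ] E (chI (Fin b.d) n₀))‖) (L' := L') hδ0.le
      (by positivity) (by positivity) (by positivity) hZ0.le (abs_nonneg _) hΛ0.le (by positivity)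
      (hE0 W x) (hη W x) (Nat.cast_nonneg _) hwb0 hA (norm_nonneg _) (norm_chB_le n₀)
      (by unfold Base.e
          rw [← pow_succ]
          exact mul_le_mul_of_nonneg_left (hE W x) (by positivity))
      (b.Λ_pow_mono (by omega)) (by rw [← pow_add]; exact b.Λ_pow_mono (by omega))
      (by rw [pow_mul, ← mul_pow]; exact pow_le_one₀ (by positivity) hδB)
      (by
        calc b.Λ * |lam| * b.θ ^ (n + 1) * b.Λ ^ (cB * (k + 1))
            ≤ b.Λ * b.Λ ^ c₁ * 1 * b.Λ ^ (cB * (k + 1)) := by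
              have := b.θ_pow_le_one (n + 1)
              gcongr
          _ = b.Λ ^ (c₁ + cB * (k + 1) + 1) := by ring
          _ ≤ Z := b.Λ_pow_mono (by omega)) hL' hI
    rw [← pow_succ] at this
    exact this
  · simp only [Finset.sum_const, Finset.card_univ, Fintype.card_fin, nsmul_eq_mul]
    have a1 : b.Λ ^ (cB * (k + 1)) ≤ A * Z := by
      have : b.Λ ^ (cB * (k + 1)) ≤ Z := b.Λ_pow_mono (by omega)
      nlinarith
    have a2 := mul_le_mul_of_nonneg_right a1 (by linarith : 0 ≤ 1 + q)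
    have a3 : 0 ≤ A * Z * (1 + q) := by positivity
    have a4 : 0 ≤ ((n₀ : ℝ) + 1) + K * ((n₀ : ℝ) + 1) * (1 + wb) + 2 * K + 2 * K * wb := by
      positivity
    nlinarith [mul_nonneg a3 a4]

theorem gate_blur {k : ℕ} (hk : Lvl k) (hg : Pre k gb gate) : Blur gb (k + 2) gate := by
  intro c₁
  obtain ⟨cs, cB, c', A₁, hcs, hc, hA₁, hstep⟩ := gb_step hk hg c₁
  obtain ⟨c₀, hinit⟩ := hist_init k cs cB
  refine ⟨c₀ + c' + 3, ?_⟩
  filter_upwards [ev_of_evF gb hstep, ev_of_evF gb (gb_zero hcs hc),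
    ev_const gb (fun ν => A₁ ^ (ν * (k + 1)) * 3), ev_two_le_Λ gb] with p hs h0 hA h2
  obtain ⟨b, s⟩ := p
  have hall : ∀ n, GB k cs cB c₁ c' b n (A₁ ^ n * 3) := fun n => by
    induction n with
    | zero => simpa using h0
    | succ n ih =>
      have := hs n _ (by have := one_le_pow₀ hA₁ (n := n); linarith) ih
      rwa [← mul_assoc, ← pow_succ'] at this
  intro In _ y η q h
  have hΛ0 := b.Λ_pos
  have hδ0 := b.δ_pos
  have hθ0 := b.hθ
  have hq := h.cost_nonneg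
  have h1 := (hall (b.ν * (k + 1)) s (b.Λ ^ c₁) (by rw [abs_of_pos (by positivity)]) In y
    (fun _ _ => √(b.d : ℝ)) η q hq (fun _ _ => le_rfl) h.err_nonneg
    (hinit b In _ y _ η q (fun _ _ => Real.sqrt_nonneg _)
      (h.scale (pow_pos hθ0 _).le (b.θ_pow_anti (by omega))))).smul (b.θ ^ c₁)
  rw [abs_of_pos (pow_pos hθ0 _), mul_one] at h1
  change A₁ ^ (b.ν * (k + 1)) * 3 ≤ b.Λ at hA
  change 2 ≤ b.Λ at h2
  set A := A₁ ^ (b.ν * (k + 1)) * 3 with hAdef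
  have hA0 : 0 ≤ A := by positivity
  have hZ : b.Λ * b.Λ * b.Λ ^ (c' + 1) ≤ b.Λ ^ (c₀ + c' + 3) := by
    rw [show b.Λ * b.Λ * b.Λ ^ (c' + 1) = b.Λ ^ (c' + 3) by ring]
    exact b.Λ_pow_mono (by omega)
  refine (h1.congr fun W w => ?_).mono (fun W w => ?_) ?_
  · rw [smul_smul, b.θ_pow_mul_Λ_pow, one_smul]
  · show _ ≤ b.Λ ^ (c₀ + c' + 3) * (b.e (k + 2) + b.δ * η W w)
    rw [abs_of_pos (by positivity : 0 < b.Λ ^ c₁)]
    have a0 := h.err_nonneg W w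
    set X := b.e (k + 2) + b.δ * η W w with hX
    have a1 : b.e (k + 2) ≤ X := by have : 0 ≤ b.δ * η W w := by positivity
                                    linarith
    have a2 : 0 ≤ X := (b.e_pos _).le.trans a1
    have a3 : b.θ ^ (b.ν * (k + 1)) * b.δ * √(b.d : ℝ) ≤ X := by
      refine le_trans ?_ a1
      unfold Base.e
      rw [pow_succ b.δ (k + 1)]
      have := b.θ_pow_le_δ_pow (k + 1)
      gcongr
    have a4 := b.θ_pow_le_one c₁
    have a5 := b.θ_pow_mul_Λ_pow c₁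
    have a6 : b.Λ ^ c' ≤ b.Λ ^ (c' + 1) := b.Λ_pow_mono (by omega)
    have a7 : b.Λ ≤ b.Λ ^ (c' + 1) := by
      simpa using b.Λ_pow_mono (show 1 ≤ c' + 1 by omega)
    calc b.θ ^ c₁ * (A * (b.Λ ^ c' * (b.δ ^ (k + 2) * √(b.d : ℝ) + b.δ * η W w) +
          b.Λ * b.Λ ^ c₁ * b.θ ^ (b.ν * (k + 1)) * b.δ * √(b.d : ℝ)))
        = A * (b.θ ^ c₁ * b.Λ ^ c' * X + (b.θ ^ c₁ * b.Λ ^ c₁) * b.Λ *
            (b.θ ^ (b.ν * (k + 1)) * b.δ * √(b.d : ℝ))) := by rw [hX]; unfold Base.e; ring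
      _ ≤ b.Λ * (1 * b.Λ ^ (c' + 1) * X + 1 * b.Λ ^ (c' + 1) * X) := by
          rw [a5]
          gcongr
      _ = 2 * b.Λ * b.Λ ^ (c' + 1) * X := by ring
      _ ≤ b.Λ * b.Λ * b.Λ ^ (c' + 1) * X := by gcongr
      _ ≤ _ := mul_le_mul_of_nonneg_right hZ a2
  · show _ ≤ b.Λ ^ (c₀ + c' + 3) * (1 + q)
    have a1 : A * b.Λ ^ c' ≤ b.Λ ^ (c₀ + c' + 3) :=
      calc A * b.Λ ^ c' ≤ b.Λ * b.Λ ^ c' := by gcongr
        _ = b.Λ ^ (c' + 1) := by ring
        _ ≤ _ := b.Λ_pow_mono (by omega)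
    exact mul_le_mul_of_nonneg_right a1 (by linarith)


end Crest.Agent.R285
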