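import Crest.Agent.R285.Unfold
import Crest.Agent.R285.Core3

/-!
# Row 285 (S0430): GateStr
The structure of one level of the gate: Gaussian compensation applied to the unfolded gate.
`unfold` with `Q = Pre k` (`closed_pre`), `a = k+2`, gives `n, Ts`; write `T~ X = chL n X + Ts X`, `β = chB n`.
On the index set `LI c₁` (reindex along `Sigma.fst`) let `F (pair u z) = (√2 lam) • gateN (T~ (β u + σ • z))`, which
is `Pre k`.  `core` (with `a = k+2`) gives `K, w, sm`.  Put, for `X = pair u (pair x G)`,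
`sm₀ i X = sm i (pair u (pair (σ⁻¹ • (x - β u)) G))` (`comp_lin`), and
`loc i X = (Λ σ) • chL n (sm₀ i X) + Λ • Ts (x + σ • sm₀ i X)`, so that
`Λ • chL n x + loc i X = Λ • T~ (x + σ • sm₀ i X)` and `θ • gateX (Λ • z) = gateN z`.
All these families are `Good k` (`hk.closed`), hence `Blur (k+1)` and tame (`Tame.lip` for the sum, which is
`Good k` as well).  The `Near` statement: scale the statement of `core` by `(√2)⁻¹` (`Near.map`,
`gs_map_smul`), then `near_gs_shift` with `gate_eq_integral`, `Near.lip_vec`, `lip_gateN`.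
-/

set_option autoImplicit false

open MeasureTheory ProbabilityTheory Filter Topology
open scoped RealInnerProductSpace

noncomputable section

namespace Crest.Agent.R285

/-- a gate together with a coefficient -/
abbrev LI (c₁ : ℕ) : Type := Σ p : GI, {l : ℝ // |l| ≤ p.1.Λ ^ c₁}

section aux

variable {ι ζ κ : Type} [Fintype ι] [Fintype ζ] [Fintype κ]

/-- `pair u z ↦ β u + σ • z` -/
def gsA (β : E ι →L[ℝ] E ζ) (σ : ℝ) : E (ι ⊕ ζ) →L[ℝ] E ζ := β.comp fstL + σ • sndL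

lemma gsA_pair (β : E ι →L[ℝ] E ζ) (σ : ℝ) (u : E ι) (z : E ζ) :
    gsA β σ (pair u z) = β u + σ • z := by
  simp [gsA]

/-- `pair u (pair x G) ↦ pair u (pair (σ⁻¹ • (x - β u)) G)` -/
def gsB (β : E ι →L[ℝ] E ζ) (σ : ℝ) : E (ι ⊕ (ζ ⊕ κ)) →L[ℝ] E (ι ⊕ (ζ ⊕ κ)) :=
  inlL.comp fstL + inrL.comp (inlL.comp (σ⁻¹ • (fstL.comp sndL + (-1 : ℝ) • β.comp fstL)) +
    inrL.comp (sndL.comp sndL))

lemma gsB_pair (β : E ι →L[ℝ] E ζ) {σ : ℝ} (hσ : σ ≠ 0) (u : E ι) (o : E (ζ ⊕ κ)) :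
    gsB β σ (pair u (pair (β u + σ • fstL o) (sndL o))) = pair u o := by
  have h : σ⁻¹ • (β u + σ • fstL o + (-1 : ℝ) • β u) = fstL o := by
    rw [show β u + σ • fstL o + (-1 : ℝ) • β u = σ • fstL o by module, smul_smul,
      inv_mul_cancel₀ hσ, one_smul]
  simp only [gsB, add_apply, ContinuousLinearMap.comp_apply,
    smul_apply, fstL_pair, sndL_pair, h, inlL_apply, inrL_apply, pair_add,
    add_zero, zero_add, pair_fst_snd]

end aux

section polyaux

variable {P : Type} {b : P → Base} {ι ζ κ : P → Type} [∀ p, Fintype (ι p)] [∀ p, Fintype (ζ p)]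
  [∀ p, Fintype (κ p)]

lemma poly_σ : Poly b fun p => (b p).σ :=
  (Poly.const 1).of_le' (fun p => (b p).σ_nonneg) fun p => (b p).σ_le_one

lemma poly_θ : Poly b fun p => (b p).θ :=
  (Poly.const 1).of_le' (fun p => (b p).hθ.le) fun p => (b p).hθ1

lemma poly_Λ : Poly b fun p => (b p).Λ := by simpa using Poly.Λ_pow (b := b) 1

lemma poly_gsA {β : ∀ p, E (ι p) →L[ℝ] E (ζ p)} (hβ : Poly b fun p => ‖β p‖) :
    Poly b fun p => ‖gsA (β p) (b p).σ‖ :=
  Poly.norm_add (Poly.norm_comp hβ Poly.norm_fstL) (Poly.norm_smul poly_σ Poly.norm_sndL)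

lemma poly_gsB {β : ∀ p, E (ι p) →L[ℝ] E (ζ p)} (hβ : Poly b fun p => ‖β p‖) :
    Poly b fun p => ‖(gsB (β p) (b p).σ : E (ι p ⊕ (ζ p ⊕ κ p)) →L[ℝ] E (ι p ⊕ (ζ p ⊕ κ p)))‖ :=
  Poly.norm_add (Poly.norm_comp Poly.norm_inlL Poly.norm_fstL)
    (Poly.norm_comp Poly.norm_inrL (Poly.norm_add
      (Poly.norm_comp Poly.norm_inlL (Poly.norm_smul Poly.σ_inv
        (Poly.norm_add (Poly.norm_comp Poly.norm_fstL Poly.norm_sndL)
          (Poly.norm_smul (Poly.const (-1)) (Poly.norm_comp hβ Poly.norm_fstL)))))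
      (Poly.norm_comp Poly.norm_inrL (Poly.norm_comp Poly.norm_sndL Poly.norm_sndL))))

end polyaux

theorem gate_str {k : ℕ} (hk : Lvl k) (hg : Pre k gb gate) (c₁ : ℕ) :
    ∃ (n K : ℕ) (w : Fin K → ℝ)
      (loc : Fam (fun p : LI c₁ × Fin K => p.1.1.1)
        (fun p => gd p.1.1 ⊕ (chI (gd p.1.1) n ⊕ gd p.1.1)) fun p => gd p.1.1),
      Blur (fun p : LI c₁ × Fin K => p.1.1.1) (k + 1) loc ∧
      ∃ c : ℕ, ∀ᶠ p in ev (fun p : LI c₁ => p.1.1), ∀ W,
        Lip (p.1.1.δ * p.1.1.Λ ^ c) (fun X : E (gd p.1 ⊕ (chI (gd p.1) n ⊕ gd p.1)) =>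
          ∑ i, (w i * p.2.1 * p.1.1.θ) •
            gateX p.1 W (p.1.1.Λ • chL n (fstL (sndL X)) + loc (p, i) W X)) ∧
        ∀ u, Near ((γ (chI (gd p.1) n ⊕ gd p.1)).map fun o => (√2)⁻¹ • sndL o +
            ∑ i, (w i * p.2.1 * p.1.1.θ) •
              gateX p.1 W (p.1.1.Λ • chL n (chB n u + p.1.1.σ • fstL o) +
                loc (p, i) W (pair u (pair (chB n u + p.1.1.σ • fstL o) (sndL o)))))
          (gs (p.2.1 • gate p.1 W u) (√2)⁻¹) (p.1.1.Λ ^ c * p.1.1.e (k + 2)) := by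
  have hP := closed_pre hk
  have hG := hk.closed
  obtain ⟨n, Ts, hTs, c, hc⟩ := unfold hP hg (k + 2)
  have hlam : Poly (fun p : LI c₁ => p.1.1) fun p => p.2.1 :=
    ⟨c₁, Eventually.of_forall fun p => p.2.2⟩
  have hβ : ∀ {P : Type} {b : P → Base} {ι : P → Type} [∀ p, Fintype (ι p)],
      Poly b fun p => ‖(chB n : E (ι p) →L[ℝ] E (chI (ι p) n))‖ :=
    Poly.norm_of_le fun _ => norm_chB_le n
  have hL : ∀ {P : Type} {b : P → Base} {ι : P → Type} [∀ p, Fintype (ι p)],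
      Poly b fun p => ‖(chL n : E (chI (ι p) n) →L[ℝ] E (ι p))‖ :=
    Poly.norm_of_le fun _ => norm_chL_le n
  -- the unfolded gate
  have hTs1 := hP.reindex (Sigma.fst : LI c₁ → GI) hTs
  have hN1 := hP.reindex (Sigma.fst : LI c₁ → GI) (hP.gateN' hg)
  have hd1 : Dim (fun p : LI c₁ => p.1.1) fun p => gd p.1 ⊕ chI (gd p.1) n :=
    Dim.fin.sum (Dim.fin.chI n)
  have hy1 := hP.comp_lin (B := fun p : LI c₁ => gsA (chB n) p.1.1.σ) (poly_gsA hβ) hd1 hTs1
  have hG1 := hP.comp (B := fun p : LI c₁ => (chL n).comp (gsA (chB n) p.1.1.σ))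
    (Poly.norm_comp hL (poly_gsA hβ)) hy1 hN1
  have hF := hP.smul ((Poly.const √2).mul hlam) hG1
  obtain ⟨K, w, sm, hsm, c₂, hc₂⟩ := core hk hF (k + 2)
  -- the locations
  have hd2 : Dim (fun p : LI c₁ × Fin K => p.1.1.1)
      fun p => gd p.1.1 ⊕ (chI (gd p.1.1) n ⊕ gd p.1.1) :=
    Dim.fin.sum ((Dim.fin.chI n).sum Dim.fin)
  have hsm0 := hG.comp_lin (B := fun p : LI c₁ × Fin K => gsB (chB n) p.1.1.1.σ) (poly_gsB hβ)
    hd2 hsm
  have hTs2 := hG.reindex (fun p : LI c₁ × Fin K => p.1.1) hTs.1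
  have hX2 := hG.reindex (fun p : LI c₁ × Fin K => p.1.1) (hG.gateX' hg.1)
  have hl1 := hG.smul (poly_Λ.mul poly_σ)
    (hG.lin (B := fun p : LI c₁ × Fin K => chL n) hL Dim.fin hsm0)
  have hl2 := hG.smul poly_Λ (hG.comp (B := fun p : LI c₁ × Fin K => fstL.comp sndL)
    (Poly.norm_comp Poly.norm_fstL Poly.norm_sndL) (hG.smul poly_σ hsm0) hTs2)
  have hloc := hG.add hl1 hl2
  refine ⟨n, K, w, _, hloc.blur, ?_⟩
  have hw : Poly (fun p : LI c₁ × Fin K => p.1.1.1) fun p => w p.2 * p.1.2.1 * p.1.1.1.θ := by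
    refine (Poly.mul ?_ (hlam.reindex Prod.fst)).mul poly_θ
    exact Poly.bound (c := ∑ i, |w i|) (Eventually.of_forall fun p =>
      Finset.single_le_sum (f := fun i => |w i|) (fun i _ => abs_nonneg _) (Finset.mem_univ p.2))
  have hH := hG.smul hw (hG.comp
    (B := fun p : LI c₁ × Fin K => p.1.1.1.Λ • (chL n).comp (fstL.comp sndL))
    (Poly.norm_smul poly_Λ (Poly.norm_comp hL (Poly.norm_comp Poly.norm_fstL Poly.norm_sndL)))
    hloc hX2)
  obtain ⟨c₃, hc₃⟩ := hH.tame.lip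
  obtain ⟨c₄, hc₄⟩ := hsm.tame.lip
  obtain ⟨c₅, hc₅⟩ := hTs.1.tame.lip
  refine ⟨c₃ + c₂ + c₁ + c + 1, ?_⟩
  filter_upwards [ev_prod.1 hc₃, ev_prod.1 hc₄, ev_reindex (Sigma.fst : LI c₁ → GI) hc₅,
    ev_reindex (Sigma.fst : LI c₁ → GI) hc, hc₂, ev_const' (fun p : LI c₁ => p.1.1) K,
    ev_two_le_Λ (fun p : LI c₁ => p.1.1),
    ev_θ_le (fun p : LI c₁ => p.1.1) (ε := 1 / 2) (by norm_num),
    ev_δ_le (fun p : LI c₁ => p.1.1) (ε := 1 / 2) (by norm_num)]
    with p h₃ h₄ h₅ h₁ h₂ hK h2Λ hθ hδ W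
  have hδp := p.1.1.δ_pos
  have hΛp := p.1.1.Λ_pos
  refine ⟨?_, fun u => ?_⟩
  · refine (Lip.sum Finset.univ (fun i _ => h₃ i W)).mono ?_
    rw [Finset.sum_const, Finset.card_univ, Fintype.card_fin, nsmul_eq_mul]
    have h1 := p.1.1.Λ_pow_mono (show c₃ ≤ c₃ + c₂ + c₁ + c by omega)
    calc (K : ℝ) * (p.1.1.δ * p.1.1.Λ ^ c₃) ≤
          p.1.1.Λ * (p.1.1.δ * p.1.1.Λ ^ (c₃ + c₂ + c₁ + c)) := by gcongr
      _ = _ := by ring
  · have hσ : p.1.1.σ ≠ 0 := by
      have := p.1.1.half_le_σ hθ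
      intro h0; rw [h0] at this; norm_num at this
    have hs2 : (√2 : ℝ) ≠ 0 := by positivity
    have hTc : Continuous (Ts p.1 W) := (h₅ W).continuous
    have hNl := lip_gateN p.1 W hδ
    have hNc : Continuous (gateN p.1 W) := hNl.continuous
    have hsc : ∀ i, Continuous (sm (p, i) W) := fun i => (h₄ i W).continuous
    -- rescaling the statement of `core`
    have hcore := (h₂ W u).map (T := fun x => (√2 : ℝ)⁻¹ • x) (by positivity)
      (Lip.smul Lip.id' (√2 : ℝ)⁻¹)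
    rw [gs_map_smul, Measure.map_map (by fun_prop) (Continuous.measurable (by fun_prop)),
      mul_one] at hcore
    -- the mean
    have := prob_stepM p.1 W hδ u
    have hTm : Measurable fun z : E (chI (gd p.1) n) =>
        chL n (chB n u + p.1.1.σ • z) + Ts p.1 W (chB n u + p.1.1.σ • z) :=
      Continuous.measurable (by fun_prop)
    have := Measure.isProbabilityMeasure_map (μ := γ (chI (gd p.1) n)) hTm.aemeasurable
    have hint : Integrable (fun x => x) (stepM p.1 W u) := by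
      have := (L2le_stepM p.1 W hδ hθ u).integrable.add (integrable_const u)
      refine this.congr (Eventually.of_forall fun x => ?_)
      simp
    have hmean := (h₁ W u).1.lip_vec hint (by positivity) hNl
    rw [integral_map hTm.aemeasurable hNc.aestronglyMeasurable, ← gate_eq_integral p.1 W hδ u]
      at hmean
    have hM : (√2 : ℝ)⁻¹ • ∫ z, (√2 * p.2.1) • gateN p.1 W
          ((chL n).comp (gsA (chB n) p.1.1.σ) (pair u z) + Ts p.1 W (gsA (chB n) p.1.1.σ (pair u z)))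
          ∂γ (chI (gd p.1) n) =
        p.2.1 • ∫ z, gateN p.1 W (chL n (chB n u + p.1.1.σ • z) +
          Ts p.1 W (chB n u + p.1.1.σ • z)) ∂γ (chI (gd p.1) n) := by
      rw [integral_smul, smul_smul, ← mul_assoc, inv_mul_cancel₀ hs2, one_mul]
      simp only [ContinuousLinearMap.comp_apply, gsA_pair]
    rw [hM] at hcore
    have hshift := near_gs_shift (p.2.1 • ∫ z, gateN p.1 W (chL n (chB n u + p.1.1.σ • z) +
          Ts p.1 W (chB n u + p.1.1.σ • z)) ∂γ (chI (gd p.1) n)) (p.2.1 • gate p.1 W u) (√2 : ℝ)⁻¹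
    have hfin := (hcore.trans hshift).mono
      (η' := p.1.1.Λ ^ (c₃ + c₂ + c₁ + c + 1) * p.1.1.e (k + 2)) ?_
    · convert hfin using 2
      funext o
      simp only [Function.comp_apply, smul_add, Finset.smul_sum, gsB_pair _ hσ,
        ContinuousLinearMap.comp_apply, gsA_pair, fstL_pair, sndL_pair, gateN_eq_gateX, smul_smul,
        map_add, map_smul]
      congr 1
      refine Finset.sum_congr rfl fun i _ => ?_
      congr 1
      · field_simp
      · congr 1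
        rw [add_assoc (chB n u)]
        module
    · rw [← smul_sub, norm_smul, Real.norm_eq_abs]
      have he := (p.1.1.e_pos (k + 2)).le
      have a1 : |(√2 : ℝ)⁻¹| ≤ 1 := by
        rw [abs_of_nonneg (by positivity)]
        exact inv_le_one_of_one_le₀ (Real.one_le_sqrt.2 (by norm_num))
      have a2 := p.1.1.Λ_pow_mono (show c₂ ≤ c₃ + c₂ + c₁ + c by omega)
      have a3 := p.1.1.Λ_pow_mono (show c₁ + c ≤ c₃ + c₂ + c₁ + c by omega)
      have a4 : 2 * p.1.1.δ ≤ 1 := by linarith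
      calc _ ≤ 1 * 1 * (p.1.1.Λ ^ c₂ * p.1.1.e (k + 2)) +
            p.1.1.Λ ^ c₁ * (2 * p.1.1.δ * (p.1.1.Λ ^ c * p.1.1.e (k + 2))) := by
            gcongr
            exact p.2.2
        _ ≤ 1 * 1 * (p.1.1.Λ ^ c₂ * p.1.1.e (k + 2)) +
            p.1.1.Λ ^ c₁ * (1 * (p.1.1.Λ ^ c * p.1.1.e (k + 2))) := by gcongr
        _ = (p.1.1.Λ ^ c₂ + p.1.1.Λ ^ (c₁ + c)) * p.1.1.e (k + 2) := by ring
        _ ≤ (p.1.1.Λ ^ (c₃ + c₂ + c₁ + c) * 2) * p.1.1.e (k + 2) := by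
            gcongr; linarith
        _ ≤ (p.1.1.Λ ^ (c₃ + c₂ + c₁ + c) * p.1.1.Λ) * p.1.1.e (k + 2) := by gcongr
        _ = _ := by ring


end Crest.Agent.R285
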