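import Crest.Agent.R285.Basic

/-!
# Row 285 (S0430): L2
Toolkit for the predicate `L2le μ f r` (`f` a.e. strongly measurable with `L²` norm `≤ r`).
-/

set_option autoImplicit false

open MeasureTheory ProbabilityTheory Filter Topology
open scoped RealInnerProductSpace

noncomputable section

namespace Crest.Agent.R285

variable {Ω Ω' : Type} [MeasurableSpace Ω] [MeasurableSpace Ω'] {μ : Measure Ω} {ν : Measure Ω'}
variable {Y Y' : Type} [NormedAddCommGroup Y] [NormedAddCommGroup Y']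
variable {ι κ : Type} [Fintype ι] [Fintype κ]

lemma L2_eLpNorm_sq (f : Ω → Y) : eLpNorm f 2 μ ^ 2 = ∫⁻ x, ‖f x‖ₑ ^ 2 ∂μ := by
  rw [eLpNorm_eq_lintegral_rpow_enorm_toReal (by norm_num) (by norm_num)]
  simp only [ENNReal.toReal_ofNat]
  rw [← ENNReal.rpow_natCast, ← ENNReal.rpow_mul]
  simp

lemma L2le_iff {f : Ω → Y} {r : ℝ} :
    L2le μ f r ↔ AEStronglyMeasurable f μ ∧ ∫⁻ x, ‖f x‖ₑ ^ 2 ∂μ ≤ ENNReal.ofReal r ^ 2 := by
  unfold L2le
  rw [← L2_eLpNorm_sq, ENNReal.pow_le_pow_left_iff (by norm_num)]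

/-- Cauchy–Schwarz against the constant `1` -/
lemma L2_lintegral_sq_le (f : Ω → Y) (hf : AEStronglyMeasurable f μ) :
    (∫⁻ x, ‖f x‖ₑ ∂μ) ^ 2 ≤ μ Set.univ * ∫⁻ x, ‖f x‖ₑ ^ 2 ∂μ := by
  have h := ENNReal.lintegral_mul_le_Lp_mul_Lq μ Real.HolderConjugate.two_two
    (f := fun _ => (1 : ENNReal)) (g := fun x => ‖f x‖ₑ) aemeasurable_const hf.enorm
  simp only [Pi.mul_apply, one_mul, ENNReal.one_rpow, lintegral_const] at h
  calc _ ≤ (μ Set.univ ^ (1 / 2 : ℝ) * (∫⁻ x, ‖f x‖ₑ ^ (2 : ℝ) ∂μ) ^ (1 / 2 : ℝ)) ^ 2 := by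
        gcongr
    _ = _ := by
        rw [mul_pow, ← ENNReal.rpow_natCast, ← ENNReal.rpow_natCast, ← ENNReal.rpow_mul,
          ← ENNReal.rpow_mul]
        simp

lemma L2le.mono {f : Ω → Y} {r r' : ℝ} (h : L2le μ f r) (hr : r ≤ r') : L2le μ f r' := by
  exact ⟨h.1, h.2.trans (ENNReal.ofReal_le_ofReal hr)⟩

lemma L2le.congr {f g : Ω → Y} {r : ℝ} (h : L2le μ f r) (hfg : f =ᵐ[μ] g) : L2le μ g r := by
  exact ⟨h.1.congr hfg, by rw [← eLpNorm_congr_ae hfg]; exact h.2⟩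

lemma L2le.congr' {f g : Ω → Y} {r : ℝ} (h : L2le μ f r) (hfg : ∀ x, f x = g x) : L2le μ g r := by
  exact h.congr (Eventually.of_forall hfg)

lemma L2le.zero {r : ℝ} : L2le μ (fun _ => (0 : Y)) r := by
  exact ⟨aestronglyMeasurable_const, by simp⟩

lemma L2le.memLp {f : Ω → Y} {r : ℝ} (h : L2le μ f r) : MemLp f 2 μ := by
  exact ⟨h.1, h.2.trans_lt ENNReal.ofReal_lt_top⟩

lemma L2le.integrable [IsFiniteMeasure μ] {f : Ω → Y} {r : ℝ} (h : L2le μ f r) : Integrable f μ := by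
  exact h.memLp.integrable (by norm_num)

lemma L2le.integrable_sq {f : Ω → Y} {r : ℝ} (h : L2le μ f r) :
    Integrable (fun x => ‖f x‖ ^ 2) μ := by
  exact (memLp_two_iff_integrable_sq_norm h.1).1 h.memLp

lemma L2le.integral_sq_le {f : Ω → Y} {r : ℝ} (h : L2le μ f r) : ∫ x, ‖f x‖ ^ 2 ∂μ ≤ r ^ 2 := by
  have h2 := (L2le_iff.1 h).2
  have h3 : ENNReal.ofReal (∫ x, ‖f x‖ ^ 2 ∂μ) = ∫⁻ x, ‖f x‖ₑ ^ 2 ∂μ := by
    rw [ofReal_integral_eq_lintegral_ofReal h.integrable_sq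
      (Eventually.of_forall fun x => by positivity)]
    simp [ENNReal.ofReal_pow]
  have h4 : ENNReal.ofReal r ^ 2 ≤ ENNReal.ofReal (r ^ 2) := by
    rw [← sq_abs r, ENNReal.ofReal_pow (abs_nonneg r)]
    gcongr
    exact le_abs_self r
  rw [← h3] at h2
  exact (ENNReal.ofReal_le_ofReal_iff (sq_nonneg r)).1 (h2.trans h4)

lemma L2le.of_integral_sq_le {f : Ω → Y} {r : ℝ} (hf : AEStronglyMeasurable f μ)
    (hi : Integrable (fun x => ‖f x‖ ^ 2) μ) (hr : 0 ≤ r) (h : ∫ x, ‖f x‖ ^ 2 ∂μ ≤ r ^ 2) :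
    L2le μ f r := by
  refine L2le_iff.2 ⟨hf, ?_⟩
  have h3 : ENNReal.ofReal (∫ x, ‖f x‖ ^ 2 ∂μ) = ∫⁻ x, ‖f x‖ₑ ^ 2 ∂μ := by
    rw [ofReal_integral_eq_lintegral_ofReal hi (Eventually.of_forall fun x => by positivity)]
    simp [ENNReal.ofReal_pow]
  rw [← h3, ← ENNReal.ofReal_pow hr]
  exact ENNReal.ofReal_le_ofReal h

lemma L2le.integral_norm_le [IsProbabilityMeasure μ] {f : Ω → Y} {r : ℝ} (h : L2le μ f r)
    (hr : 0 ≤ r) : ∫ x, ‖f x‖ ∂μ ≤ r := by
  have h1 : eLpNorm f 1 μ ≤ ENNReal.ofReal r :=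
    (eLpNorm_le_eLpNorm_of_exponent_le (by norm_num) h.1).trans h.2
  rw [eLpNorm_one_eq_lintegral_enorm, ← ofReal_integral_norm_eq_lintegral_enorm h.integrable] at h1
  exact (ENNReal.ofReal_le_ofReal_iff hr).1 h1

lemma L2le.add {f g : Ω → Y} {r r' : ℝ} (hf : L2le μ f r) (hg : L2le μ g r') (hr : 0 ≤ r)
    (hr' : 0 ≤ r') : L2le μ (fun x => f x + g x) (r + r') := by
  refine ⟨hf.1.add hg.1, ?_⟩
  rw [ENNReal.ofReal_add hr hr']
  exact (eLpNorm_add_le hf.1 hg.1 (by norm_num)).trans (add_le_add hf.2 hg.2)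

lemma L2le.sub {f g : Ω → Y} {r r' : ℝ} (hf : L2le μ f r) (hg : L2le μ g r') (hr : 0 ≤ r)
    (hr' : 0 ≤ r') : L2le μ (fun x => f x - g x) (r + r') := by
  refine ⟨hf.1.sub hg.1, ?_⟩
  rw [ENNReal.ofReal_add hr hr']
  exact (eLpNorm_sub_le hf.1 hg.1 (by norm_num)).trans (add_le_add hf.2 hg.2)

lemma L2le.neg {f : Ω → Y} {r : ℝ} (hf : L2le μ f r) : L2le μ (fun x => -f x) r := by
  refine ⟨hf.1.neg, ?_⟩
  have := eLpNorm_neg f 2 μ
  exact le_of_eq_of_le this hf.2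

lemma L2le.sum {I : Type} (s : Finset I) {f : I → Ω → Y} {r : I → ℝ}
    (hf : ∀ i ∈ s, L2le μ (f i) (r i)) (hr : ∀ i ∈ s, 0 ≤ r i) :
    L2le μ (fun x => ∑ i ∈ s, f i x) (∑ i ∈ s, r i) := by
  classical
  induction s using Finset.induction_on with
  | empty => simpa using L2le.zero
  | insert a s ha ih =>
    simp only [Finset.sum_insert ha]
    exact (hf a (Finset.mem_insert_self _ _)).add
      (ih (fun i hi => hf i (Finset.mem_insert_of_mem hi))
        (fun i hi => hr i (Finset.mem_insert_of_mem hi)))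
      (hr a (Finset.mem_insert_self _ _))
      (Finset.sum_nonneg fun i hi => hr i (Finset.mem_insert_of_mem hi))

lemma L2le.of_norm_le {f : Ω → Y} {g : Ω → Y'} {r L : ℝ} (hg : L2le μ g r)
    (hf : AEStronglyMeasurable f μ) (hL : 0 ≤ L) (h : ∀ x, ‖f x‖ ≤ L * ‖g x‖) :
    L2le μ f (L * r) := by
  refine ⟨hf, ?_⟩
  rw [ENNReal.ofReal_mul hL]
  refine (eLpNorm_le_mul_eLpNorm_of_ae_le_mul (Eventually.of_forall h) 2).trans ?_
  gcongr
  exact hg.2

lemma L2le.of_bound [IsProbabilityMeasure μ] {f : Ω → Y} {r : ℝ} (hf : AEStronglyMeasurable f μ)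
    (h : ∀ x, ‖f x‖ ≤ r) : L2le μ f r := by
  refine ⟨hf, (eLpNorm_le_of_ae_bound (Eventually.of_forall h)).trans ?_⟩
  simp

lemma L2le.norm' {f : Ω → Y} {r : ℝ} (h : L2le μ f r) : L2le μ (fun x => ‖f x‖) r := by
  exact ⟨h.1.norm, by rw [eLpNorm_norm]; exact h.2⟩

lemma L2le.comp_mp {T : Ω → Ω'} (hT : MeasurePreserving T μ ν) {f : Ω' → Y} {r : ℝ}
    (h : L2le ν f r) : L2le μ (fun x => f (T x)) r := by
  refine ⟨h.1.comp_measurePreserving hT, ?_⟩
  have := eLpNorm_comp_measurePreserving (p := 2) h.1 hT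
  exact le_of_eq_of_le this h.2

lemma L2le.of_comp_mp {T : Ω → Ω'} (hT : MeasurePreserving T μ ν) {f : Ω' → Y} {r : ℝ}
    (hf : AEStronglyMeasurable f ν) (h : L2le μ (fun x => f (T x)) r) : L2le ν f r := by
  refine ⟨hf, ?_⟩
  have := eLpNorm_comp_measurePreserving (p := 2) hf hT
  exact le_of_eq_of_le this.symm h.2

lemma L2le.pair' {f : Ω → E ι} {g : Ω → E κ} {r r' : ℝ} (hf : L2le μ f r) (hg : L2le μ g r')
    (hr : 0 ≤ r) (hr' : 0 ≤ r') : L2le μ (fun x => pair (f x) (g x)) (r + r') := by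
  have h1 := hf.norm'.add hg.norm' hr hr'
  have hm : AEStronglyMeasurable (fun x => pair (f x) (g x)) μ := by
    simp only [pair_eq]
    exact ((inlL : E ι →L[ℝ] E (ι ⊕ κ)).continuous.comp_aestronglyMeasurable hf.1).add
      ((inrL : E κ →L[ℝ] E (ι ⊕ κ)).continuous.comp_aestronglyMeasurable hg.1)
  have := h1.of_norm_le hm zero_le_one fun x => by
    rw [one_mul]
    exact (norm_pair_le _ _).trans (le_abs_self _)
  simpa using this

/-- bound for each value of the first variable -/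
lemma L2le.prod_of_forall [IsProbabilityMeasure μ] [SFinite ν] {F : Ω × Ω' → Y} {r : ℝ}
    (hF : AEStronglyMeasurable F (μ.prod ν)) (h : ∀ x, L2le ν (fun z => F (x, z)) r) :
    L2le (μ.prod ν) F r := by
  refine L2le_iff.2 ⟨hF, ?_⟩
  rw [lintegral_prod _ (hF.enorm.pow_const 2)]
  calc _ ≤ ∫⁻ _, ENNReal.ofReal r ^ 2 ∂μ := lintegral_mono fun x => (L2le_iff.1 (h x)).2
    _ = _ := by simp

lemma L2le.fst [SFinite μ] [IsProbabilityMeasure ν] {f : Ω → Y} {r : ℝ} (h : L2le μ f r) :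
    L2le (μ.prod ν) (fun p => f p.1) r := by
  exact h.comp_mp (T := Prod.fst) measurePreserving_fst

lemma L2le.snd [IsProbabilityMeasure μ] [SFinite ν] {f : Ω' → Y} {r : ℝ} (h : L2le ν f r) :
    L2le (μ.prod ν) (fun p => f p.2) r := by
  exact h.comp_mp (T := Prod.snd) measurePreserving_snd

lemma L2le.swap [SFinite μ] [SFinite ν] {F : Ω × Ω' → Y} {r : ℝ} (h : L2le (μ.prod ν) F r) :
    L2le (ν.prod μ) (fun p => F (p.2, p.1)) r := by
  exact h.comp_mp (T := Prod.swap) Measure.measurePreserving_swap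


variable [NormedSpace ℝ Y] [NormedSpace ℝ Y']

lemma L2le.smul {f : Ω → Y} {r : ℝ} (hf : L2le μ f r) (c : ℝ) :
    L2le μ (fun x => c • f x) (|c| * r) := by
  exact hf.of_norm_le (hf.1.const_smul c) (abs_nonneg c) fun x => by
    rw [norm_smul, Real.norm_eq_abs]

lemma L2le.clm {f : Ω → Y} {r : ℝ} (hf : L2le μ f r) (B : Y →L[ℝ] Y') :
    L2le μ (fun x => B (f x)) (‖B‖ * r) := by
  exact hf.of_norm_le (B.continuous.comp_aestronglyMeasurable hf.1) (norm_nonneg B)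
    fun x => B.le_opNorm _

lemma L2le.sum_smul {I : Type} [Fintype I] {f : I → Ω → Y} {r c : ℝ} {w : I → ℝ}
    (hf : ∀ i, L2le μ (f i) r) (hr : 0 ≤ r) (hw : ∑ i, |w i| ≤ c) :
    L2le μ (fun x => ∑ i, w i • f i x) (c * r) := by
  refine (L2le.sum Finset.univ (fun i _ => (hf i).smul (w i)) fun i _ => by positivity).mono ?_
  rw [← Finset.sum_mul]
  gcongr

/-- Jensen: integrating out the second variable -/
lemma L2le.integral_right [SFinite μ] [IsProbabilityMeasure ν] {F : Ω × Ω' → Y} {r : ℝ}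
    (h : L2le (μ.prod ν) F r) : L2le μ (fun x => ∫ z, F (x, z) ∂ν) r := by
  refine L2le_iff.2 ⟨h.1.integral_prod_right', ?_⟩
  refine le_trans ?_ (L2le_iff.1 h).2
  rw [lintegral_prod _ (h.1.enorm.pow_const 2)]
  refine lintegral_mono_ae ?_
  filter_upwards [h.1.prodMk_left] with x hx
  calc ‖∫ z, F (x, z) ∂ν‖ₑ ^ 2 ≤ (∫⁻ z, ‖F (x, z)‖ₑ ∂ν) ^ 2 := by
        gcongr
        exact enorm_integral_le_lintegral_enorm _
    _ ≤ _ := by simpa using L2_lintegral_sq_le (μ := ν) (fun z => F (x, z)) hx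

/-- Minkowski's integral inequality on an interval -/
lemma L2le.interval [SFinite μ] {G : ℝ → Ω → Y} {a t r : ℝ} (hat : a ≤ t) (hr : 0 ≤ r)
    (hG : StronglyMeasurable (Function.uncurry G)) (h : ∀ s ∈ Set.Icc a t, L2le μ (G s) r) :
    L2le μ (fun x => ∫ s in a..t, G s x) ((t - a) * r) := by
  simp_rw [intervalIntegral.integral_of_le hat]
  have hm : StronglyMeasurable fun x => ∫ s in Set.Ioc a t, G s x :=
    hG.integral_prod_left (μ := volume.restrict (Set.Ioc a t))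
  refine L2le_iff.2 ⟨hm.aestronglyMeasurable, ?_⟩
  have hme : Measurable fun p : ℝ × Ω => ‖G p.1 p.2‖ₑ ^ 2 := hG.enorm.pow_const 2
  calc ∫⁻ x, ‖∫ s in Set.Ioc a t, G s x‖ₑ ^ 2 ∂μ
      ≤ ∫⁻ x, ENNReal.ofReal (t - a) * ∫⁻ s in Set.Ioc a t, ‖G s x‖ₑ ^ 2 ∂volume ∂μ := by
        refine lintegral_mono fun x => ?_
        have hx : AEStronglyMeasurable (fun s => G s x) (volume.restrict (Set.Ioc a t)) :=
          (hG.comp_measurable measurable_prodMk_right).aestronglyMeasurable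
        calc ‖∫ s in Set.Ioc a t, G s x‖ₑ ^ 2 ≤ (∫⁻ s in Set.Ioc a t, ‖G s x‖ₑ) ^ 2 := by
              gcongr
              exact enorm_integral_le_lintegral_enorm _
          _ ≤ _ := by simpa using L2_lintegral_sq_le (fun s => G s x) hx
    _ = ENNReal.ofReal (t - a) * ∫⁻ s in Set.Ioc a t, ∫⁻ x, ‖G s x‖ₑ ^ 2 ∂μ ∂volume := by
        rw [lintegral_const_mul' _ _ ENNReal.ofReal_ne_top, lintegral_lintegral_swap]
        exact (hme.comp measurable_swap).aemeasurable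
    _ ≤ ENNReal.ofReal (t - a) * ∫⁻ _ in Set.Ioc a t, ENNReal.ofReal r ^ 2 ∂volume := by
        gcongr 1
        refine setLIntegral_mono' measurableSet_Ioc fun s hs => ?_
        exact (L2le_iff.1 (h s (Set.Ioc_subset_Icc_self hs))).2
    _ = _ := by
        rw [ENNReal.ofReal_mul (sub_nonneg.2 hat)]
        simp only [lintegral_const, MeasurableSet.univ, Measure.restrict_apply, Set.univ_inter,
          Real.volume_Ioc]
        ring

/-- Cauchy–Schwarz -/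
lemma L2le.norm_integral_smul_le {c : Ω → ℝ} {f : Ω → Y} {r r' : ℝ} (hc : L2le μ c r)
    (hf : L2le μ f r') (hr : 0 ≤ r) (hr' : 0 ≤ r') : ‖∫ x, c x • f x ∂μ‖ ≤ r * r' := by
  have h1 : eLpNorm (c • f) 1 μ ≤ eLpNorm c 2 μ * eLpNorm f 2 μ :=
    eLpNorm_smul_le_mul_eLpNorm hf.1 hc.1
  have h2 : ‖∫ x, c x • f x ∂μ‖ₑ ≤ ENNReal.ofReal (r * r') := by
    refine (enorm_integral_le_lintegral_enorm _).trans ?_
    rw [eLpNorm_one_eq_lintegral_enorm] at h1
    rw [ENNReal.ofReal_mul hr]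
    exact h1.trans (mul_le_mul' hc.2 hf.2)
  rw [← ofReal_norm] at h2
  exact (ENNReal.ofReal_le_ofReal_iff (mul_nonneg hr hr')).1 h2

lemma L2le.integrable_smul {c : Ω → ℝ} {f : Ω → Y} {r r' : ℝ} (hc : L2le μ c r)
    (hf : L2le μ f r') : Integrable (fun x => c x • f x) μ := by
  exact memLp_one_iff_integrable.1 (MemLp.smul (r := 1) hf.memLp hc.memLp)

lemma L2le.abs_integral_inner_le {f g : Ω → E ι} {r r' : ℝ} (hf : L2le μ f r) (hg : L2le μ g r')
    (hr : 0 ≤ r) (hr' : 0 ≤ r') : |∫ x, ⟪f x, g x⟫ ∂μ| ≤ r * r' := by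
  have h1 := hf.norm'.norm_integral_smul_le hg.norm' hr hr'
  have hi := hf.norm'.integrable_smul hg.norm'
  rw [← Real.norm_eq_abs]
  refine (norm_integral_le_of_norm_le hi (Eventually.of_forall fun x => ?_)).trans
    ((le_abs_self _).trans h1)
  exact norm_inner_le_norm _ _



end Crest.Agent.R285
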