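import Crest.Agent.R285.TG
import Crest.Agent.R285.L2

/-!
# Row 285 (S0430): Gauss
The standard Gaussian `γ ι = stdGaussian (E ι)`.  Laws are best identified through
`Measure.ext_of_charFun` / `charFun_stdGaussian` (see `Mathlib/Probability/Distributions/Gaussian/Multivariate.lean`).
`γ_eq_gibbs`: `map_pi_eq_stdGaussian`, density of `gaussianReal 0 1`, `PiLp.volume_preserving_toLp`;
or compare characteristic functions using `GaussianFourier.integral_cexp_neg_mul_sq_norm_add`.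
-/

set_option autoImplicit false

open MeasureTheory ProbabilityTheory Filter Topology
open scoped RealInnerProductSpace

noncomputable section

namespace Crest.Agent.R285

variable {ι κ ζ α β : Type} [Fintype ι] [Fintype κ] [Fintype ζ] [Fintype α] [Fintype β]
variable {Y Y' : Type} [NormedAddCommGroup Y] [NormedSpace ℝ Y] [NormedAddCommGroup Y']
  [NormedSpace ℝ Y']

theorem integrable_exp_neg_hsq : Integrable (fun x : E ι => Real.exp (-hsq x)) := by
  have h := (GaussianFourier.integrable_cexp_neg_mul_sq_norm_add (V := E ι) (b := (1 / 2 : ℂ))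
    (by norm_num) 0 0).norm
  refine h.congr (Eventually.of_forall fun x => ?_)
  have : (-(1 / 2 : ℂ) * (‖x‖ : ℂ) ^ 2 + 0 * (⟪(0 : E ι), x⟫ : ℝ)) = ((-hsq x : ℝ) : ℂ) := by
    simp only [hsq]; push_cast; ring
  simp only [this, Complex.norm_exp, Complex.ofReal_re]

theorem γ_eq_gibbs : γ ι = gibbs (hsq : E ι → ℝ) := by
  have hi : Integrable (fun x : E ι => Real.exp (-hsq x)) := integrable_exp_neg_hsq
  have : IsProbabilityMeasure (gibbs (hsq : E ι → ℝ)) := isProbabilityMeasure_tilted hi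
  apply Measure.ext_of_charFun
  ext t
  rw [charFun_stdGaussian, charFun_apply, gibbs, integral_tilted]
  set Z : ℝ := ∫ x : E ι, Real.exp (-hsq x) with hZ
  have hZ0 : (Z : ℂ) ≠ 0 := by exact_mod_cast (integral_exp_pos hi).ne'
  have h1 := GaussianFourier.integral_cexp_neg_mul_sq_norm_add (V := E ι) (b := (1 / 2 : ℂ))
    (by norm_num) Complex.I t
  have h2 := GaussianFourier.integral_cexp_neg_mul_sq_norm (V := E ι) (b := (1 / 2 : ℂ))
    (by norm_num)
  have h3 : (Z : ℂ) = ∫ v : E ι, Complex.exp (-(1 / 2 : ℂ) * (‖v‖ : ℂ) ^ 2) := by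
    rw [hZ, ← integral_complex_ofReal]
    refine integral_congr_ae (Eventually.of_forall fun x => ?_)
    simp only [hsq]
    push_cast
    congr 1
    ring
  have h4 : ∀ x : E ι, (Real.exp (-hsq x) / Z) • Complex.exp ((⟪x, t⟫ : ℝ) * Complex.I) =
      (Z : ℂ)⁻¹ * Complex.exp (-(1 / 2 : ℂ) * (‖x‖ : ℂ) ^ 2 + Complex.I * (⟪t, x⟫ : ℝ)) := by
    intro x
    rw [Complex.real_smul, Complex.exp_add, real_inner_comm]
    simp only [hsq]
    push_cast
    rw [show -((‖x‖ : ℂ) ^ 2 / 2) = -(1 / 2 : ℂ) * (‖x‖ : ℂ) ^ 2 by ring, mul_comm Complex.I]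
    ring
  simp_rw [h4]
  rw [integral_const_mul, h1, ← h2, ← h3, ← mul_assoc, inv_mul_cancel₀ hZ0, one_mul]
  congr 1
  rw [Complex.I_sq]
  ring

theorem charFun_clm (M : E α →L[ℝ] E β) (t : E β) :
    ∫ x, Complex.exp ((⟪M x, t⟫ : ℝ) * Complex.I) ∂γ α =
      Complex.exp (-(‖adj M t‖ : ℂ) ^ 2 / 2) := by
  rw [← charFun_stdGaussian, charFun_apply]
  simp_rw [inner_adj_right]

/-- matched variance -/
theorem measurePreserving_add {M : E α →L[ℝ] E β} {C : E ζ →L[ℝ] E β}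
    (h : ∀ y, M (adj M y) + C (adj C y) = y) :
    MeasurePreserving (fun p : E α × E ζ => M p.1 + C p.2) ((γ α).prod (γ ζ)) (γ β) := by
  have hm : Measurable (fun p : E α × E ζ => M p.1 + C p.2) := by fun_prop
  refine ⟨hm, ?_⟩
  apply Measure.ext_of_charFun
  ext t
  rw [charFun_stdGaussian, charFun_apply, integral_map hm.aemeasurable (by fun_prop)]
  simp_rw [inner_add_left, Complex.ofReal_add, add_mul, Complex.exp_add]
  rw [integral_prod_mul (fun x => Complex.exp ((⟪M x, t⟫ : ℝ) * Complex.I))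
    (fun x => Complex.exp ((⟪C x, t⟫ : ℝ) * Complex.I)), charFun_clm, charFun_clm,
    ← Complex.exp_add]
  congr 1
  have : ‖t‖ ^ 2 = ‖adj M t‖ ^ 2 + ‖adj C t‖ ^ 2 := by
    rw [← real_inner_self_eq_norm_sq, ← real_inner_self_eq_norm_sq, ← real_inner_self_eq_norm_sq,
      inner_adj_right M, inner_adj_right C, ← inner_add_left, h]
  have h' : (‖t‖ : ℂ) ^ 2 = (‖adj M t‖ : ℂ) ^ 2 + (‖adj C t‖ : ℂ) ^ 2 := by exact_mod_cast this
  rw [h']
  ring

theorem measurePreserving_pair :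
    MeasurePreserving (fun p : E ι × E κ => pair p.1 p.2) ((γ ι).prod (γ κ)) (γ (ι ⊕ κ)) := by
  have h := measurePreserving_add (M := (inlL : E ι →L[ℝ] E (ι ⊕ κ)))
    (C := (inrL : E κ →L[ℝ] E (ι ⊕ κ))) (fun y => by simp)
  simpa only [← pair_eq] using h

/-- `pair` as a measurable equivalence -/
def pairEquiv : E ι × E κ ≃ᵐ E (ι ⊕ κ) where
  toFun p := pair p.1 p.2
  invFun z := (fstL z, sndL z)
  left_inv p := by simp
  right_inv z := by simp
  measurable_toFun := Measurable.pair' measurable_fst measurable_snd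
  measurable_invFun := by
    change Measurable fun z : E (ι ⊕ κ) => (fstL z, sndL z)
    fun_prop

theorem measurePreserving_unpair :
    MeasurePreserving (fun z : E (ι ⊕ κ) => (fstL z, sndL z)) (γ (ι ⊕ κ)) ((γ ι).prod (γ κ)) :=
  MeasurePreserving.symm pairEquiv measurePreserving_pair

theorem volume_preserving_pair :
    MeasurePreserving (fun p : E ι × E κ => pair p.1 p.2) (volume.prod volume) volume := by
  have h1 := (PiLp.volume_preserving_ofLp ι).prod (PiLp.volume_preserving_ofLp κ)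
  have h2 := volume_measurePreserving_sumPiEquivProdPi_symm (fun _ : ι ⊕ κ => ℝ)
  have h3 := PiLp.volume_preserving_toLp (ι ⊕ κ)
  have h := h3.comp (h2.comp h1)
  have e : (fun p : E ι × E κ => pair p.1 p.2) = WithLp.toLp 2 ∘
      (MeasurableEquiv.sumPiEquivProdPi fun _ : ι ⊕ κ => ℝ).symm ∘
        Prod.map WithLp.ofLp WithLp.ofLp := by
    funext p
    ext i
    cases i <;> rfl
  rw [e]
  exact h

theorem integral_γ_sum {F : E (ι ⊕ κ) → Y} (hF : Integrable F (γ (ι ⊕ κ))) :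
    ∫ z, F z ∂γ (ι ⊕ κ) = ∫ x, ∫ y, F (pair x y) ∂γ κ ∂γ ι := by
  have hp : MeasurePreserving (pairEquiv (ι := ι) (κ := κ)) ((γ ι).prod (γ κ)) (γ (ι ⊕ κ)) :=
    measurePreserving_pair
  rw [← hp.integral_comp' F]
  exact integral_prod _ (hp.integrable_comp_of_integrable hF)

/-- a co-isometry preserves the standard Gaussian -/
theorem measurePreserving_clm {T : E α →L[ℝ] E β} (hT : ∀ y, T (adj T y) = y) :
    MeasurePreserving T (γ α) (γ β) := by
  have hm : Measurable T := by fun_prop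
  refine ⟨hm, ?_⟩
  apply Measure.ext_of_charFun
  ext t
  rw [charFun_stdGaussian, charFun_apply, integral_map hm.aemeasurable (by fun_prop), charFun_clm]
  have : ‖t‖ ^ 2 = ‖adj T t‖ ^ 2 := by
    rw [← real_inner_self_eq_norm_sq, ← real_inner_self_eq_norm_sq, inner_adj_right T, hT]
  have h' : (‖t‖ : ℂ) ^ 2 = (‖adj T t‖ : ℂ) ^ 2 := by exact_mod_cast this
  rw [h']

theorem measurePreserving_neg_γ : MeasurePreserving (fun x : E ι => -x) (γ ι) (γ ι) :=
  measurePreserving_clm (T := -ContinuousLinearMap.id ℝ (E ι)) fun y => by simp [adj_neg]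

theorem measurePreserving_fstL : MeasurePreserving fstL (γ (ι ⊕ κ)) (γ ι) :=
  measurePreserving_clm fun y => by simp

theorem measurePreserving_sndL : MeasurePreserving sndL (γ (ι ⊕ κ)) (γ κ) :=
  measurePreserving_clm fun y => by simp

theorem memLp_inner_γ (v : E ι) : MemLp (fun z => ⟪v, z⟫) 2 (γ ι) :=
  IsGaussian.memLp_dual (γ ι) (innerSL ℝ v) 2 (by simp)

theorem integral_inner_sq_γ (v : E ι) : ∫ z, ⟪v, z⟫ ^ 2 ∂γ ι = ‖v‖ ^ 2 := by
  have h1 := variance_dual_stdGaussian (E := E ι) (innerSL ℝ v)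
  have h2 := integral_strongDual_stdGaussian (E := E ι) (innerSL ℝ v)
  rw [variance_of_integral_eq_zero (by fun_prop) h2, innerSL_apply_norm] at h1
  exact h1

theorem norm_sq_clm_eq (M : E α →L[ℝ] E β) (g : E α) :
    ‖M g‖ ^ 2 = ∑ o, ⟪adj M (bas o), g⟫ ^ 2 := by
  rw [norm_sq_eq_sum]
  simp_rw [inner_adj_left, inner_bas_left]

theorem integrable_norm_sq_clm (M : E α →L[ℝ] E β) :
    Integrable (fun g => ‖M g‖ ^ 2) (γ α) := by
  simp_rw [norm_sq_clm_eq]
  exact integrable_finsetSum _ fun o _ => (memLp_inner_γ _).integrable_sq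

theorem integral_norm_sq_clm (M : E α →L[ℝ] E β) :
    ∫ g, ‖M g‖ ^ 2 ∂γ α = ∑ a, ‖M (bas a)‖ ^ 2 := by
  simp_rw [norm_sq_clm_eq]
  rw [integral_finsetSum _ fun o _ => (memLp_inner_γ _).integrable_sq]
  simp_rw [integral_inner_sq_γ, ← norm_sq_clm_eq]
  exact (sum_norm_sq_adj M).symm

theorem integral_norm_sq_γ : ∫ z, ‖z‖ ^ 2 ∂γ ι = Fintype.card ι := by
  simpa using integral_norm_sq_clm (ContinuousLinearMap.id ℝ (E ι))

theorem integral_clm_γ (M : E α →L[ℝ] E β) : ∫ g, M g ∂γ α = 0 := by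
  rw [M.integral_comp_comm IsGaussian.integrable_fun_id, integral_id_stdGaussian, map_zero]

theorem L2le_clm_γ_iff (M : E α →L[ℝ] E β) {r : ℝ} (hr : 0 ≤ r) :
    L2le (γ α) (fun g => M g) r ↔ ∑ a, ‖M (bas a)‖ ^ 2 ≤ r ^ 2 := by
  rw [← integral_norm_sq_clm]
  exact ⟨fun h => h.integral_sq_le, fun h => L2le.of_integral_sq_le
    M.continuous.aestronglyMeasurable (integrable_norm_sq_clm M) hr h⟩

theorem L2le_id_γ : L2le (γ ι) (fun z => z) √(Fintype.card ι) := by
  refine (L2le_clm_γ_iff (ContinuousLinearMap.id ℝ (E ι)) (Real.sqrt_nonneg _)).2 ?_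
  rw [Real.sq_sqrt (Nat.cast_nonneg _)]
  simp

theorem integral_norm_γ_le : ∫ z, ‖z‖ ∂γ ι ≤ √(Fintype.card ι) :=
  L2le_id_γ.integral_norm_le (Real.sqrt_nonneg _)

theorem L2le_inner_γ (v : E ι) : L2le (γ ι) (fun z => ⟪v, z⟫) ‖v‖ := by
  refine L2le.of_integral_sq_le (memLp_inner_γ v).1 ?_ (norm_nonneg v) ?_
  · simpa using (memLp_inner_γ v).integrable_sq
  · simp_rw [Real.norm_eq_abs, sq_abs]
    exact (integral_inner_sq_γ v).le

theorem L2le_clm_γ (M : E α →L[ℝ] E β) : L2le (γ α) (fun g => M g) (‖M‖ * √(Fintype.card α)) :=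
  L2le_id_γ.clm M

/-- Bessel: covariance operators have small Hilbert–Schmidt norm.  Write the map as a linear map of `g`;
`∑ a, ‖∫ ξ a • h‖² = ∑ o, ‖∫ h o • ξ‖²` and `‖v‖² = ∫ h o ⟪v, ξ⟫ ≤ c ‖v‖ ‖h o‖₂` for `v = ∫ h o • ξ`. -/
theorem L2le_cov {Ω : Type} [MeasurableSpace Ω] {μ : Measure Ω} {ξ : Ω → E ι} {h : Ω → E κ}
    {c r : ℝ} (hc : 0 ≤ c) (hr : 0 ≤ r) (hξ : ∀ v, L2le μ (fun x => ⟪v, ξ x⟫) (c * ‖v‖))
    (hh : L2le μ h r) : L2le (γ ι) (fun g => ∫ x, ⟪g, ξ x⟫ • h x ∂μ) (c * r) := by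
  have hint : ∀ g, Integrable (fun x => ⟪g, ξ x⟫ • h x) μ := fun g => (hξ g).integrable_smul hh
  let M : E ι →L[ℝ] E κ := LinearMap.toContinuousLinearMap
    { toFun := fun g => ∫ x, ⟪g, ξ x⟫ • h x ∂μ
      map_add' := fun g g' => by
        rw [← integral_add (hint g) (hint g')]
        simp_rw [inner_add_left, add_smul]
      map_smul' := fun a g => by
        rw [RingHom.id_apply, ← integral_smul]
        simp_rw [real_inner_smul_left, mul_smul] }
  have hM : ∀ g, M g = ∫ x, ⟪g, ξ x⟫ • h x ∂μ := fun _ => rfl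
  refine (L2le_clm_γ_iff M (mul_nonneg hc hr)).2 ?_
  rw [sum_norm_sq_adj]
  -- coordinates of `h`
  have hco : ∀ o, L2le μ (fun x => h x o) (‖(innerSL ℝ (bas o : E κ))‖ * r) := fun o =>
    (hh.clm (innerSL ℝ (bas o))).congr' fun x => by simp
  have hsq : ∀ o, Integrable (fun x => ‖h x o‖ ^ 2) μ := fun o => (hco o).integrable_sq
  let s : κ → ℝ := fun o => √(∫ x, ‖h x o‖ ^ 2 ∂μ)
  have hs2 : ∀ o, s o ^ 2 = ∫ x, ‖h x o‖ ^ 2 ∂μ := fun o =>
    Real.sq_sqrt (integral_nonneg fun x => sq_nonneg _)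
  have hs0 : ∀ o, 0 ≤ s o := fun o => Real.sqrt_nonneg _
  have hL : ∀ o, L2le μ (fun x => h x o) (s o) := fun o =>
    L2le.of_integral_sq_le (hco o).1 (hsq o) (hs0 o) (hs2 o).ge
  have hv : ∀ o, ‖adj M (bas o)‖ ≤ c * s o := by
    intro o
    set v := adj M (bas o) with hvdef
    have h1 : ‖v‖ ^ 2 = ∫ x, ⟪v, ξ x⟫ • h x o ∂μ := by
      rw [← real_inner_self_eq_norm_sq]
      nth_rewrite 1 [hvdef]
      rw [inner_adj_left, hM, ← innerSL_apply_apply ℝ,
        ← ContinuousLinearMap.integral_comp_comm _ (hint v)]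
      simp [real_inner_smul_right]
    have h2 := (hξ v).norm_integral_smul_le (hL o) (mul_nonneg hc (norm_nonneg _)) (hs0 o)
    rw [← h1, Real.norm_eq_abs, abs_of_nonneg (sq_nonneg _)] at h2
    rcases (norm_nonneg v).eq_or_lt with h0 | h0
    · rw [← h0]; exact mul_nonneg hc (hs0 o)
    · refine le_of_mul_le_mul_left ?_ h0
      nlinarith
  calc ∑ o, ‖adj M (bas o)‖ ^ 2 ≤ ∑ o, c ^ 2 * s o ^ 2 := Finset.sum_le_sum fun o _ => by
        rw [← mul_pow]; exact pow_le_pow_left₀ (norm_nonneg _) (hv o) 2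
    _ = c ^ 2 * ∫ x, ‖h x‖ ^ 2 ∂μ := by
        rw [← Finset.mul_sum]
        simp_rw [hs2]
        rw [← integral_finsetSum _ fun o _ => hsq o]
        simp_rw [norm_sq_eq_sum (h _), Real.norm_eq_abs, sq_abs]
    _ ≤ (c * r) ^ 2 := by
        rw [mul_pow]; exact mul_le_mul_of_nonneg_left hh.integral_sq_le (sq_nonneg c)

theorem integrable_exp_γ (c : ℝ) (k : ℕ) :
    Integrable (fun z : E ι => Real.exp (c * ‖z‖) * (1 + ‖z‖) ^ k) (γ ι) := by
  obtain ⟨C, hC, hi⟩ := IsGaussian.exists_integrable_exp_sq (γ ι)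
  refine (hi.const_mul (Real.exp ((c + k) ^ 2 / (4 * C)))).mono' (by fun_prop)
    (Eventually.of_forall fun z => ?_)
  rw [Real.norm_eq_abs, abs_of_nonneg (by positivity), ← Real.exp_add]
  have h1 : (1 + ‖z‖) ^ k ≤ Real.exp (k * ‖z‖) := by
    rw [Real.exp_nat_mul]
    exact pow_le_pow_left₀ (by positivity) (by linarith [Real.add_one_le_exp ‖z‖]) k
  refine (mul_le_mul_of_nonneg_left h1 (Real.exp_pos _).le).trans ?_
  rw [← Real.exp_add, Real.exp_le_exp]
  have h2 : (c + k) ^ 2 / (4 * C) + C * ‖z‖ ^ 2 - (c * ‖z‖ + k * ‖z‖) =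
      (c + k - 2 * C * ‖z‖) ^ 2 / (4 * C) := by
    field_simp
    ring
  have h3 : 0 ≤ (c + k - 2 * C * ‖z‖) ^ 2 / (4 * C) := by positivity
  linarith

theorem PolyB.integrable_γ {f : E ι → Y} (hf : PolyB f) (hm : AEStronglyMeasurable f (γ ι)) :
    Integrable f (γ ι) := by
  obtain ⟨k, C, h⟩ := hf
  refine ((integrable_exp_γ 0 k).const_mul C).mono' hm (Eventually.of_forall fun z => ?_)
  simpa using h z

theorem TG.integrable_γ {f : E ι → Y} (hf : TG f) : Integrable f (γ ι) :=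
  (TG.polyB hf).integrable_γ (TG.continuous hf).aestronglyMeasurable

theorem Lip.integrable_γ {L : ℝ} {f : E ι → Y} (hf : Lip L f) : Integrable f (γ ι) :=
  hf.polyB.integrable_γ hf.continuous.aestronglyMeasurable

/-- crude concentration -/
theorem Lip.L2le_sub_integral [CompleteSpace Y] {L : ℝ} {f : E ι → Y} (hf : Lip L f) (hL : 0 ≤ L) :
    L2le (γ ι) (fun z => f z - ∫ z', f z' ∂γ ι) (2 * L * √(Fintype.card ι)) := by
  have hd : 0 ≤ L * √(Fintype.card ι) := mul_nonneg hL (Real.sqrt_nonneg _)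
  have h1 : L2le (γ ι) (fun z => f z - f 0) (L * √(Fintype.card ι)) :=
    L2le_id_γ.of_norm_le (hf.continuous.sub continuous_const).aestronglyMeasurable hL fun z => by
      simpa using hf z 0
  have h2 : ‖∫ z', (f z' - f 0) ∂γ ι‖ ≤ L * √(Fintype.card ι) :=
    (norm_integral_le_integral_norm _).trans (h1.integral_norm_le hd)
  have h3 : L2le (γ ι) (fun _ => ∫ z', (f z' - f 0) ∂γ ι) (L * √(Fintype.card ι)) :=
    L2le.of_bound aestronglyMeasurable_const fun _ => h2
  refine ((h1.sub h3 hd hd).congr' fun z => ?_).mono (le_of_eq (by ring))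
  rw [integral_sub hf.integrable_γ (integrable_const _)]
  simp

end Crest.Agent.R285
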