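import Crest.Agent.R285.Appell
import Crest.Agent.R285.Mult

/-!
# Row 285 (S0430): GmMult
The multiplier bound for the Hessian of the coarse-grained potential.  By symmetry
(`adj_fderiv_gradient`) the `a`-th coordinate of `fderiv g u v` is `pd a ⟪v, g ·⟫ u` where
`g u = gm W s (√s • u)`, and `⟪v, g u⟫ = ∫ ⟪v, ∇W (√s • z)⟫ ∂tg (W (√s • ·)) u 1` (`tg_map_smul`).
-/

set_option autoImplicit false

open MeasureTheory ProbabilityTheory Filter Topology
open scoped RealInnerProductSpace

noncomputable section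

namespace Crest.Agent.R285

variable {ι κ ζ α β : Type} [Fintype ι] [Fintype κ] [Fintype ζ] [Fintype α] [Fintype β]
variable {Y : Type} [NormedAddCommGroup Y] [NormedSpace ℝ Y]

theorem BP.adj_fderiv_gm {W : E ι → ℝ} {lam B s : ℝ} (h : BP W lam B) (hs : 0 < s) (c : ℝ)
    (u : E ι) : adj (fderiv ℝ (fun u => gm W s (c • u)) u) =
      fderiv ℝ (fun u => gm W s (c • u)) u := by
  have h1 : Differentiable ℝ (lz W s) := fun y => (h.hasGradientAt_lz s y).differentiableAt
  have h2 : ContDiff ℝ 1 (gradient (lz W s)) := by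
    rw [h.gradient_lz]; exact (h.tg_gm hs).contDiff 1
  have h3 := adj_fderiv_gradient h1 h2 (c • u)
  rw [h.gradient_lz] at h3
  rw [fderiv_comp_smul, adj_smul, h3]

theorem BP.tg_gm_smul {W : E ι → ℝ} {lam B s : ℝ} (h : BP W lam B) (hs : 0 < s) (c : ℝ) :
    TG fun u => gm W s (c • u) := by
  have := (h.tg_gm hs).comp' (TG.affine (c • ContinuousLinearMap.id ℝ (E ι)) 0)
  simpa using this

theorem BP.inner_gm {W : E ι → ℝ} {lam B s : ℝ} (h : BP W lam B) (hs : 0 < s) (u v : E ι) :
    ⟪v, gm W s (√s • u)⟫ =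
      ∫ z, ⟪v, gradient W (√s • z)⟫ ∂tg (fun z => W (√s • z)) u 1 := by
  have hs' : 0 < √s := Real.sqrt_pos.2 hs
  have h1 := tg_map_smul h hs' u 1
  rw [mul_one] at h1
  have hc : Continuous (gradient W) := h.lip.continuous
  have hc' : Continuous fun z : E ι => gradient W (√s • z) := hc.comp (continuous_const_smul _)
  unfold gm
  rw [← h1, integral_map (measurable_const_smul _).aemeasurable hc.aestronglyMeasurable,
    integral_inner]
  refine (h.comp_smul hs'.le).integrable u 1 ⟨0, B, fun x => ?_⟩ hc'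
  simpa using h.bdd _

theorem exists_gm_mult : ∃ C : ℕ → ℝ, (∀ n, 1 ≤ C n) ∧
    ∀ {ι : Type} [Fintype ι] {W : E ι → ℝ} {B s : ℝ} (n : ℕ), BP W 1 B → 0 < s → s ≤ 1 / 2 →
      Mult 1 (C n * √s) n (fderiv ℝ fun u => gm W s (√s • u)) := by
  obtain ⟨C, hC1, hC⟩ := exists_appell
  refine ⟨C, hC1, fun {ι} _ {W B s} n h hs hs1 x v => ?_⟩
  have hs' : 0 < √s := Real.sqrt_pos.2 hs
  have hg : TG fun u => gm W s (√s • u) := h.tg_gm_smul hs _
  have hT : TG fun z => fderiv ℝ (fun u => gm W s (√s • u)) z v :=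
    hg.fderiv'.clm_apply (Function.HasTemperateGrowth.const v)
  rw [HS_eq_sum_coord 1 n hT x]
  have hφ : Lip (‖v‖ * √s) fun z => ⟪v, gradient W (√s • z)⟫ := by
    intro z z'
    rw [← inner_sub_right]
    refine (norm_inner_le_norm _ _).trans ?_
    have := h.lip (√s • z) (√s • z')
    rw [← smul_sub, norm_smul, Real.norm_eq_abs, abs_of_pos hs', one_mul] at this
    rw [mul_assoc]
    exact mul_le_mul_of_nonneg_left this (norm_nonneg _)
  have h1 := hC n (h.comp_smul hs'.le) (by rw [Real.sq_sqrt hs.le]; linarith) hφ x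
  have h2 : (fun u => ∫ z, ⟪v, gradient W (√s • z)⟫ ∂tg (fun z => W (√s • z)) u 1) =
      fun u => ⟪v, gm W s (√s • u)⟫ := funext fun u => (h.inner_gm hs u v).symm
  rw [h2] at h1
  have h3 : ∀ a, pd a (fun u => ⟪v, gm W s (√s • u)⟫) =
      fun z => fderiv ℝ (fun u => gm W s (√s • u)) z v a := by
    intro a
    rw [pd_inner a (differentiable_const v) hg.differentiable, pd_const]
    funext z
    rw [inner_zero_left, zero_add, ← inner_bas_right a, ← h.adj_fderiv_gm hs, inner_adj_left]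
    rfl
  simp only [h3] at h1
  refine h1.trans (le_of_eq ?_)
  ring


end Crest.Agent.R285
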