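import Crest.Agent.R285.OpG
import Crest.Agent.R285.Sqrt
import Crest.Agent.R285.Gauss

/-!
# Row 285 (S0430): OpMul
Products of operator fields (matched variance trick).
Induction on `a`, for ALL index sets, types and pairs `M, N` at once (state an auxiliary `∀`-statement).
`a ≤ 1`: `OpG.one` and `mono`.  Step `a+1`: by the induction hypothesis (and `add`, `smul`, `zero`) the fields
`D r = Dseq (N ∘ adj N) r` are `OpG k b a`.  Let `S₁, S₂, S₃` be surrogates of `M` (accuracy `a+1`), `N` and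
`D (a+1)` (accuracy `a`), and put
`S (pair x g) = ∫ g', S₁ (pair x (g' + (S₂ (pair x g) - S₃ (pair x g'))))`.
With `C` from `exists_sqrt_approx (N x)` and `R = N x g + C g'` (standard Gaussian), one has
`∫ g', M x R = M x (N x g)` and `S₁ (x, R̃) - M x R = (S₁ (x, R̃) - S₁ (x, R)) + (S₁ (x, R) - M x R)`, where
`S₁` is `δ Λ^c`-Lipschitz and `‖R̃ - R‖₂ ≤ Λ^c e a` (use `L2le_clm_γ` for `(C - (1 - D)) g'`).
The adjoint is the product of the adjoints in the opposite order.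
-/

set_option autoImplicit false

open MeasureTheory ProbabilityTheory Filter Topology
open scoped RealInnerProductSpace

noncomputable section

namespace Crest.Agent.R285

variable {P P' : Type} {b : P → Base} {ι κ κ' ζ α β α' β' I : P → Type} [∀ p, Fintype (ι p)]
  [∀ p, Fintype (κ p)] [∀ p, Fintype (κ' p)] [∀ p, Fintype (ζ p)] [∀ p, Fintype (α p)]
  [∀ p, Fintype (β p)] [∀ p, Fintype (α' p)] [∀ p, Fintype (β' p)] [∀ p, Fintype (I p)]

/-- the matched variance estimate for a single instance -/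
lemma opMul_single {ι κ α β : Type} [Fintype ι] [Fintype κ] [Fintype α] [Fintype β]
    {S₁ : E (ι ⊕ κ) → E β} {S₂ : E (ι ⊕ α) → E κ} {S₃ : E (ι ⊕ κ) → E κ} {m : E κ →L[ℝ] E β}
    {n : E α →L[ℝ] E κ} {x : E ι} {L μ r₁ r₂ r₃ : ℝ} {a : ℕ} (h₁ : TG S₁) (h₂ : TG S₂) (h₃ : TG S₃)
    (hL : Lip L S₁) (hL0 : 0 ≤ L) (hn : ‖n‖ ≤ μ) (hμ : μ ≤ 1) (hr₁ : 0 ≤ r₁) (hr₂ : 0 ≤ r₂)
    (hr₃ : 0 ≤ r₃)
    (e₁ : L2le (γ κ) (fun g => S₁ (pair x g) - m g) r₁)
    (e₂ : L2le (γ α) (fun g => S₂ (pair x g) - n g) r₂)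
    (e₃ : L2le (γ κ) (fun g => S₃ (pair x g) - Dseq (n.comp (adj n)) a g) r₃) :
    L2le (γ α) (fun g => (∫ g', S₁ (pair x (g' + (S₂ (pair x g) - S₃ (pair x g')))) ∂γ κ) - m (n g))
      (L * (r₂ + r₃ + μ ^ a * √(Fintype.card κ)) + r₁) := by
  obtain ⟨C, hC, hC'⟩ := exists_sqrt_approx n hn hμ
  have hμ0 : 0 ≤ μ := (norm_nonneg _).trans hn
  set D := Dseq (n.comp (adj n)) a with hD
  have hmp := measurePreserving_add hC
  have c₁ := h₁.continuous
  have c₂ := h₂.continuous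
  have c₃ := h₃.continuous
  have f₂ : L2le ((γ α).prod (γ κ)) (fun p => S₂ (pair x p.1) - n p.1) r₂ := e₂.fst
  have f₃ : L2le ((γ α).prod (γ κ)) (fun p => S₃ (pair x p.2) - D p.2) r₃ := e₃.snd
  have f₄ : L2le ((γ α).prod (γ κ))
      (fun p => (C - (ContinuousLinearMap.id ℝ (E κ) - D)) p.2) (μ ^ a * √(Fintype.card κ)) :=
    ((L2le_clm_γ _).mono (by gcongr; exact hC' a)).snd
  have f₅ := (f₂.sub f₃ hr₂ hr₃).sub f₄ (by positivity) (by positivity)
  have f₆ : L2le ((γ α).prod (γ κ))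
      (fun p => S₁ (pair x (p.2 + (S₂ (pair x p.1) - S₃ (pair x p.2)))) -
        S₁ (pair x (n p.1 + C p.2))) (L * (r₂ + r₃ + μ ^ a * √(Fintype.card κ))) := by
    refine f₅.of_norm_le (Continuous.aestronglyMeasurable (by fun_prop)) hL0 fun p => ?_
    refine (hL _ _).trans (le_of_eq ?_)
    rw [pair_sub, sub_self, norm_pair_zero_left]
    congr 2
    simp only [sub_apply, ContinuousLinearMap.id_apply]
    abel
  have f₇ : L2le ((γ α).prod (γ κ))
      (fun p => S₁ (pair x (n p.1 + C p.2)) - m (n p.1 + C p.2)) r₁ := e₁.comp_mp hmp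
  have f₈ := (f₆.add f₇ (by positivity) hr₁).integral_right
  refine f₈.congr' fun g => ?_
  have hx : TG fun g' : E κ => pair x g' :=
    TG.pair' (Function.HasTemperateGrowth.const x) (ContinuousLinearMap.id ℝ (E κ)).hasTemperateGrowth
  have i₁ : Integrable (fun g' => S₁ (pair x (g' + (S₂ (pair x g) - S₃ (pair x g'))))) (γ κ) := by
    refine TG.integrable_γ (h₁.comp' (TG.pair' (Function.HasTemperateGrowth.const x) ?_))
    exact TG.add' (ContinuousLinearMap.id ℝ (E κ)).hasTemperateGrowth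
      (TG.sub' (Function.HasTemperateGrowth.const _) (h₃.comp' hx))
  have i₂ : Integrable (fun g' => (m.comp C) g') (γ κ) :=
    TG.integrable_γ (m.comp C).hasTemperateGrowth
  have e : ∀ g', S₁ (pair x (g' + (S₂ (pair x g) - S₃ (pair x g')))) - S₁ (pair x (n g + C g')) +
      (S₁ (pair x (n g + C g')) - m (n g + C g')) =
      S₁ (pair x (g' + (S₂ (pair x g) - S₃ (pair x g')))) - (m (n g) + (m.comp C) g') := by
    intro g'
    simp only [map_add, ContinuousLinearMap.comp_apply]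
    abel
  simp only [e]
  have i₃ : Integrable (fun g' => m (n g) + (m.comp C) g') (γ κ) := (integrable_const _).add i₂
  rw [integral_sub i₁ i₃, integral_add (integrable_const _) i₂,
    integral_clm_γ, add_zero, integral_const, probReal_univ, one_smul]

/-- one step of the induction -/
lemma opMul_step {k a : ℕ} (hk : Lvl k) {M : OFam b ι κ β} {N : OFam b ι α κ}
    (h : OpA k b (a + 1) M) (hN : TameOp b N) (h' : OpA k b a N)
    (hD : OpA k b a (α := κ) (β := κ) fun p W x => Dseq ((N p W x).comp (adj (N p W x))) a) :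
    OpA k b (a + 1) fun p W x => (M p W x).comp (N p W x) := by
  obtain ⟨S₁, g₁, c₁, a₁⟩ := h
  obtain ⟨S₂, g₂, c₂, a₂⟩ := h'
  obtain ⟨S₃, g₃, c₃, a₃⟩ := hD
  have hQ := hk.closed
  let B : ∀ p, E ((ι p ⊕ α p) ⊕ κ p) →L[ℝ] E (ι p ⊕ κ p) := fun p =>
    inlL.comp (fstL.comp fstL) + inrL.comp sndL
  have hB : Poly b fun p => ‖B p‖ :=
    Poly.norm_add (Poly.norm_comp Poly.norm_inlL (Poly.norm_comp Poly.norm_fstL Poly.norm_fstL))
      (Poly.norm_comp Poly.norm_inrL Poly.norm_sndL)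
  have hd : Dim b fun p => (ι p ⊕ α p) ⊕ κ p := (hN.dimI.sum hN.dimA).sum hN.dimB
  have gy : Good k b (ι := fun p => (ι p ⊕ α p) ⊕ κ p) (κ := fun p => ι p ⊕ κ p)
      fun p W w => inrL (S₂ p W (fstL w) - S₃ p W (B p w)) :=
    hQ.lin (B := fun _ => inrL) Poly.norm_inrL (hN.dimI.sum hN.dimB)
      (hQ.sub (hQ.comp_lin (B := fun _ => fstL) Poly.norm_fstL hd g₂) (hQ.comp_lin hB hd g₃))
  have gF := hk.exp (hQ.comp hB gy g₁)
  refine ⟨_, gF, ?_⟩
  obtain ⟨cL, hL⟩ := g₁.tame.lip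
  obtain ⟨cN, hn⟩ := hN.norm_le
  obtain ⟨cκ, hκ⟩ := hN.dimB.sqrt_le
  refine ⟨cL + c₁ + c₂ + c₃ + (cN * a + cκ) + 2, ?_⟩
  filter_upwards [a₁, a₂, a₃, hL, hn, hκ, g₁.tame.tg, g₂.tame.tg, g₃.tame.tg, ev_two_le_Λ b,
    ev_δ_mul_le b cN one_pos] with p a₁ a₂ a₃ hL hn hκ t₁ t₂ t₃ h2 hμ W x
  have hδ := (b p).δ_pos
  have hΛ := (b p).Λ_pos
  have he := (b p).e_pos a
  have he' := (b p).e_pos (a + 1)
  have key := opMul_single (t₁ W) (t₂ W) (t₃ W) (hL W) (by positivity) (hn W x) hμ (by positivity)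
    (by positivity) (by positivity) (a₁ W x) (a₂ W x) (a₃ W x)
  refine (key.congr' fun g => ?_).mono ?_
  · simp only [B, add_apply, ContinuousLinearMap.comp_apply, fstL_pair,
      sndL_pair, inlL_apply, inrL_apply, pair_add, add_zero, zero_add]
  · set c := cL + c₁ + c₂ + c₃ + (cN * a + cκ) with hc
    have e4 : ((b p).δ * (b p).Λ ^ cN) ^ a * √(Fintype.card (κ p)) ≤
        (b p).Λ ^ (cN * a + cκ) * (b p).e a :=
      calc _ ≤ ((b p).δ * (b p).Λ ^ cN) ^ a * ((b p).Λ ^ cκ * √((b p).d : ℝ)) := by gcongr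
        _ = _ := by unfold Base.e; ring
    calc (b p).δ * (b p).Λ ^ cL * ((b p).Λ ^ c₂ * (b p).e a + (b p).Λ ^ c₃ * (b p).e a +
          ((b p).δ * (b p).Λ ^ cN) ^ a * √(Fintype.card (κ p))) + (b p).Λ ^ c₁ * (b p).e (a + 1)
        ≤ (b p).δ * (b p).Λ ^ cL * ((b p).Λ ^ c₂ * (b p).e a + (b p).Λ ^ c₃ * (b p).e a +
          (b p).Λ ^ (cN * a + cκ) * (b p).e a) + (b p).Λ ^ c₁ * (b p).e (a + 1) := by gcongr
      _ = ((b p).Λ ^ (cL + c₂) + (b p).Λ ^ (cL + c₃) + (b p).Λ ^ (cL + (cN * a + cκ)) +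
          (b p).Λ ^ c₁) * (b p).e (a + 1) := by rw [Base.e_succ]; ring
      _ ≤ ((b p).Λ ^ c + (b p).Λ ^ c + (b p).Λ ^ c + (b p).Λ ^ c) * (b p).e (a + 1) := by
          gcongr <;> first | exact (b p).one_le_Λ | omega
      _ = (b p).Λ ^ c * (2 * 2) * (b p).e (a + 1) := by ring
      _ ≤ (b p).Λ ^ c * ((b p).Λ * (b p).Λ) * (b p).e (a + 1) := by gcongr
      _ = _ := by ring

lemma opMul_aux {k : ℕ} (hk : Lvl k) (a : ℕ) : ∀ {κ α β : P → Type} [∀ p, Fintype (κ p)]
    [∀ p, Fintype (α p)] [∀ p, Fintype (β p)] {M : OFam b ι κ β} {N : OFam b ι α κ},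
    OpG k b a M → OpG k b a N → OpG k b a fun p W x => (M p W x).comp (N p W x) := by
  induction a with
  | zero =>
    intro κ α β _ _ _ M N h h'
    exact (OpG.one hk (h.tame.mul h'.tame)).mono (Nat.zero_le 1)
  | succ a ih =>
    have step : ∀ {κ α β : P → Type} [∀ p, Fintype (κ p)] [∀ p, Fintype (α p)]
        [∀ p, Fintype (β p)] {M : OFam b ι κ β} {N : OFam b ι α κ},
        OpG k b (a + 1) M → OpG k b (a + 1) N →
        OpA k b (a + 1) fun p W x => (M p W x).comp (N p W x) := by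
      intro κ α β _ _ _ M N h h'
      have h0 := h'.mono (Nat.le_succ a)
      have hA := ih h0 h0.adj'
      have hD : ∀ r, OpG k b a (α := κ) (β := κ)
          fun p W x => Dseq ((N p W x).comp (adj (N p W x))) r := by
        intro r
        induction r with
        | zero => exact OpG.zero hk h'.tame.dimI h'.tame.dimB h'.tame.dimB
        | succ r ihr => exact OpG.smul hk (Poly.const (1 / 2)) (OpG.add hk hA (ih ihr ihr))
      exact opMul_step hk h.op h'.tame h0.op (hD a).op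
    intro κ α β _ _ _ M N h h'
    refine ⟨h.tame.mul h'.tame, step h h', ?_⟩
    refine (step h'.adj' h.adj').congr (Eventually.of_forall fun p W => ?_)
    funext x
    simp only [OFam.adj, adj_comp]

theorem OpG.mul {k a : ℕ} (hk : Lvl k) {M : OFam b ι κ β} {N : OFam b ι α κ} (h : OpG k b a M)
    (h' : OpG k b a N) : OpG k b a fun p W x => (M p W x).comp (N p W x) :=
  opMul_aux hk a h h'


end Crest.Agent.R285
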