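import Crest.Agent.R285.Tilt2

/-!
# Row 285 (S0430): Prox
Invariance of `tg W 0 √T` under the proximal sampler.
With `c = 1 - s/T`: for `Y ~ N(0, T - s)`, `X = Y + √s Z` one has `(Y, X) ~ (c X' + √(c s) Z', X')`, `X' ~ N(0,T)`
(`gauss_bayes`: both maps are linear images of `γ (ι ⊕ ι)`; they differ by a rotation, use
`measurePreserving_clm` and `measurePreserving_pair`, or compare characteristic functions).
Tilting by `exp (-W X)` identifies `tg (lz W s) 0 √(T-s)` with the law of `c X + √(c s) Z`, `X ~ tg W 0 √T`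
(`prox_law`); then `tg_semigroup`.
-/

set_option autoImplicit false

open MeasureTheory ProbabilityTheory Filter Topology
open scoped RealInnerProductSpace

noncomputable section

namespace Crest.Agent.R285

variable {ι : Type} [Fintype ι] {W : E ι → ℝ} {lam B s T : ℝ}

/-- the reflection `(x, y) ↦ (a x + b y, b x - a y)` -/
def proxRefl (a b : ℝ) : E (ι ⊕ ι) →L[ℝ] E (ι ⊕ ι) :=
  inlL.comp (a • fstL + b • sndL) + inrL.comp (b • fstL - a • sndL)

lemma proxRefl_pair (a b : ℝ) (x y : E ι) :
    proxRefl a b (pair x y) = pair (a • x + b • y) (b • x - a • y) := by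
  simp [proxRefl]

lemma adj_proxRefl (a b : ℝ) (z : E (ι ⊕ ι)) : adj (proxRefl a b) z = proxRefl a b z := by
  refine ext_inner_right ℝ fun w => ?_
  rw [inner_adj_left, ← pair_fst_snd z, ← pair_fst_snd w, proxRefl_pair, proxRefl_pair,
    inner_pair, inner_pair]
  simp only [inner_add_left, inner_add_right, inner_sub_left, inner_sub_right,
    real_inner_smul_left, real_inner_smul_right]
  ring

lemma prox_mp_refl {a b : ℝ} (hab : a ^ 2 + b ^ 2 = 1) :
    MeasurePreserving (fun p : E ι × E ι => (a • p.1 + b • p.2, b • p.1 - a • p.2))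
      ((γ ι).prod (γ ι)) ((γ ι).prod (γ ι)) := by
  have h1 : MeasurePreserving (proxRefl a b) (γ (ι ⊕ ι)) (γ (ι ⊕ ι)) := by
    refine measurePreserving_clm fun z => ?_
    rw [adj_proxRefl, ← pair_fst_snd z, proxRefl_pair, proxRefl_pair]
    congr 1
    · have : a • (a • fstL z + b • sndL z) + b • (b • fstL z - a • sndL z) =
          (a ^ 2 + b ^ 2) • fstL z := by module
      rw [this, hab, one_smul]
    · have : b • (a • fstL z + b • sndL z) - a • (b • fstL z - a • sndL z) =
          (a ^ 2 + b ^ 2) • sndL z := by module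
      rw [this, hab, one_smul]
  have h2 := measurePreserving_unpair.comp (h1.comp measurePreserving_pair)
  convert h2 using 1
  funext p
  simp only [Function.comp_apply, proxRefl_pair, fstL_pair, sndL_pair]

theorem gauss_bayes (hs : 0 < s) (hT : s ≤ T) :
    ((γ ι).prod (γ ι)).map (fun p => (√(T - s) • p.1, √(T - s) • p.1 + √s • p.2)) =
      ((γ ι).prod (γ ι)).map
        fun p => ((1 - s / T) • √T • p.1 + √((1 - s / T) * s) • p.2, √T • p.1) := by
  have hT0 : 0 < T := lt_of_lt_of_le hs hT
  set A := √(T - s) with hA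
  set S := √s with hS
  set τ := √T with hτ
  have hτ0 : 0 < τ := Real.sqrt_pos.2 hT0
  have hA2 : A ^ 2 = T - s := Real.sq_sqrt (by linarith)
  have hS2 : S ^ 2 = s := Real.sq_sqrt hs.le
  have hτ2 : τ ^ 2 = T := Real.sq_sqrt hT0.le
  have hA0 : 0 ≤ A := Real.sqrt_nonneg _
  have hS0 : 0 ≤ S := Real.sqrt_nonneg _
  have hc : 1 - s / T = A ^ 2 / τ ^ 2 := by rw [hA2, hτ2]; field_simp
  have hcs : √((1 - s / T) * s) = A * S / τ := by
    rw [hc, ← hS2, show A ^ 2 / τ ^ 2 * S ^ 2 = (A * S / τ) ^ 2 by field_simp]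
    exact Real.sqrt_sq (by positivity)
  have hAS : A ^ 2 + S ^ 2 = τ ^ 2 := by rw [hA2, hS2, hτ2]; ring
  have hab : (A / τ) ^ 2 + (S / τ) ^ 2 = 1 := by
    rw [div_pow, div_pow, ← add_div, hAS, div_self (by positivity)]
  have hmp := prox_mp_refl (ι := ι) hab
  conv_rhs => rw [← hmp.map_eq]
  rw [Measure.map_map (by fun_prop) hmp.measurable]
  congr 1
  funext p
  simp only [Function.comp_apply]
  rw [hcs, hc]
  have e1 : A ^ 2 / τ ^ 2 * τ * (A / τ) + A * S / τ * (S / τ) = A := by
    field_simp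
    linear_combination A * hAS
  have e2 : A ^ 2 / τ ^ 2 * τ * (S / τ) - A * S / τ * (A / τ) = 0 := by
    field_simp
    ring
  have e3 : τ * (A / τ) = A := by field_simp
  have e4 : τ * (S / τ) = S := by field_simp
  refine Prod.ext ?_ ?_
  · have : (A ^ 2 / τ ^ 2) • τ • ((A / τ) • p.1 + (S / τ) • p.2) +
        (A * S / τ) • ((S / τ) • p.1 - (A / τ) • p.2) =
        (A ^ 2 / τ ^ 2 * τ * (A / τ) + A * S / τ * (S / τ)) • p.1 +
          (A ^ 2 / τ ^ 2 * τ * (S / τ) - A * S / τ * (A / τ)) • p.2 := by module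
    simp only [this, e1, e2, zero_smul, add_zero]
  · have : τ • ((A / τ) • p.1 + (S / τ) • p.2) = (τ * (A / τ)) • p.1 + (τ * (S / τ)) • p.2 := by
      module
    simp only [this, e3, e4]

lemma prox_continuous_lz (h : BP W lam B) (s : ℝ) : Continuous (lz W s) :=
  continuous_iff_continuousAt.2 fun y => (h.hasGradientAt_lz s y).continuousAt

lemma prox_exp_lz (h : BP W lam B) (s : ℝ) (y : E ι) :
    ENNReal.ofReal (Real.exp (-lz W s y)) =
      ∫⁻ x, ENNReal.ofReal (Real.exp (-W x)) ∂gs y √s := by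
  have hi := h.integrable_exp y √s
  rw [lz, neg_neg, Real.exp_log (integral_exp_pos hi),
    ofReal_integral_eq_lintegral_ofReal hi (ae_of_all _ fun x => (Real.exp_pos _).le)]

lemma prox_key (h : BP W lam B) (hs : 0 < s) (hT : s ≤ T) {f : E ι → ENNReal}
    (hf : Measurable f) :
    ∫⁻ x, ENNReal.ofReal (Real.exp (-W x)) *
        (∫⁻ z, f ((1 - s / T) • x + z) ∂gs 0 √((1 - s / T) * s)) ∂gs 0 √T =
      ∫⁻ y, ENNReal.ofReal (Real.exp (-lz W s y)) * f y ∂gs 0 √(T - s) := by
  have hW : Measurable fun x => ENNReal.ofReal (Real.exp (-W x)) :=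
    (h.continuous.neg.rexp).measurable.ennreal_ofReal
  have hL : Measurable fun x => ENNReal.ofReal (Real.exp (-lz W s x)) :=
    ((prox_continuous_lz h s).neg.rexp).measurable.ennreal_ofReal
  set F : E ι × E ι → ENNReal := fun q => ENNReal.ofReal (Real.exp (-W q.2)) * f q.1 with hF
  have hFm : Measurable F := (hW.comp measurable_snd).mul (hf.comp measurable_fst)
  have key := congrArg (fun μ => ∫⁻ q, F q ∂μ) (gauss_bayes (ι := ι) hs hT)
  have m1 : Measurable fun p : E ι × E ι =>
      F (√(T - s) • p.1, √(T - s) • p.1 + √s • p.2) := hFm.comp (by fun_prop)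
  have m2 : Measurable fun p : E ι × E ι =>
      F ((1 - s / T) • √T • p.1 + √((1 - s / T) * s) • p.2, √T • p.1) := hFm.comp (by fun_prop)
  rw [lintegral_map hFm (by fun_prop), lintegral_map hFm (by fun_prop),
    lintegral_prod _ m1.aemeasurable, lintegral_prod _ m2.aemeasurable] at key
  have hI : Measurable fun x : E ι =>
      ∫⁻ z, f ((1 - s / T) • x + z) ∂gs 0 √((1 - s / T) * s) :=
    Measurable.lintegral_prod_right' (f := fun q : E ι × E ι => f ((1 - s / T) • q.1 + q.2))
      (hf.comp (by fun_prop))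
  have m3 : Measurable fun x : E ι => ENNReal.ofReal (Real.exp (-W x)) *
      ∫⁻ z, f ((1 - s / T) • x + z) ∂gs 0 √((1 - s / T) * s) := hW.mul hI
  have m4 : Measurable fun y : E ι => ENNReal.ofReal (Real.exp (-lz W s y)) * f y := hL.mul hf
  rw [← (measurePreserving_gs (0 : E ι) √T).lintegral_comp m3,
    ← (measurePreserving_gs (0 : E ι) √(T - s)).lintegral_comp m4]
  simp only [zero_add]
  refine Eq.trans (lintegral_congr fun x => ?_) (key.symm.trans (lintegral_congr fun x => ?_))
  · have m5 : Measurable fun z : E ι =>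
        f ((1 - s / T) • √T • x + (0 + √((1 - s / T) * s) • z)) := hf.comp (by fun_prop)
    rw [← (measurePreserving_gs (0 : E ι) √((1 - s / T) * s)).lintegral_comp
      (f := fun z => f ((1 - s / T) • √T • x + z)) (hf.comp (by fun_prop)),
      ← lintegral_const_mul _ m5]
    simp only [hF, zero_add]
  · have m6 : Measurable fun z : E ι =>
        ENNReal.ofReal (Real.exp (-W (√(T - s) • x + √s • z))) := hW.comp (by fun_prop)
    rw [prox_exp_lz h, ← (measurePreserving_gs (√(T - s) • x) √s).lintegral_comp hW,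
      ← lintegral_mul_const _ m6]

lemma prox_norm (h : BP W lam B) (hs : 0 < s) (hT : s ≤ T) :
    ∫ x, Real.exp (-W x) ∂gs 0 √T = ∫ y, Real.exp (-lz W s y) ∂gs 0 √(T - s) := by
  have key := prox_key h hs hT (f := fun _ => 1) measurable_const
  simp only [lintegral_const, measure_univ, mul_one] at key
  have c1 : Continuous fun x => Real.exp (-W x) := h.continuous.neg.rexp
  have c2 : Continuous fun x => Real.exp (-lz W s x) := (prox_continuous_lz h s).neg.rexp
  rw [integral_eq_lintegral_of_nonneg_ae (ae_of_all _ fun x => (Real.exp_pos _).le)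
      c1.aestronglyMeasurable,
    integral_eq_lintegral_of_nonneg_ae (ae_of_all _ fun x => (Real.exp_pos _).le)
      c2.aestronglyMeasurable, key]

/-- the law of the forward half step -/
def fwd (W : E ι → ℝ) (s T : ℝ) : Measure (E ι) :=
  (((tg W 0 √T).map fun x => (1 - s / T) • x).prod (gs 0 √((1 - s / T) * s))).map fun p => p.1 + p.2

theorem prox_law (h : BP W lam B) (hs : 0 < s) (hT : s ≤ T) : fwd W s T = tg (lz W s) 0 √(T - s) := by
  have hprob := h.prob (0 : E ι) √T
  have hW : Measurable fun x => ENNReal.ofReal (Real.exp (-W x)) :=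
    (h.continuous.neg.rexp).measurable.ennreal_ofReal
  have hL : Measurable fun x => ENNReal.ofReal (Real.exp (-lz W s x)) :=
    ((prox_continuous_lz h s).neg.rexp).measurable.ennreal_ofReal
  have hZ : 0 < ∫ x, Real.exp (-W x) ∂gs 0 √T := integral_exp_pos (h.integrable_exp 0 √T)
  have main : ∀ f : E ι → ENNReal, Measurable f →
      ∫⁻ y, f y ∂fwd W s T = ∫⁻ y, f y ∂tg (lz W s) 0 √(T - s) := by
    intro f hf
    have hI : Measurable fun x : E ι => ∫⁻ z, f (x + z) ∂gs 0 √((1 - s / T) * s) :=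
      Measurable.lintegral_prod_right' (f := fun q : E ι × E ι => f (q.1 + q.2))
        (hf.comp (by fun_prop))
    have hI' : Measurable fun x : E ι =>
        ∫⁻ z, f ((1 - s / T) • x + z) ∂gs 0 √((1 - s / T) * s) := hI.comp (by fun_prop)
    have m1 : Measurable fun q : E ι × E ι => f (q.1 + q.2) := hf.comp (by fun_prop)
    have m3 : Measurable fun x : E ι => ENNReal.ofReal (Real.exp (-W x)) *
      ∫⁻ z, f ((1 - s / T) • x + z) ∂gs 0 √((1 - s / T) * s) := hW.mul hI'
    have m4 : Measurable fun y : E ι => ENNReal.ofReal (Real.exp (-lz W s y)) * f y := hL.mul hf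
    rw [fwd, lintegral_map hf (by fun_prop), lintegral_prod _ m1.aemeasurable]
    simp only
    rw [lintegral_map hI (by fun_prop), tg, tg, lintegral_tilted, lintegral_tilted,
      ← prox_norm h hs hT]
    have e : ∀ (a : ℝ) (u : ENNReal),
        ENNReal.ofReal (a / ∫ x, Real.exp (-W x) ∂gs 0 √T) * u =
          ENNReal.ofReal a * u * (ENNReal.ofReal (∫ x, Real.exp (-W x) ∂gs 0 √T))⁻¹ := by
      intro a u
      rw [ENNReal.ofReal_div_of_pos hZ, div_eq_mul_inv, mul_right_comm]
    simp only [e]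
    rw [lintegral_mul_const _ m3, lintegral_mul_const _ m4,
      prox_key h hs hT hf]
  refine Measure.ext fun A hA => ?_
  rw [← lintegral_indicator_one hA, ← lintegral_indicator_one hA]
  exact main _ (measurable_one.indicator hA)

theorem prox_invariant (h : BP W lam B) (hs : 0 < s) (hT : s ≤ T) {f : E ι → ℝ} (hf : Continuous f)
    (hb : ∃ C, ∀ x, |f x| ≤ C) :
    ∫ y, ∫ x, f x ∂tg W y √s ∂fwd W s T = ∫ x, f x ∂tg W 0 √T := by
  obtain ⟨C, hC⟩ := hb
  rw [prox_law h hs hT, tg_semigroup h hs hT 0 ⟨0, C, fun x => by simpa using hC x⟩ hf]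


end Crest.Agent.R285
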