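import Crest.Agent.R285.Sample
import Crest.Agent.R285.Prox

/-!
# Row 285 (S0430): Outer
The proximal sampler with step `s = δ` for the target `tg W 0 √(2/3)`.
`outer_of_rgo`: induction on `n`.  `n = 0`: output `0` (`Sim.exact`, `near_dirac`, `BP.L2le_sub`).  Step:
`Sim.map` by `(1 - s/T) • ·`, `Sim.conv` with the exact `gs 0 _` (`Bl.known`), giving `fwd W δ (2/3)` with error
`(1 - 3δ/2) η`; `Sim.bind` with `K₂ (w,y) = tg W y √δ`, `L = 1/(1-δ)` (`BP.lip_integral`), `L' = 0`, `η₃ = 0`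
(`prox_invariant`); `(1 - 3δ/2)/(1-δ) ≤ 1 - δ/2`.  Integrability of the identity under `fwd`: `prox_law`,
`BP.bp_lz`, `BP.integrable`.
-/

set_option autoImplicit false

open MeasureTheory ProbabilityTheory Filter Topology
open scoped RealInnerProductSpace

noncomputable section

namespace Crest.Agent.R285

theorem outer_of_rgo (b : Base) (hδ : b.δ ≤ 1 / 2) {ε q : ℝ}
    (h : Sim b (In := E (Fin b.d)) (fun W y => tg W.W y √b.δ) (fun _ _ => ε) q) (n : ℕ) :
    Sim b (In := Unit) (fun W _ => tg W.W 0 √(2 / 3))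
      (fun _ _ => n * ε + (1 - b.δ / 2) ^ n * (2 * b.Λ * √(b.d : ℝ))) (n * q) := by
  have hδ0 : 0 < b.δ := b.δ_pos
  have hΛ : 1 ≤ b.Λ := b.one_le_Λ
  have hd : 1 ≤ √(b.d : ℝ) := b.one_le_sqrt_d
  have hT : b.δ ≤ 2 / 3 := by linarith
  induction n with
  | zero =>
    have h0 := Sim.exact (b := b) (In := Unit) (κ := Fin b.d) (Measure.dirac ())
      (g := fun _ => 0) measurable_const
    have h1 := h0.near (K' := fun W _ => tg W.W 0 √(2 / 3))
      (η' := fun _ _ => 2 * b.Λ * √(b.d : ℝ)) (fun W w => by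
        have := W.bp.prob (0 : E (Fin b.d)) √(2 / 3)
        rw [Measure.map_dirac]
        refine near_dirac 0 (by positivity)
          ((W.bp.L2le_sub 0 (Real.sqrt_pos.2 (by norm_num))).mono ?_)
        rw [Real.sq_sqrt (by norm_num), Fintype.card_fin]
        have h2 : √(2 / 3 : ℝ) ≤ 1 := Real.sqrt_le_one.2 (by norm_num)
        have h3 : √(2 / 3 : ℝ) * √(b.d : ℝ) ≤ b.Λ * √(b.d : ℝ) :=
          mul_le_mul_of_nonneg_right (h2.trans hΛ) (by positivity)
        have h4 : 0 ≤ b.Λ * √(b.d : ℝ) := by positivity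
        linarith)
    exact h1.mono (fun _ _ => by simp) (by simp)
  | succ n ih =>
    set η : ℝ := n * ε + (1 - b.δ / 2) ^ n * (2 * b.Λ * √(b.d : ℝ)) with hη
    have hc0 : 0 ≤ 1 - b.δ / (2 / 3) := by
      rw [sub_nonneg, div_le_one (by norm_num)]; exact hT
    have h1 := ih.map (κ' := Fin b.d) (T := fun p => (1 - b.δ / (2 / 3)) • p.2) (by fun_prop)
      hc0 (fun w x y => by
        rw [← smul_sub, norm_smul, Real.norm_eq_abs, abs_of_nonneg hc0])
    have h2 : Sim b (In := Unit)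
        (fun _ _ => gs (0 : E (Fin b.d)) √((1 - b.δ / (2 / 3)) * b.δ)) (fun _ _ => 0) 0 :=
      Bl.known (b := b) (g := fun _ : Unit => (0 : E (Fin b.d))) measurable_const _
    have h3 : Sim b (In := Unit) (fun W _ => fwd W.W b.δ (2 / 3))
        (fun _ _ => (1 - b.δ / (2 / 3)) * η + 0) (n * q + 0) :=
      h1.conv h2 (fun W w => by
        have := W.bp.prob (0 : E (Fin b.d)) √(2 / 3)
        exact Measure.isProbabilityMeasure_map (by fun_prop)) (fun _ _ => inferInstance)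
    have h4 := h.comap (In' := Unit × E (Fin b.d)) (g := Prod.snd) measurable_snd
    have hprob : ∀ W : Pot b, IsProbabilityMeasure (fwd W.W b.δ (2 / 3)) := fun W => by
      rw [prox_law W.bp hδ0 hT]; exact (W.bp.bp_lz hδ0 hδ).prob _ _
    have hs2 : √b.δ ^ 2 = b.δ := Real.sq_sqrt hδ0.le
    have hL0 : 0 < 1 - b.δ := by linarith
    have h5 := Sim.bind (K := fun W _ => tg W.W 0 √(2 / 3)) (η₃ := fun _ _ => 0)
      (L := 1 / (1 - b.δ)) (L' := 0) h3 h4 (fun W _ => hprob W) (fun W p => W.bp.prob _ _)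
      (fun W _ => by
        rw [prox_law W.bp hδ0 hT]
        exact (W.bp.bp_lz hδ0 hδ).integrable _ _ Lip.id'.polyB continuous_id)
      (by positivity) le_rfl
      (fun W _ f hf _ => by
        have := W.bp.lip_integral (Real.sqrt_pos.2 hδ0) (by rw [hs2]; linarith) zero_le_one hf
        rwa [hs2, one_mul] at this)
      (fun W _ => Lip.const ε)
      (fun W _ f hf hb => by
        rw [prox_invariant W.bp hδ0 hT hf.continuous hb, sub_self, abs_zero])
    refine h5.mono (fun W w => ?_) (by push_cast; linarith)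
    have := hprob W
    have hε : 0 ≤ ε := h.err_nonneg W 0
    have hη0 : 0 ≤ η := ih.err_nonneg W w
    have hr : 1 / (1 - b.δ) * (1 - b.δ / (2 / 3)) ≤ 1 - b.δ / 2 := by
      rw [one_div_mul_eq_div, div_le_iff₀ hL0]
      nlinarith
    have h6 : 1 / (1 - b.δ) * (1 - b.δ / (2 / 3)) * η ≤ (1 - b.δ / 2) * η :=
      mul_le_mul_of_nonneg_right hr hη0
    have h7 : (1 - b.δ / 2) * (n * ε) ≤ n * ε :=
      mul_le_of_le_one_left (by positivity) (by linarith)
    simp only [integral_const, probReal_univ, smul_eq_mul, one_mul, add_zero, zero_add]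
    push_cast
    rw [pow_succ, ← mul_assoc]
    have h8 : (1 - b.δ / 2) * η = (1 - b.δ / 2) * (n * ε) +
        (1 - b.δ / 2) ^ n * (1 - b.δ / 2) * (2 * b.Λ * √(b.d : ℝ)) := by rw [hη]; ring
    linarith

theorem outer (k : ℕ) : ∃ c : ℕ, ∀ᶠ b in evF, ∀ n : ℕ,
    Sim b (In := Unit) (fun W _ => tg W.W 0 √(2 / 3))
      (fun _ _ => n * (b.Λ ^ c * b.e k) + (1 - b.δ / 2) ^ n * (2 * b.Λ * √(b.d : ℝ)))
      (n * b.Λ ^ c) := by
  obtain ⟨c, hc⟩ := rgo k
  refine ⟨c, ?_⟩
  have hδ : ∀ᶠ b in evF, b.δ ≤ 1 / 2 := by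
    have := ev_δ_le (fun b : Base => b) (ε := 1 / 2) (by norm_num)
    rwa [ev_id] at this
  filter_upwards [hc, hδ] with b h1 h2 n
  exact outer_of_rgo b h2 h1 n


end Crest.Agent.R285
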