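import Crest.Agent.R285.IBP
import Crest.Agent.Lib.PL.PrekopaLeindler

/-!
# Row 285 (S0430): Poinc
Poincaré inequality for strongly log-concave Gibbs measures, via Prékopa–Leindler (Maurey's property τ).
`tau`: apply `HasPL`/`prekopa_leindler_half` (transport from `Fin d` to `ι`, or `hasPL_pi` +
`HasPL.of_measurePreserving`) to `exp (g - Φ)`, `exp (-f - Φ)`, `exp (-Φ)`.
`poincare_lip`: for bounded `f` take `g = ε f - ε² L²/a`, expand to second order in `ε`; truncate.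
`poincare`: for `f ∈ C¹` with compact support take
`g x = ε f x - ε² (‖∇f x‖ + o(1))²/a` (uniform continuity of `fderiv f`, and `‖∇f‖ ≤ M` for far points), let
`ε → 0`; then multiply by cut-offs `χ (x/R)` and use dominated convergence.
-/

set_option autoImplicit false

open MeasureTheory ProbabilityTheory Filter Topology
open scoped RealInnerProductSpace

noncomputable section

namespace Crest.Agent.R285

variable {ι κ ζ α β : Type} [Fintype ι] [Fintype κ] [Fintype ζ] [Fintype α] [Fintype β]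
variable {Y : Type} [NormedAddCommGroup Y] [NormedSpace ℝ Y]

/-- midpoint strong convexity -/
def SConv (Φ : E ι → ℝ) (a : ℝ) : Prop :=
  ∀ x y, Φ ((1 / 2 : ℝ) • (x + y)) ≤ (Φ x + Φ y) / 2 - a / 8 * ‖x - y‖ ^ 2

lemma pc_hasPL : Lib.PL.HasPL (volume : Measure (E ι)) := by
  have h1 : Lib.PL.HasPL (volume : Measure (EuclideanSpace ℝ (Fin (Module.finrank ℝ (E ι))))) :=
    fun f g h hf hg hh H => Lib.PL.prekopa_leindler_half _ f g h hf hg hh H
  exact h1.of_measurePreserving (stdOrthonormalBasis ℝ (E ι)).repr.symm.measurePreserving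
    fun x y => by simp

lemma pc_integrable_exp {Φ : E ι → ℝ} (h : WPot Φ) {g : E ι → ℝ} (hg : Continuous g)
    (hgb : ∃ C, ∀ x, |g x| ≤ C) : Integrable fun x => Real.exp (-Φ x) * Real.exp (g x) := by
  obtain ⟨C, hC⟩ := hgb
  refine h.integrable_exp.mul_bdd (c := Real.exp C) (by fun_prop)
    (Eventually.of_forall fun x => ?_)
  rw [Real.norm_eq_abs, abs_of_pos (Real.exp_pos _)]
  exact Real.exp_le_exp.2 ((le_abs_self _).trans (hC x))

theorem tau {Φ : E ι → ℝ} (h : WPot Φ) {a : ℝ} (hc : SConv Φ a) {f g : E ι → ℝ}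
    (hf : Continuous f) (hg : Continuous g) (hfb : ∃ C, ∀ x, |f x| ≤ C) (hgb : ∃ C, ∀ x, |g x| ≤ C)
    (hfg : ∀ x y, g x ≤ f y + a / 4 * ‖x - y‖ ^ 2) :
    (∫ x, Real.exp (g x) ∂gibbs Φ) * ∫ x, Real.exp (-f x) ∂gibbs Φ ≤ 1 := by
  have hΦ : Continuous Φ := h.diff.continuous
  have i1 := pc_integrable_exp h hg hgb
  have i2 := pc_integrable_exp h (g := fun x => -f x) hf.neg
    (by obtain ⟨C, hC⟩ := hfb; exact ⟨C, fun x => by rw [abs_neg]; exact hC x⟩)
  have i3 := h.integrable_exp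
  have hZ := h.partition_pos
  have key := pc_hasPL (ι := ι) (fun x => ENNReal.ofReal (Real.exp (-Φ x) * Real.exp (g x)))
    (fun x => ENNReal.ofReal (Real.exp (-Φ x) * Real.exp (-f x)))
    (fun x => ENNReal.ofReal (Real.exp (-Φ x))) (by fun_prop) (by fun_prop) (by fun_prop)
    (fun x y => by
      rw [← ENNReal.ofReal_mul (by positivity), ← ENNReal.ofReal_pow (by positivity)]
      refine ENNReal.ofReal_le_ofReal ?_
      rw [← Real.exp_add, ← Real.exp_add, ← Real.exp_add, ← Real.exp_nat_mul]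
      refine Real.exp_le_exp.2 ?_
      have h1 := hc x y
      have h2 := hfg x y
      push_cast
      linarith)
  rw [← ofReal_integral_eq_lintegral_ofReal i1 (Eventually.of_forall fun x => by positivity),
    ← ofReal_integral_eq_lintegral_ofReal i2 (Eventually.of_forall fun x => by positivity),
    ← ofReal_integral_eq_lintegral_ofReal i3 (Eventually.of_forall fun x => by positivity),
    ← ENNReal.ofReal_mul (integral_nonneg fun x => by positivity),
    ← ENNReal.ofReal_pow hZ.le, ENNReal.ofReal_le_ofReal_iff (by positivity)] at key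
  rw [integral_gibbs, integral_gibbs]
  simp only [smul_eq_mul]
  calc _ = ((∫ x, Real.exp (-Φ x) * Real.exp (g x)) * ∫ x, Real.exp (-Φ x) * Real.exp (-f x)) /
        (∫ x, Real.exp (-Φ x)) ^ 2 := by field_simp
    _ ≤ 1 := (div_le_one (by positivity)).2 key

lemma pc_exp_lower {u : ℝ} (hu : |u| ≤ 1) : 1 + u + u ^ 2 / 2 - |u| ^ 3 ≤ Real.exp u := by
  have h := Real.exp_bound hu (n := 3) (by norm_num)
  simp only [Finset.sum_range_succ, Finset.range_zero, Finset.sum_empty, Nat.factorial] at h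
  norm_num at h
  have h1 := (abs_le.1 h).1
  have h2 : 0 ≤ |u| ^ 3 := by positivity
  linarith

/-- second order expansion of the property `τ` -/
lemma pc_expand {Ω : Type} [MeasurableSpace Ω] {μ : Measure Ω} [IsProbabilityMeasure μ]
    {f H : Ω → ℝ} (hf : Measurable f) (hH : Measurable H) {B : ℝ} (hfB : ∀ x, |f x| ≤ B)
    (hHB : ∀ x, |H x| ≤ B)
    (h : ∀ᶠ ε in 𝓝[>] (0 : ℝ), (∫ x, Real.exp (ε * f x - ε ^ 2 * H x) ∂μ) *
      ∫ x, Real.exp (-(ε * f x)) ∂μ ≤ 1) :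
    (∫ x, f x ^ 2 ∂μ) - (∫ x, f x ∂μ) ^ 2 ≤ ∫ x, H x ∂μ := by
  have hbd : ∀ {F : Ω → ℝ}, Measurable F → ∀ C : ℝ, (∀ x, |F x| ≤ C) → Integrable F μ :=
    fun hF C hC => Integrable.of_bound hF.aestronglyMeasurable C (Eventually.of_forall hC)
  have i1 : Integrable f μ := hbd hf B hfB
  have i2 : Integrable H μ := hbd hH B hHB
  have i3 : Integrable (fun x => f x ^ 2) μ := hbd (hf.pow_const 2) (B ^ 2) fun x => by
    rw [abs_pow]; exact pow_le_pow_left₀ (abs_nonneg _) (hfB x) 2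
  set m := ∫ x, f x ∂μ with hm
  set M := ∫ x, f x ^ 2 ∂μ with hM
  set I := ∫ x, H x ∂μ with hI
  set K := B ^ 2 + 8 * B ^ 3 with hK
  -- the lower bound for one factor
  have low : ∀ (ε s : ℝ) (G : Ω → ℝ), 0 < ε → ε ≤ 1 → 2 * ε * B ≤ 1 → (s = 1 ∨ s = -1) →
      Measurable G → (∀ x, |G x| ≤ B) →
      1 + ε * (s * m) + ε ^ 2 * (M / 2 - (∫ x, G x ∂μ) - ε * K) ≤
        ∫ x, Real.exp (ε * (s * f x) - ε ^ 2 * G x) ∂μ := by
    intro ε s G hε hε1 hεB hs hG hGB
    have iG : Integrable G μ := hbd hG B hGB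
    have hs1 : |s| = 1 := by rcases hs with rfl | rfl <;> simp
    have hs2 : s ^ 2 = 1 := by rcases hs with rfl | rfl <;> simp
    have hu : ∀ x, |ε * (s * f x) - ε ^ 2 * G x| ≤ 2 * ε * B := fun x => by
      have h1 : |ε * (s * f x)| ≤ ε * B := by
        rw [abs_mul, abs_mul, hs1, one_mul, abs_of_pos hε]
        exact mul_le_mul_of_nonneg_left (hfB x) hε.le
      have h2 : |ε ^ 2 * G x| ≤ ε * B := by
        rw [abs_mul, abs_of_pos (pow_pos hε 2)]
        exact mul_le_mul (by nlinarith) (hGB x) (abs_nonneg _) hε.le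
      linarith [abs_sub (ε * (s * f x)) (ε ^ 2 * G x)]
    have e : 1 + ε * (s * m) + ε ^ 2 * (M / 2 - (∫ x, G x ∂μ) - ε * K) =
        ∫ x, ((1 - ε ^ 3 * K) + (ε * s) * f x + (ε ^ 2 / 2) * f x ^ 2 - ε ^ 2 * G x) ∂μ := by
      rw [integral_sub (f := fun x => (1 - ε ^ 3 * K) + (ε * s) * f x + (ε ^ 2 / 2) * f x ^ 2)
        (((integrable_const _).add (i1.const_mul _)).add (i3.const_mul _))
        (iG.const_mul _), integral_add (f := fun x => (1 - ε ^ 3 * K) + (ε * s) * f x)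
        ((integrable_const _).add (i1.const_mul _)) (i3.const_mul _),
        integral_add (integrable_const _) (i1.const_mul _), integral_const_mul,
        integral_const_mul, integral_const_mul]
      simp only [integral_const, probReal_univ, smul_eq_mul, one_mul]
      ring
    rw [e]
    refine integral_mono ((((integrable_const _).add (i1.const_mul _)).add (i3.const_mul _)).sub
      (iG.const_mul _)) (hbd (by fun_prop) (Real.exp 1) fun x => ?_) fun x => ?_
    · rw [abs_of_pos (Real.exp_pos _)]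
      exact Real.exp_le_exp.2 ((le_abs_self _).trans ((hu x).trans hεB))
    · refine le_trans ?_ (pc_exp_lower ((hu x).trans hεB))
      have h1 : |ε * (s * f x) - ε ^ 2 * G x| ^ 3 ≤ (2 * ε * B) ^ 3 :=
        pow_le_pow_left₀ (abs_nonneg _) (hu x) 3
      have h2 : s * f x * G x ≤ B ^ 2 := by
        refine (le_abs_self _).trans ?_
        rw [abs_mul, abs_mul, hs1, one_mul, sq]
        exact mul_le_mul (hfB x) (hGB x) (abs_nonneg _) ((abs_nonneg _).trans (hfB x))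
      have h3 : (ε * (s * f x) - ε ^ 2 * G x) ^ 2 =
          ε ^ 2 * f x ^ 2 - 2 * ε ^ 3 * (s * f x * G x) + (ε ^ 2 * G x) ^ 2 := by
        linear_combination (ε ^ 2 * f x ^ 2) * hs2
      have h4 : ε ^ 3 * (s * f x * G x) ≤ ε ^ 3 * B ^ 2 :=
        mul_le_mul_of_nonneg_left h2 (by positivity)
      have h5 := sq_nonneg (ε ^ 2 * G x)
      simp only
      rw [h3, hK]
      nlinarith
  set ψ : ℝ → ℝ := fun ε => (M / 2 - I - ε * K) + (M / 2 - ε * K) - m ^ 2 + ε * m * I +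
    ε ^ 2 * ((M / 2 - I - ε * K) * (M / 2 - ε * K)) with hψ
  have hψc : Tendsto ψ (𝓝[>] 0) (𝓝 (M - m ^ 2 - I)) := by
    have : Continuous ψ := by fun_prop
    refine (this.tendsto' 0 _ ?_).mono_left nhdsWithin_le_nhds
    simp only [hψ]; ring
  have ev1 : ∀ᶠ ε in 𝓝[>] (0 : ℝ), 0 < 1 + ε * m + ε ^ 2 * (M / 2 - I - ε * K) := by
    have : Continuous fun ε : ℝ => 1 + ε * m + ε ^ 2 * (M / 2 - I - ε * K) := by fun_prop
    exact (this.continuousAt.eventually (lt_mem_nhds (by simp))).filter_mono nhdsWithin_le_nhds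
  have ev2 : ∀ᶠ ε in 𝓝[>] (0 : ℝ), 2 * ε * B < 1 := by
    have : Continuous fun ε : ℝ => 2 * ε * B := by fun_prop
    exact (this.continuousAt.eventually (gt_mem_nhds (by simp))).filter_mono nhdsWithin_le_nhds
  have ev3 : ∀ᶠ ε in 𝓝[>] (0 : ℝ), ε < 1 :=
    (gt_mem_nhds (by norm_num : (0 : ℝ) < 1)).filter_mono nhdsWithin_le_nhds
  have hle : ∀ᶠ ε in 𝓝[>] (0 : ℝ), ψ ε ≤ 0 := by
    filter_upwards [h, ev1, ev2, ev3, self_mem_nhdsWithin] with ε h0 h1 h2 h3 h4
    have hε : 0 < ε := h4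
    have hB : 0 ≤ B := by
      by_contra hneg
      have : IsEmpty Ω := ⟨fun x => hneg ((abs_nonneg _).trans (hfB x))⟩
      have h5 := measure_univ (μ := μ)
      rw [Set.univ_eq_empty_iff.2 this, measure_empty] at h5
      exact zero_ne_one h5
    have l1 := low ε 1 H hε h3.le h2.le (Or.inl rfl) hH hHB
    have l2 := low ε (-1) (fun _ => 0) hε h3.le h2.le (Or.inr rfl) measurable_const
      fun _ => by simpa using hB
    simp only [one_mul, neg_mul, mul_neg, mul_zero, sub_zero, integral_zero] at l1 l2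
    have hA : 0 ≤ ∫ x, Real.exp (-(ε * f x)) ∂μ := integral_nonneg fun x => (Real.exp_pos _).le
    have h5 : (1 + ε * m + ε ^ 2 * (M / 2 - I - ε * K)) *
        (1 + -(ε * m) + ε ^ 2 * (M / 2 - ε * K)) ≤ 1 :=
      ((mul_le_mul_of_nonneg_left l2 h1.le).trans (mul_le_mul_of_nonneg_right l1 hA)).trans h0
    have h6 : (1 + ε * m + ε ^ 2 * (M / 2 - I - ε * K)) *
        (1 + -(ε * m) + ε ^ 2 * (M / 2 - ε * K)) = 1 + ε ^ 2 * ψ ε := by
      simp only [hψ]; ring
    rw [h6] at h5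
    have h7 : ε ^ 2 * ψ ε ≤ ε ^ 2 * 0 := by linarith
    exact le_of_mul_le_mul_left h7 (by positivity)
  linarith [le_of_tendsto hψc hle]

/-- the bounded case -/
lemma pc_bdd {Φ : E ι → ℝ} (h : WPot Φ) {a : ℝ} (ha : 0 < a) (hc : SConv Φ a) {f G : E ι → ℝ}
    (hf : Continuous f) (hG : Continuous G) {B : ℝ} (hfB : ∀ x, |f x| ≤ B) (hGB : ∀ x, |G x| ≤ B)
    {r : ℝ} (hr : 0 < r) (hs : ∀ x y, ‖x - y‖ ≤ r → f x - f y ≤ G x * ‖x - y‖) :
    (∫ x, f x ^ 2 ∂gibbs Φ) - (∫ x, f x ∂gibbs Φ) ^ 2 ≤ (∫ x, G x ^ 2 ∂gibbs Φ) / a := by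
  have := h.prob
  have hB : 0 ≤ B := (abs_nonneg _).trans (hfB 0)
  have hH : ∀ x, |G x ^ 2 / a| ≤ B ^ 2 / a := fun x => by
    rw [abs_div, abs_of_pos ha, abs_pow]
    gcongr
    exact hGB x
  rw [← integral_div]
  refine pc_expand (B := B + B ^ 2 / a) hf.measurable (by fun_prop)
    (fun x => (hfB x).trans (le_add_of_nonneg_right (by positivity)))
    (fun x => (hH x).trans (le_add_of_nonneg_left hB)) ?_
  have ev1 : ∀ᶠ ε in 𝓝[>] (0 : ℝ), ε * (B + B ^ 2 / a + (B + B ^ 2 / a)) < a / 4 * r ^ 2 := by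
    have : Continuous fun ε : ℝ => ε * (B + B ^ 2 / a + (B + B ^ 2 / a)) := by fun_prop
    exact (this.continuousAt.eventually (gt_mem_nhds (by simp only [zero_mul]; positivity))).filter_mono
      nhdsWithin_le_nhds
  filter_upwards [ev1, self_mem_nhdsWithin] with ε h1 h2
  have hε : 0 < ε := h2
  refine tau h hc (f := fun x => ε * f x) (g := fun x => ε * f x - ε ^ 2 * (G x ^ 2 / a))
    (by fun_prop) (by fun_prop) ⟨ε * B, fun x => ?_⟩ ⟨ε * B + ε ^ 2 * (B ^ 2 / a), fun x => ?_⟩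
    fun x y => ?_
  · rw [abs_mul, abs_of_pos hε]; exact mul_le_mul_of_nonneg_left (hfB x) hε.le
  · refine (abs_sub _ _).trans (add_le_add ?_ ?_)
    · rw [abs_mul, abs_of_pos hε]; exact mul_le_mul_of_nonneg_left (hfB x) hε.le
    · rw [abs_mul, abs_of_pos (pow_pos hε 2)]
      exact mul_le_mul_of_nonneg_left (hH x) (by positivity)
  · by_cases hxy : ‖x - y‖ ≤ r
    · have h3 := mul_le_mul_of_nonneg_left (hs x y hxy) hε.le
      have h4 : ε ^ 2 * (G x ^ 2 / a) + a / 4 * ‖x - y‖ ^ 2 - ε * (G x * ‖x - y‖) =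
          (ε * G x - a / 2 * ‖x - y‖) ^ 2 / a := by
        field_simp; ring
      have h5 : 0 ≤ (ε * G x - a / 2 * ‖x - y‖) ^ 2 / a := by positivity
      linarith
    · have h3 : a / 4 * r ^ 2 ≤ a / 4 * ‖x - y‖ ^ 2 := by
        gcongr
        exact (not_le.1 hxy).le
      have h4 : 0 ≤ ε ^ 2 * (G x ^ 2 / a) := by positivity
      have h5 : ε * (f x - f y) ≤ ε * (B + B ^ 2 / a + (B + B ^ 2 / a)) := by
        refine mul_le_mul_of_nonneg_left ?_ hε.le
        have : 0 ≤ B ^ 2 / a := by positivity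
        linarith [le_abs_self (f x), neg_abs_le (f y), hfB x, hfB y]
      linarith

/-- coordinatewise clamping -/
def pcP (R : ℝ) (x : E ι) : E ι := WithLp.toLp 2 fun i => max (-R) (min R (x i))

lemma pcP_lip (R : ℝ) (x y : E ι) : ‖pcP R x - pcP R y‖ ≤ ‖x - y‖ := by
  rw [EuclideanSpace.norm_eq, EuclideanSpace.norm_eq]
  refine Real.sqrt_le_sqrt (Finset.sum_le_sum fun i _ => ?_)
  refine pow_le_pow_left₀ (norm_nonneg _) ?_ 2
  simp only [pcP, PiLp.sub_apply, Real.norm_eq_abs]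
  refine (abs_max_sub_max_le_max _ _ _ _).trans (max_le (by simp) ?_)
  exact (abs_min_sub_min_le_max _ _ _ _).trans (max_le (by simp) le_rfl)

lemma pcP_continuous (R : ℝ) : Continuous (pcP R : E ι → E ι) :=
  (LipschitzWith.of_dist_le_mul (K := 1) fun x y => by
    simpa [dist_eq_norm] using pcP_lip R x y).continuous

lemma pcP_eq {R : ℝ} {x : E ι} (h : ‖x‖ ≤ R) : pcP R x = x := by
  ext i
  have h1 := abs_le.1 ((abs_coord_le x i).trans h)
  simp only [pcP]
  rw [min_eq_right h1.2, max_eq_right h1.1]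

lemma pcP_norm_le {R : ℝ} (hR : 0 ≤ R) (x : E ι) : ‖pcP R x‖ ≤ ‖x‖ := by
  have := pcP_lip R x 0
  rwa [pcP_eq (x := (0 : E ι)) (by simpa using hR), sub_zero, sub_zero] at this

lemma pcP_bdd {R : ℝ} (hR : 0 ≤ R) (x : E ι) : ‖pcP R x‖ ≤ √(∑ _i : ι, R ^ 2) := by
  rw [EuclideanSpace.norm_eq]
  refine Real.sqrt_le_sqrt (Finset.sum_le_sum fun i _ => ?_)
  refine pow_le_pow_left₀ (norm_nonneg _) ?_ 2
  simp only [pcP, Real.norm_eq_abs]
  exact abs_le.2 ⟨le_max_left _ _, max_le (by linarith) (min_le_left _ _)⟩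

lemma pc_dct {Φ : E ι → ℝ} (h : WPot Φ) {F : E ι → ℝ} (hF : Continuous F) (hp : PolyB F) :
    Tendsto (fun n : ℕ => ∫ x, F (pcP n x) ∂gibbs Φ) atTop (𝓝 (∫ x, F x ∂gibbs Φ)) := by
  obtain ⟨k, C, hC⟩ := hp
  have hC0 : 0 ≤ C := by simpa using (norm_nonneg _).trans (hC 0)
  refine tendsto_integral_of_dominated_convergence (fun x => C * (1 + ‖x‖) ^ k)
    (fun n => (hF.comp (pcP_continuous _)).aestronglyMeasurable)
    (h.integrable ⟨k, C, fun x => ?_⟩ (Continuous.aestronglyMeasurable (by fun_prop)))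
    (fun n => Eventually.of_forall fun x => (hC _).trans ?_)
    (Eventually.of_forall fun x => ?_)
  · rw [Real.norm_eq_abs, abs_of_nonneg (by positivity)]
  · gcongr
    exact pcP_norm_le (Nat.cast_nonneg n) x
  · refine tendsto_const_nhds.congr' ?_
    filter_upwards [tendsto_natCast_atTop_atTop.eventually_ge_atTop ‖x‖] with n hn
    rw [pcP_eq hn]

/-- the general form, with an upper gradient `G` -/
lemma pc_gen {Φ : E ι → ℝ} (h : WPot Φ) {a : ℝ} (ha : 0 < a) (hc : SConv Φ a) {f G : E ι → ℝ}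
    (hf : Continuous f) (hG : Continuous G) (hfp : PolyB f) (hGp : PolyB G) (hG0 : ∀ x, 0 ≤ G x)
    (hs : ∀ R : ℝ, ∃ r, 0 < r ∧ ∀ x y, ‖x‖ ≤ R → ‖y‖ ≤ R → ‖x - y‖ ≤ r →
      f x - f y ≤ G x * ‖x - y‖) :
    ∫ x, (f x - ∫ y, f y ∂gibbs Φ) ^ 2 ∂gibbs Φ ≤ (∫ x, G x ^ 2 ∂gibbs Φ) / a := by
  have := h.prob
  have i1 : Integrable f (gibbs Φ) := h.integrable hfp hf.aestronglyMeasurable
  have i2 : Integrable (fun x => f x ^ 2) (gibbs Φ) :=
    h.integrable (hfp.pow 2) (hf.pow 2).aestronglyMeasurable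
  have e : ∫ x, (f x - ∫ y, f y ∂gibbs Φ) ^ 2 ∂gibbs Φ =
      (∫ x, f x ^ 2 ∂gibbs Φ) - (∫ x, f x ∂gibbs Φ) ^ 2 := by
    set m := ∫ y, f y ∂gibbs Φ with hm
    have : (fun x => (f x - m) ^ 2) = fun x => (f x ^ 2 - (2 * m) * f x) + m ^ 2 := by
      funext x; ring
    rw [this, integral_add (f := fun x => f x ^ 2 - (2 * m) * f x) (i2.sub (i1.const_mul _))
      (integrable_const _), integral_sub i2 (i1.const_mul _), integral_const_mul]
    simp only [integral_const, probReal_univ, smul_eq_mul, one_mul, ← hm]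
    ring
  rw [e]
  refine le_of_tendsto_of_tendsto' ((pc_dct h (hf.pow 2) (hfp.pow 2)).sub
    ((pc_dct h hf hfp).pow 2)) ((pc_dct h (hG.pow 2) (hGp.pow 2)).div_const a) fun n => ?_
  set R := √(∑ _i : ι, (n : ℝ) ^ 2) with hR
  have hb := fun x : E ι => pcP_bdd (Nat.cast_nonneg n) x
  obtain ⟨r, hr, hs'⟩ := hs R
  obtain ⟨B1, hB1⟩ := (isCompact_closedBall (0 : E ι) R).exists_bound_of_continuousOn
    hf.continuousOn
  obtain ⟨B2, hB2⟩ := (isCompact_closedBall (0 : E ι) R).exists_bound_of_continuousOn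
    hG.continuousOn
  refine pc_bdd h ha hc (f := fun x => f (pcP n x)) (G := fun x => G (pcP n x))
    (hf.comp (pcP_continuous _)) (hG.comp (pcP_continuous _)) (B := max B1 B2)
    (fun x => (hB1 _ (mem_closedBall_zero_iff.2 (hb x))).trans (le_max_left _ _))
    (fun x => (hB2 _ (mem_closedBall_zero_iff.2 (hb x))).trans (le_max_right _ _)) hr
    fun x y hxy => ?_
  exact (hs' _ _ (hb x) (hb y) ((pcP_lip _ x y).trans hxy)).trans
    (mul_le_mul_of_nonneg_left (pcP_lip _ x y) (hG0 _))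

theorem poincare_lip {Φ : E ι → ℝ} (h : WPot Φ) {a : ℝ} (ha : 0 < a) (hc : SConv Φ a) {f : E ι → ℝ}
    {L : ℝ} (hf : Lip L f) :
    ∫ x, (f x - ∫ y, f y ∂gibbs Φ) ^ 2 ∂gibbs Φ ≤ L ^ 2 / a := by
  have := h.prob
  have := pc_gen h ha hc (G := fun _ => |L|) hf.continuous continuous_const hf.polyB
    (PolyB.const _) (fun _ => abs_nonneg _) fun R => ⟨1, one_pos, fun x y _ _ _ =>
      ((le_abs_self _).trans (hf x y)).trans
        (mul_le_mul_of_nonneg_right (le_abs_self L) (norm_nonneg _))⟩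
  simpa using this

theorem poincare {Φ : E ι → ℝ} (h : WPot Φ) {a : ℝ} (ha : 0 < a) (hc : SConv Φ a) {f : E ι → ℝ}
    (hf : TG f) :
    ∫ x, (f x - ∫ y, f y ∂gibbs Φ) ^ 2 ∂gibbs Φ ≤ (∫ x, ∑ i, pd i f x ^ 2 ∂gibbs Φ) / a := by
  have := h.prob
  have hD : Continuous (fderiv ℝ f) := hf.fderiv'.continuous
  have hNp : PolyB fun x => ‖fderiv ℝ f x‖ := hf.fderiv'.polyB.norm'
  have i1 : Integrable (fun x => ‖fderiv ℝ f x‖) (gibbs Φ) :=
    h.integrable hNp hD.norm.aestronglyMeasurable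
  have i2 : Integrable (fun x => ‖fderiv ℝ f x‖ ^ 2) (gibbs Φ) :=
    h.integrable (hNp.pow 2) (hD.norm.pow 2).aestronglyMeasurable
  have i3 : Integrable (fun x => ∑ i, pd i f x ^ 2) (gibbs Φ) :=
    integrable_finsetSum _ fun i _ => h.integrable ((hf.pd' i).polyB.pow 2)
      ((hf.pd' i).continuous.pow 2).aestronglyMeasurable
  have key : ∀ δ : ℝ, 0 < δ → ∫ x, (f x - ∫ y, f y ∂gibbs Φ) ^ 2 ∂gibbs Φ ≤
      ((∫ x, ‖fderiv ℝ f x‖ ^ 2 ∂gibbs Φ) + 2 * δ * (∫ x, ‖fderiv ℝ f x‖ ∂gibbs Φ) + δ ^ 2) / a := by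
    intro δ hδ
    have h1 := pc_gen h ha hc (G := fun x => ‖fderiv ℝ f x‖ + δ) hf.continuous
      (hD.norm.add continuous_const) hf.polyB (hNp.add (PolyB.const _)) (fun x => by positivity)
      fun R => by
        obtain ⟨r, hr, hu⟩ := Metric.uniformContinuousOn_iff_le.1
          ((isCompact_closedBall (0 : E ι) R).uniformContinuousOn_of_continuous hD.continuousOn)
          δ hδ
        refine ⟨r, hr, fun x y hx hy hxy => (le_abs_self _).trans ?_⟩
        have hconv : Convex ℝ (Metric.closedBall (0 : E ι) R ∩ Metric.closedBall x r) :=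
          (convex_closedBall _ _).inter (convex_closedBall _ _)
        refine hconv.norm_image_sub_le_of_norm_fderiv_le (𝕜 := ℝ) (f := f)
          (fun z _ => hf.differentiable z) (fun z hz => ?_)
          ⟨mem_closedBall_zero_iff.2 hy, by rwa [Metric.mem_closedBall, dist_comm, dist_eq_norm]⟩
          ⟨mem_closedBall_zero_iff.2 hx, Metric.mem_closedBall_self hr.le⟩
        have h2 := hu z hz.1 x (mem_closedBall_zero_iff.2 hx) hz.2
        rw [dist_eq_norm] at h2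
        linarith [norm_sub_norm_le (fderiv ℝ f z) (fderiv ℝ f x)]
    have e : (fun x => (‖fderiv ℝ f x‖ + δ) ^ 2) =
        fun x => (‖fderiv ℝ f x‖ ^ 2 + (2 * δ) * ‖fderiv ℝ f x‖) + δ ^ 2 := by
      funext x; ring
    rw [e, integral_add (f := fun x => ‖fderiv ℝ f x‖ ^ 2 + (2 * δ) * ‖fderiv ℝ f x‖)
      (i2.add (i1.const_mul _)) (integrable_const _), integral_add i2 (i1.const_mul _),
      integral_const_mul] at h1
    simpa using h1
  have hlim : Tendsto (fun δ : ℝ => ((∫ x, ‖fderiv ℝ f x‖ ^ 2 ∂gibbs Φ) +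
      2 * δ * (∫ x, ‖fderiv ℝ f x‖ ∂gibbs Φ) + δ ^ 2) / a) (𝓝[>] 0)
      (𝓝 ((∫ x, ‖fderiv ℝ f x‖ ^ 2 ∂gibbs Φ) / a)) := by
    refine (Continuous.tendsto' (by fun_prop) 0 _ (by simp)).mono_left nhdsWithin_le_nhds
  refine (ge_of_tendsto hlim (eventually_nhdsWithin_of_forall key)).trans ?_
  refine div_le_div_of_nonneg_right (integral_mono i2 i3 fun x => ?_) ha.le
  simpa [pd] using norm_sq_le_sum (fderiv ℝ f x)


end Crest.Agent.R285
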