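import Crest.Agent.R285.Defs

/-!
# Row 285 (S0430): Quad
Interpolation schemes.  `exists_quad`: `M = ⌈T/ρ⌉` cells of length `h = T/M ≤ ρ`; in cell `m` use the
nodes `(m + j/K) h`, `j < K`, the base point `m h` and the Lagrange basis polynomials
(`Lagrange.basis`, `Lagrange.eq_interpolate`) in the rescaled variable `s/h - m ∈ [0,1]`, times the
indicator of the cell (`m = min ⌊s/h⌋₊ (M-1)`, and `0` outside `[0,T]`).  Index the nodes by
`Fin (M*K)` through `finProdFinEquiv`.  `exists_fd`: derivatives at `0` of the Lagrange basis polynomials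
for the nodes `0,…,K` (or invertibility of the Vandermonde matrix).
-/

set_option autoImplicit false

open MeasureTheory ProbabilityTheory Filter Topology
open scoped RealInnerProductSpace

noncomputable section

namespace Crest.Agent.R285

/-- Lagrange interpolation reproduces monomials (polynomial form). -/
lemma lagrange_X_pow {n : ℕ} (v : Fin n → ℝ) (hv : Function.Injective v) {i : ℕ} (hi : i < n) :
    (Polynomial.X ^ i : Polynomial ℝ) =
      ∑ j, Polynomial.C (v j ^ i) * Lagrange.basis Finset.univ v j := by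
  have h := Lagrange.eq_interpolate (s := (Finset.univ : Finset (Fin n))) (v := v)
    (f := (Polynomial.X ^ i : Polynomial ℝ)) (hv.injOn) (by
      rw [Polynomial.degree_X_pow, Finset.card_univ, Fintype.card_fin]
      exact_mod_cast hi)
  rw [h, Lagrange.interpolate_apply]
  simp

/-- The reference nodes `j / K`. -/
def qnode (K : ℕ) (j : Fin K) : ℝ := ((j : ℕ) : ℝ) / K

lemma qnode_inj (K : ℕ) : Function.Injective (qnode K) := by
  intro a b h
  have hK : (0 : ℝ) < K := by exact_mod_cast Fin.pos a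
  unfold qnode at h
  rw [div_left_inj' hK.ne'] at h
  exact Fin.ext (by exact_mod_cast h)

lemma qnode_mem (K : ℕ) (j : Fin K) : qnode K j ∈ Set.Icc (0 : ℝ) 1 := by
  have hK : (0 : ℝ) < K := by exact_mod_cast Fin.pos j
  refine ⟨div_nonneg (Nat.cast_nonneg _) hK.le, ?_⟩
  unfold qnode
  rw [div_le_one hK]
  exact_mod_cast j.2.le

/-- The reference Lagrange basis functions. -/
def qbas (K : ℕ) (j : Fin K) (x : ℝ) : ℝ := (Lagrange.basis Finset.univ (qnode K) j).eval x

lemma qbas_cont (K : ℕ) (j : Fin K) : Continuous (qbas K j) := Polynomial.continuous _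

lemma qbas_exact (K : ℕ) {i : ℕ} (hi : i < K) (x : ℝ) :
    ∑ j, qbas K j x * qnode K j ^ i = x ^ i := by
  have h := congrArg (Polynomial.eval x) (lagrange_X_pow (qnode K) (qnode_inj K) hi)
  rw [Polynomial.eval_pow, Polynomial.eval_X, Polynomial.eval_finsetSum] at h
  rw [h]
  refine Finset.sum_congr rfl fun j _ => ?_
  rw [Polynomial.eval_mul, Polynomial.eval_C, mul_comm]
  rfl

lemma qbas_bdd (K : ℕ) : ∃ C : ℝ, 1 ≤ C ∧ ∀ x ∈ Set.Icc (0 : ℝ) 1, ∑ j, |qbas K j x| ≤ C := by
  have hc : Continuous fun x => ∑ j, |qbas K j x| :=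
    continuous_finsetSum _ fun j _ => (qbas_cont K j).abs
  obtain ⟨B, hB⟩ := (isCompact_Icc (a := (0 : ℝ)) (b := 1)).bddAbove_image hc.continuousOn
  refine ⟨max 1 B, le_max_left _ _, fun x hx => le_trans ?_ (le_max_right _ _)⟩
  exact hB ⟨x, hx, rfl⟩

/-- The index of the cell containing `s`. -/
def qcell (M : ℕ) (h s : ℝ) : ℕ := min ⌊s / h⌋₊ (M - 1)

lemma qcell_lt {M : ℕ} (hM : 1 ≤ M) (h s : ℝ) : qcell M h s < M :=
  lt_of_le_of_lt (min_le_right _ _) (by omega)

lemma qcell_meas (M : ℕ) (h : ℝ) : Measurable (qcell M h) := by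
  unfold qcell
  exact (Measurable.nat_floor (measurable_id.div_const h)).min measurable_const

lemma qcell_mem {M : ℕ} (hM : 1 ≤ M) {h s : ℝ} (hh : 0 < h) (hs : s ∈ Set.Icc 0 (M * h)) :
    s / h - qcell M h s ∈ Set.Icc (0 : ℝ) 1 := by
  have h0 : 0 ≤ s / h := div_nonneg hs.1 hh.le
  have h1 : s / h ≤ M := by rw [div_le_iff₀ hh]; exact hs.2
  have hfl : (⌊s / h⌋₊ : ℝ) ≤ s / h := Nat.floor_le h0
  have hlt : s / h < ⌊s / h⌋₊ + 1 := Nat.lt_floor_add_one _
  unfold qcell
  rcases le_total ⌊s / h⌋₊ (M - 1) with hle | hle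
  · rw [min_eq_left hle]
    constructor <;> linarith
  · rw [min_eq_right hle]
    have h2 : ((M - 1 : ℕ) : ℝ) ≤ ⌊s / h⌋₊ := by exact_mod_cast hle
    have h3 : ((M - 1 : ℕ) : ℝ) = M - 1 := by rw [Nat.cast_sub hM]; simp
    constructor <;> linarith

open Classical in
/-- The interpolation weights. -/
def qw (K M : ℕ) (h : ℝ) (p : Fin M × Fin K) (s : ℝ) : ℝ :=
  if s ∈ Set.Icc 0 (M * h) ∧ qcell M h s = (p.1 : ℕ) then qbas K p.2 (s / h - (p.1 : ℕ)) else 0

lemma qw_meas (K M : ℕ) (h : ℝ) (p : Fin M × Fin K) : Measurable (qw K M h p) := by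
  unfold qw
  refine Measurable.ite ?_ ?_ measurable_const
  · exact measurableSet_Icc.inter ((qcell_meas M h) (measurableSet_singleton _))
  · exact (qbas_cont K p.2).measurable.comp ((measurable_id.div_const h).sub_const _)

lemma qw_sum {K M : ℕ} (hM : 1 ≤ M) {h s : ℝ} (hs : s ∈ Set.Icc 0 (M * h))
    (F : Fin M × Fin K → ℝ → ℝ) (hF : ∀ p, F p 0 = 0) :
    ∑ p, F p (qw K M h p s) =
      ∑ j, F (⟨qcell M h s, qcell_lt hM h s⟩, j) (qbas K j (s / h - qcell M h s)) := by
  rw [Fintype.sum_prod_type, Finset.sum_eq_single (⟨qcell M h s, qcell_lt hM h s⟩ : Fin M)]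
  · refine Finset.sum_congr rfl fun j _ => ?_
    unfold qw
    rw [if_pos ⟨hs, rfl⟩]
  · intro m _ hm
    refine Finset.sum_eq_zero fun j _ => ?_
    unfold qw
    rw [if_neg, hF]
    rintro ⟨-, h2⟩
    exact hm (Fin.ext h2.symm)
  · intro h'
    exact absurd (Finset.mem_univ _) h'

theorem exists_quad : ∃ C : ℕ → ℝ, (∀ K, 1 ≤ C K) ∧
    ∀ (K : ℕ) (T ρ : ℝ), 1 ≤ K → 0 < T → 0 < ρ → Nonempty (Quad K T ρ (C K)) := by
  choose C hC1 hC using qbas_bdd
  refine ⟨C, hC1, fun K T ρ _ hT hρ => ?_⟩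
  set M : ℕ := ⌈T / ρ⌉₊ with hMdef
  have hM : 1 ≤ M := Nat.one_le_iff_ne_zero.2 (Nat.ceil_pos.2 (div_pos hT hρ)).ne'
  have hMpos : (0 : ℝ) < M := by exact_mod_cast hM
  have hMle : (M : ℝ) ≤ T / ρ + 1 := (Nat.ceil_lt_add_one (div_pos hT hρ).le).le
  have hMge : T / ρ ≤ M := Nat.le_ceil _
  set h : ℝ := T / M with hhdef
  have hh : 0 < h := div_pos hT hMpos
  have hMh : (M : ℝ) * h = T := by rw [hhdef]; field_simp
  have hhρ : h ≤ ρ := by
    rw [hhdef, div_le_iff₀ hMpos]
    rw [div_le_iff₀ hρ] at hMge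
    linarith
  refine ⟨{ N := M * K
            t := fun l => (((finProdFinEquiv.symm l).1 : ℕ) + qnode K (finProdFinEquiv.symm l).2) * h
            ℓ := fun l => qw K M h (finProdFinEquiv.symm l)
            base := fun s => (qcell M h s : ℝ) * h
            card_le := ?_
            t_mem := ?_
            meas := fun l => qw_meas K M h _
            sum_le := ?_
            base_near := ?_
            node_near := ?_
            exact := ?_ }⟩
  · push_cast
    rw [mul_comm]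
    exact mul_le_mul_of_nonneg_left hMle (Nat.cast_nonneg _)
  · intro l
    generalize finProdFinEquiv.symm l = p
    have h1 := qnode_mem K p.2
    have h2 : ((p.1 : ℕ) : ℝ) + 1 ≤ M := by exact_mod_cast p.1.2
    have h3 : (0 : ℝ) ≤ (p.1 : ℕ) := Nat.cast_nonneg _
    constructor
    · exact mul_nonneg (by linarith [h1.1]) hh.le
    · rw [← hMh]
      exact mul_le_mul_of_nonneg_right (by linarith [h1.2]) hh.le
  · intro s
    rw [Equiv.sum_comp finProdFinEquiv.symm (fun p => |qw K M h p s|)]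
    by_cases hs : s ∈ Set.Icc 0 (M * h)
    · rw [qw_sum hM hs (fun _ x => |x|) (fun _ => abs_zero)]
      exact hC K _ (qcell_mem hM hh hs)
    · rw [Finset.sum_eq_zero]
      · linarith [hC1 K]
      · intro p _
        unfold qw
        rw [if_neg (fun h' => hs h'.1), abs_zero]
  · intro s hs
    rw [← hMh] at hs
    have h1 := qcell_mem hM hh hs
    have h2 : s - (qcell M h s : ℝ) * h = (s / h - qcell M h s) * h := by field_simp
    rw [h2, abs_of_nonneg (mul_nonneg h1.1 hh.le)]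
    nlinarith [h1.2]
  · intro s _ l hl
    revert hl
    generalize finProdFinEquiv.symm l = p
    intro hl
    have h1 : qcell M h s = (p.1 : ℕ) := by
      by_contra hne
      apply hl
      unfold qw
      rw [if_neg (fun h' => hne h'.2)]
    have h2 := qnode_mem K p.2
    rw [h1]
    have h3 : (((p.1 : ℕ) : ℝ) + qnode K p.2) * h - ((p.1 : ℕ) : ℝ) * h = qnode K p.2 * h := by ring
    rw [h3, abs_of_nonneg (mul_nonneg h2.1 hh.le)]
    nlinarith [h2.2]
  · intro s hs i hi
    rw [← hMh] at hs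
    rw [Equiv.sum_comp finProdFinEquiv.symm (fun p => qw K M h p s *
      ((((p.1 : ℕ) : ℝ) + qnode K p.2) * h - (qcell M h s : ℝ) * h) ^ i)]
    rw [qw_sum hM hs (fun p x => x *
      ((((p.1 : ℕ) : ℝ) + qnode K p.2) * h - (qcell M h s : ℝ) * h) ^ i) (fun _ => zero_mul _)]
    have h2 : s - (qcell M h s : ℝ) * h = (s / h - qcell M h s) * h := by field_simp
    rw [h2, mul_pow, ← qbas_exact K hi, Finset.sum_mul]
    refine Finset.sum_congr rfl fun j _ => ?_
    have h3 : ((qcell M h s : ℝ) + qnode K j) * h - (qcell M h s : ℝ) * h = qnode K j * h := by ring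
    simp only [h3, mul_pow, mul_assoc]

theorem exists_fd (K : ℕ) : ∃ c : Fin (K + 1) → ℝ, ∀ i, i ≤ K →
    ∑ l, c l * ((l : ℕ) : ℝ) ^ i = if i = 1 then 1 else 0 := by
  have hinj : Function.Injective fun l : Fin (K + 1) => ((l : ℕ) : ℝ) := by
    intro a b h
    exact Fin.ext (Nat.cast_injective (R := ℝ) h)
  refine ⟨fun l => (Lagrange.basis Finset.univ (fun l : Fin (K + 1) => ((l : ℕ) : ℝ)) l).coeff 1,
    fun i hi => ?_⟩
  have h := congrArg (fun p => Polynomial.coeff p 1)
    (lagrange_X_pow _ hinj (Nat.lt_succ_of_le hi))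
  simp only [Polynomial.coeff_X_pow, Polynomial.finsetSum_coeff, Polynomial.coeff_C_mul] at h
  rw [show (if i = 1 then (1 : ℝ) else 0) = if 1 = i then 1 else 0 by simp [eq_comm], h]
  exact Finset.sum_congr rfl fun l _ => mul_comm _ _

variable {K : ℕ} {T ρ C : ℝ} (Q : Quad K T ρ C)

lemma Quad.nonneg (Q : Quad K T ρ C) : 0 ≤ C :=
  le_trans (Finset.sum_nonneg fun _ _ => abs_nonneg _) (Q.sum_le 0)

lemma Quad.sum_eq_one (hK : 1 ≤ K) {s : ℝ} (hs : s ∈ Set.Icc 0 T) : ∑ l, Q.ℓ l s = 1 := by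
  have h := Q.exact s hs 0 hK
  simpa using h

lemma Quad.abs_le (l : Fin Q.N) (s : ℝ) : |Q.ℓ l s| ≤ C :=
  le_trans (Finset.single_le_sum (f := fun l => |Q.ℓ l s|) (fun _ _ => abs_nonneg _)
    (Finset.mem_univ l)) (Q.sum_le s)

lemma Quad.intervalIntegrable {k : ℝ → ℝ} (hk : Continuous k) (l : Fin Q.N) (a t : ℝ) :
    IntervalIntegrable (fun s => k s * Q.ℓ l s) volume a t := by
  have h1 : IntervalIntegrable (Q.ℓ l) volume a t := by
    refine (intervalIntegrable_const (c := C)).mono_fun' (Q.meas l).aestronglyMeasurable ?_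
    exact Eventually.of_forall fun s => Q.abs_le l s
  exact h1.continuousOn_mul hk.continuousOn

lemma Quad.sum_abs_weight_le {k : ℝ → ℝ} (hk : Continuous k) (hk1 : ∀ s, |k s| ≤ 1) {t : ℝ}
    (ht : t ∈ Set.Icc 0 T) : ∑ l, |∫ s in (0 : ℝ)..t, k s * Q.ℓ l s| ≤ T * C := by
  have hC := Q.nonneg
  calc ∑ l, |∫ s in (0 : ℝ)..t, k s * Q.ℓ l s|
      ≤ ∑ l, ∫ s in (0 : ℝ)..t, |k s * Q.ℓ l s| :=
        Finset.sum_le_sum fun l _ => intervalIntegral.abs_integral_le_integral_abs ht.1
    _ = ∫ s in (0 : ℝ)..t, ∑ l, |k s * Q.ℓ l s| :=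
        (intervalIntegral.integral_finsetSum fun l _ => (Q.intervalIntegrable hk l 0 t).abs).symm
    _ ≤ ∫ _s in (0 : ℝ)..t, C := by
        refine intervalIntegral.integral_mono_on ht.1 ?_ intervalIntegrable_const fun s _ => ?_
        · have := IntervalIntegrable.sum (s := Finset.univ) (μ := volume) (a := 0) (b := t)
            (f := fun l s => |k s * Q.ℓ l s|) fun l _ => (Q.intervalIntegrable hk l 0 t).abs
          rwa [Finset.sum_fn] at this
        · refine le_trans (Finset.sum_le_sum fun l _ => ?_) (Q.sum_le s)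
          rw [abs_mul]
          exact mul_le_of_le_one_left (abs_nonneg _) (hk1 s)
    _ = t * C := by simp
    _ ≤ T * C := mul_le_mul_of_nonneg_right ht.2 hC

lemma Quad.sum_weight_eq (hK : 1 ≤ K) {k : ℝ → ℝ} (hk : Continuous k) {t : ℝ}
    (ht : t ∈ Set.Icc 0 T) : ∑ l, ∫ s in (0 : ℝ)..t, k s * Q.ℓ l s = ∫ s in (0 : ℝ)..t, k s := by
  rw [← intervalIntegral.integral_finsetSum fun l _ => Q.intervalIntegrable hk l 0 t]
  refine intervalIntegral.integral_congr fun s hs => ?_
  rw [Set.uIcc_of_le ht.1] at hs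
  rw [← Finset.mul_sum, Q.sum_eq_one hK ⟨hs.1, hs.2.trans ht.2⟩, mul_one]


end Crest.Agent.R285
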