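import Crest.Agent.R285.Gate

/-!
# Row 285 (S0430): Sample
The restricted Gaussian oracle.
`unfold` with `Q = Good k`, `a = k` gives `n₀, Ts` with `Blur (k+1) Ts`; `T~ x = chL n₀ x + Ts x` is `2`-Lipschitz.
`bl_loc`: for a known `x` (input space `In × E (chI ..)`), `Λ • T~ x` can be blurred at scale `θ` with error and
cost `Λ^c e k`, `Λ^c` (`Bl.known`, `Blur` with `c₁ = 2`, `Bl.add_known`, `Bl.smul`).
Induction on the number `n` of levels, for all `s, In, u, η, q`:
`Bl u θ η q → Sim (normM ⟨b,s⟩ W (u W w)) (M η + 3 θ^n √d + n (2 + M) Λ^c e k) (q + n Λ^c)`, `M = 4 (n₀ + 1)`.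
`n = 0`: `Sim.near`, `near_gs_normM`.  Step: `Sim.bind` with `K₁ = gs (chB n₀ u) σ` (`Bl.lin`),
`K₂ (w,x) = (normM next W (Λ • T~ x)).map (θ • ·)` (induction hypothesis and `Sim.map`), `L = 4`, `L' = 0`,
`η₃ = 2 Λ^c e k` (`normM_step`, `lip_normM`, `Near.lip`, `integral_gs`).  Take `n = ν k`.
`rgo`: `u = (√δ)⁻¹ • y` is known; `Sim.map` by `√δ • ·`, `normM_map`.
-/

set_option autoImplicit false

open MeasureTheory ProbabilityTheory Filter Topology
open scoped RealInnerProductSpace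

noncomputable section

namespace Crest.Agent.R285

lemma lip_chL_add {ι : Type} [Fintype ι] {n : ℕ} {T : E (chI ι n) → E ι} {L : ℝ} (h : Lip L T)
    (hL : L ≤ 1) : Lip 2 fun x : E (chI ι n) => chL n x + T x :=
  ((Lip.clm (chL (ι := ι) n)).add h).mono (by have := norm_chL_le (ι := ι) n; linarith)

theorem sim_normM (k : ℕ) : ∃ c : ℕ, ∀ᶠ p in ev gb,
    Sim p.1 (In := E (Fin p.1.d)) (fun W u => normM p W u) (fun _ _ => p.1.Λ ^ c * p.1.e k)
      (p.1.Λ ^ c) := by
  obtain ⟨n₀, Ts, hTs, c₁, hc₁⟩ := unfold (lvl k).closed (good_gate k) k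
  obtain ⟨c₂, hc₂⟩ := hTs.blur 2
  obtain ⟨c₃, hc₃⟩ := hTs.tame.lip
  set c := c₁ + c₂ + 1 with hc
  set M : ℝ := 4 * ((n₀ : ℝ) + 1) with hM
  have hn0 : (0 : ℝ) ≤ n₀ := Nat.cast_nonneg _
  have hM1 : 1 ≤ M := by linarith
  refine ⟨c + 1, ?_⟩
  filter_upwards [ev_of_evF gb (evF_of_sigma hc₁), ev_of_evF gb (evF_of_sigma hc₂),
    ev_of_evF gb (evF_of_sigma hc₃), ev_δ_mul_le gb c₃ one_pos, ev_δ_mul_le gb 2 one_pos,
    ev_δ_le gb (by norm_num : (0 : ℝ) < 1 / 2),
    ev_θ_le gb (by positivity : (0 : ℝ) < 1 / (2 * ((n₀ : ℝ) + 1))),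
    ev_const gb fun ν => 3 + (ν * k : ℕ) * (2 + M)] with p h1 h2 h3 hδ3 hδ2 hδ hθ1 hC
  obtain ⟨b, s₀⟩ := p
  change b.δ * b.Λ ^ c₃ ≤ 1 at hδ3
  change b.δ * b.Λ ^ 2 ≤ 1 at hδ2
  change b.δ ≤ 1 / 2 at hδ
  change b.θ ≤ _ at hθ1
  change 3 + (b.ν * k : ℕ) * (2 + M) ≤ b.Λ at hC
  have hδ0 := b.δ_pos
  have hΛ0 := b.Λ_pos
  have hθ0 := b.hθ
  have he0 := b.e_pos k
  have hθh : ((n₀ : ℝ) + 1) * b.θ ≤ 1 / 2 := by
    rw [le_div_iff₀ (by positivity)] at hθ1
    linarith
  have hσ : 1 / 2 ≤ b.σ := b.half_le_σ (by nlinarith)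
  have key : ∀ (n : ℕ) (s : {s : ℝ // 0 < s ∧ s ≤ b.δ}) (In : Type) (_ : MeasurableSpace In)
      (u : Pot b → In → E (Fin b.d)) (η : Pot b → In → ℝ) (q : ℝ), Bl b u b.θ η q →
      Sim b (fun W w => normM ⟨b, s⟩ W (u W w))
        (fun W w => M * η W w + (3 * b.θ ^ n * √(b.d : ℝ) + n * (2 + M) * (b.Λ ^ c * b.e k)))
        (q + n * b.Λ ^ c) := by
    intro n
    induction n with
    | zero =>
      intro s In _ u η q h
      refine (Sim.near h fun W w => near_gs_normM ⟨b, s⟩ W hδ2 (u W w) hθ0.le b.hθ1).mono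
        (fun W w => ?_) (by simp)
      have := h.err_nonneg W w
      simp only [pow_zero, Nat.cast_zero, mul_one, zero_mul, add_zero]
      nlinarith
    | succ n ih =>
      intro s In _ u η q h
      obtain ⟨s', hstep⟩ : ∃ s' : {s : ℝ // 0 < s ∧ s ≤ b.δ}, ∀ (W : Pot b) (u : E (Fin b.d))
          (f : E (Fin b.d) → ℝ), Continuous f → (∃ C, ∀ x, |f x| ≤ C) →
          ∫ x, f x ∂normM ⟨b, s⟩ W u =
            ∫ z, ∫ x, f (b.θ • x) ∂normM ⟨b, s'⟩ W (b.Λ • z) ∂stepM ⟨b, s⟩ W u :=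
        ⟨(GI.next ⟨b, s⟩).2, fun W u f hf hb => normM_step ⟨b, s⟩ W hδ u hf hb⟩
      have s1 := h.lin (chB n₀) hθ0.le (s' := b.σ)
        (((mul_le_mul_of_nonneg_right (norm_chB_le n₀) hθ0.le).trans hθh).trans hσ)
      have hT : ∀ W, Lip 2 fun x : E (chI (Fin b.d) n₀) => chL n₀ x + Ts ⟨b, s⟩ W x := fun W =>
        lip_chL_add (h3 s W) hδ3
      have l1 : Bl b (In := In × E (chI (Fin b.d) n₀))
          (fun W x => b.Λ • (chL n₀ x.2 + Ts ⟨b, s⟩ W x.2)) b.θ (fun _ _ => b.Λ ^ c * b.e k)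
          (b.Λ ^ c) := by
        have a1 := ((h2 s (In × E (chI (Fin b.d) n₀)) (fun _ x => x.2) _ _
          (Bl.known measurable_snd _)).add_known (g := fun x => chL n₀ x.2) (by fun_prop)).smul b.Λ
        have a2 : |b.Λ| * b.θ ^ 2 = b.θ := by
          rw [abs_of_pos hΛ0, pow_two, ← mul_assoc, mul_comm b.Λ, b.θ_mul_Λ, one_mul]
        change Bl b _ (|b.Λ| * b.θ ^ 2) _ _ at a1
        rw [a2] at a1
        refine a1.mono (fun W x => ?_) ?_
        · change |b.Λ| * (b.Λ ^ c₂ * (b.e (k + 1) + b.δ * 0)) ≤ _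
          rw [abs_of_pos hΛ0, mul_zero, add_zero, ← mul_assoc, ← pow_succ']
          exact mul_le_mul (b.Λ_pow_mono (by omega)) (b.e_anti (by linarith) (by omega))
            (b.e_pos _).le (by positivity)
        · change b.Λ ^ c₂ * (1 + 0) ≤ _
          rw [add_zero, mul_one]
          exact b.Λ_pow_mono (by omega)
      have s2 := (ih s' _ _ _ _ _ l1).map (T := fun y => b.θ • y.2)
        (by fun_prop) hθ0.le fun _ => by
          simpa [abs_of_pos hθ0] using (Lip.id' (X := E (Fin b.d))).smul b.θ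
      have hg : ∀ W (f : E (Fin b.d) → ℝ), Lip 1 f →
          Lip 2 fun z : E (Fin b.d) => ∫ x, f (b.θ • x) ∂normM ⟨b, s'⟩ W (b.Λ • z) := by
        intro W f hf
        have a1 : Lip b.θ fun x : E (Fin b.d) => f (b.θ • x) := by
          simpa [abs_of_pos hθ0] using hf.comp zero_le_one ((Lip.id' (X := E (Fin b.d))).smul b.θ)
        have a2 := (lip_normM ⟨b, s'⟩ W hδ hθ0.le a1).comp (by positivity)
          ((Lip.id' (X := E (Fin b.d))).smul b.Λ)
        refine a2.mono (le_of_eq ?_)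
        rw [abs_of_pos hΛ0, mul_one, mul_assoc, b.θ_mul_Λ, mul_one]
      have hm : ∀ W (f : E (Fin b.d) → ℝ), Lip 1 f → ∀ y, ∫ x, f x ∂(normM ⟨b, s'⟩ W y).map
          (fun x => b.θ • x) = ∫ x, f (b.θ • x) ∂normM ⟨b, s'⟩ W y := fun W f hf y =>
        integral_map (by fun_prop) hf.continuous.aestronglyMeasurable
      have s3 := Sim.bind (K := fun W w => normM ⟨b, s⟩ W (u W w)) (L := 4) (L' := 0)
        (η₃ := fun _ _ => 2 * (b.Λ ^ c * b.e k)) s1 s2 (fun _ _ => inferInstance)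
        (fun W x => by
          have := prob_normM ⟨b, s'⟩ W (b.Λ • (chL n₀ x.2 + Ts ⟨b, s⟩ W x.2))
          exact Measure.isProbabilityMeasure_map (by fun_prop))
        (fun W w => Lip.id'.polyB.integrable_gs continuous_id _ _) (by norm_num) le_rfl
        (fun W w f hf _ => by
          have a1 := (hg W f hf).comp (by norm_num) (hT W)
          refine Lip.mono ?_ (show (2 : ℝ) * 2 ≤ 4 by norm_num)
          intro y y'
          have := a1 y y'
          beta_reduce at this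
          rw [← hm W f hf, ← hm W f hf] at this
          exact this)
        (fun W w => Lip.const _)
        (fun W w f hf hb => by
          obtain ⟨C, hC⟩ := hb
          have a0 : ∀ z : E (Fin b.d),
              |∫ x, f (b.θ • x) ∂normM ⟨b, s'⟩ W (b.Λ • z)| ≤ C := fun z => by
            have := prob_normM ⟨b, s'⟩ W (b.Λ • z)
            simpa using norm_integral_le_of_norm_le_const (μ := normM ⟨b, s'⟩ W (b.Λ • z))
              (f := fun x => f (b.θ • x)) (C := C) (Eventually.of_forall fun x => hC _)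
          have a1 := (h1 s W (u W w)).1.lip (by norm_num) (hg W f hf) ⟨C, a0⟩
          have a2 : Continuous fun z : E (chI (Fin b.d) n₀) =>
              chL n₀ (chB n₀ (u W w) + b.σ • z) + Ts ⟨b, s⟩ W (chB n₀ (u W w) + b.σ • z) :=
            (hT W).continuous.comp (by fun_prop)
          rw [integral_map a2.aemeasurable (hg W f hf).continuous.aestronglyMeasurable,
            ← hstep W (u W w) f hf.continuous ⟨C, hC⟩] at a1
          have a3 := integral_gs (chB n₀ (u W w)) b.σ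
            ((hg W f hf).continuous.comp (hT W).continuous).aestronglyMeasurable
          simp only [Function.comp_def] at a3
          rw [← a3] at a1
          have a4 : b.Λ ^ c₁ * b.e k ≤ b.Λ ^ c * b.e k :=
            mul_le_mul_of_nonneg_right (b.Λ_pow_mono (by omega)) he0.le
          refine le_trans (le_of_eq ?_) (a1.trans (mul_le_mul_of_nonneg_left a4 (by norm_num)))
          congr 2
          exact integral_congr_ae (Eventually.of_forall fun x => hm W f hf _))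
      refine s3.mono (fun W w => ?_) (le_of_eq (by push_cast; ring))
      simp only [integral_const, probReal_univ, smul_eq_mul, one_mul]
      have a1 := h.err_nonneg W w
      have a2 : ‖(chB n₀ : E (Fin b.d) →L[ℝ] E (chI (Fin b.d) n₀))‖ * η W w ≤ (n₀ + 1) * η W w :=
        mul_le_mul_of_nonneg_right (norm_chB_le n₀) a1
      set X := b.Λ ^ c * b.e k with hX
      have hX0 : 0 ≤ X := by positivity
      have a3 : b.θ * ((M + n * (2 + M)) * X) ≤ 1 * ((M + n * (2 + M)) * X) :=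
        mul_le_mul_of_nonneg_right b.hθ1 (by positivity)
      push_cast
      rw [pow_succ]
      nlinarith
  have h0 := key (b.ν * k) s₀ (E (Fin b.d)) inferInstance (fun _ u => u) _ _
    (Bl.known measurable_id _)
  have hL := b.one_le_Λ_pow c
  refine h0.mono (fun W w => ?_) ?_
  · change _ ≤ b.Λ ^ (c + 1) * b.e k
    have a1 : b.θ ^ (b.ν * k) * √(b.d : ℝ) ≤ b.Λ ^ c * b.e k := by
      have : b.θ ^ (b.ν * k) * √(b.d : ℝ) ≤ b.e k :=
        mul_le_mul_of_nonneg_right (b.θ_pow_le_δ_pow k) (Real.sqrt_nonneg _)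
      nlinarith
    have a2 := mul_le_mul_of_nonneg_right hC (by positivity : 0 ≤ b.Λ ^ c * b.e k)
    rw [pow_succ' b.Λ c]
    nlinarith
  · change _ ≤ b.Λ ^ (c + 1)
    have a1 : ((b.ν * k : ℕ) : ℝ) ≤ b.Λ := by
      have : (0 : ℝ) ≤ (b.ν * k : ℕ) := Nat.cast_nonneg _
      nlinarith
    rw [pow_succ' b.Λ c, zero_add]
    exact mul_le_mul_of_nonneg_right a1 (by positivity)

theorem rgo (k : ℕ) : ∃ c : ℕ, ∀ᶠ b in evF,
    Sim b (In := E (Fin b.d)) (fun W y => tg W.W y √b.δ) (fun _ _ => b.Λ ^ c * b.e k) (b.Λ ^ c) := by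
  obtain ⟨c, hc⟩ := sim_normM k
  refine ⟨c, ?_⟩
  have h1 : ∀ᶠ b in evF, b.δ ≤ 1 := ev_id ▸ ev_δ_le (fun b : Base => b) one_pos
  filter_upwards [evF_of_sigma hc, h1] with b hb hδ
  have hδ0 := b.δ_pos
  have hs : 0 < √b.δ := Real.sqrt_pos.2 hδ0
  have h2 := ((hb ⟨b.δ, hδ0, le_rfl⟩).comap (g := fun y : E (Fin b.d) => (√b.δ)⁻¹ • y)
    (by fun_prop)).map (T := fun y => √b.δ • y.2) (by fun_prop) hs.le fun _ => by
      simpa [abs_of_pos hs] using (Lip.id' (X := E (Fin b.d))).smul √b.δ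
  refine (h2.congr fun W y => ?_).mono (fun W y => ?_) le_rfl
  · have := normM_map ⟨b, ⟨b.δ, hδ0, le_rfl⟩⟩ W ((√b.δ)⁻¹ • y)
    rw [smul_smul, mul_inv_cancel₀ hs.ne', one_smul] at this
    exact this
  · have a1 : √b.δ ≤ 1 := Real.sqrt_le_one.2 hδ
    have a2 : 0 ≤ b.Λ ^ c * b.e k := mul_nonneg (pow_pos b.Λ_pos _).le (b.e_pos k).le
    change √b.δ * (b.Λ ^ c * b.e k) ≤ _
    nlinarith


end Crest.Agent.R285
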