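import Crest.Agent.R285.Near
import Crest.Agent.R285.Comp

/-!
# Row 285 (S0430): Sim
Simulation of kernels by query algorithms.  `bind`: seed space `Ω₁ × Ω₂`, Fubini; compare
`x ↦ ∫ f (F₂ ((w,x), ·))` with `x ↦ ∫ f ∂K₂ (w,x)` under the law of the first stage; use `Near.lip`,
`Near.lip'`.
-/

set_option autoImplicit false

open MeasureTheory ProbabilityTheory Filter Topology
open scoped RealInnerProductSpace

noncomputable section

namespace Crest.Agent.R285

variable {b : Base} {In In' κ κ' : Type} [MeasurableSpace In] [MeasurableSpace In'] [Fintype κ]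
  [Fintype κ'] {K K' : Pot b → In → Measure (E κ)} {η η' : Pot b → In → ℝ} {q q' : ℝ}

lemma Pot.measurable_grad (W : Pot b) : Measurable (gradient W.W) :=
  W.bp.lip.continuous.measurable

lemma Sim.cost_nonneg (h : Sim b K η q) : 0 ≤ q := by
  obtain ⟨Ω, _, μ, _, n, F, hn, -, -⟩ := h
  exact (Nat.cast_nonneg n).trans hn

lemma Sim.err_nonneg (h : Sim b K η q) (W : Pot b) (w : In) : 0 ≤ η W w := by
  obtain ⟨Ω, _, μ, _, n, F, -, -, hF⟩ := h
  exact (hF W w).nonneg

lemma Sim.mono (h : Sim b K η q) (hη : ∀ W w, η W w ≤ η' W w) (hq : q ≤ q') : Sim b K η' q' := by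
  obtain ⟨Ω, _, μ, _, n, F, hn, hC, hF⟩ := h
  exact ⟨Ω, _, μ, inferInstance, n, F, hn.trans hq, hC, fun W w => (hF W w).mono (hη W w)⟩

lemma Sim.near (h : Sim b K η q) (hK : ∀ W w, Near (K W w) (K' W w) (η' W w)) :
    Sim b K' (fun W w => η W w + η' W w) q := by
  obtain ⟨Ω, _, μ, _, n, F, hn, hC, hF⟩ := h
  exact ⟨Ω, _, μ, inferInstance, n, F, hn, hC, fun W w => (hF W w).trans (hK W w)⟩

lemma Sim.congr (h : Sim b K η q) (hK : ∀ W w, K W w = K' W w) : Sim b K' η q := by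
  obtain ⟨Ω, _, μ, _, n, F, hn, hC, hF⟩ := h
  exact ⟨Ω, _, μ, inferInstance, n, F, hn, hC, fun W w => hK W w ▸ hF W w⟩

lemma Sim.comap (h : Sim b K η q) {g : In' → In} (hg : Measurable g) :
    Sim b (fun W w => K W (g w)) (fun W w => η W (g w)) q := by
  obtain ⟨Ω, _, μ, _, n, F, hn, hC, hF⟩ := h
  exact ⟨Ω, _, μ, inferInstance, n, fun o x => F o (g x.1, x.2), hn,
    hC.comap (g := fun x : In' × Ω => (g x.1, x.2))
      ((hg.comp measurable_fst).prodMk measurable_snd), fun W w => hF W (g w)⟩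

lemma Sim.exact {Ω : Type} [MeasurableSpace Ω] (μ : Measure Ω) [IsProbabilityMeasure μ]
    {g : In × Ω → E κ} (hg : Measurable g) :
    Sim b (fun _ w => μ.map fun o => g (w, o)) (fun _ _ => 0) 0 :=
  ⟨Ω, _, μ, inferInstance, 0, fun _ => g, by simp, Comp.pure hg, fun _ _ => Near.refl le_rfl⟩

lemma Sim.map (h : Sim b K η q) {T : In × E κ → E κ'} (hT : Measurable T) {L : ℝ} (hL : 0 ≤ L)
    (hTL : ∀ w, Lip L fun x => T (w, x)) :
    Sim b (fun W w => (K W w).map fun x => T (w, x)) (fun W w => L * η W w) q := by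
  obtain ⟨Ω, _, μ, _, n, F, hn, hC, hF⟩ := h
  refine ⟨Ω, _, μ, inferInstance, n, fun o x => T (x.1, F o x), hn,
    hC.map (g := fun p : (In × Ω) × E κ => T (p.1.1, p.2))
      (hT.comp (measurable_fst.fst.prodMk measurable_snd)), fun W w => ?_⟩
  have h1 := (hF W w).map hL (hTL w)
  have hm : Measurable fun ω => F (gradient W.W) (w, ω) :=
    (hC.measurable W.measurable_grad).comp measurable_prodMk_left
  have hTw : Measurable fun x => T (w, x) := hT.comp measurable_prodMk_left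
  rw [Measure.map_map hTw hm] at h1
  exact h1

lemma Sim.conv (h : Sim b K η q) (h' : Sim b K' η' q') (hK : ∀ W w, IsProbabilityMeasure (K W w))
    (hK' : ∀ W w, IsProbabilityMeasure (K' W w)) :
    Sim b (fun W w => ((K W w).prod (K' W w)).map fun p => p.1 + p.2)
      (fun W w => η W w + η' W w) (q + q') := by
  obtain ⟨Ω, _, μ, _, n, F, hn, hC, hF⟩ := h
  obtain ⟨Ω', _, μ', _, n', F', hn', hC', hF'⟩ := h'
  have c1 := hC.comap (g := fun x : In × (Ω × Ω') => (x.1, x.2.1))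
    (measurable_fst.prodMk measurable_snd.fst)
  have c2 := (hC'.comap (g := fun x : (In × (Ω × Ω')) × E κ => (x.1.1, x.1.2.2))
    (measurable_fst.fst.prodMk measurable_fst.snd.snd)).map
    (g := fun p : ((In × (Ω × Ω')) × E κ) × E κ => p.1.2 + p.2)
    (measurable_fst.snd.add measurable_snd)
  refine ⟨Ω × Ω', inferInstance, μ.prod μ', inferInstance, n + n',
    fun o x => F o (x.1, x.2.1) + F' o (x.1, x.2.2), by push_cast; linarith, c1.bind c2,
    fun W w => ?_⟩
  have hm : Measurable fun ω => F (gradient W.W) (w, ω) :=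
    (hC.measurable W.measurable_grad).comp measurable_prodMk_left
  have hm' : Measurable fun ω => F' (gradient W.W) (w, ω) :=
    (hC'.measurable W.measurable_grad).comp measurable_prodMk_left
  have := hK W w
  have := hK' W w
  have := Measure.isProbabilityMeasure_map (μ := μ) hm.aemeasurable
  have := Measure.isProbabilityMeasure_map (μ := μ') hm'.aemeasurable
  have h1 := (hF W w).conv (hF' W w)
  have hadd : Measurable fun p : E κ × E κ => p.1 + p.2 := measurable_fst.add measurable_snd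
  rw [Measure.map_prod_map _ _ hm hm', Measure.map_map hadd (hm.prodMap hm')] at h1
  exact h1

lemma Sim.query {K : Pot b → In → Measure (E (Fin b.d))} (h : Sim b K η q) :
    Sim b (fun W w => (K W w).map (gradient W.W)) η (q + 1) := by
  obtain ⟨Ω, _, μ, _, n, F, hn, hC, hF⟩ := h
  refine ⟨Ω, _, μ, inferInstance, n + 1, fun o x => o (F o x), by push_cast; linarith,
    hC.bind (Comp.query (qr := fun p : (In × Ω) × E (Fin b.d) => p.2) measurable_snd),
    fun W w => ?_⟩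
  have h1 := (hF W w).map zero_le_one W.bp.lip
  have hm : Measurable fun ω => F (gradient W.W) (w, ω) :=
    (hC.measurable W.measurable_grad).comp measurable_prodMk_left
  rw [Measure.map_map W.measurable_grad hm, one_mul] at h1
  exact h1

lemma sim_abs_integral_le {X : Type} [MeasurableSpace X] (m : Measure X) [IsProbabilityMeasure m]
    {f : X → ℝ} {C : ℝ} (hC : ∀ x, |f x| ≤ C) : |∫ x, f x ∂m| ≤ C := by
  have := norm_integral_le_of_norm_le_const (μ := m) (f := f) (C := C)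
    (Eventually.of_forall fun x => hC x)
  simpa using this

omit [Fintype κ'] in
/-- Fubini for a two-stage algorithm -/
lemma sim_fubini {Ω₁ Ω₂ : Type} [MeasurableSpace Ω₁] [MeasurableSpace Ω₂] (μ₁ : Measure Ω₁)
    (μ₂ : Measure Ω₂) [IsProbabilityMeasure μ₁] [IsProbabilityMeasure μ₂] {X : Ω₁ → E κ'}
    (hX : Measurable X) {G : E κ' × Ω₂ → E κ} (hG : Measurable G) {f : E κ → ℝ}
    (hf : Continuous f) {C : ℝ} (hC : ∀ x, |f x| ≤ C) :
    Integrable (fun x => ∫ y, f y ∂(μ₂.map fun ω => G (x, ω))) (μ₁.map X) ∧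
      ∫ y, f y ∂((μ₁.prod μ₂).map fun p => G (X p.1, p.2)) =
        ∫ x, ∫ y, f y ∂(μ₂.map fun ω => G (x, ω)) ∂(μ₁.map X) := by
  have h1 : ∀ x, ∫ y, f y ∂(μ₂.map fun ω => G (x, ω)) = ∫ ω, f (G (x, ω)) ∂μ₂ := fun x =>
    integral_map (hG.comp measurable_prodMk_left).aemeasurable hf.aestronglyMeasurable
  simp_rw [h1]
  have h2 : StronglyMeasurable fun x => ∫ ω, f (G (x, ω)) ∂μ₂ :=
    (hf.measurable.comp hG).stronglyMeasurable.integral_prod_right'
  have := Measure.isProbabilityMeasure_map (μ := μ₁) hX.aemeasurable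
  refine ⟨Integrable.of_bound h2.aestronglyMeasurable C (Eventually.of_forall fun x =>
    sim_abs_integral_le μ₂ fun ω => hC _), ?_⟩
  have hm : Measurable fun p : Ω₁ × Ω₂ => G (X p.1, p.2) :=
    hG.comp ((hX.comp measurable_fst).prodMk measurable_snd)
  rw [integral_map hm.aemeasurable hf.aestronglyMeasurable,
    integral_map hX.aemeasurable h2.aestronglyMeasurable]
  exact integral_prod _ (Integrable.of_bound
    (hf.measurable.comp hm).aestronglyMeasurable C (Eventually.of_forall fun x => hC _))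

lemma sim_lip_integrable {m : Measure (E κ)} [IsProbabilityMeasure m]
    (hi : Integrable (fun x => x) m) {f : E κ → ℝ} {L : ℝ} (hf : Lip L f) : Integrable f m :=
  Integrable.mono' ((integrable_const ‖f 0‖).add (hi.norm.const_mul L))
    hf.continuous.aestronglyMeasurable (Eventually.of_forall fun x => hf.norm_le x)

lemma sim_abs_sub_le {X : Type} [MeasurableSpace X] {m : Measure X} {a k e : X → ℝ}
    (ha : Integrable a m) (hk : Integrable k m) (he : Integrable e m)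
    (h : ∀ x, |a x - k x| ≤ e x) : |∫ x, a x ∂m - ∫ x, k x ∂m| ≤ ∫ x, e x ∂m := by
  rw [← integral_sub ha hk]
  exact norm_integral_le_of_norm_le (f := fun x => a x - k x) he (Eventually.of_forall h)

theorem Sim.bind {K₁ : Pot b → In → Measure (E κ')} {K₂ : Pot b → In × E κ' → Measure (E κ)}
    {η₁ η₃ : Pot b → In → ℝ} {η₂ : Pot b → In × E κ' → ℝ} {q₁ q₂ L L' : ℝ}
    (h₁ : Sim b K₁ η₁ q₁) (h₂ : Sim b K₂ η₂ q₂) (hK₁ : ∀ W w, IsProbabilityMeasure (K₁ W w))
    (hK₂ : ∀ W p, IsProbabilityMeasure (K₂ W p))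
    (hint : ∀ W w, Integrable (fun x => x) (K₁ W w)) (hL : 0 ≤ L) (hL' : 0 ≤ L')
    (hlip : ∀ W w (f : E κ → ℝ), Lip 1 f → (∃ C, ∀ x, |f x| ≤ C) →
      Lip L fun x => ∫ y, f y ∂K₂ W (w, x))
    (hη : ∀ W w, Lip L' fun x => η₂ W (w, x))
    (h₃ : ∀ W w (f : E κ → ℝ), Lip 1 f → (∃ C, ∀ x, |f x| ≤ C) →
      |∫ x, ∫ y, f y ∂K₂ W (w, x) ∂K₁ W w - ∫ y, f y ∂K W w| ≤ η₃ W w) :
    Sim b K (fun W w => η₃ W w + (L + L') * η₁ W w + ∫ x, η₂ W (w, x) ∂K₁ W w) (q₁ + q₂) := by
  obtain ⟨Ω₁, _, μ₁, _, n₁, F₁, hn₁, hC₁, hF₁⟩ := h₁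
  obtain ⟨Ω₂, _, μ₂, _, n₂, F₂, hn₂, hC₂, hF₂⟩ := h₂
  have c1 := hC₁.comap (g := fun x : In × (Ω₁ × Ω₂) => (x.1, x.2.1))
    (measurable_fst.prodMk measurable_snd.fst)
  have c2 := hC₂.comap (g := fun x : (In × (Ω₁ × Ω₂)) × E κ' => ((x.1.1, x.2), x.1.2.2))
    ((measurable_fst.fst.prodMk measurable_snd).prodMk measurable_fst.snd.snd)
  refine ⟨Ω₁ × Ω₂, inferInstance, μ₁.prod μ₂, inferInstance, n₁ + n₂,
    fun o x => F₂ o ((x.1, F₁ o (x.1, x.2.1)), x.2.2), by push_cast; linarith, c1.bind c2,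
    fun W w f hf hb => ?_⟩
  obtain ⟨C, hC⟩ := hb
  have hX : Measurable fun ω => F₁ (gradient W.W) (w, ω) :=
    (hC₁.measurable W.measurable_grad).comp measurable_prodMk_left
  have hG : Measurable fun p : E κ' × Ω₂ => F₂ (gradient W.W) ((w, p.1), p.2) :=
    (hC₂.measurable W.measurable_grad).comp
      ((measurable_const.prodMk measurable_fst).prodMk measurable_snd)
  obtain ⟨i1, e1⟩ := sim_fubini μ₁ μ₂ hX hG hf.continuous hC
  have := hK₁ W w
  have := Measure.isProbabilityMeasure_map (μ := μ₁) hX.aemeasurable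
  have hid := (hF₁ W w).integrable_id (hint W w)
  have hk := hlip W w f hf ⟨C, hC⟩
  have a1 := sim_abs_sub_le i1 (sim_lip_integrable hid hk) (sim_lip_integrable hid (hη W w))
    fun x => hF₂ W (w, x) f hf ⟨C, hC⟩
  have a2 := (hF₁ W w).lip' (hint W w) hL' (hη W w)
  have a3 := (hF₁ W w).lip' (hint W w) hL hk
  have a4 := h₃ W w f hf ⟨C, hC⟩
  rw [← e1] at a1
  rw [abs_le] at a1 a2 a3 a4 ⊢
  constructor <;> linarith [a1.1, a1.2, a2.1, a2.2, a3.1, a3.2, a4.1, a4.2]

/-- fresh Gaussian seeds -/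
theorem Sim.mix {K₂ : Pot b → In × E κ' → Measure (E κ)} {η₂ η₃ : Pot b → In → ℝ} {q₂ : ℝ}
    (h₂ : Sim b K₂ (fun W p => η₂ W p.1) q₂) (hK₂ : ∀ W p, IsProbabilityMeasure (K₂ W p))
    (hcont : ∀ W w (f : E κ → ℝ), Lip 1 f → (∃ C, ∀ x, |f x| ≤ C) →
      Continuous fun x => ∫ y, f y ∂K₂ W (w, x))
    (h₃ : ∀ W w (f : E κ → ℝ), Lip 1 f → (∃ C, ∀ x, |f x| ≤ C) →
      |∫ x, ∫ y, f y ∂K₂ W (w, x) ∂γ κ' - ∫ y, f y ∂K W w| ≤ η₃ W w) :
    Sim b K (fun W w => η₃ W w + η₂ W w) q₂ := by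
  obtain ⟨Ω₂, _, μ₂, _, n₂, F₂, hn₂, hC₂, hF₂⟩ := h₂
  refine ⟨E κ' × Ω₂, inferInstance, (γ κ').prod μ₂, inferInstance, n₂,
    fun o x => F₂ o ((x.1, x.2.1), x.2.2), hn₂,
    hC₂.comap (g := fun x : In × (E κ' × Ω₂) => ((x.1, x.2.1), x.2.2))
      ((measurable_fst.prodMk measurable_snd.fst).prodMk measurable_snd.snd),
    fun W w f hf hb => ?_⟩
  obtain ⟨C, hC⟩ := hb
  have hG : Measurable fun p : E κ' × Ω₂ => F₂ (gradient W.W) ((w, p.1), p.2) :=
    (hC₂.measurable W.measurable_grad).comp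
      ((measurable_const.prodMk measurable_fst).prodMk measurable_snd)
  obtain ⟨i1, e1⟩ := sim_fubini (γ κ') μ₂ measurable_id hG hf.continuous hC
  rw [Measure.map_id] at i1 e1
  have i2 : Integrable (fun x => ∫ y, f y ∂K₂ W (w, x)) (γ κ') :=
    Integrable.of_bound (hcont W w f hf ⟨C, hC⟩).aestronglyMeasurable C
      (Eventually.of_forall fun x => by
        have := hK₂ W (w, x)
        exact sim_abs_integral_le _ hC)
  have a1 := sim_abs_sub_le i1 i2 (integrable_const (η₂ W w))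
    fun x => hF₂ W (w, x) f hf ⟨C, hC⟩
  have a4 := h₃ W w f hf ⟨C, hC⟩
  rw [← e1] at a1
  simp only [integral_const, probReal_univ, smul_eq_mul, one_mul, id] at a1
  rw [abs_le] at a1 a4 ⊢
  constructor <;> linarith [a1.1, a1.2, a4.1, a4.2]

end Crest.Agent.R285
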