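import Crest.Agent.R285.Basic

/-!
# Row 285 (S0430): TG
Partial derivatives `pd` and temperate growth `TG` (= Mathlib's `Function.HasTemperateGrowth`, which
already has `.add .sub .neg .sum .mul .smul .comp .const .id`, `ContinuousLinearMap.hasTemperateGrowth`,
`ContinuousLinearMap.bilinear_hasTemperateGrowth`, `.of_fderiv`).
`TG.of_class` (coinduction): prove by induction on `n`, for all `f` in the class, `ContDiff ℝ n f` and a
polynomial bound for `iteratedFDeriv ℝ n f`, using `fderiv f x = ∑ a, (proj a).smulRight (pd a f x)` and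
`iteratedFDeriv_succ_eq_comp_right`.
-/

set_option autoImplicit false
set_option linter.unusedSectionVars false

open MeasureTheory ProbabilityTheory Filter Topology
open scoped RealInnerProductSpace

noncomputable section

namespace Crest.Agent.R285

variable {ι κ ζ α β : Type} [Fintype ι] [Fintype κ] [Fintype ζ] [Fintype α] [Fintype β]
variable {Y Y' : Type} [NormedAddCommGroup Y] [NormedSpace ℝ Y] [NormedAddCommGroup Y']
  [NormedSpace ℝ Y']

/-- polynomial growth -/
def PolyB {X : Type} [NormedAddCommGroup X] (f : X → Y) : Prop :=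
  ∃ (k : ℕ) (C : ℝ), ∀ x, ‖f x‖ ≤ C * (1 + ‖x‖) ^ k

lemma fderiv_apply_eq_sum_pd (f : E ι → Y) (x v : E ι) :
    fderiv ℝ f x v = ∑ a, v a • pd a f x := clm_apply_eq_sum _ _
lemma pd_const (a : ι) (c : Y) : pd a (fun _ : E ι => c) = fun _ => 0 := by
  funext x; simp [pd]
lemma pd_add (a : ι) {f g : E ι → Y} (hf : Differentiable ℝ f) (hg : Differentiable ℝ g) :
    pd a (fun x => f x + g x) = fun x => pd a f x + pd a g x := by
  funext x; simp only [pd]; rw [fderiv_fun_add (hf x) (hg x)]; rfl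
lemma pd_sub (a : ι) {f g : E ι → Y} (hf : Differentiable ℝ f) (hg : Differentiable ℝ g) :
    pd a (fun x => f x - g x) = fun x => pd a f x - pd a g x := by
  funext x; simp only [pd]; rw [fderiv_fun_sub (hf x) (hg x)]; rfl
lemma pd_neg (a : ι) (f : E ι → Y) : pd a (fun x => -f x) = fun x => -pd a f x := by
  funext x; simp only [pd]; rw [fderiv_fun_neg]; rfl
lemma pd_const_smul (a : ι) (c : ℝ) {f : E ι → Y} (hf : Differentiable ℝ f) :
    pd a (fun x => c • f x) = fun x => c • pd a f x := by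
  funext x; simp only [pd]; rw [fderiv_fun_const_smul (hf x)]; rfl
lemma pd_smul (a : ι) {c : E ι → ℝ} {f : E ι → Y} (hc : Differentiable ℝ c)
    (hf : Differentiable ℝ f) :
    pd a (fun x => c x • f x) = fun x => pd a c x • f x + c x • pd a f x := by
  funext x; simp only [pd]; rw [fderiv_fun_smul (hc x) (hf x)]; simp [add_comm]
lemma pd_mul (a : ι) {f g : E ι → ℝ} (hf : Differentiable ℝ f) (hg : Differentiable ℝ g) :
    pd a (fun x => f x * g x) = fun x => pd a f x * g x + f x * pd a g x := by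
  funext x; simp only [pd]; rw [fderiv_fun_mul (hf x) (hg x)]; simp; ring
lemma pd_sum (a : ι) {I : Type} (s : Finset I) {f : I → E ι → Y}
    (hf : ∀ i ∈ s, Differentiable ℝ (f i)) :
    pd a (fun x => ∑ i ∈ s, f i x) = fun x => ∑ i ∈ s, pd a (f i) x := by
  funext x; simp only [pd]; rw [fderiv_fun_sum fun i hi => hf i hi x]; simp
lemma pd_clm (a : ι) (B : Y →L[ℝ] Y') {f : E ι → Y} (hf : Differentiable ℝ f) :
    pd a (fun x => B (f x)) = fun x => B (pd a f x) := by
  funext x; exact DFunLike.congr_fun (B.hasFDerivAt.comp x (hf x).hasFDerivAt).fderiv (bas a)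
lemma pd_coord (a : ι) {f : E ι → E κ} (hf : Differentiable ℝ f) (o : κ) :
    pd a (fun x => f x o) = fun x => pd a f x o := pd_clm a (EuclideanSpace.proj o : E κ →L[ℝ] ℝ) hf
lemma pd_clm_apply (a : ι) {M : E ι → (Y →L[ℝ] Y')} {s : E ι → Y} (hM : Differentiable ℝ M)
    (hs : Differentiable ℝ s) :
    pd a (fun x => M x (s x)) = fun x => pd a M x (s x) + M x (pd a s x) := by
  funext x; simp only [pd]; rw [fderiv_clm_apply (hM x) (hs x)]; simp [add_comm]
lemma pd_inner (a : ι) {f g : E ι → E κ} (hf : Differentiable ℝ f) (hg : Differentiable ℝ g) :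
    pd a (fun x => ⟪f x, g x⟫) = fun x => ⟪pd a f x, g x⟫ + ⟪f x, pd a g x⟫ := by
  funext x; simp only [pd]; rw [fderiv_inner_apply ℝ (hf x) (hg x), add_comm]
lemma pd_comp (a : ι) {s : E κ → Y} {y : E ι → E κ} (hs : Differentiable ℝ s)
    (hy : Differentiable ℝ y) :
    pd a (fun x => s (y x)) = fun x => ∑ o, pd a y x o • pd o s (y x) := by
  funext x
  rw [← fderiv_apply_eq_sum_pd]
  exact DFunLike.congr_fun ((hs (y x)).hasFDerivAt.comp x (hy x).hasFDerivAt).fderiv (bas a)
lemma pd_comp_clm (a : ι) {s : E κ → Y} (hs : Differentiable ℝ s) (B : E ι →L[ℝ] E κ) (c : E κ) :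
    pd a (fun x => s (c + B x)) = fun x => fderiv ℝ s (c + B x) (B (bas a)) := by
  funext x
  exact DFunLike.congr_fun
    ((hs (c + B x)).hasFDerivAt.comp x (B.hasFDerivAt.const_add c)).fderiv (bas a)
lemma pd_id (a : ι) : pd a (fun x : E ι => x) = fun _ => bas a := by
  funext x; simp [pd]
lemma pd_comm {f : E ι → Y} (hf : ContDiff ℝ 2 f) (a a' : ι) : pd a (pd a' f) = pd a' (pd a f) := by
  have hd : Differentiable ℝ (fderiv ℝ f) :=
    (hf.fderiv_right (m := 1) (by norm_num)).differentiable one_ne_zero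
  have key : ∀ b b' x, pd b (pd b' f) x = fderiv ℝ (fderiv ℝ f) x (bas b) (bas b') := fun b b' x =>
    congrFun (pd_clm b (ContinuousLinearMap.apply ℝ Y (bas b')) hd) x
  funext x
  rw [key, key]
  exact hf.contDiffAt.isSymmSndFDerivAt (by simp) _ _
lemma gradient_coord (f : E ι → ℝ) (x : E ι) (a : ι) : gradient f x a = pd a f x := by
  rw [← inner_bas_right, gradient, InnerProductSpace.toDual_symm_apply]; rfl
lemma inner_gradient (f : E ι → ℝ) (x v : E ι) : ⟪gradient f x, v⟫ = fderiv ℝ f x v := by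
  rw [gradient, InnerProductSpace.toDual_symm_apply]
lemma norm_gradient (f : E ι → ℝ) (x : E ι) : ‖gradient f x‖ = ‖fderiv ℝ f x‖ := by
  rw [gradient, LinearIsometryEquiv.norm_map]
/-- a differentiable function with a `C^n` gradient is `C^(n+1)` -/
lemma contDiff_of_gradient {f : E ι → ℝ} (hf : Differentiable ℝ f) {n : ℕ}
    (h : ContDiff ℝ n (gradient f)) : ContDiff ℝ (n + 1 : ℕ) f := by
  have h1 : fderiv ℝ f = fun x => innerSL ℝ (gradient f x) := by
    funext x; ext v; simp
  rw [Nat.cast_succ, contDiff_succ_iff_fderiv]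
  refine ⟨hf, by simp, ?_⟩
  rw [h1]
  exact (innerSL ℝ : E ι →L[ℝ] E ι →L[ℝ] ℝ).contDiff.comp h
/-- the Hessian is symmetric -/
lemma adj_fderiv_gradient {f : E ι → ℝ} (hf : Differentiable ℝ f) (h : ContDiff ℝ 1 (gradient f))
    (x : E ι) : adj (fderiv ℝ (gradient f) x) = fderiv ℝ (gradient f) x := by
  have h2 : ContDiff ℝ 2 f := contDiff_of_gradient hf (n := 1) h
  have key : ∀ a o, fderiv ℝ (gradient f) x (bas a) o = pd a (pd o f) x := fun a o => by
    have h3 := congrFun (pd_coord a (h.differentiable one_ne_zero) o) x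
    simp only [gradient_coord] at h3
    exact h3.symm
  refine clm_ext_bas fun o => ?_
  ext a
  rw [adj_coord, key, key, pd_comm h2]

section TG
variable {X : Type} [NormedAddCommGroup X] [NormedSpace ℝ X]
lemma TG.contDiff {f : X → Y} (h : TG f) (n : ℕ) : ContDiff ℝ n f := h.1.of_le (by exact_mod_cast le_top)
lemma TG.differentiable {f : X → Y} (h : TG f) : Differentiable ℝ f := (TG.contDiff h 1).differentiable one_ne_zero
lemma TG.continuous {f : X → Y} (h : TG f) : Continuous f := h.1.continuous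
lemma TG.polyB {f : X → Y} (h : TG f) : PolyB f := by
  simpa [PolyB] using h.2 0
lemma TG.fderiv' {f : X → Y} (h : TG f) : TG (fderiv ℝ f) := by
  refine ⟨h.1.fderiv_right (by simp), fun n => ?_⟩
  simpa only [norm_iteratedFDeriv_fderiv] using h.2 (n + 1)
lemma TG.clm {f : X → Y} (h : TG f) (B : Y →L[ℝ] Y') : TG fun x => B (f x) := B.hasTemperateGrowth.comp h
lemma TG.comp' {f : Y → Y'} {y : X → Y} (h : TG f) (hy : TG y) : TG fun x => f (y x) := Function.HasTemperateGrowth.comp h hy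
lemma TG.add' {f g : X → Y} (hf : TG f) (hg : TG g) : TG fun x => f x + g x := Function.HasTemperateGrowth.add hf hg
lemma TG.sub' {f g : X → Y} (hf : TG f) (hg : TG g) : TG fun x => f x - g x := Function.HasTemperateGrowth.sub hf hg
lemma TG.neg' {f : X → Y} (hf : TG f) : TG fun x => -f x := Function.HasTemperateGrowth.neg hf
lemma TG.mul' {f g : X → ℝ} (hf : TG f) (hg : TG g) : TG fun x => f x * g x := Function.HasTemperateGrowth.mul hf hg
lemma TG.smul' {c : X → ℝ} {f : X → Y} (hc : TG c) (hf : TG f) : TG fun x => c x • f x := Function.HasTemperateGrowth.smul hc hf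
lemma TG.const_smul {f : X → Y} (hf : TG f) (c : ℝ) : TG fun x => c • f x := TG.smul' (Function.HasTemperateGrowth.const c) hf
lemma TG.sum' {I : Type} (s : Finset I) {f : I → X → Y} (hf : ∀ i ∈ s, TG (f i)) :
    TG fun x => ∑ i ∈ s, f i x := Function.HasTemperateGrowth.sum hf
lemma TG.affine (B : X →L[ℝ] Y) (c : Y) : TG fun x => c + B x := TG.add' (Function.HasTemperateGrowth.const c) B.hasTemperateGrowth
lemma TG.clm_apply {M : X → (Y →L[ℝ] Y')} {s : X → Y} (hM : TG M) (hs : TG s) :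
    TG fun x => M x (s x) := (ContinuousLinearMap.id ℝ (Y →L[ℝ] Y')).bilinear_hasTemperateGrowth hM hs
lemma TG.clm_comp {Y'' : Type} [NormedAddCommGroup Y''] [NormedSpace ℝ Y'']
    {M : X → (Y' →L[ℝ] Y'')} {N : X → (Y →L[ℝ] Y')} (hM : TG M) (hN : TG N) :
    TG fun x => (M x).comp (N x) := (ContinuousLinearMap.compL ℝ Y Y' Y'').bilinear_hasTemperateGrowth hM hN
lemma TG.adj' {M : X → (E α →L[ℝ] E β)} (hM : TG M) : TG fun x => adj (M x) := by
  obtain ⟨A, hA⟩ := exists_adjL (α := α) (β := β)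
  simpa only [hA] using hM.clm A
lemma TG.pair' {f : X → E ι} {g : X → E κ} (hf : TG f) (hg : TG g) :
    TG fun x => pair (f x) (g x) := by
  simpa only [pair_eq] using (hf.clm (inlL : E ι →L[ℝ] E (ι ⊕ κ))).add'
    (hg.clm (inrL : E κ →L[ℝ] E (ι ⊕ κ)))
lemma TG.coord {f : X → E κ} (hf : TG f) (o : κ) : TG fun x => f x o := hf.clm (EuclideanSpace.proj o : E κ →L[ℝ] ℝ)
lemma TG.of_coord {f : X → E κ} (hf : ∀ o, TG fun x => f x o) : TG f := by
  simpa only [sum_smul_bas] using TG.sum' Finset.univ fun o _ =>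
    (hf o).smul' (Function.HasTemperateGrowth.const (bas o : E κ))
lemma TG.inner' {f g : X → E κ} (hf : TG f) (hg : TG g) : TG fun x => ⟪f x, g x⟫ := (innerSL ℝ : E κ →L[ℝ] E κ →L[ℝ] ℝ).bilinear_hasTemperateGrowth hf hg
lemma TG.norm_sq {f : X → E κ} (hf : TG f) : TG fun x => ‖f x‖ ^ 2 := by
  simpa only [real_inner_self_eq_norm_sq] using hf.inner' hf
end TG
lemma TG.pd' {f : E ι → Y} (h : TG f) (a : ι) : TG (pd a f) := h.fderiv'.clm (ContinuousLinearMap.apply ℝ Y (bas a))
lemma TG.gradient' {f : E ι → ℝ} (h : TG f) : TG (gradient f) := TG.of_coord fun o => by simpa only [gradient_coord] using h.pd' o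
lemma TG.lie {b : E ι → E ι} {φ : E ι → Y} (hb : TG b) (hφ : TG φ) : TG (Lie b φ) := hφ.fderiv'.clm_apply hb
lemma TG.lie_iterate {b : E ι → E ι} {φ : E ι → Y} (hb : TG b) (hφ : TG φ) (n : ℕ) :
    TG ((Lie b)^[n] φ) := by
  induction n with
  | zero => exact hφ
  | succ n ih => rw [Function.iterate_succ_apply']; exact hb.lie ih
lemma TG.divs' {Φ : E ι → ℝ} (hΦ : TG (gradient Φ)) {u : ι → E ι → Y} (hu : ∀ a, TG (u a)) :
    TG (divs Φ u) := TG.sum' Finset.univ fun a _ => ((hΦ.coord a).smul' (hu a)).sub' ((hu a).pd' a)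
lemma TG.hs {f : E ι → E κ} (h : TG f) (r : ℝ) (n : ℕ) : TG (HS r n f) := by
  induction n generalizing f with
  | zero => exact h.norm_sq
  | succ n ih =>
    exact h.norm_sq.add' ((Function.HasTemperateGrowth.const (r ^ 2)).mul
      (TG.sum' Finset.univ fun a _ => ih (h.pd' a)))

section polyB
variable {X : Type} [NormedAddCommGroup X]
omit [NormedSpace ℝ Y]
lemma PolyB.exists_nonneg {f : X → Y} (hf : PolyB f) :
    ∃ (k : ℕ) (C : ℝ), 0 ≤ C ∧ ∀ x, ‖f x‖ ≤ C * (1 + ‖x‖) ^ k := by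
  obtain ⟨k, C, hC⟩ := hf
  exact ⟨k, |C|, abs_nonneg _, fun x =>
    (hC x).trans (mul_le_mul_of_nonneg_right (le_abs_self C) (by positivity))⟩
lemma PolyB.of_le' {Z : Type} [NormedAddCommGroup Z] {f : X → Y} {g : X → Z} (hg : PolyB g)
    (h : ∀ x, ‖f x‖ ≤ ‖g x‖) : PolyB f := by
  obtain ⟨k, C, hC⟩ := hg
  exact ⟨k, C, fun x => (h x).trans (hC x)⟩
lemma PolyB.of_le {f : X → Y} {g : X → Y'} (hg : PolyB g) (h : ∀ x, ‖f x‖ ≤ ‖g x‖) : PolyB f := by
  obtain ⟨k, C, hC⟩ := hg
  exact ⟨k, C, fun x => (h x).trans (hC x)⟩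
lemma PolyB.add {f g : X → Y} (hf : PolyB f) (hg : PolyB g) : PolyB fun x => f x + g x := by
  obtain ⟨k, C, hC0, hC⟩ := hf.exists_nonneg
  obtain ⟨k', C', hC0', hC'⟩ := hg.exists_nonneg
  refine ⟨k + k', C + C', fun x => (norm_add_le _ _).trans ?_⟩
  have h1 : (1 : ℝ) ≤ 1 + ‖x‖ := by simp
  rw [add_mul]
  exact add_le_add
    ((hC x).trans (mul_le_mul_of_nonneg_left (pow_le_pow_right₀ h1 (by omega)) hC0))
    ((hC' x).trans (mul_le_mul_of_nonneg_left (pow_le_pow_right₀ h1 (by omega)) hC0'))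
lemma PolyB.mul {f g : X → ℝ} (hf : PolyB f) (hg : PolyB g) : PolyB fun x => f x * g x := by
  obtain ⟨k, C, hC0, hC⟩ := hf.exists_nonneg
  obtain ⟨k', C', hC0', hC'⟩ := hg.exists_nonneg
  refine ⟨k + k', C * C', fun x => ?_⟩
  rw [norm_mul, pow_add, mul_mul_mul_comm]
  exact mul_le_mul (hC x) (hC' x) (norm_nonneg _) (by positivity)
lemma PolyB.const (c : Y) : PolyB fun _ : X => c := ⟨0, ‖c‖, fun _ => by simp⟩
lemma PolyB.norm' {f : X → Y} (hf : PolyB f) : PolyB fun x => ‖f x‖ := hf.of_le' fun x => by simp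
lemma PolyB.pow {f : X → ℝ} (hf : PolyB f) (n : ℕ) : PolyB fun x => f x ^ n := by
  induction n with
  | zero => simpa using PolyB.const (1 : ℝ)
  | succ n ih => simpa only [pow_succ] using ih.mul hf
lemma PolyB.sum {I : Type} (s : Finset I) {f : I → X → Y} (hf : ∀ i ∈ s, PolyB (f i)) :
    PolyB fun x => ∑ i ∈ s, f i x := by
  classical
  induction s using Finset.induction_on with
  | empty => simpa using PolyB.const (0 : Y)
  | insert a s ha ih =>
    simp only [Finset.sum_insert ha]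
    exact (hf a (Finset.mem_insert_self _ _)).add
      (ih fun i hi => hf i (Finset.mem_insert_of_mem hi))
lemma Lip.polyB {L : ℝ} {f : X → Y} (h : Lip L f) : PolyB f := by
  refine ⟨1, ‖f 0‖ + |L|, fun x => (h.norm_le x).trans ?_⟩
  have := le_abs_self L
  nlinarith [norm_nonneg x, norm_nonneg (f 0), abs_nonneg L]
lemma PolyB.comp {Z : Type} [NormedAddCommGroup Z] {f : Z → Y} {y : X → Z} (hf : PolyB f)
    (hy : PolyB y) : PolyB fun x => f (y x) := by
  obtain ⟨k, C, hC0, hC⟩ := hf.exists_nonneg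
  refine ((PolyB.const C).mul (((PolyB.const (1 : ℝ)).add hy.norm').pow k)).of_le' fun x => ?_
  exact (hC _).trans (le_abs_self _)
end polyB
lemma PolyB.smul {X : Type} [NormedAddCommGroup X] {c : X → ℝ} {f : X → Y} (hc : PolyB c)
    (hf : PolyB f) : PolyB fun x => c x • f x := (hc.norm'.mul hf.norm').of_le' fun x => by simp [norm_smul]

/-- coinduction principle -/
theorem TG.of_class (𝒞 : (E ι → Y) → Prop)
    (h : ∀ f, 𝒞 f → Differentiable ℝ f ∧ PolyB f ∧ ∀ a, 𝒞 (pd a f)) {f : E ι → Y} (hf : 𝒞 f) :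
    TG f := by
  let L : ι → Y →L[ℝ] (E ι →L[ℝ] Y) := fun a =>
    ContinuousLinearMap.smulRightL ℝ (E ι) Y (EuclideanSpace.proj a)
  have hL : ∀ g : E ι → Y, fderiv ℝ g = fun x => ∑ a, L a (pd a g x) := fun g => by
    funext x; ext v; rw [fderiv_apply_eq_sum_pd]; simp [L]
  have key : ∀ n : ℕ, ∀ g, 𝒞 g → ContDiff ℝ n g ∧ PolyB (iteratedFDeriv ℝ n g) := by
    intro n
    induction n with
    | zero =>
      intro g hg
      exact ⟨contDiff_zero.2 (h g hg).1.continuous, (h g hg).2.1.of_le' fun x => by simp⟩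
    | succ n ih =>
      intro g hg
      obtain ⟨h1, -, h3⟩ := h g hg
      have hc : ∀ a, ContDiff ℝ n fun x => L a (pd a g x) := fun a =>
        (L a).contDiff.comp (ih _ (h3 a)).1
      constructor
      · rw [Nat.cast_succ, contDiff_succ_iff_fderiv]
        refine ⟨h1, by simp, ?_⟩
        rw [hL]
        exact ContDiff.sum fun a _ => hc a
      · refine (PolyB.sum Finset.univ fun a _ =>
          (PolyB.const ‖L a‖).mul (ih _ (h3 a)).2.norm').of_le' fun x => ?_
        rw [← norm_iteratedFDeriv_fderiv, hL,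
          iteratedFDeriv_fun_sum_apply fun a _ => (hc a).contDiffAt]
        refine (norm_sum_le _ _).trans ((Finset.sum_le_sum fun a _ => ?_).trans (le_abs_self _))
        exact (L a).norm_iteratedFDeriv_comp_left (ih _ (h3 a)).1.contDiffAt le_rfl
  exact ⟨contDiff_infty.2 fun n => (key n f hf).1, fun n => (key n f hf).2⟩

end Crest.Agent.R285
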