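import Crest.Agent.R285.Ev
import Crest.Agent.R285.Mult

/-!
# Row 285 (S0430): TameOp
Closure rules for `TameOp`.  Pattern: take the exponents `c₁, c₂, …` from the hypotheses, choose
`c = c₁ + c₂ + … + 2`; for a given `n`, use `filter_upwards` with `ev_const b (fun ν => 5 ^ (n ν ^ 2))` etc.,
first weaken all multiplier bounds to the common scale with `Mult.mono`.  In `subst` the derivative of
`x ↦ B x + y x` is `B + fderiv y`, whose adjoint has multiplier bound `2 (‖B‖ + δ Λ^c) ≤ Λ^c'`.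
-/

set_option autoImplicit false

open MeasureTheory ProbabilityTheory Filter Topology
open scoped RealInnerProductSpace

noncomputable section

namespace Crest.Agent.R285

variable {P P' : Type} {b : P → Base} {ι κ κ' ζ α β α' β' I : P → Type} [∀ p, Fintype (ι p)]
  [∀ p, Fintype (κ p)] [∀ p, Fintype (κ' p)] [∀ p, Fintype (ζ p)] [∀ p, Fintype (α p)]
  [∀ p, Fintype (β p)] [∀ p, Fintype (α' p)] [∀ p, Fintype (β' p)] [∀ p, Fintype (I p)]

/-- weakening to a common scale -/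
lemma Mult.weak {ι α β : Type} [Fintype ι] [Fintype α] [Fintype β] (b : Base) {c c' k k' n : ℕ}
    {K : ℝ} {M : E ι → (E α →L[ℝ] E β)} {m : ℝ} (h : Mult (b.θ ^ c) m n M)
    (hm : m = K * (b.δ * b.Λ ^ k)) (hK0 : 0 ≤ K) (hK : K ≤ b.Λ ^ k') (hc : c ≤ c')
    (hk : k + k' ≤ c') : Mult (b.θ ^ c') (b.δ * b.Λ ^ c') n M := by
  have h0 : 0 ≤ b.δ * b.Λ ^ k := mul_nonneg b.δ_pos.le (pow_pos b.Λ_pos _).le
  refine h.mono (pow_pos b.hθ _).le (b.θ_pow_anti hc) (hm ▸ mul_nonneg hK0 h0) ?_ le_rfl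
  calc m = K * (b.δ * b.Λ ^ k) := hm
    _ ≤ b.Λ ^ k' * (b.δ * b.Λ ^ k) := mul_le_mul_of_nonneg_right hK h0
    _ = b.δ * b.Λ ^ (k + k') := by ring
    _ ≤ b.δ * b.Λ ^ c' := mul_le_mul_of_nonneg_left (b.Λ_pow_mono hk) b.δ_pos.le

lemma Mult.weak' {ι α β : Type} [Fintype ι] [Fintype α] [Fintype β] (b : Base) {c c' n : ℕ}
    {M : E ι → (E α →L[ℝ] E β)} (h : Mult (b.θ ^ c) (b.δ * b.Λ ^ c) n M) (hc : c ≤ c') :
    Mult (b.θ ^ c') (b.δ * b.Λ ^ c') n M :=
  h.weak b (k := c) (k' := 0) (K := 1) (one_mul _).symm zero_le_one (pow_zero _).ge hc hc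

lemma TameOp.adj' {M : OFam b ι α β} (h : TameOp b M) : TameOp b (OFam.adj b M) := by
  obtain ⟨c, hc⟩ := h.mult
  refine ⟨h.dimI, h.dimB, h.dimA, h.tg.mono fun p hp W => (hp W).adj', c, fun n => ?_⟩
  filter_upwards [hc n] with p hp W
  refine ⟨(hp W).2, ?_⟩
  simp only [OFam.adj, adj_adj]
  exact (hp W).1
lemma TameOp.norm_le {M : OFam b ι α β} (h : TameOp b M) :
    ∃ c : ℕ, ∀ᶠ p in ev b, ∀ W x, ‖M p W x‖ ≤ (b p).δ * (b p).Λ ^ c := by
  obtain ⟨c, hc⟩ := h.mult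
  refine ⟨c, ?_⟩
  filter_upwards [hc fun _ => 0] with p hp W x
  exact (hp W).1.norm_le (mul_nonneg (b p).δ_pos.le (pow_pos (b p).Λ_pos _).le) x
lemma TameOp.reindex {M : OFam b ι α β} (r : P' → P) (h : TameOp b M) :
    TameOp (fun p => b (r p)) (ι := fun p => ι (r p)) (α := fun p => α (r p))
      (β := fun p => β (r p)) fun p => M (r p) := by
  obtain ⟨c, hc⟩ := h.mult
  exact ⟨h.dimI.reindex r, h.dimA.reindex r, h.dimB.reindex r, ev_reindex r h.tg, c,
    fun n => ev_reindex r (hc n)⟩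
lemma TameOp.congr {M M' : OFam b ι α β} (he : ∀ᶠ p in ev b, ∀ W, M p W = M' p W) (h : TameOp b M) :
    TameOp b M' := by
  obtain ⟨c, hc⟩ := h.mult
  refine ⟨h.dimI, h.dimA, h.dimB, ?_, c, fun n => ?_⟩
  · filter_upwards [he, h.tg] with p h1 h2 W
    exact h1 W ▸ h2 W
  · filter_upwards [he, hc n] with p h1 h2 W
    exact h1 W ▸ h2 W
lemma TameOp.zero (h₁ : Dim b ι) (h₂ : Dim b α) (h₃ : Dim b β) :
    TameOp b (ι := ι) (α := α) (β := β) fun _ _ _ => 0 := by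
  refine ⟨h₁, h₂, h₃, Eventually.of_forall fun p W => Function.HasTemperateGrowth.const _, 0,
    fun n => Eventually.of_forall fun p W => ⟨Mult.zero, ?_⟩⟩
  simp only [adj_zero]
  exact Mult.zero
lemma TameOp.left {M : OFam b ι α β} {B : ∀ p, E (β p) →L[ℝ] E (β' p)} (hB : Poly b fun p => ‖B p‖)
    (hd : Dim b β') (h : TameOp b M) : TameOp b (β := β') fun p W x => (B p).comp (M p W x) := by
  obtain ⟨c, hc⟩ := h.mult
  obtain ⟨k, hk⟩ := hB.exists_le
  refine ⟨h.dimI, h.dimA, hd,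
    h.tg.mono fun p hp W => TG.clm_comp (Function.HasTemperateGrowth.const _) (hp W), c + k,
    fun n => ?_⟩
  filter_upwards [hc n, hk, h.tg] with p hp h1 h2 W
  refine ⟨((hp W).1.left (h2 W) (B p)).weak _ rfl (norm_nonneg _) h1 (by omega) le_rfl, ?_⟩
  simp only [adj_comp]
  exact ((hp W).2.right (adj (B p))).weak _ (by rw [norm_adj, mul_comm]) (norm_nonneg _) h1
    (by omega) le_rfl
lemma TameOp.right {M : OFam b ι α β} {B : ∀ p, E (α' p) →L[ℝ] E (α p)}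
    (hB : Poly b fun p => ‖B p‖) (hd : Dim b α') (h : TameOp b M) :
    TameOp b (α := α') fun p W x => (M p W x).comp (B p) := by
  refine (h.adj'.left (B := fun p => adj (B p)) hB.norm_adj hd).adj'.congr
    (Eventually.of_forall fun p W => ?_)
  funext x
  simp only [OFam.adj, adj_comp, adj_adj]
lemma TameOp.smul {M : OFam b ι α β} {c : P → ℝ} (hc : Poly b c) (h : TameOp b M) :
    TameOp b fun p W x => c p • M p W x := by
  refine (h.left (B := fun p => c p • ContinuousLinearMap.id ℝ (E (β p)))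
    (hc.norm_smul Poly.norm_id) h.dimB).congr (Eventually.of_forall fun p W => ?_)
  funext x
  simp
lemma TameOp.add {M N : OFam b ι α β} (h : TameOp b M) (h' : TameOp b N) :
    TameOp b fun p W x => M p W x + N p W x := by
  obtain ⟨c, hc⟩ := h.mult
  obtain ⟨c', hc'⟩ := h'.mult
  refine ⟨h.dimI, h.dimA, h.dimB, ?_, c + c' + 1, fun n => ?_⟩
  · filter_upwards [h.tg, h'.tg] with p h1 h2 W
    exact (h1 W).add' (h2 W)
  filter_upwards [hc n, hc' n, h.tg, h'.tg, ev_const' b 4] with p hp hp' h1 h2 h4 W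
  have h0 : 0 ≤ (b p).δ * (b p).Λ ^ (c + c') :=
    mul_nonneg (b p).δ_pos.le (pow_pos (b p).Λ_pos _).le
  have h4' : 4 ≤ (b p).Λ ^ 1 := by rwa [pow_one]
  constructor
  · exact (Mult.add (h1 W) (h2 W) ((hp W).1.weak' _ (Nat.le_add_right c c'))
      ((hp' W).1.weak' _ (Nat.le_add_left c' c)) h0 h0).weak _ (k := c + c') (by ring)
      (by norm_num) h4' (by omega) le_rfl
  · simp only [adj_add]
    exact (Mult.add (h1 W).adj' (h2 W).adj' ((hp W).2.weak' _ (Nat.le_add_right c c'))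
      ((hp' W).2.weak' _ (Nat.le_add_left c' c)) h0 h0).weak _ (k := c + c') (by ring)
      (by norm_num) h4' (by omega) le_rfl
lemma TameOp.sum {M : OFam (fun p : Σ p, I p => b p.1) (fun p => ι p.1) (fun p => α p.1)
      (fun p => β p.1)} (hI : Poly b fun p => (Fintype.card (I p) : ℝ)) (h₁ : Dim b ι)
    (h₂ : Dim b α) (h₃ : Dim b β) (h : TameOp (fun p : Σ p, I p => b p.1) M) :
    TameOp b (ι := ι) (α := α) (β := β) fun p W x => ∑ i, M ⟨p, i⟩ W x := by
  obtain ⟨c, hc⟩ := h.mult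
  obtain ⟨k, hk⟩ := hI.exists_le
  have htg := ev_sigma.1 h.tg
  refine ⟨h₁, h₂, h₃, htg.mono fun p hp W => TG.sum' _ fun i _ => hp i W, c + k, fun n => ?_⟩
  filter_upwards [ev_sigma.1 (hc n), hk, htg] with p hp h1 h2 W
  constructor
  · exact (Mult.sum Finset.univ (fun i _ => h2 i W) fun i _ => (hp i W).1).weak _ rfl
      (Nat.cast_nonneg _) h1 (by omega) le_rfl
  · simp only [adj_sum]
    exact (Mult.sum Finset.univ (fun i _ => (h2 i W).adj') fun i _ => (hp i W).2).weak _ rfl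
      (Nat.cast_nonneg _) h1 (by omega) le_rfl
lemma TameOp.mul {M : OFam b ι κ β} {N : OFam b ι α κ} (h : TameOp b M) (h' : TameOp b N) :
    TameOp b fun p W x => (M p W x).comp (N p W x) := by
  obtain ⟨c, hc⟩ := h.mult
  obtain ⟨c', hc'⟩ := h'.mult
  refine ⟨h.dimI, h'.dimA, h.dimB, ?_, c + c' + 1, fun n => ?_⟩
  · filter_upwards [h.tg, h'.tg] with p h1 h2 W
    exact (h1 W).clm_comp (h2 W)
  filter_upwards [hc n, hc' n, h.tg, h'.tg, ev_const b fun ν => 5 ^ n ν,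
    ev_δ_mul_le b (c + c') one_pos] with p hp hp' h1 h2 h4 h5 W
  have h0 : 0 ≤ (b p).δ * (b p).Λ ^ (c + c') :=
    mul_nonneg (b p).δ_pos.le (pow_pos (b p).Λ_pos _).le
  have h6 : (0 : ℝ) ≤ 5 ^ n (b p).ν := pow_nonneg (by norm_num) _
  have h4' : 5 ^ n (b p).ν * ((b p).δ * (b p).Λ ^ (c + c')) ≤ (b p).Λ ^ 1 := by
    rw [pow_one]
    exact (mul_le_of_le_one_right h6 h5).trans h4
  constructor
  · exact (Mult.mul (h1 W) (h2 W) ((hp W).1.weak' _ (Nat.le_add_right c c'))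
      ((hp' W).1.weak' _ (Nat.le_add_left c' c))).weak _ (k := c + c') rfl
      (mul_nonneg h6 h0) h4' (by omega) le_rfl
  · simp only [adj_comp]
    exact (Mult.mul (h2 W).adj' (h1 W).adj' ((hp' W).2.weak' _ (Nat.le_add_left c' c))
      ((hp W).2.weak' _ (Nat.le_add_right c c'))).weak _ (k := c + c') rfl
      (mul_nonneg h6 h0) h4' (by omega) le_rfl
lemma TameOp.subst {M : OFam b ζ α β} {y : Fam b ι ζ} {B : ∀ p, E (ι p) →L[ℝ] E (ζ p)}
    (hB : Poly b fun p => ‖B p‖) (hy : Tame b y) (h : TameOp b M) :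
    TameOp b (ι := ι) fun p W x => M p W (B p x + y p W x) := by
  obtain ⟨c, hc⟩ := h.mult
  obtain ⟨c', hc'⟩ := hy.op.mult
  obtain ⟨k, hk⟩ := hB.exists_le
  have htg : ∀ᶠ p in ev b, ∀ W, TG fun x => B p x + y p W x :=
    hy.tg.mono fun p hp W => TG.add' (B p).hasTemperateGrowth (hp W)
  refine ⟨hy.op.dimI, h.dimA, h.dimB, ?_, c + c' + (k + 1), fun n => ?_⟩
  · filter_upwards [h.tg, htg] with p h1 h2 W
    exact (h1 W).comp' (h2 W)
  filter_upwards [hc n, hc' n, hk, h.tg, hy.tg, htg, ev_const b fun ν => 5 ^ (n ν ^ 2),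
    ev_δ_mul_le b c' one_pos, ev_const' b 4] with p hp hp' h0 h1 h2 h3 h4 h5 h6 W
  have hΛ := (b p).one_le_Λ_pow k
  have hr : 0 ≤ (b p).θ ^ (c + c' + (k + 1)) := (pow_pos (b p).hθ _).le
  have hD : Mult ((b p).θ ^ (c + c' + (k + 1))) ((b p).Λ ^ (k + 1)) (n (b p).ν)
      fun x => adj (fderiv ℝ (fun x => B p x + y p W x) x) := by
    have he : (fun x => adj (fderiv ℝ (fun x => B p x + y p W x) x)) =
        fun x => adj (B p) + adj (fderiv ℝ (y p W) x) := by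
      funext x
      rw [← adj_add, ((B p).hasFDerivAt.fun_add ((h2 W).differentiable x).hasFDerivAt).fderiv]
    rw [he]
    have h7 : Mult ((b p).θ ^ (c + c' + (k + 1))) ((b p).Λ ^ k) (n (b p).ν)
        fun x => adj (fderiv ℝ (y p W) x) :=
      (hp' W).2.mono hr ((b p).θ_pow_anti (by omega))
        (mul_nonneg (b p).δ_pos.le (pow_pos (b p).Λ_pos _).le) (h5.trans hΛ) le_rfl
    refine (Mult.add (Function.HasTemperateGrowth.const (adj (B p))) (h2 W).fderiv'.adj'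
      (Mult.const (m := (b p).Λ ^ k) _ (by rwa [norm_adj])) h7 (by linarith) (by linarith)).mono
      hr le_rfl (by linarith) ?_ le_rfl
    rw [pow_succ]
    nlinarith
  have hrm : (b p).θ ^ (c + c' + (k + 1)) * (b p).Λ ^ (k + 1) ≤ (b p).θ ^ c := by
    rw [pow_add (b p).θ (c + c'), mul_assoc, Base.θ_pow_mul_Λ_pow, mul_one]
    exact (b p).θ_pow_anti (by omega)
  have h8 : (0 : ℝ) ≤ 5 ^ (n (b p).ν ^ 2) := pow_nonneg (by norm_num) _
  have h4' : 5 ^ (n (b p).ν ^ 2) ≤ (b p).Λ ^ 1 := by rwa [pow_one]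
  have hm : 0 ≤ (b p).Λ ^ (k + 1) := (pow_pos (b p).Λ_pos _).le
  exact ⟨(Mult.comp (h1 W) (hp W).1 (h3 W) hD hr hm hrm).weak _ rfl h8 h4' le_rfl (by omega),
    (Mult.comp (h1 W).adj' (hp W).2 (h3 W) hD hr hm hrm).weak _ rfl h8 h4' le_rfl (by omega)⟩
lemma TameOp.exp {M : OFam b (fun p => ι p ⊕ ζ p) α β} (h : TameOp b M) :
    TameOp b (ι := ι) fun p W x => ∫ z, M p W (pair x z) ∂γ (ζ p) := by
  obtain ⟨c, hc⟩ := h.mult
  refine ⟨h.dimI.left, h.dimA, h.dimB, h.tg.mono fun p hp W => (hp W).integral_right, c,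
    fun n => ?_⟩
  filter_upwards [hc n, h.tg] with p hp h1 W
  refine ⟨(hp W).1.integral_right (h1 W), ?_⟩
  simp only [adj_integral (h1 W)]
  exact (hp W).2.integral_right (h1 W).adj'


end Crest.Agent.R285
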