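import Crest.Agent.R285.TG
import Crest.Agent.R285.L2
import Crest.Agent.R285.Quad

/-!
# Row 285 (S0430): Taylor
Taylor's formula in `L²` along a measure preserving flow.
`taylor_L2`: induction on `K` of the integral form
`φ (X t x) - ∑_{i<K} … = ∫ r in s..t, ((t-r)^(K-1)/(K-1)!) • (Lie^[K] φ) (X r x)` (integration by parts in `r`),
then `L2le.interval` and `L2le.comp_mp`.  Alternatively induct on the `L²` statement through
`φ (X t x) - φ (X s x) = ∫ r in s..t, Lie b φ (X r x)`.
-/

set_option autoImplicit false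

open MeasureTheory ProbabilityTheory Filter Topology
open scoped RealInnerProductSpace

noncomputable section

namespace Crest.Agent.R285

variable {ι κ : Type} [Fintype ι] [Fintype κ] {b : E ι → E ι} {X : ℝ → E ι → E ι}
  {μ : Measure (E ι)} [IsProbabilityMeasure μ] {φ : E ι → E κ} {R : ℝ}

lemma IsFlow.hasDerivAt_comp (hX : IsFlow b X) (hφ : Differentiable ℝ φ) (t : ℝ) (x : E ι) :
    HasDerivAt (fun s => φ (X s x)) (Lie b φ (X t x)) t :=
  (hφ (X t x)).hasFDerivAt.comp_hasDerivAt t (hX.deriv t x)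

lemma IsFlow.ty_cont_time (hX : IsFlow b X) (x : E ι) : Continuous fun s => X s x :=
  hX.cont.comp (continuous_id.prodMk continuous_const)

lemma IsFlow.ty_cont_space (hX : IsFlow b X) (t : ℝ) : Continuous fun x => X t x :=
  hX.cont.comp (continuous_const.prodMk continuous_id)

lemma IsFlow.ty_cont_prod (hX : IsFlow b X) : Continuous fun p : ℝ × E ι => X p.1 p.2 := hX.cont

lemma IsFlow.sub_eq_integral (hX : IsFlow b X) (hb : TG b) (hφ : TG φ) (s t : ℝ) (x : E ι) :
    φ (X t x) - φ (X s x) = ∫ r in s..t, Lie b φ (X r x) := by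
  symm
  refine intervalIntegral.integral_eq_sub_of_hasDerivAt (f := fun r => φ (X r x))
    (fun r _ => hX.hasDerivAt_comp hφ.differentiable r x) ?_
  exact ((TG.lie hb hφ).continuous.comp (hX.ty_cont_time x)).intervalIntegrable _ _

lemma IsFlow.sub_eq_integral' (hX : IsFlow b X) (hb : Continuous b) (t : ℝ) (x : E ι) :
    X t x - x = ∫ r in (0 : ℝ)..t, b (X r x) := by
  have := intervalIntegral.integral_eq_sub_of_hasDerivAt (f := fun r => X r x) (a := 0) (b := t)
    (fun r _ => hX.deriv r x) ((hb.comp (hX.ty_cont_time x)).intervalIntegrable _ _)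
  rw [this, hX.zero]

/-- the Taylor remainder of order `K + 1` is the integral of the remainder of order `K` -/
lemma IsFlow.ty_taylor_succ (hX : IsFlow b X) (hb : TG b) (hφ : TG φ) (K : ℕ) (s t : ℝ) (x : E ι) :
    φ (X t x) - ∑ i ∈ Finset.range (K + 1), ((t - s) ^ i / i.factorial) • (Lie b)^[i] φ (X s x) =
      ∫ r in s..t, (Lie b φ (X r x) - ∑ i ∈ Finset.range K,
        ((r - s) ^ i / i.factorial) • (Lie b)^[i] (Lie b φ) (X s x)) := by
  have h1 : IntervalIntegrable (fun r => Lie b φ (X r x)) volume s t :=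
    ((TG.lie hb hφ).continuous.comp (hX.ty_cont_time x)).intervalIntegrable _ _
  have h2 : ∀ i ∈ Finset.range K, IntervalIntegrable
      (fun r : ℝ => ((r - s) ^ i / i.factorial) • (Lie b)^[i] (Lie b φ) (X s x)) volume s t := by
    intro i _
    apply Continuous.intervalIntegrable
    fun_prop
  have h3 : IntervalIntegrable (fun r : ℝ => ∑ i ∈ Finset.range K,
      ((r - s) ^ i / i.factorial) • (Lie b)^[i] (Lie b φ) (X s x)) volume s t := by
    apply Continuous.intervalIntegrable
    fun_prop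
  rw [intervalIntegral.integral_sub h1 h3, intervalIntegral.integral_finsetSum h2,
    ← hX.sub_eq_integral hb hφ, Finset.sum_range_succ']
  have h4 : ∀ i ∈ Finset.range K, ∫ r in s..t,
      ((r - s) ^ i / i.factorial) • (Lie b)^[i] (Lie b φ) (X s x) =
      ((t - s) ^ (i + 1) / (i + 1).factorial) • (Lie b)^[i + 1] φ (X s x) := by
    intro i _
    rw [intervalIntegral.integral_smul_const, Function.iterate_succ_apply]
    congr 1
    rw [intervalIntegral.integral_div, intervalIntegral.integral_comp_sub_right (fun r => r ^ i) s,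
      integral_pow, Nat.factorial_succ]
    have : (i.factorial : ℝ) ≠ 0 := by exact_mod_cast i.factorial_ne_zero
    have : ((i : ℝ) + 1) ≠ 0 := by positivity
    push_cast
    simp only [sub_self, ne_eq, Nat.add_eq_zero_iff, one_ne_zero, and_false, not_false_eq_true,
      zero_pow, sub_zero]
    field_simp
  rw [Finset.sum_congr rfl h4]
  simp only [pow_zero, Nat.factorial_zero, Nat.cast_one, div_one, Function.iterate_zero, id_eq,
    one_smul]
  abel

/-- `L2le.interval` without an order assumption on the end points -/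
lemma L2le.ty_interval_abs {G : ℝ → E ι → E κ} {a t r : ℝ} (hr : 0 ≤ r)
    (hG : StronglyMeasurable (Function.uncurry G))
    (h : ∀ s, |s - a| ≤ |t - a| → L2le μ (G s) r) :
    L2le μ (fun x => ∫ s in a..t, G s x) (|t - a| * r) := by
  rcases le_total a t with hat | hat
  · rw [abs_of_nonneg (sub_nonneg.2 hat)] at h ⊢
    refine L2le.interval hat hr hG fun s hs => h s ?_
    rw [abs_of_nonneg (sub_nonneg.2 hs.1)]
    linarith [hs.2]
  · rw [abs_of_nonpos (sub_nonpos.2 hat), neg_sub] at h ⊢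
    have := (L2le.interval (μ := μ) hat hr hG fun s hs => h s (by
      rw [abs_of_nonpos (sub_nonpos.2 hs.2)]
      linarith [hs.1])).neg
    refine this.congr' fun x => ?_
    rw [intervalIntegral.integral_symm t a]

theorem taylor_L2 (hX : IsFlow b X) (hb : TG b) (hμ : ∀ t, MeasurePreserving (X t) μ μ) (hφ : TG φ)
    {K : ℕ} (hR : 0 ≤ R) (h : L2le μ ((Lie b)^[K] φ) R) (s t : ℝ) :
    L2le μ (fun x => φ (X t x) - ∑ i ∈ Finset.range K,
      ((t - s) ^ i / i.factorial) • (Lie b)^[i] φ (X s x)) (|t - s| ^ K * R) := by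
  induction K generalizing φ t with
  | zero =>
    simp only [Finset.range_zero, Finset.sum_empty, sub_zero, pow_zero, one_mul]
    exact L2le.comp_mp (hμ t) h
  | succ K ih =>
    have hL : TG (Lie b φ) := TG.lie hb hφ
    rw [Function.iterate_succ_apply] at h
    have hG : StronglyMeasurable (Function.uncurry fun (r : ℝ) (x : E ι) =>
        Lie b φ (X r x) - ∑ i ∈ Finset.range K,
          ((r - s) ^ i / i.factorial) • (Lie b)^[i] (Lie b φ) (X s x)) := by
      apply Continuous.stronglyMeasurable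
      refine Continuous.sub (hL.continuous.comp hX.ty_cont_prod) ?_
      refine continuous_finsetSum _ fun i _ => ?_
      have h1 : Continuous fun p : ℝ × E ι => (p.1 - s) ^ i / (i.factorial : ℝ) := by fun_prop
      exact h1.smul
        ((TG.lie_iterate hb hL i).continuous.comp ((hX.ty_cont_space s).comp continuous_snd))
    have key := L2le.ty_interval_abs (μ := μ) (a := s) (t := t) (r := |t - s| ^ K * R)
      (by positivity) hG fun r hr => (ih hL h r).mono
        (mul_le_mul_of_nonneg_right (pow_le_pow_left₀ (abs_nonneg _) hr K) hR)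
    refine (key.congr' fun x => (hX.ty_taylor_succ hb hφ K s t x).symm).mono (le_of_eq ?_)
    ring

variable {K : ℕ} {T ρ C : ℝ} (Q : Quad K T ρ C)

theorem Quad.interp_L2 (hX : IsFlow b X) (hb : TG b) (hμ : ∀ t, MeasurePreserving (X t) μ μ)
    (hφ : TG φ) (hR : 0 ≤ R) (h : L2le μ ((Lie b)^[K] φ) R) {s : ℝ} (hs : s ∈ Set.Icc 0 T) :
    L2le μ (fun x => φ (X s x) - ∑ l, Q.ℓ l s • φ (X (Q.t l) x)) ((1 + C) * ρ ^ K * R) := by
  have hρ : 0 ≤ ρ := (abs_nonneg _).trans (Q.base_near s hs)
  have hρR : 0 ≤ ρ ^ K * R := by positivity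
  have h1 := (taylor_L2 hX hb hμ hφ hR h (Q.base s) s).mono
    (mul_le_mul_of_nonneg_right (pow_le_pow_left₀ (abs_nonneg _) (Q.base_near s hs) K) hR)
  have h2 : ∀ l ∈ (Finset.univ : Finset (Fin Q.N)), L2le μ (fun x => Q.ℓ l s • (φ (X (Q.t l) x) -
      ∑ i ∈ Finset.range K, ((Q.t l - Q.base s) ^ i / i.factorial) •
        (Lie b)^[i] φ (X (Q.base s) x))) (|Q.ℓ l s| * (ρ ^ K * R)) := by
    intro l _
    by_cases hl : Q.ℓ l s = 0
    · simp only [hl, zero_smul]
      exact L2le.zero
    · exact ((taylor_L2 hX hb hμ hφ hR h (Q.base s) (Q.t l)).mono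
        (mul_le_mul_of_nonneg_right
          (pow_le_pow_left₀ (abs_nonneg _) (Q.node_near s hs l hl) K) hR)).smul _
  have h3 := L2le.sum _ h2 fun l _ => by positivity
  have h4 := h1.sub h3 hρR (Finset.sum_nonneg fun l _ => by positivity)
  refine (h4.congr' fun x => ?_).mono ?_
  · have : ∑ l, Q.ℓ l s • ∑ i ∈ Finset.range K, ((Q.t l - Q.base s) ^ i / i.factorial) •
        (Lie b)^[i] φ (X (Q.base s) x) = ∑ i ∈ Finset.range K,
          ((s - Q.base s) ^ i / i.factorial) • (Lie b)^[i] φ (X (Q.base s) x) := by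
      simp only [Finset.smul_sum, smul_smul]
      rw [Finset.sum_comm]
      refine Finset.sum_congr rfl fun i hi => ?_
      rw [← Finset.sum_smul, ← Q.exact s hs i (Finset.mem_range.1 hi), Finset.sum_div]
      congr 1
      exact Finset.sum_congr rfl fun l _ => by ring
    simp only [smul_sub, Finset.sum_sub_distrib]
    rw [this]
    abel
  · rw [← Finset.sum_mul]
    nlinarith [mul_le_mul_of_nonneg_right (Q.sum_le s) hρR]

theorem Quad.integral_L2 (hX : IsFlow b X) (hb : TG b) (hμ : ∀ t, MeasurePreserving (X t) μ μ)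
    (hφ : TG φ) (hR : 0 ≤ R) (h : L2le μ ((Lie b)^[K] φ) R) {k : ℝ → ℝ} (hk : Continuous k)
    (hk1 : ∀ s, |k s| ≤ 1) {t : ℝ} (ht : t ∈ Set.Icc 0 T) :
    L2le μ (fun x => (∫ s in (0 : ℝ)..t, k s • φ (X s x)) -
      ∑ l, (∫ s in (0 : ℝ)..t, k s * Q.ℓ l s) • φ (X (Q.t l) x)) (T * ((1 + C) * ρ ^ K * R)) := by
  have hρ : 0 ≤ ρ := (abs_nonneg _).trans (Q.base_near t ht)
  have hC : 0 ≤ C := Q.nonneg
  have hr : 0 ≤ (1 + C) * ρ ^ K * R := by positivity
  have hG : StronglyMeasurable (Function.uncurry fun (s : ℝ) (x : E ι) =>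
      k s • (φ (X s x) - ∑ l, Q.ℓ l s • φ (X (Q.t l) x))) := by
    apply Measurable.stronglyMeasurable
    refine Measurable.smul (hk.measurable.comp measurable_fst) ?_
    refine Measurable.sub (hφ.continuous.comp hX.ty_cont_prod).measurable ?_
    refine Finset.measurable_sum _ fun l _ => ?_
    refine Measurable.smul ((Q.meas l).comp measurable_fst) ?_
    exact ((hφ.continuous.comp (hX.ty_cont_space _)).comp continuous_snd).measurable
  have key := L2le.interval (μ := μ) ht.1 hr hG fun s hs =>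
    ((Q.interp_L2 hX hb hμ hφ hR h (s := s) ⟨hs.1, hs.2.trans ht.2⟩).smul (k s)).mono
      (by nlinarith [mul_le_mul_of_nonneg_right (hk1 s) hr])
  refine (key.congr' fun x => ?_).mono ?_
  · have h1 : IntervalIntegrable (fun s => k s • φ (X s x)) volume 0 t :=
      (hk.smul (hφ.continuous.comp (hX.ty_cont_time x))).intervalIntegrable _ _
    have h2 : ∀ l ∈ (Finset.univ : Finset (Fin Q.N)), IntervalIntegrable
        (fun s => (k s * Q.ℓ l s) • φ (X (Q.t l) x)) volume 0 t :=
      fun l _ => ⟨(Q.intervalIntegrable hk l 0 t).1.smul_const _,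
        (Q.intervalIntegrable hk l 0 t).2.smul_const _⟩
    have h3 : (fun s => k s • (φ (X s x) - ∑ l, Q.ℓ l s • φ (X (Q.t l) x))) =
        fun s => k s • φ (X s x) - ∑ l, (k s * Q.ℓ l s) • φ (X (Q.t l) x) := by
      funext s
      simp only [smul_sub, Finset.smul_sum, smul_smul]
    have h4 : IntervalIntegrable (fun s => ∑ l, (k s * Q.ℓ l s) • φ (X (Q.t l) x)) volume 0 t := by
      have := IntervalIntegrable.sum Finset.univ h2
      have e : (∑ l, fun s => (k s * Q.ℓ l s) • φ (X (Q.t l) x)) =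
          fun s => ∑ l, (k s * Q.ℓ l s) • φ (X (Q.t l) x) := by
        funext s
        simp only [Finset.sum_apply]
      rwa [e] at this
    rw [h3, intervalIntegral.integral_sub h1 h4, intervalIntegral.integral_finsetSum h2]
    simp only [intervalIntegral.integral_smul_const]
  · rw [sub_zero]
    exact mul_le_mul_of_nonneg_right ht.2 hr

/-- finite differences -/
theorem fd_L2 (hX : IsFlow b X) (hb : TG b) (hμ : ∀ t, MeasurePreserving (X t) μ μ) (hφ : TG φ)
    (hR : 0 ≤ R) {K : ℕ} (hK : 1 ≤ K) (h : L2le μ ((Lie b)^[K + 1] φ) R) {c : Fin (K + 1) → ℝ}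
    (hc : ∀ i, i ≤ K → ∑ l, c l * ((l : ℕ) : ℝ) ^ i = if i = 1 then 1 else 0) {ρ : ℝ} (hρ : 0 < ρ) :
    L2le μ (fun x => ∑ l, (c l / ρ) • φ (X (((l : ℕ) : ℝ) * ρ) x) - Lie b φ x)
      ((∑ l, |c l| * ((l : ℕ) : ℝ) ^ (K + 1)) * ρ ^ K * R) := by
  have h2 : ∀ l ∈ (Finset.univ : Finset (Fin (K + 1))), L2le μ (fun x => (c l / ρ) •
      (φ (X (((l : ℕ) : ℝ) * ρ) x) - ∑ i ∈ Finset.range (K + 1),
        ((((l : ℕ) : ℝ) * ρ - 0) ^ i / i.factorial) • (Lie b)^[i] φ (X 0 x)))
      (|c l / ρ| * (|((l : ℕ) : ℝ) * ρ - 0| ^ (K + 1) * R)) :=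
    fun l _ => (taylor_L2 hX hb hμ hφ hR h 0 (((l : ℕ) : ℝ) * ρ)).smul _
  have h3 := L2le.sum _ h2 fun l _ => by positivity
  refine (h3.congr' fun x => ?_).mono (le_of_eq ?_)
  · have : ∑ l : Fin (K + 1), (c l / ρ) • ∑ i ∈ Finset.range (K + 1),
        ((((l : ℕ) : ℝ) * ρ - 0) ^ i / i.factorial) • (Lie b)^[i] φ (X 0 x) = Lie b φ x := by
      simp only [Finset.smul_sum, smul_smul]
      rw [Finset.sum_comm]
      have h5 : ∀ i ∈ Finset.range (K + 1), ∑ l : Fin (K + 1),
          (c l / ρ * ((((l : ℕ) : ℝ) * ρ - 0) ^ i / i.factorial)) • (Lie b)^[i] φ (X 0 x) =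
          if i = 1 then Lie b φ x else 0 := by
        intro i hi
        rw [← Finset.sum_smul]
        have h6 : ∑ l : Fin (K + 1), c l / ρ * ((((l : ℕ) : ℝ) * ρ - 0) ^ i / i.factorial) =
            (∑ l, c l * ((l : ℕ) : ℝ) ^ i) * (ρ ^ i / ρ / i.factorial) := by
          rw [Finset.sum_mul]
          refine Finset.sum_congr rfl fun l _ => ?_
          rw [sub_zero, mul_pow]
          ring
        rw [h6, hc i (Nat.lt_succ_iff.1 (Finset.mem_range.1 hi))]
        split_ifs with h7
        · subst h7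
          simp [hρ.ne', hX.zero]
        · simp
      rw [Finset.sum_congr rfl h5, Finset.sum_ite_eq', if_pos (Finset.mem_range.2 (by omega))]
    simp only [smul_sub, Finset.sum_sub_distrib]
    rw [this]
  · rw [Finset.sum_mul, Finset.sum_mul]
    refine Finset.sum_congr rfl fun l _ => ?_
    rw [sub_zero, abs_div, abs_of_pos hρ, abs_of_nonneg (by positivity : (0 : ℝ) ≤ ((l : ℕ) : ℝ) * ρ),
      mul_pow, pow_succ ρ]
    field_simp


end Crest.Agent.R285
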