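import Crest.Agent.R285.Tilt1
import Crest.Agent.R285.Poinc

/-!
# Row 285 (S0430): Tilt2
Consequences of the Poincaré inequality for tilted Gaussians; the coarse-grained potential.
`BP.sconv` from `BP.taylor` at the midpoint.  `lip_integral`: `⟪e, D g⟫ = σ⁻² Cov(⟪g,x⟫, ⟪e,φ⟫)`, Cauchy–Schwarz and
`poincare_lip` for both factors, then `Lip.of_fderiv`.
-/

set_option autoImplicit false

open MeasureTheory ProbabilityTheory Filter Topology
open scoped RealInnerProductSpace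

noncomputable section

namespace Crest.Agent.R285

variable {ι κ ζ α β : Type} [Fintype ι] [Fintype κ] [Fintype ζ] [Fintype α] [Fintype β]
variable {Y : Type} [NormedAddCommGroup Y] [NormedSpace ℝ Y]

variable {ψ : E ι → ℝ} {lam B σ : ℝ}

lemma BP.sconv (h : BP ψ lam B) (u : E ι) (hσ : 0 < σ) :
    SConv (fun x => ‖x - u‖ ^ 2 / (2 * σ ^ 2) + ψ x) ((σ ^ 2)⁻¹ - lam) := by
  intro x y
  set m := (1 / 2 : ℝ) • (x + y) with hm
  have e1 : x - m = (1 / 2 : ℝ) • (x - y) := by rw [hm]; module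
  have e2 : y - m = -((1 / 2 : ℝ) • (x - y)) := by rw [hm]; module
  have e3 : ‖(1 / 2 : ℝ) • (x - y)‖ ^ 2 = ‖x - y‖ ^ 2 / 4 := by
    rw [norm_smul, mul_pow, Real.norm_eq_abs, sq_abs]; ring
  have h1 := (abs_le.1 (h.taylor m x)).1
  have h2 := (abs_le.1 (h.taylor m y)).1
  rw [e1, e3] at h1
  rw [e2, norm_neg, e3, inner_neg_right] at h2
  have e4 : ‖m - u‖ ^ 2 = (‖x - u‖ ^ 2 + ‖y - u‖ ^ 2) / 2 - ‖x - y‖ ^ 2 / 4 := by
    have h3 := parallelogram_law_with_norm ℝ (x - u) (y - u)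
    have e5 : m - u = (1 / 2 : ℝ) • ((x - u) + (y - u)) := by rw [hm]; module
    rw [sub_sub_sub_cancel_right] at h3
    rw [e5, norm_smul, mul_pow, Real.norm_eq_abs, sq_abs]
    nlinarith
  have e6 : ‖m - u‖ ^ 2 / (2 * σ ^ 2) = (‖x - u‖ ^ 2 / (2 * σ ^ 2) + ‖y - u‖ ^ 2 / (2 * σ ^ 2)) / 2 -
      (σ ^ 2)⁻¹ / 8 * ‖x - y‖ ^ 2 := by
    rw [e4]; field_simp; ring
  simp only
  rw [e6]
  linarith

private lemma a_pos (hσ : 0 < σ) (hl : lam * σ ^ 2 < 1) : 0 < (σ ^ 2)⁻¹ - lam := by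
  rw [sub_pos, inv_eq_one_div, lt_div_iff₀ (by positivity)]
  exact hl

private lemma div_a (hσ : 0 < σ) (hl : lam * σ ^ 2 < 1) (t : ℝ) :
    t / ((σ ^ 2)⁻¹ - lam) = t * (σ ^ 2 / (1 - lam * σ ^ 2)) := by
  have h1 := (a_pos hσ hl).ne'
  have h2 : 1 - lam * σ ^ 2 ≠ 0 := by linarith
  have h3 : (σ ^ 2)⁻¹ - lam = (1 - lam * σ ^ 2) / σ ^ 2 := by field_simp
  rw [h3]
  field_simp

theorem BP.var_lip (h : BP ψ lam B) (hσ : 0 < σ) (hl : lam * σ ^ 2 < 1) (u : E ι) {f : E ι → ℝ}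
    {L : ℝ} (hf : Lip L f) :
    ∫ x, (f x - ∫ y, f y ∂tg ψ u σ) ^ 2 ∂tg ψ u σ ≤ L ^ 2 * (σ ^ 2 / (1 - lam * σ ^ 2)) := by
  rw [tg_eq_gibbs ψ u hσ, ← div_a hσ hl]
  exact poincare_lip (h.wpot u hσ) (a_pos hσ hl) (h.sconv u hσ) hf

theorem BP.var_tg (h : BP ψ lam B) (hσ : 0 < σ) (hl : lam * σ ^ 2 < 1) (u : E ι) {f : E ι → ℝ}
    (hf : TG f) : ∫ x, (f x - ∫ y, f y ∂tg ψ u σ) ^ 2 ∂tg ψ u σ ≤
      (∫ x, ∑ i, pd i f x ^ 2 ∂tg ψ u σ) * (σ ^ 2 / (1 - lam * σ ^ 2)) := by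
  rw [tg_eq_gibbs ψ u hσ, ← div_a hσ hl]
  exact poincare (h.wpot u hσ) (a_pos hσ hl) (h.sconv u hσ) hf

/-- the centred version of a Lipschitz function in `L²` -/
theorem BP.L2le_centered (h : BP ψ lam B) (hσ : 0 < σ) (hl : lam * σ ^ 2 < 1) (u : E ι)
    {f : E ι → ℝ} {L : ℝ} (hL : 0 ≤ L) (hf : Lip L f) :
    L2le (tg ψ u σ) (fun x => f x - ∫ y, f y ∂tg ψ u σ) (L * √(σ ^ 2 / (1 - lam * σ ^ 2))) := by
  have hc : Continuous fun x => f x - ∫ y, f y ∂tg ψ u σ := hf.continuous.sub continuous_const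
  have hp : PolyB fun x => f x - ∫ y, f y ∂tg ψ u σ := (hf.sub (Lip.const _)).polyB
  have hpos : 0 ≤ σ ^ 2 / (1 - lam * σ ^ 2) := div_nonneg (sq_nonneg _) (by linarith)
  refine L2le.of_integral_sq_le hc.aestronglyMeasurable
    (h.integrable u σ (hp.norm'.pow 2) (hc.norm.pow 2)) (by positivity) ?_
  rw [mul_pow, Real.sq_sqrt hpos]
  simp only [Real.norm_eq_abs, sq_abs]
  exact h.var_lip hσ hl u hf

private lemma lip_inner (v : E ι) : Lip ‖v‖ fun x : E ι => ⟪v, x⟫ := fun x y => by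
  rw [← inner_sub_right]
  exact norm_inner_le_norm _ _

theorem BP.integrable_id (h : BP ψ lam B) (u : E ι) (σ : ℝ) :
    Integrable (fun x => x) (tg ψ u σ) := h.integrable u σ Lip.id'.polyB continuous_id

theorem BP.L2le_inner' (h : BP ψ lam B) (hσ : 0 < σ) (hl : lam * σ ^ 2 < 1) (u v : E ι) :
    L2le (tg ψ u σ) (fun x => ⟪v, x - ∫ y, y ∂tg ψ u σ⟫)
      (‖v‖ * √(σ ^ 2 / (1 - lam * σ ^ 2))) := by
  refine (h.L2le_centered hσ hl u (norm_nonneg v) (lip_inner v)).congr' fun x => ?_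
  rw [integral_inner (h.integrable_id u σ), inner_sub_right]

theorem BP.L2le_inner (h : BP ψ lam B) (hσ : 0 < σ) (hσ1 : σ ≤ 1) (hl : lam ≤ 1 / 2) (u v : E ι) :
    L2le (tg ψ u σ) (fun x => ⟪v, x - ∫ y, y ∂tg ψ u σ⟫) (2 * ‖v‖) := by
  have h0 := h.lam_nonneg
  have h1 : σ ^ 2 ≤ 1 := pow_le_one₀ hσ.le hσ1
  have h2 : lam * σ ^ 2 ≤ 1 / 2 := by nlinarith
  refine (h.L2le_inner' hσ (by linarith) u v).mono ?_
  rw [mul_comm]
  refine mul_le_mul_of_nonneg_right ?_ (norm_nonneg _)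
  rw [Real.sqrt_le_iff, div_le_iff₀ (by linarith)]
  constructor <;> linarith

theorem BP.lip_integral (h : BP ψ lam B) (hσ : 0 < σ) (hl : lam * σ ^ 2 < 1) {f : E ι → ℝ} {L : ℝ}
    (hL : 0 ≤ L) (hf : Lip L f) :
    Lip (L / (1 - lam * σ ^ 2)) fun u => ∫ x, f x ∂tg ψ u σ := by
  choose D hD hD' using h.hasFDerivAt_integral hσ hf.polyB hf.continuous
  have hl' : 0 < 1 - lam * σ ^ 2 := by linarith
  refine Lip.of_fderiv (fun u => (hD u).differentiableAt) fun u => ?_
  rw [(hD u).fderiv]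
  refine ContinuousLinearMap.opNorm_le_bound _ (by positivity) fun g => ?_
  have := h.prob u σ
  have h1 := h.L2le_inner' hσ hl u g
  have h2 := h.L2le_centered hσ hl u hL hf
  have h3 := h1.norm_integral_smul_le h2 (by positivity) (by positivity)
  have h4 : ∫ x, ⟪g, x - ∫ y, y ∂tg ψ u σ⟫ ∂tg ψ u σ = 0 := by
    have hi : Integrable (fun x => x - ∫ y, y ∂tg ψ u σ) (tg ψ u σ) :=
      (h.integrable_id u σ).sub (integrable_const _)
    rw [integral_inner hi,
      integral_sub (h.integrable_id u σ) (integrable_const _)]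
    simp
  have h5 : ∫ x, ⟪g, x - ∫ y, y ∂tg ψ u σ⟫ • f x ∂tg ψ u σ =
      ∫ x, ⟪g, x - ∫ y, y ∂tg ψ u σ⟫ • (f x - ∫ y, f y ∂tg ψ u σ) ∂tg ψ u σ := by
    have h6 : ∀ x, ⟪g, x - ∫ y, y ∂tg ψ u σ⟫ • f x =
        ⟪g, x - ∫ y, y ∂tg ψ u σ⟫ • (f x - ∫ y, f y ∂tg ψ u σ) +
          ⟪g, x - ∫ y, y ∂tg ψ u σ⟫ • ∫ y, f y ∂tg ψ u σ := fun x => by
      rw [← smul_add, sub_add_cancel]
    simp_rw [h6]
    rw [integral_add (h1.integrable_smul h2) (h1.integrable.smul_const _), integral_smul_const, h4,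
      zero_smul, add_zero]
  rw [hD', h5, norm_smul, Real.norm_eq_abs, abs_of_pos (by positivity)]
  refine (mul_le_mul_of_nonneg_left h3 (by positivity)).trans (le_of_eq ?_)
  have h7 : √(σ ^ 2 / (1 - lam * σ ^ 2)) * √(σ ^ 2 / (1 - lam * σ ^ 2)) =
      σ ^ 2 / (1 - lam * σ ^ 2) := Real.mul_self_sqrt (by positivity)
  rw [mul_mul_mul_comm, h7]
  field_simp

theorem BP.lip_integral_vec (h : BP ψ lam B) (hσ : 0 < σ) (hl : lam * σ ^ 2 < 1) {f : E ι → E κ}
    {L : ℝ} (hL : 0 ≤ L) (hf : Lip L f) :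
    Lip (L / (1 - lam * σ ^ 2)) fun u => ∫ x, f x ∂tg ψ u σ := by
  intro u u'
  have hl' : 0 < 1 - lam * σ ^ 2 := by linarith
  set d := ∫ x, f x ∂tg ψ u σ - ∫ x, f x ∂tg ψ u' σ with hd
  have h1 := h.lip_integral hσ hl (by positivity) ((lip_inner d).comp (norm_nonneg d) hf) u u'
  simp only at h1
  rw [integral_inner (h.integrable u σ hf.polyB hf.continuous),
    integral_inner (h.integrable u' σ hf.polyB hf.continuous), ← inner_sub_right, ← hd,
    real_inner_self_eq_norm_sq, Real.norm_eq_abs, abs_of_nonneg (sq_nonneg _)] at h1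
  rcases (norm_nonneg d).eq_or_lt with h0 | h0
  · rw [← h0]; positivity
  · refine le_of_mul_le_mul_left ?_ h0
    rw [← sq]
    refine h1.trans (le_of_eq ?_)
    ring

variable {W : E ι → ℝ} {s : ℝ}

theorem BP.hasGradientAt_lz (h : BP W lam B) (s : ℝ) (y : E ι) :
    HasGradientAt (lz W s) (gm W s y) y := by
  have hWc := h.continuous
  have hgc := h.lip.continuous
  have hB := h.nonneg
  set σ := √s with hσ
  have hZ : ∀ y', ∫ x, Real.exp (-W x) ∂gs y' σ = ∫ z, Real.exp (-W (y' + σ • z)) ∂γ ι :=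
    fun y' => integral_gs y' σ (by fun_prop)
  have hint : Integrable (fun z => Real.exp (-W (y + σ • z))) (γ ι) :=
    ((measurePreserving_gs y σ).integrable_comp (by fun_prop)).2 (h.integrable_exp y σ)
  let F' : E ι → E ι → (E ι →L[ℝ] ℝ) := fun y' z =>
    (-Real.exp (-W (y' + σ • z))) • InnerProductSpace.toDual ℝ (E ι) (gradient W (y' + σ • z))
  have hF'c : Continuous (F' y) := by
    have e1 : Continuous fun z => -Real.exp (-W (y + σ • z)) := by fun_prop
    have e2 : Continuous fun z => gradient W (y + σ • z) := by fun_prop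
    exact e1.smul ((InnerProductSpace.toDual ℝ (E ι)).continuous.comp e2)
  have hbd : ∀ z, ∀ y' ∈ Metric.ball y 1,
      ‖F' y' z‖ ≤ Real.exp B * B * Real.exp (-W (y + σ • z)) := by
    intro z y' hy'
    simp only [F', norm_smul, norm_neg, Real.norm_eq_abs, Real.abs_exp,
      LinearIsometryEquiv.norm_map]
    have h1 := h.lip_self (y + σ • z) (y' + σ • z)
    rw [add_sub_add_right_eq_sub, norm_sub_rev y, Real.norm_eq_abs] at h1
    have h2 : B * ‖y' - y‖ ≤ B := mul_le_of_le_one_right hB (mem_ball_iff_norm.1 hy').le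
    have h3 : Real.exp (-W (y' + σ • z)) ≤ Real.exp B * Real.exp (-W (y + σ • z)) := by
      rw [← Real.exp_add]
      exact Real.exp_le_exp.2 (by linarith [(abs_le.1 h1).2])
    calc Real.exp (-W (y' + σ • z)) * ‖gradient W (y' + σ • z)‖
        ≤ Real.exp B * Real.exp (-W (y + σ • z)) * B :=
          mul_le_mul h3 (h.bdd _) (norm_nonneg _) (by positivity)
      _ = _ := by ring
  have hd : HasFDerivAt (fun y' => ∫ z, Real.exp (-W (y' + σ • z)) ∂γ ι) (∫ z, F' y z ∂γ ι) y := by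
    refine hasFDerivAt_integral_of_dominated_of_fderiv_le (F' := F') (s := Metric.ball y 1)
      (bound := fun z => Real.exp B * B * Real.exp (-W (y + σ • z))) (Metric.ball_mem_nhds y one_pos)
      (Eventually.of_forall fun y' => by fun_prop) hint hF'c.aestronglyMeasurable
      (Eventually.of_forall hbd) (hint.const_mul _) (Eventually.of_forall fun z y' _ => ?_)
    have h1 : HasFDerivAt W (InnerProductSpace.toDual ℝ (E ι) (gradient W (y' + σ • z)))
        (y' + σ • z) := (h.diff _).hasGradientAt.hasFDerivAt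
    have h2 := (h1.comp y' ((hasFDerivAt_id y').add_const (σ • z))).neg.exp
    refine h2.congr_fderiv ?_
    ext v
    simp [F']
  have hpos : 0 < ∫ z, Real.exp (-W (y + σ • z)) ∂γ ι := integral_exp_pos hint
  have hF'i : Integrable (F' y) (γ ι) := (hint.const_mul _).mono' hF'c.aestronglyMeasurable
    (Eventually.of_forall fun z => hbd z y (Metric.mem_ball_self one_pos))
  have hlz : lz W s = fun y' => -Real.log (∫ z, Real.exp (-W (y' + σ • z)) ∂γ ι) := by
    funext y'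
    rw [lz, hZ]
  rw [hasGradientAt_iff_hasFDerivAt, hlz]
  refine (hd.log hpos.ne').neg.congr_fderiv ?_
  ext v
  have hgi : Integrable (gradient W) (tg W y σ) := h.integrable y σ h.lip.polyB hgc
  rw [InnerProductSpace.toDual_apply_apply, real_inner_comm, gm, ← hσ, ← integral_inner hgi, tg,
    integral_tilted, hZ, integral_gs y σ (by fun_prop), neg_apply, smul_apply,
    ContinuousLinearMap.integral_apply hF'i, smul_eq_mul, ← integral_const_mul, ← integral_neg]
  refine integral_congr_ae (Eventually.of_forall fun z => ?_)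
  simp only [F', smul_apply, InnerProductSpace.toDual_apply_apply, smul_eq_mul]
  rw [real_inner_comm]
  ring

theorem BP.gradient_lz (h : BP W lam B) (s : ℝ) : gradient (lz W s) = gm W s :=
  funext fun y => (h.hasGradientAt_lz s y).gradient

theorem BP.norm_gm_le (h : BP W lam B) (s : ℝ) (y : E ι) : ‖gm W s y‖ ≤ B := by
  have := h.prob y √s
  have h1 := norm_integral_le_of_norm_le_const (μ := tg W y √s) (f := gradient W) (C := B)
    (Eventually.of_forall h.bdd)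
  simpa [gm] using h1

theorem BP.lip_gm (h : BP W 1 B) (hs : 0 < s) (hs1 : s ≤ 1 / 2) : Lip 2 (gm W s) := by
  have h1 : (1 : ℝ) * √s ^ 2 = s := by rw [one_mul, Real.sq_sqrt hs.le]
  refine (h.lip_integral_vec (Real.sqrt_pos.2 hs) (by linarith) zero_le_one h.lip).mono ?_
  rw [h1, div_le_iff₀ (by linarith)]
  linarith

theorem BP.bp_lz (h : BP W 1 B) (hs : 0 < s) (hs1 : s ≤ 1 / 2) : BP (lz W s) 2 B where
  diff y := (h.hasGradientAt_lz s y).differentiableAt
  lam_nonneg := zero_le_two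
  lip := by rw [h.gradient_lz]; exact h.lip_gm hs hs1
  bdd y := by rw [h.gradient_lz]; exact h.norm_gm_le s y

/-- crude comparison with the true gradient -/
theorem BP.norm_gm_sub_le (h : BP W 1 B) (hs : 0 < s) (y y' : E ι) :
    ‖gm W s y - gradient W y'‖ ≤ ‖y - y'‖ + (s * B + √s * √(Fintype.card ι)) := by
  have := h.prob y √s
  have hB := h.nonneg
  have hgi : Integrable (gradient W) (tg W y √s) := h.integrable y _ h.lip.polyB h.lip.continuous
  have h1 := h.L2le_sub y (Real.sqrt_pos.2 hs)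
  rw [Real.sq_sqrt hs.le] at h1
  have h2 := h1.integral_norm_le (by positivity)
  have h3 : gm W s y - gradient W y' = ∫ x, (gradient W x - gradient W y') ∂tg W y √s := by
    rw [integral_sub hgi (integrable_const _), gm]
    simp
  have h4 : ∫ x, (‖y - y'‖ + ‖x - y‖) ∂tg W y √s = ‖y - y'‖ + ∫ x, ‖x - y‖ ∂tg W y √s := by
    rw [integral_add (integrable_const _) h1.integrable.norm]
    simp
  rw [h3]
  refine (norm_integral_le_of_norm_le ((integrable_const ‖y - y'‖).add h1.integrable.norm)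
    (Eventually.of_forall fun x => ?_)).trans ?_
  · refine (h.lip x y').trans ?_
    rw [one_mul, add_comm]
    exact norm_sub_le_norm_sub_add_norm_sub x y y'
  · exact h4.le.trans (by linarith)

end Crest.Agent.R285
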