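import Crest.Agent.R285.Arc2
import Crest.Agent.R285.Chain2

/-!
# Row 285 (S0430): Unfold
Unfolding one level: an approximate sampler for `stepM` inside the class `Q`.
Take `n = a`, `τs` from `arc_fam`, `Ts = chT τs n - chL n` (`Closed.chT'`), `L = δ Λ^c` (`Tame.lip`),
`R = 2 Λ √d`.  First claim: `chain_near`.  Second claim: `stein` (the function of `z` is `TG`: it is
`F (pair u z)` for a tame family, or compose `TG` maps directly), `chain_cov` with `φ = gateN p W`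
(`lip_gateN`), `fderiv_gate`, multiply by `(σ²)⁻¹ ≤ 4`.
-/

set_option autoImplicit false

open MeasureTheory ProbabilityTheory Filter Topology
open scoped RealInnerProductSpace

noncomputable section

namespace Crest.Agent.R285

theorem unfold {Q : FamProp} (hQ : Closed Q) (hg : Q gb gate) (a : ℕ) :
    ∃ (n : ℕ) (Ts : Fam gb (fun p => chI (gd p) n) gd), Q gb Ts ∧ ∃ c : ℕ, ∀ᶠ p in ev gb, ∀ W u,
      Near ((γ (chI (gd p) n)).map fun z =>
          chL n (chB n u + p.1.σ • z) + Ts p W (chB n u + p.1.σ • z))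
        (stepM p W u) (p.1.Λ ^ c * p.1.e a) ∧
      L2le (γ (gd p)) (fun g => p.1.σ⁻¹ • (∫ z, fderiv ℝ (fun z => gateN p W
            (chL n (chB n u + p.1.σ • z) + Ts p W (chB n u + p.1.σ • z))) z ∂γ (chI (gd p) n))
          (chB' n g) - fderiv ℝ (gate p W) u g) (p.1.Λ ^ c * p.1.e a) := by
  obtain ⟨τs, hτs, c₁, h₁⟩ := arc_fam hQ hg a
  obtain ⟨c₂, h₂⟩ := (hQ.tame hτs).lip
  have hTs := hQ.chT' hτs a
  refine ⟨a, _, hTs, c₁ + c₂ * a + 1 + 1, ?_⟩
  filter_upwards [h₁, h₂, (hQ.tame hTs).tg, (hQ.tame (hQ.gateN' hg)).tg,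
    ev_δ_mul_le gb c₂ one_half_pos, ev_δ_le gb (by norm_num : (0 : ℝ) < 1 / 4),
    ev_θ_le gb one_half_pos, ev_const' gb (16 * (a + 8))] with p k1 k2 t1 t2 e1 e2 e3 e4 W u
  obtain ⟨τ, hτ, hτu⟩ := k1 W
  obtain ⟨hlaw, happ⟩ := hτu u
  have hδ := p.1.δ_pos
  have hΛ := p.1.Λ_pos
  have he := p.1.e_pos a
  have e2' : p.1.δ ≤ 1 / 2 := e2.trans (by norm_num)
  have := prob_stepM p W e2' u
  have hσ := p.1.half_le_σ e3
  have hσ0 : 0 < p.1.σ := by linarith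
  have ha : (0 : ℝ) ≤ a := Nat.cast_nonneg a
  have hX : p.1.Λ ^ c₁ * p.1.e a + (p.1.δ * p.1.Λ ^ c₂) ^ a *
      (2 * p.1.Λ * √(p.1.d : ℝ) + √(Fintype.card (gd p))) ≤
        4 * (p.1.Λ ^ (c₁ + c₂ * a + 1) * p.1.e a) := by
    have b1 : p.1.Λ ^ c₁ * p.1.e a ≤ p.1.Λ ^ (c₁ + c₂ * a + 1) * p.1.e a :=
      mul_le_mul_of_nonneg_right (p.1.Λ_pow_mono (by omega)) he.le
    have b2 : p.1.Λ ^ (c₂ * a + 1) * p.1.e a ≤ p.1.Λ ^ (c₁ + c₂ * a + 1) * p.1.e a :=
      mul_le_mul_of_nonneg_right (p.1.Λ_pow_mono (by omega)) he.le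
    have b3 : (p.1.δ * p.1.Λ ^ c₂) ^ a * (2 * p.1.Λ * √(p.1.d : ℝ) + √(Fintype.card (gd p))) ≤
        3 * (p.1.Λ ^ (c₂ * a + 1) * p.1.e a) := by
      rw [Fintype.card_fin, Base.e]
      have b4 : √(p.1.d : ℝ) ≤ p.1.Λ * √(p.1.d : ℝ) :=
        le_mul_of_one_le_left (Real.sqrt_nonneg _) p.1.one_le_Λ
      calc _ ≤ (p.1.δ * p.1.Λ ^ c₂) ^ a * (2 * p.1.Λ * √(p.1.d : ℝ) + p.1.Λ * √(p.1.d : ℝ)) := by
            gcongr
        _ = _ := by ring
    linarith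
  have hY : 0 < p.1.Λ ^ (c₁ + c₂ * a + 1) * p.1.e a := by positivity
  have hZ : 16 * (a + 8) * (p.1.Λ ^ (c₁ + c₂ * a + 1) * p.1.e a) ≤
      p.1.Λ ^ (c₁ + c₂ * a + 1 + 1) * p.1.e a := by
    calc _ ≤ p.1.Λ * (p.1.Λ ^ (c₁ + c₂ * a + 1) * p.1.e a) := by gcongr
      _ = _ := by ring
  have hν := L2le_stepM p W e2' e3 u
  constructor
  · simp only [add_sub_cancel]
    refine (chain_near p.1.σ_nonneg p.1.σ_le_one (by positivity) e1 (by positivity) (by positivity)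
      hτ (k2 W) hlaw happ hν a).mono ?_
    have h5 : 0 ≤ (p.1.δ * p.1.Λ ^ c₂) ^ a *
      (2 * p.1.Λ * √(p.1.d : ℝ) + √(Fintype.card (gd p))) := by positivity
    nlinarith
  · have tz : TG fun z : E (chI (gd p) a) => chB a u + p.1.σ • z :=
      TG.add' (Function.HasTemperateGrowth.const _)
        (TG.const_smul Function.HasTemperateGrowth.id' _)
    have tF := TG.comp' (t2 W) (TG.add' (tz.clm (chL a)) (TG.comp' (t1 W) tz))
    have hc := chain_cov p.1.σ_nonneg p.1.σ_le_one (by positivity) e1 (by positivity)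
      (by positivity) hτ (k2 W) hlaw happ hν (L2le_inner_stepM p W e2 e3 u) a (by positivity)
      (lip_gateN p W e2')
    refine ((hc.smul (p.1.σ ^ 2)⁻¹).congr' fun g => ?_).mono ?_
    · rw [ContinuousLinearMap.integral_apply tF.fderiv'.integrable_γ, stein tF,
        fderiv_gate p W e2' e3, smul_sub, smul_smul]
      simp only [add_sub_cancel]
      congr 2
      field_simp
    · have b1 : |(p.1.σ ^ 2)⁻¹| ≤ 4 := by
        rw [abs_of_nonneg (by positivity), inv_le_comm₀ (by positivity) (by norm_num)]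
        nlinarith
      have b2 : 2 * p.1.δ ≤ 1 := by linarith
      calc _ ≤ 4 * ((a + 8) * 1 * (4 * (p.1.Λ ^ (c₁ + c₂ * a + 1) * p.1.e a))) := by gcongr
        _ = 16 * (a + 8) * (p.1.Λ ^ (c₁ + c₂ * a + 1) * p.1.e a) := by ring
        _ ≤ _ := hZ


end Crest.Agent.R285
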